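import Vale.Agent.P359.ProjId

namespace Vale.Agent.P359

open Finset LaughlinGap

noncomputable def hat {Q N : ℕ} (ψ : EuclideanSpace ℂ (Fin N → Fin (Q + 1))) : Amp Q N :=
  fun x => ψ x * ((∏ i, Real.sqrt (Q.choose (x i : ℕ)) : ℝ) : ℂ)

theorem bridge_sqrt_pos {Q : ℕ} (a : Fin (Q + 1)) : 0 < Real.sqrt (Q.choose (a : ℕ)) := by
  apply Real.sqrt_pos.mpr
  have := Nat.choose_pos (Nat.lt_succ_iff.mp a.2)
  exact_mod_cast this

theorem bridge_prod_pos {Q N : ℕ} (x : Fin N → Fin (Q + 1)) :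
    0 < ∏ i, Real.sqrt (Q.choose (x i : ℕ)) :=
  Finset.prod_pos (fun i _ => bridge_sqrt_pos (x i))

theorem bridge_prod_ne {Q N : ℕ} (x : Fin N → Fin (Q + 1)) :
    ((∏ i, Real.sqrt (Q.choose (x i : ℕ)) : ℝ) : ℂ) ≠ 0 := by
  exact_mod_cast (bridge_prod_pos x).ne'

theorem hat_injective {Q N : ℕ} :
    Function.Injective (hat : EuclideanSpace ℂ (Fin N → Fin (Q + 1)) → Amp Q N) := by
  intro ψ φ h
  ext x
  have h1 := congrFun h x
  exact mul_right_cancel₀ (bridge_prod_ne x) h1

theorem hat_surjective {Q N : ℕ} :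
    Function.Surjective (hat : EuclideanSpace ℂ (Fin N → Fin (Q + 1)) → Amp Q N) := by
  intro f
  refine ⟨WithLp.toLp 2 (fun x => f x / ((∏ i, Real.sqrt (Q.choose (x i : ℕ)) : ℝ) : ℂ)), ?_⟩
  funext x
  unfold hat
  exact div_mul_cancel₀ _ (bridge_prod_ne x)

theorem bridge_prod_perm {Q N : ℕ} (σ : Equiv.Perm (Fin N)) (x : Fin N → Fin (Q + 1)) :
    ∏ i, Real.sqrt (Q.choose ((x ∘ σ) i : ℕ)) = ∏ i, Real.sqrt (Q.choose (x i : ℕ)) :=
  Equiv.prod_comp σ (fun i => Real.sqrt (Q.choose (x i : ℕ)))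

theorem hat_anti {Q N : ℕ} (ψ : EuclideanSpace ℂ (Fin N → Fin (Q + 1))) :
    Anti (hat ψ) ↔ IsFermionic ψ := by
  constructor
  · intro h σ x
    have h1 := h σ x
    unfold hat at h1
    rw [bridge_prod_perm, ← mul_assoc] at h1
    exact mul_right_cancel₀ (bridge_prod_ne x) h1
  · intro h σ x
    unfold hat
    rw [bridge_prod_perm, h σ x, mul_assoc]

theorem hat_add {Q N : ℕ} (ψ φ : EuclideanSpace ℂ (Fin N → Fin (Q + 1))) :
    hat (ψ + φ) = hat ψ + hat φ := by
  funext x
  simp only [hat, Pi.add_apply, PiLp.add_apply]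
  ring

theorem hat_smul {Q N : ℕ} (c : ℂ) (ψ : EuclideanSpace ℂ (Fin N → Fin (Q + 1))) :
    hat (c • ψ) = c • hat ψ := by
  funext x
  simp only [hat, Pi.smul_apply, PiLp.smul_apply, smul_eq_mul]
  ring

theorem hat_ip {Q N : ℕ} (ψ φ : EuclideanSpace ℂ (Fin N → Fin (Q + 1))) :
    ip (wQ Q) (hat ψ) (hat φ) = inner ℂ ψ φ := by
  rw [PiLp.inner_apply]
  unfold ip hat
  apply Finset.sum_congr rfl
  intro x _
  have h1 : (∏ i, wQ Q (x i)) * ((∏ i, Real.sqrt (Q.choose (x i : ℕ))) *
      ∏ i, Real.sqrt (Q.choose (x i : ℕ))) = 1 := by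
    rw [← Finset.prod_mul_distrib, ← Finset.prod_mul_distrib]
    apply Finset.prod_eq_one
    intro i _
    unfold wQ
    have h2 : (0 : ℝ) < (Q.choose (x i : ℕ) : ℝ) := by
      have := Nat.choose_pos (Nat.lt_succ_iff.mp (x i).2)
      exact_mod_cast this
    rw [Real.mul_self_sqrt h2.le]
    exact inv_mul_cancel₀ h2.ne'
  have h3 : ((∏ i, wQ Q (x i) : ℝ) : ℂ) * (((∏ i, Real.sqrt (Q.choose (x i : ℕ)) : ℝ) : ℂ) *
      ((∏ i, Real.sqrt (Q.choose (x i : ℕ)) : ℝ) : ℂ)) = 1 := by
    rw [← Complex.ofReal_mul, ← Complex.ofReal_mul, h1, Complex.ofReal_one]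
  rw [map_mul, Complex.conj_ofReal, RCLike.inner_apply]
  generalize ((∏ i, wQ Q (x i) : ℝ) : ℂ) = A at h3 ⊢
  generalize ((∏ i, Real.sqrt (Q.choose (x i : ℕ)) : ℝ) : ℂ) = B at h3 ⊢
  calc A * ((starRingEnd ℂ) (ψ.ofLp x) * B * (φ.ofLp x * B))
      = (A * (B * B)) * (φ.ofLp x * (starRingEnd ℂ) (ψ.ofLp x)) := by ring
    _ = φ.ofLp x * (starRingEnd ℂ) (ψ.ofLp x) := by rw [h3, one_mul]

theorem bridge_sum {Q N : ℕ} {i j : Fin N} (hij : i ≠ j) (x : Fin N → Fin (Q + 1))
    (G : Fin (Q + 1) → Fin (Q + 1) → ℂ) (ψ : (Fin N → Fin (Q + 1)) → ℂ) :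
    ∑ y : Fin N → Fin (Q + 1), (if (∀ k, k ≠ i → k ≠ j → x k = y k) then G (y i) (y j) else 0)
        * ψ y =
      ∑ a : Fin (Q + 1), ∑ b : Fin (Q + 1),
        G a b * ψ (Function.update (Function.update x i a) j b) := by
  rw [← Finset.sum_product']
  symm
  have hi : ∀ a b : Fin (Q + 1), Function.update (Function.update x i a) j b i = a := by
    intro a b
    rw [Function.update_of_ne hij, Function.update_self]
  have hj : ∀ a b : Fin (Q + 1), Function.update (Function.update x i a) j b j = b := by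
    intro a b
    rw [Function.update_self]
  have hk : ∀ (a b : Fin (Q + 1)) (k : Fin N), k ≠ i → k ≠ j →
      Function.update (Function.update x i a) j b k = x k := by
    intro a b k h1 h2
    rw [Function.update_of_ne h2, Function.update_of_ne h1]
  apply Finset.sum_of_injOn (fun p : Fin (Q + 1) × Fin (Q + 1) =>
    Function.update (Function.update x i p.1) j p.2)
  · intro p _ p' _ h
    have h1 := congrFun h i
    have h2 := congrFun h j
    simp only [hi, hj] at h1 h2
    exact Prod.ext h1 h2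
  · intro p _
    exact Finset.mem_coe.mpr (Finset.mem_univ _)
  · intro y _ hy
    rw [if_neg, zero_mul]
    intro hc
    apply hy
    refine ⟨(y i, y j), Finset.mem_coe.mpr (Finset.mem_product.mpr
      ⟨Finset.mem_univ _, Finset.mem_univ _⟩), ?_⟩
    funext k
    by_cases h1 : k = i
    · subst h1
      exact hi _ _
    · by_cases h2 : k = j
      · subst h2
        exact hj _ _
      · change Function.update (Function.update x i (y i)) j (y j) k = y k
        rw [hk _ _ k h1 h2]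
        exact hc k h1 h2
  · intro p _
    have hc : ∀ k, k ≠ i → k ≠ j →
        x k = Function.update (Function.update x i p.1) j p.2 k := fun k h1 h2 =>
      (hk _ _ k h1 h2).symm
    rw [if_pos hc, hi, hj]

theorem bridge_prod_update {Q N : ℕ} {i j : Fin N} (hij : i ≠ j) (x : Fin N → Fin (Q + 1))
    (a b : Fin (Q + 1)) (s : Fin (Q + 1) → ℝ) :
    (∏ k, s (Function.update (Function.update x i a) j b k)) * (s (x i) * s (x j)) =
      (∏ k, s (x k)) * (s a * s b) := by
  have hji : j ∈ (Finset.univ : Finset (Fin N)).erase i :=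
    Finset.mem_erase.mpr ⟨hij.symm, Finset.mem_univ _⟩
  rw [← Finset.mul_prod_erase Finset.univ _ (Finset.mem_univ i),
    ← Finset.mul_prod_erase (Finset.univ.erase i) _ hji,
    ← Finset.mul_prod_erase Finset.univ (fun k => s (x k)) (Finset.mem_univ i),
    ← Finset.mul_prod_erase (Finset.univ.erase i) (fun k => s (x k)) hji]
  have h1 : Function.update (Function.update x i a) j b i = a := by
    rw [Function.update_of_ne hij, Function.update_self]
  have h2 : Function.update (Function.update x i a) j b j = b := by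
    rw [Function.update_self]
  have h3 : ∏ k ∈ (Finset.univ.erase i).erase j,
      s (Function.update (Function.update x i a) j b k) =
      ∏ k ∈ (Finset.univ.erase i).erase j, s (x k) := by
    apply Finset.prod_congr rfl
    intro k hk
    rw [Finset.mem_erase, Finset.mem_erase] at hk
    rw [Function.update_of_ne hk.1, Function.update_of_ne hk.2.1]
  rw [h1, h2, h3]
  ring

theorem bridge_pk {Q N : ℕ} (hQ : 1 ≤ Q) {i j : Fin N} (hij : i ≠ j) (x : Fin N → Fin (Q + 1))
    (a b : Fin (Q + 1)) :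
    projEntry Q (x i, x j) (a, b) * ((∏ k, Real.sqrt (Q.choose (x k : ℕ)) : ℝ) : ℂ) =
      pk Q (x i) (x j) a b * ((∏ k, Real.sqrt (Q.choose
        (Function.update (Function.update x i a) j b k : ℕ)) : ℝ) : ℂ) := by
  rw [projEntry_eq Q hQ]
  unfold pk
  split_ifs with h
  · have key := bridge_prod_update hij x a b (fun t => Real.sqrt (Q.choose (t : ℕ)))
    have hx := Real.mul_self_sqrt (show (0 : ℝ) ≤ (Q.choose (x i : ℕ) : ℝ) from Nat.cast_nonneg _)
    have hy := Real.mul_self_sqrt (show (0 : ℝ) ≤ (Q.choose (x j : ℕ) : ℝ) from Nat.cast_nonneg _)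
    have key2 : (Real.sqrt (Q.choose (x i : ℕ)) * Real.sqrt (Q.choose (x j : ℕ)) *
        Real.sqrt (Q.choose (a : ℕ)) * Real.sqrt (Q.choose (b : ℕ))) *
        (∏ k, Real.sqrt (Q.choose (x k : ℕ))) =
        ((Q.choose (x i : ℕ) : ℝ) * (Q.choose (x j : ℕ) : ℝ)) * (∏ k, Real.sqrt (Q.choose
        (Function.update (Function.update x i a) j b k : ℕ))) := by
      calc (Real.sqrt (Q.choose (x i : ℕ)) * Real.sqrt (Q.choose (x j : ℕ)) *
            Real.sqrt (Q.choose (a : ℕ)) * Real.sqrt (Q.choose (b : ℕ))) *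
            (∏ k, Real.sqrt (Q.choose (x k : ℕ)))
          = (Real.sqrt (Q.choose (x i : ℕ)) * Real.sqrt (Q.choose (x j : ℕ))) *
            ((∏ k, Real.sqrt (Q.choose (x k : ℕ))) *
              (Real.sqrt (Q.choose (a : ℕ)) * Real.sqrt (Q.choose (b : ℕ)))) := by ring
        _ = (Real.sqrt (Q.choose (x i : ℕ)) * Real.sqrt (Q.choose (x i : ℕ))) *
            (Real.sqrt (Q.choose (x j : ℕ)) * Real.sqrt (Q.choose (x j : ℕ))) *
            (∏ k, Real.sqrt (Q.choose
              (Function.update (Function.update x i a) j b k : ℕ))) := by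
            rw [← key]
            ring
        _ = _ := by rw [hx, hy]
    have key3 := congrArg (fun t : ℝ => (t : ℂ)) key2
    rw [Complex.ofReal_mul, Complex.ofReal_mul (_ * _) (∏ k, Real.sqrt (Q.choose
        (Function.update (Function.update x i a) j b k : ℕ)))] at key3
    generalize ((∏ k, Real.sqrt (Q.choose (x k : ℕ)) : ℝ) : ℂ) = A at key3 ⊢
    generalize ((∏ k, Real.sqrt (Q.choose
        (Function.update (Function.update x i a) j b k : ℕ)) : ℝ) : ℂ) = B at key3 ⊢
    rw [Complex.ofReal_mul (Q.choose (x i : ℕ) : ℝ) (Q.choose (x j : ℕ) : ℝ),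
      Complex.ofReal_natCast, Complex.ofReal_natCast] at key3
    generalize ((Real.sqrt (Q.choose (x i : ℕ)) * Real.sqrt (Q.choose (x j : ℕ)) *
        Real.sqrt (Q.choose (a : ℕ)) * Real.sqrt (Q.choose (b : ℕ)) : ℝ) : ℂ) = S at key3 ⊢
    rw [div_mul_eq_mul_div, div_mul_eq_mul_div]
    congr 1
    calc (((x i : ℕ) : ℂ) - ((x j : ℕ) : ℂ)) * (((a : ℕ) : ℂ) - ((b : ℕ) : ℂ)) * S * A
        = (((x i : ℕ) : ℂ) - ((x j : ℕ) : ℂ)) * (((a : ℕ) : ℂ) - ((b : ℕ) : ℂ)) * (S * A) := by
          ring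
      _ = _ := by
          rw [key3]
          ring
  · rw [zero_mul, zero_mul]

theorem hat_ham {Q N : ℕ} (hQ : 1 ≤ Q) (ψ : EuclideanSpace ℂ (Fin N → Fin (Q + 1))) :
    hat (hamiltonian Q N ψ) = Ham (hat ψ) := by
  funext x
  have h1 : (hamiltonian Q N ψ) x = ∑ i : Fin N, ∑ j ∈ Finset.Ioi i,
      ∑ y : Fin N → Fin (Q + 1), pairProj Q N i j x y * ψ y := by
    unfold hamiltonian
    rw [Matrix.toLpLin_apply]
    change (Matrix.mulVec (∑ i : Fin N, ∑ j ∈ Finset.Ioi i, pairProj Q N i j) ψ.ofLp) x = _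
    rw [Matrix.sum_mulVec, Finset.sum_apply]
    apply Finset.sum_congr rfl
    intro i _
    rw [Matrix.sum_mulVec, Finset.sum_apply]
    apply Finset.sum_congr rfl
    intro j _
    rfl
  have h2 : ∀ i j : Fin N, i ≠ j → (∑ y : Fin N → Fin (Q + 1), pairProj Q N i j x y * ψ y) *
      ((∏ k, Real.sqrt (Q.choose (x k : ℕ)) : ℝ) : ℂ) = Pij i j (hat ψ) x := by
    intro i j hij
    unfold pairProj
    rw [bridge_sum hij x (fun a b => projEntry Q (x i, x j) (a, b)) (fun y => ψ y),
      Finset.sum_mul]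
    unfold Pij
    apply Finset.sum_congr rfl
    intro a _
    rw [Finset.sum_mul]
    apply Finset.sum_congr rfl
    intro b _
    unfold hat
    have := bridge_pk hQ hij x a b
    calc projEntry Q (x i, x j) (a, b) * ψ.ofLp (Function.update (Function.update x i a) j b) *
          ((∏ k, Real.sqrt (Q.choose (x k : ℕ)) : ℝ) : ℂ)
        = ψ.ofLp (Function.update (Function.update x i a) j b) *
          (projEntry Q (x i, x j) (a, b) *
            ((∏ k, Real.sqrt (Q.choose (x k : ℕ)) : ℝ) : ℂ)) := by ring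
      _ = _ := by
          rw [this]
          ring
  unfold hat at *
  rw [h1, Finset.sum_mul]
  unfold Ham
  apply Finset.sum_congr rfl
  intro i _
  rw [Finset.sum_mul, ← Finset.sum_filter]
  have h3 : (Finset.univ.filter (fun j : Fin N => i < j)) = Finset.Ioi i := by
    ext j
    simp
  rw [h3]
  apply Finset.sum_congr rfl
  intro j hj
  rw [Finset.mem_Ioi] at hj
  exact h2 i j hj.ne

end Vale.Agent.P359
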