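import Vale.Agent.P359.StmtM
import Vale.Agent.P359.Stmt

namespace Vale.Agent.P359

open Finset

/-- the matrix of `P^(1)` -/
noncomputable def BridgeM_P (Q : ℕ) :
    Matrix (Fin (Q + 1) × Fin (Q + 1)) (Fin (Q + 1) × Fin (Q + 1)) ℂ :=
  fun xy ab => LaughlinGap.projEntry Q xy ab

theorem BridgeM_casimir (Q : ℕ) : LaughlinSphere.casimir Q = LaughlinGap.casimir Q := rfl

theorem BridgeM_mulVec (Q : ℕ) (v : Fin (Q + 1) × Fin (Q + 1) → ℂ) :
    (BridgeM_P Q).mulVec v
      = WithLp.ofLp ((LaughlinGap.spinComponent Q).starProjection (WithLp.toLp 2 v)) := by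
  have hv : (WithLp.toLp 2 v : EuclideanSpace ℂ (Fin (Q + 1) × Fin (Q + 1)))
      = ∑ ab, v ab • EuclideanSpace.single ab (1 : ℂ) := by
    ext xy
    simp [Finset.sum_apply, Pi.single_apply]
  rw [hv, map_sum]
  funext xy
  simp only [map_smul, WithLp.ofLp_sum, Finset.sum_apply, WithLp.ofLp_smul, Pi.smul_apply,
    smul_eq_mul]
  unfold Matrix.mulVec dotProduct BridgeM_P LaughlinGap.projEntry
  apply Finset.sum_congr rfl
  intro ab _
  rw [mul_comm]

theorem BridgeM_isPairProjection (Q : ℕ) : LaughlinSphere.IsPairProjection Q (BridgeM_P Q) := by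
  refine ⟨?_, ?_, ?_⟩
  · ext xy ab
    rw [Matrix.conjTranspose_apply]
    have h1 : ∀ xy ab, BridgeM_P Q xy ab
        = inner ℂ (EuclideanSpace.single xy (1 : ℂ))
          ((LaughlinGap.spinComponent Q).starProjection (EuclideanSpace.single ab (1 : ℂ))) := by
      intro xy ab
      rw [EuclideanSpace.inner_single_left]
      simp [BridgeM_P, LaughlinGap.projEntry]
    rw [h1 ab xy, h1 xy ab, ← Submodule.inner_starProjection_left_eq_right]
    exact inner_conj_symm _ _
  · ext xy ab
    have h1 : (BridgeM_P Q * BridgeM_P Q) xy ab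
        = (BridgeM_P Q).mulVec (fun c => BridgeM_P Q c ab) xy := rfl
    rw [h1, BridgeM_mulVec]
    have h2 : (WithLp.toLp 2 (fun c => BridgeM_P Q c ab) :
        EuclideanSpace ℂ (Fin (Q + 1) × Fin (Q + 1)))
        = (LaughlinGap.spinComponent Q).starProjection (EuclideanSpace.single ab (1 : ℂ)) := by
      ext c
      rfl
    rw [h2]
    have h3 := Submodule.starProjection_eq_self_iff.mpr
      ((LaughlinGap.spinComponent Q).starProjection_apply_mem (EuclideanSpace.single ab (1 : ℂ)))
    rw [h3]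
    rfl
  · intro v
    rw [BridgeM_mulVec, BridgeM_casimir]
    constructor
    · intro h
      have h1 : (LaughlinGap.spinComponent Q).starProjection (WithLp.toLp 2 v)
          = WithLp.toLp 2 v := by
        ext xy
        exact congrFun h xy
      have h2 := Submodule.starProjection_eq_self_iff.mp h1
      unfold LaughlinGap.spinComponent at h2
      rw [Module.End.mem_eigenspace_iff] at h2
      have h3 := congrArg WithLp.ofLp h2
      funext ab
      have h4 := congrFun h3 ab
      simpa [Matrix.toEuclideanLin] using h4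
    · intro h
      have h1 : (WithLp.toLp 2 v : EuclideanSpace ℂ (Fin (Q + 1) × Fin (Q + 1)))
          ∈ LaughlinGap.spinComponent Q := by
        unfold LaughlinGap.spinComponent
        rw [Module.End.mem_eigenspace_iff]
        ext ab
        have h4 := congrFun h ab
        simpa [Matrix.toEuclideanLin] using h4
      rw [Submodule.starProjection_eq_self_iff.mpr h1]

theorem BridgeM_ham (Q N : ℕ) (ψ : (Fin N → Fin (Q + 1)) → ℂ) :
    LaughlinGap.hamiltonian Q N (WithLp.toLp 2 ψ)
      = WithLp.toLp 2 ((LaughlinSphere.hamMatrix (BridgeM_P Q) N).mulVec ψ) := rfl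

theorem BridgeM_inner {Q N : ℕ} (φ ψ : (Fin N → Fin (Q + 1)) → ℂ) :
    inner ℂ (WithLp.toLp 2 φ : EuclideanSpace ℂ (Fin N → Fin (Q + 1))) (WithLp.toLp 2 ψ)
      = LaughlinSphere.overlap φ ψ := by
  rw [PiLp.inner_apply]
  unfold LaughlinSphere.overlap
  apply Finset.sum_congr rfl
  intro x _
  simp [mul_comm]

theorem BridgeM_normC {Q N : ℕ} (φ ψ : (Fin N → Fin (Q + 1)) → ℂ) :
    ‖LaughlinSphere.overlap φ ψ‖
      = ‖inner ℂ (WithLp.toLp 2 φ : EuclideanSpace ℂ (Fin N → Fin (Q + 1))) (WithLp.toLp 2 ψ)‖ := by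
  rw [BridgeM_inner]

theorem BridgeM_norm {Q N : ℕ} (ψ : (Fin N → Fin (Q + 1)) → ℂ) :
    ‖(WithLp.toLp 2 ψ : EuclideanSpace ℂ (Fin N → Fin (Q + 1)))‖ ^ 2
      = (LaughlinSphere.overlap ψ ψ).re := by
  rw [← BridgeM_inner, inner_self_eq_norm_sq_to_K]
  norm_cast

end Vale.Agent.P359
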