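import Vale.Agent.P359.Defs

namespace Vale.Agent.P359

open Finset

noncomputable def CGaW (k j : ℕ) : ℝ := (-1 : ℝ) ^ j * (k.choose j : ℝ)

noncomputable def CGaC (p q k i l : ℕ) : ℝ :=
  (i.choose l : ℝ) * ((p - k).descFactorial l : ℝ) * ((q - k).descFactorial (i - l) : ℝ)

theorem CGa_beta_eq (p q k i m : ℕ) :
    beta p q k i m = ∑ l ∈ range (m + 1), CGaW k (m - l) * CGaC p q k i l := by
  have h1 : beta p q k i m = ∑ l ∈ range (i + 1 + (m + 1)),
      if l ≤ m then CGaW k (m - l) * CGaC p q k i l else 0 := by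
    unfold beta
    rw [← Finset.sum_subset (Finset.range_mono (show i + 1 ≤ i + 1 + (m + 1) by omega))
      (f := fun l => if l ≤ m then CGaW k (m - l) * CGaC p q k i l else 0)]
    · refine Finset.sum_congr rfl fun l _ => ?_
      unfold CGaW CGaC
      by_cases h : l ≤ m
      · by_cases h' : m - l ≤ k
        · rw [if_pos ⟨h, h'⟩, if_pos h]; ring
        · rw [if_neg (fun hh => h' hh.2), if_pos h, Nat.choose_eq_zero_of_lt (by omega)]
          simp
      · rw [if_neg (fun hh => h hh.1), if_neg h]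
    · intro l _ hl
      have : i < l := by
        rw [Finset.mem_range] at hl; omega
      unfold CGaC
      rw [Nat.choose_eq_zero_of_lt this]
      simp
  rw [h1]
  rw [← Finset.sum_subset (Finset.range_mono (show m + 1 ≤ i + 1 + (m + 1) by omega))
      (f := fun l => if l ≤ m then CGaW k (m - l) * CGaC p q k i l else 0)]
  · refine Finset.sum_congr rfl fun l hl => ?_
    rw [if_pos (by rw [Finset.mem_range] at hl; omega)]
  · intro l _ hl
    rw [if_neg (by rw [Finset.mem_range] at hl; omega)]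

theorem CGa_desc (n l : ℕ) :
    ((n.descFactorial (l + 1) : ℕ) : ℝ) = ((n : ℝ) - l) * (n.descFactorial l : ℝ) := by
  rw [Nat.descFactorial_succ]
  by_cases h : l ≤ n
  · push_cast [Nat.cast_sub h]; ring
  · rw [Nat.descFactorial_eq_zero_iff_lt.mpr (by omega)]
    simp

theorem CGa_W_succ (k j : ℕ) :
    ((j : ℝ) + 1) * CGaW k (j + 1) = - (((k : ℝ) - j) * CGaW k j) := by
  unfold CGaW
  have h4 : ((k.choose (j + 1) : ℕ) : ℝ) * ((j : ℝ) + 1) = (k.choose j : ℝ) * ((k : ℝ) - j) := by
    by_cases hj : j ≤ k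
    · have := Nat.choose_succ_right_eq k j
      have h5 : ((k.choose (j + 1) * (j + 1) : ℕ) : ℝ) = ((k.choose j * (k - j) : ℕ) : ℝ) := by
        exact_mod_cast this
      push_cast [Nat.cast_sub hj] at h5
      exact h5
    · rw [Nat.choose_eq_zero_of_lt (show k < j + 1 by omega),
        Nat.choose_eq_zero_of_lt (show k < j by omega)]
      simp
  rw [pow_succ]
  linear_combination (-(-1 : ℝ) ^ j) * h4

theorem CGa_C_zero (p q k i : ℕ) (hk : k ≤ q) :
    CGaC p q k (i + 1) 0 = ((q : ℝ) - k - i) * CGaC p q k i 0 := by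
  unfold CGaC
  simp only [Nat.choose_zero_right, Nat.descFactorial_zero, Nat.sub_zero]
  rw [CGa_desc, Nat.cast_sub hk]
  ring

theorem CGa_C_succ (p q k i l : ℕ) (hk : k ≤ q) (hqp : q ≤ p) :
    CGaC p q k (i + 1) (l + 1) = ((q : ℝ) - k - i + (l + 1)) * CGaC p q k i (l + 1)
      + ((p : ℝ) - k - l) * CGaC p q k i l := by
  unfold CGaC
  rw [Nat.choose_succ_succ]
  have e1 : i + 1 - (l + 1) = i - l := by omega
  rw [e1, CGa_desc (p - k) l, Nat.cast_sub (show k ≤ p by omega)]
  by_cases h : l + 1 ≤ i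
  · obtain ⟨d, rfl⟩ : ∃ d, i = l + 1 + d := ⟨i - (l + 1), by omega⟩
    have e2 : l + 1 + d - l = d + 1 := by omega
    have e3 : l + 1 + d - (l + 1) = d := by omega
    rw [e2, e3, CGa_desc (q - k) d, Nat.cast_sub hk]
    push_cast
    ring
  · rw [Nat.choose_eq_zero_of_lt (show i < l + 1 by omega)]
    push_cast
    ring

/-- recursion for beta in `i`. -/
theorem CGa_beta_rec_zero (p q k i : ℕ) (hk : k ≤ q) :
    beta p q k (i + 1) 0 = ((q : ℝ) - k - i) * beta p q k i 0 := by
  rw [CGa_beta_eq, CGa_beta_eq]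
  simp only [zero_add, Finset.sum_range_one, Nat.sub_zero]
  rw [CGa_C_zero p q k i hk]
  ring

theorem CGa_beta_rec (p q k i m : ℕ) (hk : k ≤ q) (hqp : q ≤ p) :
    beta p q k (i + 1) (m + 1) = ((p : ℝ) - m) * beta p q k i m
      + ((q : ℝ) - k - i + (m + 1)) * beta p q k i (m + 1) := by
  rw [CGa_beta_eq, CGa_beta_eq, CGa_beta_eq]
  rw [Finset.sum_range_succ' (fun l => CGaW k (m + 1 - l) * CGaC p q k (i + 1) l)]
  have e1 : ∑ l ∈ range (m + 1), CGaW k (m + 1 - (l + 1)) * CGaC p q k (i + 1) (l + 1)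
      = ∑ l ∈ range (m + 1), CGaW k (m + 1 - (l + 1)) * (((q : ℝ) - k - i + (l + 1)) * CGaC p q k i (l + 1))
        + ∑ l ∈ range (m + 1), CGaW k (m - l) * (((p : ℝ) - k - l) * CGaC p q k i l) := by
    rw [← Finset.sum_add_distrib]
    refine Finset.sum_congr rfl fun l hl => ?_
    rw [CGa_C_succ p q k i l hk hqp]
    have : m + 1 - (l + 1) = m - l := by omega
    rw [this]; ring
  have e2 : ∑ l ∈ range (m + 1 + 1), CGaW k (m + 1 - l) * (((q : ℝ) - k - i + l) * CGaC p q k i l)
      = ∑ l ∈ range (m + 1), CGaW k (m + 1 - (l + 1)) * (((q : ℝ) - k - i + (l + 1)) * CGaC p q k i (l + 1))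
        + CGaW k (m + 1 - 0) * (((q : ℝ) - k - i) * CGaC p q k i 0) := by
    rw [Finset.sum_range_succ' (fun l => CGaW k (m + 1 - l) * (((q : ℝ) - k - i + l) * CGaC p q k i l))]
    push_cast
    congr 1
    ring
  rw [e1, CGa_C_zero p q k i hk, add_right_comm, ← e2]
  rw [Finset.sum_range_succ (fun l => CGaW k (m + 1 - l) * (((q : ℝ) - k - i + l) * CGaC p q k i l)),
    Finset.sum_range_succ (fun l => CGaW k (m + 1 - l) * CGaC p q k i l), Finset.mul_sum, mul_add,
    Finset.mul_sum]
  have e3 : ∑ l ∈ range (m + 1), CGaW k (m + 1 - l) * (((q : ℝ) - k - i + l) * CGaC p q k i l)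
      + ∑ l ∈ range (m + 1), CGaW k (m - l) * (((p : ℝ) - k - l) * CGaC p q k i l)
      = ∑ l ∈ range (m + 1), ((p : ℝ) - m) * (CGaW k (m - l) * CGaC p q k i l)
        + ∑ l ∈ range (m + 1), ((q : ℝ) - k - i + (m + 1)) * (CGaW k (m + 1 - l) * CGaC p q k i l) := by
    rw [← Finset.sum_add_distrib, ← Finset.sum_add_distrib]
    refine Finset.sum_congr rfl fun l hl => ?_
    have hl' : l ≤ m := by rw [Finset.mem_range] at hl; omega
    obtain ⟨j, rfl⟩ : ∃ j, m = l + j := ⟨m - l, by omega⟩
    have f1 : l + j - l = j := by omega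
    have f2 : l + j + 1 - l = j + 1 := by omega
    rw [f1, f2]
    have hW := CGa_W_succ k j
    push_cast
    linear_combination (- CGaC p q k i l) * hW
  push_cast
  linear_combination e3

theorem CGa_beta_supp (p q k i m : ℕ) (hm : k + i < m) : beta p q k i m = 0 := by
  unfold beta
  refine Finset.sum_eq_zero fun l hl => ?_
  rw [Finset.mem_range] at hl
  rw [if_neg]
  rintro ⟨h1, h2⟩
  omega

theorem Fop_bv (p q k i : ℕ) (hk : k ≤ q) (hqp : q ≤ p) (m a : ℕ) :
    Fop p q (bv p q k i) m a = bv p q k (i + 1) m a := by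
  unfold Fop bv
  by_cases h : m + a = k + (i + 1)
  · rw [if_pos h]
    rcases m with _ | m
    · rw [if_pos rfl, CGa_beta_rec_zero p q k i hk]
      have ha : a ≠ 0 := by omega
      rw [if_neg ha, if_pos (by omega)]
      have : (a : ℝ) = (k : ℝ) + i + 1 := by
        have : a = k + i + 1 := by omega
        rw [this]; push_cast; ring
      rw [this]; ring
    · rw [if_neg (Nat.succ_ne_zero m), CGa_beta_rec p q k i m hk hqp]
      have e1 : m + 1 - 1 = m := rfl
      rw [e1, if_pos (show m + a = k + i by omega)]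
      rcases a with _ | a
      · rw [if_pos rfl, CGa_beta_supp p q k i (m + 1) (by omega)]
        push_cast; ring
      · rw [if_neg (Nat.succ_ne_zero a)]
        have e2 : a + 1 - 1 = a := rfl
        rw [e2, if_pos (show m + 1 + a = k + i by omega)]
        have e3 : (a : ℝ) = (k : ℝ) + i - m - 1 := by
          have : ((m + a + 1 : ℕ) : ℝ) = ((k + i : ℕ) : ℝ) := by
            congr 1; omega
          push_cast at this; linarith
        push_cast
        rw [e3]; ring
  · rw [if_neg h]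
    rcases m with _ | m <;> rcases a with _ | a
    · simp
    · rw [if_pos rfl, if_neg (Nat.succ_ne_zero a), if_neg (by omega)]; ring
    · rw [if_neg (Nat.succ_ne_zero m), if_pos rfl, if_neg (by omega)]; ring
    · rw [if_neg (Nat.succ_ne_zero a), if_neg (Nat.succ_ne_zero m), if_neg (by omega), if_neg (by omega)]
      ring

theorem beta_zero (p q k m : ℕ) (hm : m ≤ k) :
    beta p q k 0 m = (-1 : ℝ) ^ m * (k.choose m : ℝ) := by
  unfold beta
  simp [hm]

theorem Eop_bv_zero (p q k : ℕ) (hk : k ≤ q) (hqp : q ≤ p) (m a : ℕ) :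
    Eop (bv p q k 0) m a = 0 := by
  unfold Eop bv
  by_cases h : m + a + 1 = k
  · rw [if_pos (by omega), if_pos (by omega), beta_zero p q k (m + 1) (by omega),
      beta_zero p q k m (by omega)]
    have hW := CGa_W_succ k m
    unfold CGaW at hW
    have e3 : (a : ℝ) = (k : ℝ) - m - 1 := by
      rw [← h]; push_cast; ring
    rw [e3]
    linear_combination hW
  · rw [if_neg (by omega), if_neg (by omega)]; ring

theorem CGa_comm (p q : ℕ) (v : ℕ → ℕ → ℝ) (m a : ℕ) :
    Eop (Fop p q v) m a - Fop p q (Eop v) m a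
      = ((p : ℝ) + q - 2 * ((m : ℝ) + a)) * v m a := by
  unfold Eop Fop
  rcases m with _ | m <;> rcases a with _ | a <;> simp <;> ring

theorem Eop_bv (p q k i : ℕ) (hk : k ≤ q) (hqp : q ≤ p) (m a : ℕ) :
    Eop (bv p q k (i + 1)) m a
      = ((i : ℝ) + 1) * ((p : ℝ) + q - 2 * k - i) * bv p q k i m a := by
  have hw : ∀ (i m a : ℕ), ((p : ℝ) + q - 2 * ((m : ℝ) + a)) * bv p q k i m a
      = ((p : ℝ) + q - 2 * ((k : ℝ) + i)) * bv p q k i m a := by
    intro i m a
    unfold bv
    by_cases h : m + a = k + i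
    · rw [if_pos h]
      have : ((m : ℝ) + a) = (k : ℝ) + i := by exact_mod_cast h
      rw [this]
    · rw [if_neg h]; ring
  have hF : ∀ i, Fop p q (bv p q k i) = bv p q k (i + 1) := by
    intro i; funext s t; exact Fop_bv p q k i hk hqp s t
  induction i generalizing m a with
  | zero =>
    have h := CGa_comm p q (bv p q k 0) m a
    rw [hF 0, hw] at h
    have h0 : Fop p q (Eop (bv p q k 0)) m a = 0 := by
      have : Eop (bv p q k 0) = fun _ _ => 0 := by
        funext s t; exact Eop_bv_zero p q k hk hqp s t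
      rw [this]; unfold Fop; simp
    rw [h0] at h
    push_cast at h ⊢
    linear_combination h
  | succ i ih =>
    have h := CGa_comm p q (bv p q k (i + 1)) m a
    rw [hF (i + 1), hw] at h
    have h0 : Fop p q (Eop (bv p q k (i + 1))) m a
        = ((i : ℝ) + 1) * ((p : ℝ) + q - 2 * k - i) * bv p q k (i + 1) m a := by
      have : Eop (bv p q k (i + 1))
          = fun s t => ((i : ℝ) + 1) * ((p : ℝ) + q - 2 * k - i) * bv p q k i s t := by
        funext s t; exact ih s t
      rw [this, ← Fop_bv p q k i hk hqp m a]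
      unfold Fop
      split_ifs <;> ring
    rw [h0] at h
    push_cast at h ⊢
    linear_combination h

theorem bv_supp (p q k i : ℕ) (hk : k ≤ q) (hqp : q ≤ p) (m a : ℕ) (h : p < m ∨ q < a) :
    bv p q k i m a = 0 := by
  unfold bv
  by_cases hma : m + a = k + i
  · rw [if_pos hma]
    unfold beta
    refine Finset.sum_eq_zero fun l hl => ?_
    rw [Finset.mem_range] at hl
    by_cases hc : l ≤ m ∧ m - l ≤ k
    · rw [if_pos hc]
      rcases h with h | h
      · have : (p - k).descFactorial l = 0 := Nat.descFactorial_eq_zero_iff_lt.mpr (by omega)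
        rw [this]; simp
      · have : (q - k).descFactorial (i - l) = 0 := Nat.descFactorial_eq_zero_iff_lt.mpr (by omega)
        rw [this]; simp
    · rw [if_neg hc]
  · rw [if_neg hma]

theorem bv_big (p q k i : ℕ) (hk : k ≤ q) (hqp : q ≤ p) (hi : p + q < 2 * k + i) (m a : ℕ) :
    bv p q k i m a = 0 := by
  unfold bv
  by_cases hma : m + a = k + i
  · rw [if_pos hma]
    unfold beta
    refine Finset.sum_eq_zero fun l hl => ?_
    rw [Finset.mem_range] at hl
    by_cases hc : l ≤ m ∧ m - l ≤ k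
    · rw [if_pos hc]
      by_cases h : p - k < l
      · have : (p - k).descFactorial l = 0 := Nat.descFactorial_eq_zero_iff_lt.mpr h
        rw [this]; simp
      · have : (q - k).descFactorial (i - l) = 0 := Nat.descFactorial_eq_zero_iff_lt.mpr (by omega)
        rw [this]; simp
    · rw [if_neg hc]
  · rw [if_neg hma]

theorem chin_pos (p q k : ℕ) (hk : k ≤ q) (hqp : q ≤ p) : 0 < chin p q k := by
  unfold chin
  refine Finset.sum_pos (fun l hl => ?_) ⟨0, by simp⟩
  rw [Finset.mem_range] at hl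
  have h1 : 0 < k.choose l := Nat.choose_pos (by omega)
  have h2 : 0 < p.choose l := Nat.choose_pos (by omega)
  have h3 : 0 < q.choose (k - l) := Nat.choose_pos (by omega)
  have h1' : (0 : ℝ) < (k.choose l : ℝ) := by exact_mod_cast h1
  have h2' : (0 : ℝ) < (p.choose l : ℝ) := by exact_mod_cast h2
  have h3' : (0 : ℝ) < (q.choose (k - l) : ℝ) := by exact_mod_cast h3
  positivity

theorem Nk_pos (p q k i : ℕ) (hk : k ≤ q) (hqp : q ≤ p) (hi : 2 * k + i ≤ p + q) :
    0 < Nk p q k i := by
  unfold Nk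
  refine mul_pos (chin_pos p q k hk hqp) (Finset.prod_pos fun l hl => ?_)
  rw [Finset.mem_range] at hl
  have h1 : ((2 * k + l + 1 : ℕ) : ℝ) ≤ ((p + q : ℕ) : ℝ) := by
    exact_mod_cast (show 2 * k + l + 1 ≤ p + q by omega)
  push_cast at h1
  refine mul_pos (by positivity) (by linarith)

theorem Nk_zero (p q k i : ℕ) (hk : k ≤ q) (hqp : q ≤ p) (hi : p + q < 2 * k + i) :
    Nk p q k i = 0 := by
  unfold Nk
  rw [Finset.prod_eq_zero (i := p + q - 2 * k), mul_zero]
  · rw [Finset.mem_range]; omega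
  · have : ((p + q - 2 * k : ℕ) : ℝ) = (p : ℝ) + q - 2 * k := by
      rw [Nat.cast_sub (by omega)]; push_cast; ring
    rw [this]; ring

theorem CGa_choose_adj (p m : ℕ) (hm : m < p) :
    ((p : ℝ) - m) / (p.choose (m + 1) : ℝ) = ((m : ℝ) + 1) / (p.choose m : ℝ) := by
  have h1 : 0 < p.choose m := Nat.choose_pos (by omega)
  have h2 : 0 < p.choose (m + 1) := Nat.choose_pos (by omega)
  have h1' : (p.choose m : ℝ) ≠ 0 := by exact_mod_cast h1.ne'
  have h2' : (p.choose (m + 1) : ℝ) ≠ 0 := by exact_mod_cast h2.ne'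
  rw [div_eq_div_iff h2' h1']
  have := Nat.choose_succ_right_eq p m
  have h5 : ((p.choose (m + 1) * (m + 1) : ℕ) : ℝ) = ((p.choose m * (p - m) : ℕ) : ℝ) := by
    exact_mod_cast this
  push_cast [Nat.cast_sub hm.le] at h5
  linear_combination -h5

/-- one-dimensional adjointness. -/
theorem CGa_adj1 (p : ℕ) (u v : ℕ → ℝ) (hv : v (p + 1) = 0) :
    ∑ m ∈ range (p + 1), (if m = 0 then 0 else ((p : ℝ) - (m : ℝ) + 1) * u (m - 1)) * v m
        / (p.choose m : ℝ)
      = ∑ m ∈ range (p + 1), u m * (((m : ℝ) + 1) * v (m + 1)) / (p.choose m : ℝ) := by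
  rw [Finset.sum_range_succ', Finset.sum_range_succ, hv]
  simp only [if_true, zero_mul, zero_div, add_zero, mul_zero]
  refine Finset.sum_congr rfl fun m hm => ?_
  rw [Finset.mem_range] at hm
  rw [if_neg (Nat.succ_ne_zero m)]
  have e : m + 1 - 1 = m := rfl
  rw [e]
  have h := CGa_choose_adj p m hm
  push_cast
  calc ((p : ℝ) - (m + 1) + 1) * u m * v (m + 1) / (p.choose (m + 1) : ℝ)
      = (((p : ℝ) - m) / (p.choose (m + 1) : ℝ)) * (u m * v (m + 1)) := by ring
    _ = (((m : ℝ) + 1) / (p.choose m : ℝ)) * (u m * v (m + 1)) := by rw [h]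
    _ = _ := by ring

theorem CGa_adj (p q : ℕ) (u v : ℕ → ℕ → ℝ) (hv : ∀ m a, p < m ∨ q < a → v m a = 0) :
    ∑ m ∈ range (p + 1), ∑ a ∈ range (q + 1),
        Fop p q u m a * v m a / ((p.choose m : ℝ) * (q.choose a : ℝ))
      = ∑ m ∈ range (p + 1), ∑ a ∈ range (q + 1),
        u m a * Eop v m a / ((p.choose m : ℝ) * (q.choose a : ℝ)) := by
  have L : ∑ m ∈ range (p + 1), ∑ a ∈ range (q + 1),
        Fop p q u m a * v m a / ((p.choose m : ℝ) * (q.choose a : ℝ))
      = (∑ a ∈ range (q + 1), (∑ m ∈ range (p + 1),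
          (if m = 0 then 0 else ((p : ℝ) - (m : ℝ) + 1) * u (m - 1) a) * v m a
            / (p.choose m : ℝ)) / (q.choose a : ℝ))
        + ∑ m ∈ range (p + 1), (∑ a ∈ range (q + 1),
          (if a = 0 then 0 else ((q : ℝ) - (a : ℝ) + 1) * u m (a - 1)) * v m a
            / (q.choose a : ℝ)) / (p.choose m : ℝ) := by
    simp only [Finset.sum_div]
    rw [Finset.sum_comm (s := range (q + 1)) (t := range (p + 1)), ← Finset.sum_add_distrib]
    refine Finset.sum_congr rfl fun m _ => ?_
    rw [← Finset.sum_add_distrib]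
    refine Finset.sum_congr rfl fun a _ => ?_
    unfold Fop
    rw [div_div, div_div, mul_comm (q.choose a : ℝ) (p.choose m : ℝ)]
    ring
  have Rr : ∑ m ∈ range (p + 1), ∑ a ∈ range (q + 1),
        u m a * Eop v m a / ((p.choose m : ℝ) * (q.choose a : ℝ))
      = (∑ a ∈ range (q + 1), (∑ m ∈ range (p + 1),
          u m a * (((m : ℝ) + 1) * v (m + 1) a) / (p.choose m : ℝ)) / (q.choose a : ℝ))
        + ∑ m ∈ range (p + 1), (∑ a ∈ range (q + 1),
          u m a * (((a : ℝ) + 1) * v m (a + 1)) / (q.choose a : ℝ)) / (p.choose m : ℝ) := by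
    simp only [Finset.sum_div]
    rw [Finset.sum_comm (s := range (q + 1)) (t := range (p + 1)), ← Finset.sum_add_distrib]
    refine Finset.sum_congr rfl fun m _ => ?_
    rw [← Finset.sum_add_distrib]
    refine Finset.sum_congr rfl fun a _ => ?_
    unfold Eop
    rw [div_div, div_div, mul_comm (q.choose a : ℝ) (p.choose m : ℝ)]
    ring
  rw [L, Rr]
  congr 1
  · refine Finset.sum_congr rfl fun a _ => ?_
    rw [CGa_adj1 p (fun m => u m a) (fun m => v m a) (hv _ _ (Or.inl (Nat.lt_succ_self p)))]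
  · refine Finset.sum_congr rfl fun m _ => ?_
    rw [CGa_adj1 q (fun a => u m a) (fun a => v m a) (hv _ _ (Or.inr (Nat.lt_succ_self q)))]

theorem CGa_norm_zero (p q k : ℕ) (hk : k ≤ q) (hqp : q ≤ p) :
    ∑ m ∈ range (p + 1), ∑ a ∈ range (q + 1),
      (bv p q k 0 m a) ^ 2 / ((p.choose m : ℝ) * (q.choose a : ℝ)) = Nk p q k 0 := by
  unfold Nk chin
  rw [Finset.prod_range_zero, mul_one]
  rw [← Finset.sum_subset (Finset.range_mono (show k + 1 ≤ p + 1 by omega))
      (f := fun m => ∑ a ∈ range (q + 1),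
      (bv p q k 0 m a) ^ 2 / ((p.choose m : ℝ) * (q.choose a : ℝ)))]
  · refine Finset.sum_congr rfl fun m hm => ?_
    rw [Finset.mem_range] at hm
    rw [Finset.sum_eq_single (k - m)]
    · unfold bv
      rw [if_pos (by omega), beta_zero p q k m (by omega), mul_pow, ← pow_mul, mul_comm m 2,
        pow_mul]
      norm_num
    · intro a _ ha
      unfold bv
      rw [if_neg (by omega)]
      simp
    · intro h
      exfalso
      apply h
      rw [Finset.mem_range]; omega
  · intro m _ hm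
    rw [Finset.mem_range] at hm
    refine Finset.sum_eq_zero fun a _ => ?_
    unfold bv
    rw [if_neg (by omega)]
    simp

theorem beta_norm (p q k i : ℕ) (hk : k ≤ q) (hqp : q ≤ p) :
    ∑ m ∈ range (p + 1), ∑ a ∈ range (q + 1),
      (bv p q k i m a) ^ 2 / ((p.choose m : ℝ) * (q.choose a : ℝ)) = Nk p q k i := by
  induction i with
  | zero => exact CGa_norm_zero p q k hk hqp
  | succ i ih =>
    have h := CGa_adj p q (bv p q k i) (bv p q k (i + 1))
      (fun m a hma => bv_supp p q k (i + 1) hk hqp m a hma)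
    have hL : ∑ m ∈ range (p + 1), ∑ a ∈ range (q + 1),
        (bv p q k (i + 1) m a) ^ 2 / ((p.choose m : ℝ) * (q.choose a : ℝ))
        = ∑ m ∈ range (p + 1), ∑ a ∈ range (q + 1),
        Fop p q (bv p q k i) m a * bv p q k (i + 1) m a
          / ((p.choose m : ℝ) * (q.choose a : ℝ)) := by
      refine Finset.sum_congr rfl fun m _ => Finset.sum_congr rfl fun a _ => ?_
      rw [Fop_bv p q k i hk hqp m a, sq]
    rw [hL, h]
    have hR : ∑ m ∈ range (p + 1), ∑ a ∈ range (q + 1),
        bv p q k i m a * Eop (bv p q k (i + 1)) m a / ((p.choose m : ℝ) * (q.choose a : ℝ))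
        = (((i : ℝ) + 1) * ((p : ℝ) + q - 2 * k - i)) *
          ∑ m ∈ range (p + 1), ∑ a ∈ range (q + 1),
          (bv p q k i m a) ^ 2 / ((p.choose m : ℝ) * (q.choose a : ℝ)) := by
      rw [Finset.mul_sum]
      refine Finset.sum_congr rfl fun m _ => ?_
      rw [Finset.mul_sum]
      refine Finset.sum_congr rfl fun a _ => ?_
      rw [Eop_bv p q k i hk hqp m a]
      ring
    rw [hR, ih]
    unfold Nk
    rw [Finset.prod_range_succ]
    ring

end Vale.Agent.P359
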