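import Vale.Agent.P359.CGa

namespace Vale.Agent.P359

open Finset

/-! ### Elementary facts on `Fop`, `Eop` -/

theorem CGb_comm (p q : ℕ) (v : ℕ → ℕ → ℝ) (m a : ℕ) :
    Eop (Fop p q v) m a - Fop p q (Eop v) m a
      = ((p : ℝ) + q - 2 * ((m : ℝ) + a)) * v m a := by
  unfold Eop Fop
  rcases m with _ | m <;> rcases a with _ | a <;> simp <;> ring

theorem CGb_Fop_swap (p q : ℕ) (R : ℕ → ℕ → ℕ → ℕ → ℝ) (m a m' a' : ℕ) :
    Fop p q (fun s t => Fop p q (fun s' t' => R s t s' t') m' a') m a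
      = Fop p q (fun s' t' => Fop p q (fun s t => R s t s' t') m a) m' a' := by
  unfold Fop
  split_ifs <;> ring

theorem CGb_Eop_swap (R : ℕ → ℕ → ℕ → ℕ → ℝ) (m a m' a' : ℕ) :
    Eop (fun s t => Eop (fun s' t' => R s t s' t') m' a') m a
      = Eop (fun s' t' => Eop (fun s t => R s t s' t') m a) m' a' := by
  unfold Eop
  ring

theorem CGb_EF_swap (p q : ℕ) (R : ℕ → ℕ → ℕ → ℕ → ℝ) (m a m' a' : ℕ) :
    Eop (fun s t => Fop p q (fun s' t' => R s t s' t') m' a') m a
      = Fop p q (fun s' t' => Eop (fun s t => R s t s' t') m a) m' a' := by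
  unfold Eop Fop
  split_ifs <;> ring

theorem CGb_weight {p q : ℕ} {R : ℕ → ℕ → ℕ → ℕ → ℝ} (hR : InvKer p q R)
    (m a m' a' : ℕ) (hne : m + a ≠ m' + a') : R m a m' a' = 0 := by
  -- E₁F₁R = E₂F₂R, F₁E₁R = F₂E₂R
  have h1 : Eop (Fop p q (fun s t => R s t m' a')) m a
      = Eop (Fop p q (fun s t => R m a s t)) m' a' := by
    have e1 : (Fop p q (fun s t => R s t m' a')) = fun s t => Eop (fun s' t' => R s t s' t') m' a' := by
      funext s t; exact hR.invFE s t m' a'
    have e2 : (Fop p q (fun s t => R m a s t)) = fun s' t' => Eop (fun s t => R s t s' t') m a := by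
      funext s t; exact (hR.invEF m a s t).symm
    rw [e1, e2]
    exact CGb_Eop_swap R m a m' a'
  have h2 : Fop p q (Eop (fun s t => R s t m' a')) m a
      = Fop p q (Eop (fun s t => R m a s t)) m' a' := by
    have e1 : (Eop (fun s t => R s t m' a')) = fun s t => Fop p q (fun s' t' => R s t s' t') m' a' := by
      funext s t; exact hR.invEF s t m' a'
    have e2 : (Eop (fun s t => R m a s t)) = fun s' t' => Fop p q (fun s t => R s t s' t') m a := by
      funext s t; exact (hR.invFE m a s t).symm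
    rw [e1, e2]
    exact CGb_Fop_swap p q R m a m' a'
  have h3 := CGb_comm p q (fun s t => R s t m' a') m a
  have h4 := CGb_comm p q (fun s t => R m a s t) m' a'
  rw [h1, h2, h4] at h3
  have h5 : (((m : ℝ) + a) - ((m' : ℝ) + a')) * R m a m' a' = 0 := by
    linear_combination ((1 : ℝ) / 2) * h3
  rcases mul_eq_zero.mp h5 with h | h
  · exfalso
    apply hne
    have : ((m + a : ℕ) : ℝ) = ((m' + a' : ℕ) : ℝ) := by push_cast; linarith
    exact_mod_cast this
  · exact h

theorem CGb_swap {p q : ℕ} {R : ℕ → ℕ → ℕ → ℕ → ℝ} (hR : InvKer p q R) :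
    InvKer p q (fun m a m' a' => R m' a' m a) where
  supp := fun m a m' a' h => hR.supp m' a' m a (fun h' => h ⟨h'.2.2.1, h'.2.2.2, h'.1, h'.2.1⟩)
  invFE := fun m a m' a' => (hR.invEF m' a' m a).symm
  invEF := fun m a m' a' => (hR.invFE m' a' m a).symm
  psd := fun u => by
    have h := hR.psd u
    have : (∑ m ∈ range (p + 1), ∑ a ∈ range (q + 1), ∑ m' ∈ range (p + 1), ∑ a' ∈ range (q + 1),
        u m a * u m' a' * R m' a' m a)
        = ∑ m ∈ range (p + 1), ∑ a ∈ range (q + 1), ∑ m' ∈ range (p + 1), ∑ a' ∈ range (q + 1),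
        u m a * u m' a' * R m a m' a' := by
      calc _ = ∑ m ∈ range (p + 1), ∑ m' ∈ range (p + 1), ∑ a ∈ range (q + 1), ∑ a' ∈ range (q + 1),
            u m a * u m' a' * R m' a' m a := by
            refine Finset.sum_congr rfl fun m _ => ?_
            rw [Finset.sum_comm]
        _ = ∑ m' ∈ range (p + 1), ∑ m ∈ range (p + 1), ∑ a ∈ range (q + 1), ∑ a' ∈ range (q + 1),
            u m a * u m' a' * R m' a' m a := Finset.sum_comm
        _ = ∑ m' ∈ range (p + 1), ∑ m ∈ range (p + 1), ∑ a' ∈ range (q + 1), ∑ a ∈ range (q + 1),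
            u m a * u m' a' * R m' a' m a := by
            refine Finset.sum_congr rfl fun m _ => Finset.sum_congr rfl fun m' _ => ?_
            rw [Finset.sum_comm]
        _ = ∑ m' ∈ range (p + 1), ∑ a' ∈ range (q + 1), ∑ m ∈ range (p + 1), ∑ a ∈ range (q + 1),
            u m a * u m' a' * R m' a' m a := by
            refine Finset.sum_congr rfl fun m _ => ?_
            rw [Finset.sum_comm]
        _ = _ := by
            refine Finset.sum_congr rfl fun m _ => Finset.sum_congr rfl fun a _ =>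
              Finset.sum_congr rfl fun m' _ => Finset.sum_congr rfl fun a' _ => ?_
            ring
    rw [this]
    exact h

/-- kernel of `Eop` in a fixed weight. -/
theorem CGb_kerE (n : ℕ) (v : ℕ → ℕ → ℝ) (hE : ∀ m a, Eop v m a = 0) :
    ∀ m, m ≤ n → v m (n - m) = (-1 : ℝ) ^ m * (n.choose m : ℝ) * v 0 n := by
  intro m
  induction m with
  | zero => intro _; simp
  | succ m ih =>
    intro hm
    have h1 := hE m (n - (m + 1))
    unfold Eop at h1
    have h2 : n - (m + 1) + 1 = n - m := by omega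
    rw [h2, ih (by omega)] at h1
    have h3 : ((n - (m + 1) : ℕ) : ℝ) = (n : ℝ) - m - 1 := by
      rw [Nat.cast_sub hm]; push_cast; ring
    rw [h3] at h1
    have h4 : ((n.choose (m + 1) : ℕ) : ℝ) * ((m : ℝ) + 1) = (n.choose m : ℝ) * ((n : ℝ) - m) := by
      have := Nat.choose_succ_right_eq n m
      have h5 : ((n.choose (m + 1) * (m + 1) : ℕ) : ℝ) = ((n.choose m * (n - m) : ℕ) : ℝ) := by
        exact_mod_cast this
      push_cast [Nat.cast_sub (show m ≤ n by omega)] at h5
      exact h5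
    have h6 : ((m : ℝ) + 1) ≠ 0 := by positivity
    have h7 : ((m : ℝ) + 1) * (v (m + 1) (n - (m + 1)) - (-1 : ℝ) ^ (m + 1) * (n.choose (m + 1) : ℝ) * v 0 n) = 0 := by
      rw [pow_succ]
      linear_combination h1 + (-1 : ℝ) ^ m * v 0 n * h4
    rcases mul_eq_zero.mp h7 with h | h
    · exact absurd h h6
    · linarith

theorem CGb_kerE' {p q : ℕ} (n : ℕ) (v : ℕ → ℕ → ℝ)
    (hlev : ∀ m a, m + a ≠ n → v m a = 0) (hbox : ∀ m a, (p < m ∨ q < a) → v m a = 0)
    (hE : ∀ m a, Eop v m a = 0) (m a : ℕ) :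
    v m a = if n ≤ q then v 0 n * bv p q n 0 m a else 0 := by
  by_cases hma : m + a = n
  · have hm : m ≤ n := by omega
    have ha : a = n - m := by omega
    have h1 := CGb_kerE n v hE m hm
    subst ha
    rw [h1]
    split_ifs with hn
    · unfold bv
      rw [if_pos (by omega), beta_zero p q n m hm]
      ring
    · rw [hbox 0 n (Or.inr (by omega))]
      ring
  · rw [hlev m a hma]
    have : bv p q n 0 m a = 0 := by
      unfold bv
      rw [if_neg (by omega)]
    rw [this]
    simp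

/-- the partial CG kernel in weight `n` using channels `k < K`. -/
noncomputable def CGbG (p q : ℕ) (r : ℕ → ℝ) (K n : ℕ) (m a m' a' : ℕ) : ℝ :=
  ∑ k ∈ range (q + 1), if k < K ∧ k ≤ n then
    r k * bv p q k (n - k) m a * bv p q k (n - k) m' a' / Nk p q k (n - k) else 0

theorem CGbG_symm (p q : ℕ) (r : ℕ → ℝ) (K n m a m' a' : ℕ) :
    CGbG p q r K n m a m' a' = CGbG p q r K n m' a' m a := by
  unfold CGbG
  refine Finset.sum_congr rfl fun k _ => ?_
  split_ifs
  · ring
  · rfl

theorem CGb_Eop_sum {ι : Type*} (s : Finset ι) (f : ι → ℕ → ℕ → ℝ) (m a : ℕ) :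
    Eop (fun x y => ∑ i ∈ s, f i x y) m a = ∑ i ∈ s, Eop (f i) m a := by
  unfold Eop
  rw [Finset.mul_sum, Finset.mul_sum, ← Finset.sum_add_distrib]

theorem CGb_Eop_smul (c : ℝ) (f : ℕ → ℕ → ℝ) (m a : ℕ) :
    Eop (fun x y => c * f x y) m a = c * Eop f m a := by
  unfold Eop; ring

theorem CGb_Fop_sum (p q : ℕ) {ι : Type*} (s : Finset ι) (f : ι → ℕ → ℕ → ℝ) (m a : ℕ) :
    Fop p q (fun x y => ∑ i ∈ s, f i x y) m a = ∑ i ∈ s, Fop p q (f i) m a := by
  unfold Fop
  split_ifs <;> simp [Finset.mul_sum, ← Finset.sum_add_distrib]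

theorem CGb_Fop_smul (p q : ℕ) (c : ℝ) (f : ℕ → ℕ → ℝ) (m a : ℕ) :
    Fop p q (fun x y => c * f x y) m a = c * Fop p q f m a := by
  unfold Fop; split_ifs <;> ring

/-- `E₁` on the weight `n+1` partial kernel equals `F₂` on the weight `n` kernel. -/
theorem CGbG_E (p q : ℕ) (hqp : q ≤ p) (r : ℕ → ℝ) (n m a m' a' : ℕ) :
    Eop (fun s t => CGbG p q r (n + 1) (n + 1) s t m' a') m a
      = Fop p q (fun s t => CGbG p q r (n + 1) n m a s t) m' a' := by
  unfold CGbG
  rw [CGb_Eop_sum, CGb_Fop_sum]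
  refine Finset.sum_congr rfl fun k hk => ?_
  have hkq : k ≤ q := by simpa [Nat.lt_succ_iff] using hk
  by_cases hkn : k < n + 1
  · have hkn' : k ≤ n := by omega
    have e1 : (fun s t => if k < n + 1 ∧ k ≤ n + 1 then
        r k * bv p q k (n + 1 - k) s t * bv p q k (n + 1 - k) m' a' / Nk p q k (n + 1 - k) else 0)
        = fun s t => (r k * bv p q k (n + 1 - k) m' a' / Nk p q k (n + 1 - k))
            * bv p q k (n + 1 - k) s t := by
      funext s t
      rw [if_pos ⟨hkn, by omega⟩]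
      ring
    have e2 : (fun s t => if k < n + 1 ∧ k ≤ n then
        r k * bv p q k (n - k) m a * bv p q k (n - k) s t / Nk p q k (n - k) else 0)
        = fun s t => (r k * bv p q k (n - k) m a / Nk p q k (n - k)) * bv p q k (n - k) s t := by
      funext s t
      rw [if_pos ⟨hkn, by omega⟩]
      ring
    rw [e1, e2, CGb_Eop_smul, CGb_Fop_smul]
    obtain ⟨i, rfl⟩ : ∃ i, n = k + i := ⟨n - k, by omega⟩
    have hi1 : k + i + 1 - k = i + 1 := by omega
    have hi2 : k + i - k = i := by omega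
    rw [hi1, hi2]
    have hE : Eop (fun s t => bv p q k (i + 1) s t) m a = _ := Eop_bv p q k i hkq hqp m a
    have hF : Fop p q (fun s t => bv p q k i s t) m' a' = _ := Fop_bv p q k i hkq hqp m' a'
    rw [hE, hF]
    by_cases hbig : p + q < 2 * k + (i + 1)
    · rw [bv_big p q k (i + 1) hkq hqp hbig]
      simp
    · have hN : Nk p q k (i + 1) = Nk p q k i * (((i : ℝ) + 1) * ((p : ℝ) + q - 2 * k - i)) := by
        unfold Nk
        rw [Finset.prod_range_succ]
        ring
      have hpos : 0 < Nk p q k (i + 1) := Nk_pos p q k (i + 1) hkq hqp (by omega)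
      have hpos' : 0 < Nk p q k i := Nk_pos p q k i hkq hqp (by omega)
      have hc : (((i : ℝ) + 1) * ((p : ℝ) + q - 2 * k - i)) ≠ 0 := by
        intro h
        rw [hN, h, mul_zero] at hpos
        exact lt_irrefl _ hpos
      rw [hN]
      have h0 : Nk p q k i ≠ 0 := ne_of_gt hpos'
      set c : ℝ := ((i : ℝ) + 1) * ((p : ℝ) + q - 2 * k - i) with hcdef
      field_simp
  · have e1 : (fun s t => if k < n + 1 ∧ k ≤ n + 1 then
        r k * bv p q k (n + 1 - k) s t * bv p q k (n + 1 - k) m' a' / Nk p q k (n + 1 - k) else 0)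
        = fun _ _ => (0 : ℝ) := by
      funext s t
      rw [if_neg (by omega)]
    have e2 : (fun s t => if k < n + 1 ∧ k ≤ n then
        r k * bv p q k (n - k) m a * bv p q k (n - k) s t / Nk p q k (n - k) else 0)
        = fun _ _ => (0 : ℝ) := by
      funext s t
      rw [if_neg (by omega)]
    rw [e1, e2]
    simp [Eop, Fop]

/-- difference of `R` and the partial CG kernel. -/
noncomputable def CGbD (p q : ℕ) (r : ℕ → ℝ) (n : ℕ) (R : ℕ → ℕ → ℕ → ℕ → ℝ)
    (m a m' a' : ℕ) : ℝ :=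
  R m a m' a' - CGbG p q r n n m a m' a'

theorem CGbG_level (p q : ℕ) (r : ℕ → ℝ) (K n m a m' a' : ℕ) (h : m + a ≠ n) :
    CGbG p q r K n m a m' a' = 0 := by
  unfold CGbG
  refine Finset.sum_eq_zero fun k _ => ?_
  split_ifs with hk
  · have : bv p q k (n - k) m a = 0 := by
      unfold bv
      rw [if_neg (by omega)]
    rw [this]; simp
  · rfl

theorem CGbG_box (p q : ℕ) (hqp : q ≤ p) (r : ℕ → ℝ) (K n m a m' a' : ℕ) (h : p < m ∨ q < a) :
    CGbG p q r K n m a m' a' = 0 := by
  unfold CGbG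
  refine Finset.sum_eq_zero fun k hk => ?_
  have hkq : k ≤ q := by simpa [Nat.lt_succ_iff] using hk
  split_ifs with hk
  · rw [bv_supp p q k (n - k) hkq hqp m a h]; simp
  · rfl

/-- statement that weight `n` is described by `r`. -/
def CGbP (p q : ℕ) (r : ℕ → ℝ) (R : ℕ → ℕ → ℕ → ℕ → ℝ) (n : ℕ) : Prop :=
  ∀ m a m' a', m' + a' = n → R m a m' a' = CGbG p q r (n + 1) n m a m' a'

theorem CGbP_swap {p q : ℕ} {r : ℕ → ℝ} {R : ℕ → ℕ → ℕ → ℕ → ℝ} (hR : InvKer p q R) {n : ℕ}
    (h : CGbP p q r R n) : CGbP p q r (fun m a m' a' => R m' a' m a) n := by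
  intro m a m' a' hn
  by_cases hma : m + a = n
  · show R m' a' m a = _
    rw [h m' a' m a hma, CGbG_symm]
  · show R m' a' m a = _
    rw [CGb_weight hR _ _ _ _ (by omega), CGbG_level _ _ _ _ _ _ _ _ _ hma]

/-- one-sided step. -/
theorem CGb_step1 {p q : ℕ} (hqp : q ≤ p) {r : ℕ → ℝ} {R : ℕ → ℕ → ℕ → ℕ → ℝ}
    (hR : InvKer p q R) (n : ℕ) (h : ∀ j, j < n → CGbP p q r R j) (m a m' a' : ℕ)
    (hn : m' + a' = n) :
    CGbD p q r n R m a m' a' = if n ≤ q then CGbD p q r n R 0 n m' a' * bv p q n 0 m a else 0 := by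
  apply CGb_kerE' (p := p) (q := q) n (fun s t => CGbD p q r n R s t m' a')
  · intro s t hst
    show R s t m' a' - CGbG p q r n n s t m' a' = 0
    rw [CGb_weight hR _ _ _ _ (by omega), CGbG_level _ _ _ _ _ _ _ _ _ hst, sub_zero]
  · intro s t hst
    show R s t m' a' - CGbG p q r n n s t m' a' = 0
    rw [CGbG_box p q hqp _ _ _ _ _ _ _ hst, hR.supp s t m' a' (by omega), sub_zero]
  · intro s t
    have e1 : Eop (fun s t => CGbD p q r n R s t m' a') s t
        = Eop (fun s t => R s t m' a') s t - Eop (fun s t => CGbG p q r n n s t m' a') s t := by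
      unfold Eop CGbD; ring
    rw [e1, hR.invEF]
    rcases n with _ | n
    · -- weight zero
      have e2 : Eop (fun s t => CGbG p q r 0 0 s t m' a') s t = 0 := by
        unfold Eop
        simp only
        rw [CGbG_level _ _ _ _ _ _ _ _ _ (by omega), CGbG_level _ _ _ _ _ _ _ _ _ (by omega)]
        ring
      have e3 : Fop p q (fun s' t' => R s t s' t') m' a' = 0 := by
        unfold Fop
        rw [if_pos (by omega), if_pos (by omega)]
        ring
      rw [e2, e3, sub_zero]
    · rw [CGbG_E p q hqp r n s t m' a']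
      have e4 : ∀ s' t', s' + t' = n → R s t s' t' = CGbG p q r (n + 1) n s t s' t' := by
        intro s' t' hst'
        exact h n (by omega) s t s' t' hst'
      unfold Fop
      rcases m' with _ | m' <;> rcases a' with _ | a'
      · simp
      · simp only [Nat.add_eq_zero_iff, one_ne_zero, and_false, ↓reduceIte, Nat.add_sub_cancel]
        rw [e4 0 a' (by omega)]
        ring
      · simp only [Nat.add_eq_zero_iff, one_ne_zero, and_false, ↓reduceIte, Nat.add_sub_cancel]
        rw [e4 m' 0 (by omega)]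
        ring
      · simp only [Nat.add_eq_zero_iff, one_ne_zero, and_false, ↓reduceIte, Nat.add_sub_cancel]
        rw [e4 m' (a' + 1) (by omega), e4 (m' + 1) a' (by omega)]
        ring

theorem CGb_step {p q : ℕ} (hqp : q ≤ p) {r : ℕ → ℝ} {R : ℕ → ℕ → ℕ → ℕ → ℝ}
    (hR : InvKer p q R) (n : ℕ) (h : ∀ j, j < n → CGbP p q r R j) (m a m' a' : ℕ)
    (hn : m' + a' = n) :
    CGbD p q r n R m a m' a' = if n ≤ q then
      CGbD p q r n R 0 n 0 n * bv p q n 0 m a * bv p q n 0 m' a' else 0 := by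
  rw [CGb_step1 hqp hR n h m a m' a' hn]
  split_ifs with hnq
  · have h2 := CGb_step1 hqp (CGb_swap hR) n (r := r) (fun j hj => CGbP_swap hR (h j hj))
      m' a' 0 n (by omega)
    rw [if_pos hnq] at h2
    have e1 : CGbD p q r n (fun m a m' a' => R m' a' m a) m' a' 0 n = CGbD p q r n R 0 n m' a' := by
      unfold CGbD
      rw [CGbG_symm]
    have e2 : CGbD p q r n (fun m a m' a' => R m' a' m a) 0 n 0 n = CGbD p q r n R 0 n 0 n := by
      unfold CGbD
      rw [CGbG_symm]
    rw [e1, e2] at h2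
    rw [h2]
    ring
  · rfl

theorem CGbG_congr {p q : ℕ} {r r' : ℕ → ℝ} {K n : ℕ} (h : ∀ k, k < K → k ≤ q → r k = r' k)
    (m a m' a' : ℕ) : CGbG p q r K n m a m' a' = CGbG p q r' K n m a m' a' := by
  unfold CGbG
  refine Finset.sum_congr rfl fun k hk => ?_
  have hkq : k ≤ q := by simpa [Nat.lt_succ_iff] using hk
  split_ifs with hk
  · rw [h k hk.1 hkq]
  · rfl

theorem CGbG_top {p q : ℕ} (r : ℕ → ℝ) (n m a m' a' : ℕ) :
    CGbG p q r (n + 1) n m a m' a' = CGbG p q r n n m a m' a' +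
      if n ≤ q then r n * bv p q n 0 m a * bv p q n 0 m' a' / Nk p q n 0 else 0 := by
  unfold CGbG
  by_cases hn : n ≤ q
  · rw [if_pos hn]
    have hmem : n ∈ range (q + 1) := by simp; omega
    rw [← Finset.add_sum_erase (range (q + 1)) (fun k => if k < n + 1 ∧ k ≤ n then
        r k * bv p q k (n - k) m a * bv p q k (n - k) m' a' / Nk p q k (n - k) else 0) hmem,
      ← Finset.add_sum_erase (range (q + 1)) (fun k => if k < n ∧ k ≤ n then
        r k * bv p q k (n - k) m a * bv p q k (n - k) m' a' / Nk p q k (n - k) else 0) hmem]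
    rw [if_pos ⟨by omega, le_refl n⟩, if_neg (by omega), Nat.sub_self]
    have : ∑ k ∈ (range (q + 1)).erase n, (if k < n + 1 ∧ k ≤ n then
        r k * bv p q k (n - k) m a * bv p q k (n - k) m' a' / Nk p q k (n - k) else 0)
        = ∑ k ∈ (range (q + 1)).erase n, (if k < n ∧ k ≤ n then
        r k * bv p q k (n - k) m a * bv p q k (n - k) m' a' / Nk p q k (n - k) else 0) := by
      refine Finset.sum_congr rfl fun k hk => ?_
      have hkn : k ≠ n := (Finset.mem_erase.mp hk).1
      by_cases h : k < n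
      · rw [if_pos ⟨by omega, by omega⟩, if_pos ⟨h, by omega⟩]
      · rw [if_neg (by omega), if_neg (by omega)]
    rw [this]
    ring
  · rw [if_neg hn, add_zero]
    refine Finset.sum_congr rfl fun k hk => ?_
    have hkq : k ≤ q := by simpa [Nat.lt_succ_iff] using hk
    by_cases h : k < n
    · rw [if_pos ⟨by omega, by omega⟩, if_pos ⟨h, by omega⟩]
    · omega

theorem CGb_exists {p q : ℕ} (hqp : q ≤ p) {R : ℕ → ℕ → ℕ → ℕ → ℝ}
    (hR : InvKer p q R) : ∀ n, ∃ r : ℕ → ℝ, ∀ j, j < n → CGbP p q r R j := by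
  intro n
  induction n with
  | zero => exact ⟨0, fun j hj => absurd hj (Nat.not_lt_zero j)⟩
  | succ n ih =>
    obtain ⟨r, hr⟩ := ih
    refine ⟨Function.update r n (CGbD p q r n R 0 n 0 n * Nk p q n 0), fun j hj => ?_⟩
    intro m a m' a' hma'
    by_cases hjn : j < n
    · rw [hr j hjn m a m' a' hma']
      apply CGbG_congr
      intro k hk _
      rw [Function.update_of_ne (by omega)]
    · have hj' : j = n := by omega
      subst hj'
      rw [CGbG_top, CGbG_congr (r := Function.update r j _) (r' := r) (fun k hk _ => by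
        rw [Function.update_of_ne (by omega)])]
      have h1 := CGb_step hqp hR j hr m a m' a' hma'
      have h2 : R m a m' a' = CGbG p q r j j m a m' a' + CGbD p q r j R m a m' a' := by
        unfold CGbD; ring
      rw [h2, h1]
      congr 1
      split_ifs with hjq
      · rw [Function.update_self]
        have h0 : Nk p q j 0 ≠ 0 := ne_of_gt (Nk_pos p q j 0 hjq hqp (by omega))
        field_simp
      · rfl

/-- weighted pairing. -/
noncomputable def CGbW (p q : ℕ) (v w : ℕ → ℕ → ℝ) : ℝ :=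
  ∑ m ∈ range (p + 1), ∑ a ∈ range (q + 1), v m a * w m a / ((p.choose m : ℝ) * (q.choose a : ℝ))

theorem CGb_ratio (p m : ℕ) (h : m < p) :
    ((p : ℝ) - (m + 1 : ℕ) + 1) / (p.choose (m + 1) : ℝ) = ((m : ℝ) + 1) / (p.choose m : ℝ) := by
  have h1 : (p.choose (m + 1) : ℝ) ≠ 0 := by
    exact_mod_cast (Nat.choose_pos (show m + 1 ≤ p by omega)).ne'
  have h2 : (p.choose m : ℝ) ≠ 0 := by
    exact_mod_cast (Nat.choose_pos (show m ≤ p by omega)).ne'
  have h4 : ((p.choose (m + 1) : ℕ) : ℝ) * ((m : ℝ) + 1) = (p.choose m : ℝ) * ((p : ℝ) - m) := by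
    have := Nat.choose_succ_right_eq p m
    have h5 : ((p.choose (m + 1) * (m + 1) : ℕ) : ℝ) = ((p.choose m * (p - m) : ℕ) : ℝ) := by
      exact_mod_cast this
    push_cast [Nat.cast_sub (show m ≤ p by omega)] at h5
    exact h5
  rw [div_eq_div_iff h1 h2]
  push_cast
  linear_combination -h4

theorem CGb_adj1 (p : ℕ) (v w : ℕ → ℝ) (hw : w (p + 1) = 0) :
    ∑ m ∈ range (p + 1), (if m = 0 then 0 else ((p : ℝ) - (m : ℝ) + 1) * v (m - 1)) * w m
        / (p.choose m : ℝ)
      = ∑ m ∈ range (p + 1), v m * (((m : ℝ) + 1) * w (m + 1)) / (p.choose m : ℝ) := by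
  rw [Finset.sum_range_succ', Finset.sum_range_succ (n := p)]
  rw [hw]
  simp only [↓reduceIte, zero_mul, zero_div, add_zero, mul_zero]
  refine Finset.sum_congr rfl fun m hm => ?_
  have hm' : m < p := by simpa using hm
  rw [if_neg (by omega), Nat.add_sub_cancel]
  have h := CGb_ratio p m hm'
  have e1 : ((p : ℝ) - ((m + 1 : ℕ) : ℝ) + 1) * v m * w (m + 1) / (p.choose (m + 1) : ℝ)
      = (((p : ℝ) - ((m + 1 : ℕ) : ℝ) + 1) / (p.choose (m + 1) : ℝ)) * (v m * w (m + 1)) := by ring
  rw [e1, h]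
  ring

theorem CGb_adj (p q : ℕ) (v w : ℕ → ℕ → ℝ) (hw : ∀ m a, (p < m ∨ q < a) → w m a = 0) :
    CGbW p q (Fop p q v) w = CGbW p q v (Eop w) := by
  have h1 : CGbW p q (Fop p q v) w
      = (∑ a ∈ range (q + 1), (∑ m ∈ range (p + 1),
          (if m = 0 then 0 else ((p : ℝ) - (m : ℝ) + 1) * v (m - 1) a) * w m a
        / (p.choose m : ℝ)) / (q.choose a : ℝ))
        + ∑ m ∈ range (p + 1), (∑ a ∈ range (q + 1),
          (if a = 0 then 0 else ((q : ℝ) - (a : ℝ) + 1) * v m (a - 1)) * w m a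
        / (q.choose a : ℝ)) / (p.choose m : ℝ) := by
    have e : (∑ a ∈ range (q + 1), (∑ m ∈ range (p + 1),
          (if m = 0 then 0 else ((p : ℝ) - (m : ℝ) + 1) * v (m - 1) a) * w m a
        / (p.choose m : ℝ)) / (q.choose a : ℝ))
        = ∑ m ∈ range (p + 1), ∑ a ∈ range (q + 1),
          (if m = 0 then 0 else ((p : ℝ) - (m : ℝ) + 1) * v (m - 1) a) * w m a
        / (p.choose m : ℝ) / (q.choose a : ℝ) := by
      rw [Finset.sum_comm]
      refine Finset.sum_congr rfl fun a _ => ?_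
      rw [Finset.sum_div]
    rw [e, ← Finset.sum_add_distrib]
    unfold CGbW
    refine Finset.sum_congr rfl fun m _ => ?_
    rw [Finset.sum_div, ← Finset.sum_add_distrib]
    refine Finset.sum_congr rfl fun a _ => ?_
    unfold Fop
    rw [div_div, div_div, mul_comm (q.choose a : ℝ) (p.choose m : ℝ)]
    ring
  have h2 : CGbW p q v (Eop w)
      = (∑ a ∈ range (q + 1), (∑ m ∈ range (p + 1),
          v m a * (((m : ℝ) + 1) * w (m + 1) a) / (p.choose m : ℝ)) / (q.choose a : ℝ))
        + ∑ m ∈ range (p + 1), (∑ a ∈ range (q + 1),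
          v m a * (((a : ℝ) + 1) * w m (a + 1)) / (q.choose a : ℝ)) / (p.choose m : ℝ) := by
    have e : (∑ a ∈ range (q + 1), (∑ m ∈ range (p + 1),
          v m a * (((m : ℝ) + 1) * w (m + 1) a) / (p.choose m : ℝ)) / (q.choose a : ℝ))
        = ∑ m ∈ range (p + 1), ∑ a ∈ range (q + 1),
          v m a * (((m : ℝ) + 1) * w (m + 1) a) / (p.choose m : ℝ) / (q.choose a : ℝ) := by
      rw [Finset.sum_comm]
      refine Finset.sum_congr rfl fun a _ => ?_
      rw [Finset.sum_div]
    rw [e, ← Finset.sum_add_distrib]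
    unfold CGbW
    refine Finset.sum_congr rfl fun m _ => ?_
    rw [Finset.sum_div, ← Finset.sum_add_distrib]
    refine Finset.sum_congr rfl fun a _ => ?_
    unfold Eop
    rw [div_div, div_div, mul_comm (q.choose a : ℝ) (p.choose m : ℝ)]
    ring
  rw [h1, h2]
  congr 1
  · refine Finset.sum_congr rfl fun a _ => ?_
    rw [CGb_adj1 p (fun m => v m a) (fun m => w m a) (hw _ _ (Or.inl (by omega)))]
  · refine Finset.sum_congr rfl fun m _ => ?_
    rw [CGb_adj1 q (fun a => v m a) (fun a => w m a) (hw _ _ (Or.inr (by omega)))]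

theorem CGb_orth (p q : ℕ) (hqp : q ≤ p) (n k : ℕ) (hn : n ≤ q) (hkn : k < n) :
    CGbW p q (bv p q k (n - k)) (bv p q n 0) = 0 := by
  obtain ⟨i, rfl⟩ : ∃ i, n = k + (i + 1) := ⟨n - k - 1, by omega⟩
  have e : k + (i + 1) - k = i + 1 := by omega
  rw [e]
  have hF : bv p q k (i + 1) = Fop p q (bv p q k i) := by
    funext m a
    exact (Fop_bv p q k i (by omega) hqp m a).symm
  rw [hF, CGb_adj p q _ _ (fun m a h => bv_supp p q _ 0 hn hqp m a h)]
  unfold CGbW
  refine Finset.sum_eq_zero fun m _ => Finset.sum_eq_zero fun a _ => ?_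
  rw [Eop_bv_zero p q _ hn hqp m a]
  simp

theorem CGb_self (p q : ℕ) (hqp : q ≤ p) (n : ℕ) (hn : n ≤ q) :
    CGbW p q (bv p q n 0) (bv p q n 0) = Nk p q n 0 := by
  rw [← beta_norm p q n 0 hn hqp]
  unfold CGbW
  refine Finset.sum_congr rfl fun m _ => Finset.sum_congr rfl fun a _ => ?_
  rw [sq]

theorem CGb_swap3 {s t K : Finset ℕ} (F : ℕ → ℕ → ℕ → ℝ) :
    ∑ m ∈ s, ∑ a ∈ t, ∑ k ∈ K, F m a k = ∑ k ∈ K, ∑ m ∈ s, ∑ a ∈ t, F m a k :=
  calc _ = ∑ m ∈ s, ∑ k ∈ K, ∑ a ∈ t, F m a k :=
        Finset.sum_congr rfl fun _ _ => Finset.sum_comm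
    _ = _ := Finset.sum_comm

theorem CGb_quad (s t K : Finset ℕ) (c : ℕ → ℝ) (g : ℕ → ℕ → ℕ → ℝ) :
    ∑ m ∈ s, ∑ a ∈ t, ∑ m' ∈ s, ∑ a' ∈ t, ∑ k ∈ K, c k * g k m a * g k m' a'
      = ∑ k ∈ K, c k * (∑ m ∈ s, ∑ a ∈ t, g k m a) ^ 2 := by
  calc _ = ∑ m ∈ s, ∑ a ∈ t, ∑ k ∈ K, ∑ m' ∈ s, ∑ a' ∈ t, c k * g k m a * g k m' a' := by
        refine Finset.sum_congr rfl fun m _ => Finset.sum_congr rfl fun a _ => ?_
        rw [CGb_swap3]
    _ = ∑ m ∈ s, ∑ a ∈ t, ∑ k ∈ K, c k * g k m a * ∑ m' ∈ s, ∑ a' ∈ t, g k m' a' := by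
        refine Finset.sum_congr rfl fun _ _ => Finset.sum_congr rfl fun _ _ =>
          Finset.sum_congr rfl fun _ _ => ?_
        rw [Finset.mul_sum]
        refine Finset.sum_congr rfl fun _ _ => ?_
        rw [Finset.mul_sum]
    _ = ∑ k ∈ K, ∑ m ∈ s, ∑ a ∈ t, c k * g k m a * ∑ m' ∈ s, ∑ a' ∈ t, g k m' a' :=
        CGb_swap3 _
    _ = _ := by
        refine Finset.sum_congr rfl fun k _ => ?_
        set X := ∑ m ∈ s, ∑ a ∈ t, g k m a with hX
        have : ∑ m ∈ s, ∑ a ∈ t, c k * g k m a * X = c k * X * X := by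
          conv_rhs => rw [mul_right_comm, hX, Finset.mul_sum]
          rw [← hX]
          refine Finset.sum_congr rfl fun m _ => ?_
          rw [Finset.mul_sum]
          refine Finset.sum_congr rfl fun a _ => ?_
          ring
        rw [this]
        ring

theorem CGb_nonneg {p q : ℕ} (hqp : q ≤ p) {r : ℕ → ℝ} {R : ℕ → ℕ → ℕ → ℕ → ℝ}
    (hR : InvKer p q R) (n : ℕ) (hn : n ≤ q) (h : CGbP p q r R n) : 0 ≤ r n := by
  have h1 := hR.psd (fun m a => bv p q n 0 m a / ((p.choose m : ℝ) * (q.choose a : ℝ)))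
  have h2 : (∑ m ∈ range (p + 1), ∑ a ∈ range (q + 1),
    ∑ m' ∈ range (p + 1), ∑ a' ∈ range (q + 1),
      bv p q n 0 m a / ((p.choose m : ℝ) * (q.choose a : ℝ))
        * (bv p q n 0 m' a' / ((p.choose m' : ℝ) * (q.choose a' : ℝ))) * R m a m' a')
      = ∑ k ∈ range (q + 1), if k < n + 1 ∧ k ≤ n then
          r k / Nk p q k (n - k) * (CGbW p q (bv p q k (n - k)) (bv p q n 0)) ^ 2 else 0 := by
    have e1 : ∀ m a m' a', bv p q n 0 m a / ((p.choose m : ℝ) * (q.choose a : ℝ))
        * (bv p q n 0 m' a' / ((p.choose m' : ℝ) * (q.choose a' : ℝ))) * R m a m' a'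
        = ∑ k ∈ range (q + 1), if k < n + 1 ∧ k ≤ n then r k / Nk p q k (n - k)
          * (bv p q k (n - k) m a * bv p q n 0 m a / ((p.choose m : ℝ) * (q.choose a : ℝ)))
          * (bv p q k (n - k) m' a' * bv p q n 0 m' a' / ((p.choose m' : ℝ) * (q.choose a' : ℝ)))
          else 0 := by
      intro m a m' a'
      by_cases hl : m' + a' = n
      · rw [h m a m' a' hl]
        unfold CGbG
        rw [Finset.mul_sum]
        refine Finset.sum_congr rfl fun k _ => ?_
        split_ifs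
        · ring
        · ring
      · have hz : bv p q n 0 m' a' = 0 := by
          unfold bv
          rw [if_neg (by omega)]
        rw [hz]
        simp
    have e2 : ∀ m a m' a', bv p q n 0 m a / ((p.choose m : ℝ) * (q.choose a : ℝ))
        * (bv p q n 0 m' a' / ((p.choose m' : ℝ) * (q.choose a' : ℝ))) * R m a m' a'
        = ∑ k ∈ range (q + 1), (if k < n + 1 ∧ k ≤ n then r k / Nk p q k (n - k) else 0)
          * (bv p q k (n - k) m a * bv p q n 0 m a / ((p.choose m : ℝ) * (q.choose a : ℝ)))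
          * (bv p q k (n - k) m' a' * bv p q n 0 m' a' / ((p.choose m' : ℝ) * (q.choose a' : ℝ)))
          := by
      intro m a m' a'
      rw [e1]
      refine Finset.sum_congr rfl fun k _ => ?_
      split_ifs <;> simp
    simp only [e2]
    rw [CGb_quad (range (p + 1)) (range (q + 1)) (range (q + 1))
      (fun k => if k < n + 1 ∧ k ≤ n then r k / Nk p q k (n - k) else 0)
      (fun k m a => bv p q k (n - k) m a * bv p q n 0 m a / ((p.choose m : ℝ) * (q.choose a : ℝ)))]
    refine Finset.sum_congr rfl fun k _ => ?_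
    unfold CGbW
    split_ifs <;> simp
  rw [h2] at h1
  have h3 : (∑ k ∈ range (q + 1), if k < n + 1 ∧ k ≤ n then
          r k / Nk p q k (n - k) * (CGbW p q (bv p q k (n - k)) (bv p q n 0)) ^ 2 else 0)
      = r n * Nk p q n 0 := by
    rw [Finset.sum_eq_single n]
    · rw [if_pos ⟨by omega, le_refl n⟩, Nat.sub_self, CGb_self p q hqp n hn]
      have h0 : Nk p q n 0 ≠ 0 := ne_of_gt (Nk_pos p q n 0 hn hqp (by omega))
      field_simp
    · intro k _ hkn
      split_ifs with hk
      · rw [CGb_orth p q hqp n k hn (by omega)]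
        ring
      · rfl
    · intro hn'
      exact absurd (Finset.mem_range.mpr (by omega)) hn'
  rw [h3] at h1
  exact nonneg_of_mul_nonneg_left h1 (Nk_pos p q n 0 hn hqp (by omega))

theorem cg (p q : ℕ) (hqp : q ≤ p) (R : ℕ → ℕ → ℕ → ℕ → ℝ) (hR : InvKer p q R) :
    ∃ r : ℕ → ℝ, (∀ k, 0 ≤ r k) ∧ CGForm p q r R := by
  obtain ⟨r, hr⟩ := CGb_exists hqp hR (p + q + 1)
  refine ⟨fun k => if k ≤ q then r k else 0, fun k => ?_, ?_⟩
  · simp only
    split_ifs with hk
    · exact CGb_nonneg hqp hR k hk (hr k (by omega))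
    · exact le_refl _
  · intro m a m' a'
    by_cases hl : m + a = m' + a'
    · rw [if_pos hl]
      have h1 : R m a m' a' = CGbG p q r (m + a + 1) (m + a) m a m' a' := by
        by_cases hbig : m + a < p + q + 1
        · exact hr (m + a) hbig m a m' a' hl.symm
        · have hb : p < m ∨ q < a := by omega
          rw [hR.supp m a m' a' (by omega), CGbG_box p q hqp _ _ _ _ _ _ _ hb]
      rw [h1]
      unfold CGbG
      refine Finset.sum_congr rfl fun k hk => ?_
      have hkq : k ≤ q := by simpa [Nat.lt_succ_iff] using hk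
      simp only [hkq, ↓reduceIte]
      by_cases hk2 : k ≤ m + a
      · rw [if_pos ⟨by omega, hk2⟩, if_pos hk2]
        unfold bv
        rw [if_pos (by omega), if_pos (by omega)]
      · rw [if_neg (by omega), if_neg hk2]
    · rw [if_neg hl, CGb_weight hR _ _ _ _ hl]

theorem CGb_count (p q k : ℕ) (hk : k ≤ q) (hqp : q ≤ p) :
    ∑ i ∈ range (p + q + 1), Nk p q k i / Nk p q k i = (p : ℝ) + q - 2 * k + 1 := by
  have h1 : ∀ i ∈ range (p + q + 1), Nk p q k i / Nk p q k i
      = if i < p + q - 2 * k + 1 then (1 : ℝ) else 0 := by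
    intro i _
    split_ifs with hi
    · exact div_self (ne_of_gt (Nk_pos p q k i hk hqp (by omega)))
    · rw [Nk_zero p q k i hk hqp (by omega), div_zero]
  rw [Finset.sum_congr rfl h1, ← Finset.sum_filter]
  have h2 : (range (p + q + 1)).filter (fun i => i < p + q - 2 * k + 1)
      = range (p + q - 2 * k + 1) := by
    ext i
    simp only [Finset.mem_filter, Finset.mem_range]
    omega
  rw [h2, Finset.sum_const, Finset.card_range, nsmul_eq_mul, mul_one]
  push_cast [Nat.cast_sub (show 2 * k ≤ p + q by omega)]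
  ring

theorem cg_trace (p q : ℕ) (hqp : q ≤ p) (r : ℕ → ℝ) (R : ℕ → ℕ → ℕ → ℕ → ℝ)
    (h : CGForm p q r R) :
    ∑ m ∈ range (p + 1), ∑ a ∈ range (q + 1),
      R m a m a / ((p.choose m : ℝ) * (q.choose a : ℝ))
      = ∑ k ∈ range (q + 1), r k * ((p : ℝ) + q - 2 * k + 1) := by
  have h1 : ∀ m ∈ range (p + 1), ∀ a ∈ range (q + 1),
      R m a m a / ((p.choose m : ℝ) * (q.choose a : ℝ))
      = ∑ k ∈ range (q + 1), ∑ i ∈ range (p + q + 1), r k *
        ((bv p q k i m a) ^ 2 / ((p.choose m : ℝ) * (q.choose a : ℝ)) / Nk p q k i) := by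
    intro m hm a ha
    have hm' : m ≤ p := by simpa [Nat.lt_succ_iff] using hm
    have ha' : a ≤ q := by simpa [Nat.lt_succ_iff] using ha
    rw [h m a m a, if_pos rfl, Finset.sum_div]
    refine Finset.sum_congr rfl fun k _ => ?_
    by_cases hk : k ≤ m + a
    · rw [if_pos hk, Finset.sum_eq_single (m + a - k)]
      · unfold bv
        rw [if_pos (by omega)]
        ring
      · intro i _ hi
        have : bv p q k i m a = 0 := by
          unfold bv
          rw [if_neg (by omega)]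
        rw [this]
        simp
      · intro hn
        exact absurd (Finset.mem_range.mpr (by omega)) hn
    · rw [if_neg hk]
      symm
      rw [zero_div]
      refine Finset.sum_eq_zero fun i _ => ?_
      have : bv p q k i m a = 0 := by
        unfold bv
        rw [if_neg (by omega)]
      rw [this]
      simp
  calc _ = ∑ m ∈ range (p + 1), ∑ a ∈ range (q + 1), ∑ k ∈ range (q + 1),
        ∑ i ∈ range (p + q + 1), r k *
        ((bv p q k i m a) ^ 2 / ((p.choose m : ℝ) * (q.choose a : ℝ)) / Nk p q k i) :=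
        Finset.sum_congr rfl fun m hm => Finset.sum_congr rfl fun a ha => h1 m hm a ha
    _ = ∑ k ∈ range (q + 1), ∑ m ∈ range (p + 1), ∑ a ∈ range (q + 1),
        ∑ i ∈ range (p + q + 1), r k *
        ((bv p q k i m a) ^ 2 / ((p.choose m : ℝ) * (q.choose a : ℝ)) / Nk p q k i) :=
        CGb_swap3 _
    _ = ∑ k ∈ range (q + 1), ∑ i ∈ range (p + q + 1), ∑ m ∈ range (p + 1), ∑ a ∈ range (q + 1),
        r k * ((bv p q k i m a) ^ 2 / ((p.choose m : ℝ) * (q.choose a : ℝ)) / Nk p q k i) := by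
        refine Finset.sum_congr rfl fun k _ => ?_
        rw [CGb_swap3]
    _ = ∑ k ∈ range (q + 1), r k * ((p : ℝ) + q - 2 * k + 1) := by
        refine Finset.sum_congr rfl fun k hk => ?_
        have hkq : k ≤ q := by simpa [Nat.lt_succ_iff] using hk
        rw [← CGb_count p q k hkq hqp, Finset.mul_sum]
        refine Finset.sum_congr rfl fun i _ => ?_
        have h2 := beta_norm p q k i hkq hqp
        have h3 : r k * (Nk p q k i / Nk p q k i) = r k * ((∑ m ∈ range (p + 1), ∑ a ∈ range (q + 1),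
            (bv p q k i m a) ^ 2 / ((p.choose m : ℝ) * (q.choose a : ℝ))) / Nk p q k i) := by
          rw [h2]
        rw [h3, Finset.sum_div, Finset.mul_sum]
        refine Finset.sum_congr rfl fun m _ => ?_
        rw [Finset.sum_div, Finset.mul_sum]

theorem cg_q_zero (p : ℕ) (r : ℕ → ℝ) (R : ℕ → ℕ → ℕ → ℕ → ℝ)
    (h : CGForm p 0 r R) (m : ℕ) (hm : m ≤ p) :
    R m 0 m 0 = r 0 * (p.choose m : ℝ) := by
  rw [h m 0 m 0, if_pos rfl]
  simp only [zero_add, Finset.range_one, Finset.sum_singleton, Nat.zero_le, ↓reduceIte,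
    add_zero, Nat.sub_zero]
  have hb : beta p 0 0 m m = (p.descFactorial m : ℝ) := by
    unfold beta
    rw [Finset.sum_eq_single m]
    · rw [if_pos (by omega)]
      simp
    · intro l hl hlm
      have hl' : l < m + 1 := by simpa using hl
      rw [if_neg (by omega)]
    · intro hn
      exact absurd (Finset.mem_range.mpr (by omega)) hn
  have hN : Nk p 0 0 m = (m.factorial : ℝ) * (p.descFactorial m : ℝ) := by
    unfold Nk chin
    simp only [zero_add, Finset.range_one, Finset.sum_singleton]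
    have : ∀ m, m ≤ p → ∏ l ∈ range m, (((l : ℝ) + 1) * ((p : ℝ) + ((0 : ℕ) : ℝ) - 2 * ((0 : ℕ) : ℝ) - l))
        = (m.factorial : ℝ) * (p.descFactorial m : ℝ) := by
      intro m
      induction m with
      | zero => intro _; simp
      | succ m ih =>
        intro hm
        rw [Finset.prod_range_succ, ih (by omega), Nat.factorial_succ, Nat.descFactorial_succ]
        push_cast [Nat.cast_sub (show m ≤ p by omega)]
        ring
    rw [this m hm]
    simp
  rw [hb, hN]
  have h1 : ((p.descFactorial m : ℕ) : ℝ) ≠ 0 := by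
    have := (Nat.descFactorial_pos (n := p) (k := m)).mpr hm
    exact_mod_cast this.ne'
  have h2 : ((m.factorial : ℕ) : ℝ) ≠ 0 := by
    exact_mod_cast (Nat.factorial_pos m).ne'
  have h3 : ((p.descFactorial m : ℕ) : ℝ) = (m.factorial : ℝ) * (p.choose m : ℝ) := by
    rw [Nat.descFactorial_eq_factorial_mul_choose]
    push_cast
    ring
  field_simp
  rw [h3]
  ring

end Vale.Agent.P359
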