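import Vale.Agent.P359.CertE

/-! The full quadratic form. -/

namespace Vale.Agent.P359

open Finset

def cfw (t : ℕ) : ℕ → ℤ
  | 0 => 1
  | a + 1 => if t.testBit a = true then (a.factorial : ℤ) * cfw t a else cfw t a

def csgn (p t : ℕ) : ℕ → ℤ
  | 0 => 1
  | i + 1 => if p.testBit i = true then csg t i * csgn p t i else csgn p t i

def ctr (t : ℕ) : CLF → CLF
  | [] => []
  | (c, p) :: r => if p &&& t = 0 then (csgn p t 9 * c, p ||| t) :: ctr t r else ctr t r

def cacc (w : ℤ) (t : ℕ) : List (ℕ × CLF) → CQ 9 → CQ 9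
  | [], q => q
  | (p, r) :: R, q => if p &&& t = 0 then
      cupd 9 (p ||| t) (cscal (w * csgn p t 9) (ctr t r)) (cacc w t R q) else cacc w t R q

def cbig : CQ 9 := cfor 512 (fun t q => cacc (cfw t 9) t cLP (cacc (-16) t cLE q)) (cemp 9)

set_option maxRecDepth 100000 in
theorem cbig_eq : cqeq 9 cbig (cbuild cBs.flatten (cemp 9)) = true := by
  decide +kernel

end Vale.Agent.P359
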