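import Vale.Agent.P359.CertE

/-! Block positivity. -/

namespace Vale.Agent.P359

open Vale.P359

def ccoef : CLF → ℕ → ℤ
  | [], _ => 0
  | (c, p) :: r, s => (if p = s then c else 0) + ccoef r s

def cup : List (ℕ × CLF) → List (List ℤ)
  | [] => []
  | (s, r) :: B => (ccoef r s :: B.map fun q => ccoef r q.1) :: cup B

def csym : List (ℕ × CLF) → Bool
  | [] => true
  | (s, r) :: B => (B.all fun q => ccoef r q.1 == ccoef q.2 s) && csym B

def csup (L : List ℕ) (B : List (ℕ × CLF)) : Bool :=
  B.all fun q => q.2.all fun p => L.contains p.2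

def cnd : List ℕ → Bool
  | [] => true
  | s :: L => !(L.contains s) && cnd L

def cok (B : List (ℕ × CLF)) : Bool :=
  cnd (B.map Prod.fst) && csup (B.map Prod.fst) B && csym B && shape B.length (cup B)
    && psdCheck B.length (cup B)

theorem cok_all : cBs.all cok = true := by decide +kernel

theorem cnd_sound : ∀ L : List ℕ, cnd L = true → L.Nodup
  | [], _ => List.nodup_nil
  | s :: L, h => by
    simp only [cnd, Bool.and_eq_true, Bool.not_eq_true', List.contains_eq_mem,
      decide_eq_false_iff_not] at h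
    exact List.nodup_cons.2 ⟨h.1, cnd_sound L h.2⟩

theorem ldot_delta (x : ℕ → ℝ) (c : ℤ) (p : ℕ) (f : ℕ → ℤ) : ∀ L : List ℕ, L.Nodup →
    ldot (L.map fun s => (if p = s then c else 0) + f s) (L.map x) =
      (if p ∈ L then (c : ℝ) * x p else 0) + ldot (L.map f) (L.map x)
  | [], _ => by simp [ldot]
  | s :: L, h => by
    have ih := ldot_delta x c p f L (List.nodup_cons.1 h).2
    have hs := (List.nodup_cons.1 h).1
    simp only [List.map_cons, ldot, ih, List.mem_cons]
    by_cases h1 : p = s
    · subst h1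
      simp only [if_true, true_or, if_neg hs]
      push_cast; ring
    · simp only [h1, false_or, if_false]
      push_cast; ring

theorem clev_dense (x : ℕ → ℝ) (L : List ℕ) (hL : L.Nodup) : ∀ r : CLF,
    (∀ p ∈ r, p.2 ∈ L) → clev x r = ldot (L.map (ccoef r)) (L.map x)
  | [], _ => by
    have : ∀ L : List ℕ, ldot (L.map (ccoef [])) (L.map x) = 0 := by
      intro L
      induction L with
      | nil => rfl
      | cons s L ih =>
        change ((ccoef [] s : ℤ) : ℝ) * x s + ldot (L.map (ccoef [])) (L.map x) = 0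
        rw [ih]
        simp [ccoef]
    rw [this]; rfl
  | (c, p) :: r, h => by
    have ih := clev_dense x L hL r fun q hq => h q (by simp [hq])
    have h1 := ldot_delta x c p (ccoef r) L hL
    have h2 : (fun s => (if p = s then c else 0) + ccoef r s) = ccoef ((c, p) :: r) := by
      funext s; rfl
    rw [h2] at h1
    rw [h1, if_pos (h (c, p) (by simp)), ← ih]
    rfl

/-- double sum over a block -/
noncomputable def cdbl (x : ℕ → ℝ) (L : List ℕ) : List (ℕ × CLF) → ℝ
  | [] => 0
  | (s, r) :: B => x s * ldot (L.map (ccoef r)) (L.map x) + cdbl x L B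

theorem crev_dbl (x : ℕ → ℝ) (L : List ℕ) (hL : L.Nodup) : ∀ B : List (ℕ × CLF),
    csup L B = true → crev x B = cdbl x L B
  | [], _ => rfl
  | (s, r) :: B, h => by
    simp only [csup, List.all_cons, Bool.and_eq_true, List.all_eq_true,
      List.contains_eq_mem, decide_eq_true_eq] at h
    have ih := crev_dbl x L hL B (by
      simp only [csup, List.all_eq_true, List.contains_eq_mem, decide_eq_true_eq]
      exact h.2)
    simp only [crev, cdbl, ih]
    rw [clev_dense x L hL r h.1]

theorem cdbl_cons (x : ℕ → ℝ) (s : ℕ) (r : CLF) (L : List ℕ) : ∀ B : List (ℕ × CLF),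
    (∀ q ∈ B, ccoef r q.1 = ccoef q.2 s) →
    cdbl x (s :: L) B = x s * ldot (B.map fun q => ccoef r q.1) ((B.map Prod.fst).map x)
      + cdbl x L B
  | [], _ => by simp [cdbl, ldot]
  | (s', r') :: B, h => by
    have ih := cdbl_cons x s r L B fun q hq => h q (by simp [hq])
    have h0 := h (s', r') (by simp)
    simp only at h0
    simp only [cdbl, ih, List.map_cons, ldot, h0]
    ring

theorem cdbl_qf (x : ℕ → ℝ) : ∀ B : List (ℕ × CLF), csym B = true →
    cdbl x (B.map Prod.fst) B = qf (cup B) ((B.map Prod.fst).map x)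
  | [], _ => rfl
  | (s, r) :: B, h => by
    simp only [csym, Bool.and_eq_true, List.all_eq_true, beq_iff_eq] at h
    have ih := cdbl_qf x B h.2
    have h1 := cdbl_cons x s r (B.map Prod.fst) B h.1
    have h2 : (List.map (ccoef r) (B.map Prod.fst)) = B.map fun q => ccoef r q.1 := by
      rw [List.map_map]; rfl
    simp only [cup, List.map_cons, qf, cdbl, ldot, h1, ih, h2]
    ring

theorem crev_nonneg (x : ℕ → ℝ) (B : List (ℕ × CLF)) (h : cok B = true) : 0 ≤ crev x B := by
  simp only [cok, Bool.and_eq_true] at h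
  obtain ⟨⟨⟨⟨h1, h2⟩, h3⟩, h4⟩, h5⟩ := h
  rw [crev_dbl x _ (cnd_sound _ h1) B h2, cdbl_qf x B h3]
  exact qf_nonneg _ _ h4 h5 _

theorem crev_flatten_nonneg (x : ℕ → ℝ) (Bs : List (List (ℕ × CLF))) (h : Bs.all cok = true) :
    0 ≤ crev x Bs.flatten := by
  induction Bs with
  | nil => simp [crev]
  | cons B Bs ih =>
    simp only [List.all_cons, Bool.and_eq_true] at h
    rw [List.flatten_cons, crev_append]
    exact add_nonneg (crev_nonneg x B h.1) (ih h.2)

theorem big_nonneg (x : ℕ → ℝ) : 0 ≤ crev x cBs.flatten := crev_flatten_nonneg x cBs cok_all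

end Vale.Agent.P359
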