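import Vale.Agent.P359.Defs
import Vale.Agent.P359.CertF
import Vale.Agent.P359.CertG

namespace Vale.Agent.P359

open Finset

/-! ### value at the empty set -/

theorem cdec_zero : cdec 0 = ∅ := by
  ext i; simp [mem_cdec]

theorem cV2_spec (Θ : Fk) (m : ℕ) (hm : m < 8) :
    bF m Θ ∅ = clev (fun s => Θ (cdec s)) (cL2 m) := by
  rw [← cleq_sound _ _ (cV2_eq m hm), cV2, clev_cmrg, ← cdec_zero,
    cbF_spec Θ Θ cF0 (cF0_spec Θ)]
  simp [clev]

theorem cV3_spec (Θ : Fk) (m : ℕ) (hm : m < 8) (a : Fin 9) :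
    cop a (bF m Θ) ∅ = clev (fun s => Θ (cdec s)) (cL3 m a) := by
  rw [← cleq_sound _ _ (cV3_eq m hm a a.2), cV3, clev_cmrg, ← cdec_zero,
    ccop_spec Θ (bF m Θ) (cbF m cF0) (cbF_spec Θ Θ cF0 (cF0_spec Θ) m)]
  simp [clev]

theorem cV4_spec (Θ : Fk) (m : ℕ) (hm : m < 8) (m2 : ℕ) (hm2 : m2 < 8) :
    bF m2 (bF m Θ) ∅ = clev (fun s => Θ (cdec s)) (cL4 m m2) := by
  rw [← cleq_sound _ _ (cV4_eq m hm m2 hm2), cV4, clev_cmrg, ← cdec_zero,
    cbF_spec Θ (bF m Θ) (cbF m cF0) (cbF_spec Θ Θ cF0 (cF0_spec Θ) m)]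
  simp [clev]

theorem cL2_lt : ∀ m < 8, ∀ p ∈ cL2 m, p.2 < 512 := by decide +kernel
theorem cL3_lt : ∀ m < 8, ∀ a < 9, ∀ p ∈ cL3 m a, p.2 < 512 := by decide +kernel
theorem cL4_lt : ∀ m < 8, ∀ m2 < 8, ∀ p ∈ cL4 m m2, p.2 < 512 := by decide +kernel

theorem cgI_eq : ∀ m < 8, (gC m : ℝ) * 80000 = (cgI m : ℝ) := by
  intro m hm
  interval_cases m <;> simp [gC, gT, cgI] <;> norm_num

theorem cQ2_spec (Θ : Fk) (q : CQ 9) :
    ctev (fun s => Θ (cdec s)) 9 0 1 (cQ2 q) = ctev (fun s => Θ (cdec s)) 9 0 1 q +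
      160000 * ((1 / 2) * (∑ m ∈ range 8, (gC m : ℝ) * (bF m Θ ∅) ^ 2)) := by
  rw [cQ2, ctev_cfor _ _ _ (fun m => (cgI m : ℝ) * (clev (fun s => Θ (cdec s)) (cL2 m) *
    clev (fun s => Θ (cdec s)) (cL2 m))) (fun m hm q => ctev_cprod _ _ _ _ _ (cL2_lt m hm))]
  rw [mul_sum, mul_sum]
  congr 1
  refine sum_congr rfl fun m hm => ?_
  rw [mem_range] at hm
  rw [← cgI_eq m hm, cV2_spec Θ m hm]
  ring

theorem cQ3_spec (Θ : Fk) (q : CQ 9) :
    ctev (fun s => Θ (cdec s)) 9 0 1 (cQ3 q) = ctev (fun s => Θ (cdec s)) 9 0 1 q +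
      160000 * ((1 / 2) * (∑ m ∈ range 8, ∑ m' ∈ range 8, ∑ a : Fin 9, ∑ a' : Fin 9,
      if m + (a : ℕ) = m' + (a' : ℕ) then
        (yC (m + a) m m' : ℝ) * (cop a (bF m Θ) ∅ * cop a' (bF m' Θ) ∅)
      else 0)) := by
  set x : ℕ → ℝ := fun s => Θ (cdec s) with hx
  have hv : ∀ m < 8, ∀ m' < 8, ∀ a < 9, ∀ a' < 9, ∀ q : CQ 9,
      ctev x 9 0 1 (if m + a = m' + a' then
        cprod (80 * cyI (m + a) m m') (cL3 m a) (cL3 m' a') q else q) =
      ctev x 9 0 1 q + (if m + a = m' + a' then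
        ((80 * cyI (m + a) m m' : ℤ) : ℝ) * (clev x (cL3 m a) * clev x (cL3 m' a')) else 0) := by
    intro m hm m' _ a ha a' _ q
    split_ifs
    · exact ctev_cprod _ _ _ _ _ (cL3_lt m hm a ha)
    · simp
  rw [cQ3, ctev_cfor x 8 _ _ (fun m hm q => ctev_cfor x 8 _ _ (fun m' hm' q =>
    ctev_cfor x 9 _ _ (fun a ha q => ctev_cfor x 9 _ _ (fun a' ha' q =>
      hv m hm m' hm' a ha a' ha' q) q) q) q) q]
  rw [mul_sum, mul_sum]
  congr 1
  refine sum_congr rfl fun m hm => ?_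
  rw [mul_sum, mul_sum]
  refine sum_congr rfl fun m' hm' => ?_
  rw [← Fin.sum_univ_eq_sum_range (fun a => ∑ a' ∈ range 9, if m + a = m' + a' then
        ((80 * cyI (m + a) m m' : ℤ) : ℝ) * (clev x (cL3 m a) * clev x (cL3 m' a')) else 0),
    mul_sum, mul_sum]
  refine sum_congr rfl fun a _ => ?_
  rw [← Fin.sum_univ_eq_sum_range (fun a' => if m + (a : ℕ) = m' + a' then
        ((80 * cyI (m + a) m m' : ℤ) : ℝ) * (clev x (cL3 m a) * clev x (cL3 m' a')) else 0),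
    mul_sum, mul_sum]
  refine sum_congr rfl fun a' _ => ?_
  rw [mem_range] at hm hm'
  split_ifs
  · rw [cV3_spec Θ m hm a, cV3_spec Θ m' hm' a', ← hx]
    simp only [yC, cyI]
    push_cast
    ring
  · simp

theorem cQ4_spec (Θ : Fk) (q : CQ 9) :
    ctev (fun s => Θ (cdec s)) 9 0 1 (cQ4 q) = ctev (fun s => Θ (cdec s)) 9 0 1 q +
      160000 * ((1 / 4) * (∑ m ∈ range 8, ∑ m2 ∈ range 8, ∑ m' ∈ range 8, ∑ m2' ∈ range 8,
      if m + m2 = m' + m2' then
        (zC (m + m2) m m' : ℝ) * (bF m2 (bF m Θ) ∅ * bF m2' (bF m' Θ) ∅)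
      else 0)) := by
  set x : ℕ → ℝ := fun s => Θ (cdec s) with hx
  have hv : ∀ m < 8, ∀ a < 8, ∀ m' < 8, ∀ a' < 8, ∀ q : CQ 9,
      ctev x 9 0 1 (if m + a = m' + a' then
        cprod (40 * czI (m + a) m m') (cL4 m a) (cL4 m' a') q else q) =
      ctev x 9 0 1 q + (if m + a = m' + a' then
        ((40 * czI (m + a) m m' : ℤ) : ℝ) * (clev x (cL4 m a) * clev x (cL4 m' a')) else 0) := by
    intro m hm a ha m' _ a' _ q
    split_ifs
    · exact ctev_cprod _ _ _ _ _ (cL4_lt m hm a ha)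
    · simp
  rw [cQ4, ctev_cfor x 8 _ _ (fun m hm q => ctev_cfor x 8 _ _ (fun a ha q =>
    ctev_cfor x 8 _ _ (fun m' hm' q => ctev_cfor x 8 _ _ (fun a' ha' q =>
      hv m hm a ha m' hm' a' ha' q) q) q) q) q]
  rw [mul_sum, mul_sum]
  congr 1
  refine sum_congr rfl fun m hm => ?_
  rw [mul_sum, mul_sum]
  refine sum_congr rfl fun a ha => ?_
  rw [mul_sum, mul_sum]
  refine sum_congr rfl fun m' hm' => ?_
  rw [mul_sum, mul_sum]
  refine sum_congr rfl fun a' ha' => ?_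
  rw [mem_range] at hm hm' ha ha'
  split_ifs
  · rw [cV4_spec Θ m hm a ha, cV4_spec Θ m' hm' a' ha', ← hx]
    simp only [zC, czI]
    push_cast
    ring
  · simp

theorem cLP_spec (Θ : Fk) : crev (fun s => Θ (cdec s)) cLP = 160000 * cphi Θ := by
  have hlt : ∀ p ∈ cLP, p.1 < 512 := by decide +kernel
  have h1 := ctev_cbuild (fun s => Θ (cdec s)) cLP (cemp 9) hlt
  rw [← cqeq_sound 9 _ _ cQ_eq, cQ4_spec, cQ3_spec, cQ2_spec, ctev_cemp] at h1
  unfold cphi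
  linarith

theorem cLE_spec (Θ : Fk) :
    crev (fun s => Θ (cdec s)) cLE = ∑ m ∈ range 8, (bF m Θ ∅) ^ 2 := by
  have hlt : ∀ p ∈ cLE, p.1 < 512 := by decide +kernel
  have h1 := ctev_cbuild (fun s => Θ (cdec s)) cLE (cemp 9) hlt
  rw [← cqeq_sound 9 _ _ cE_eq, ctev_cfor _ 8 _ (fun m => ((1 : ℤ) : ℝ) *
    (clev (fun s => Θ (cdec s)) (cL2 m) * clev (fun s => Θ (cdec s)) (cL2 m)))
    (fun m hm q => ctev_cprod _ _ _ _ _ (cL2_lt m hm)), ctev_cemp, zero_add, zero_add] at h1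
  rw [← h1]
  refine sum_congr rfl fun m hm => ?_
  rw [cV2_spec Θ m (mem_range.1 hm)]
  push_cast; ring

/-! ### translation by `T` -/

theorem csgn_eq (p t : ℕ) : ∀ k : ℕ,
    (csgn p t k : ℝ) = ∏ i ∈ range k, if p.testBit i = true then (csg t i : ℝ) else 1
  | 0 => by simp [csgn]
  | k + 1 => by
    rw [prod_range_succ, ← csgn_eq p t k]
    simp only [csgn]
    split_ifs
    · push_cast; ring
    · simp

theorem csgF_cdec (p t : ℕ) : csgF (cdec p) (cdec t) = (csgn p t 9 : ℝ) := by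
  unfold csgF
  rw [csgn_eq, ← Fin.prod_univ_eq_prod_range
    (fun i => if p.testBit i = true then (csg t i : ℝ) else 1) 9, cdec, prod_filter]
  refine prod_congr rfl fun i _ => ?_
  split_ifs
  · rw [← csg_eq t i (by omega)]
    rfl
  · rfl

theorem cdec_union (p t : ℕ) : cdec p ∪ cdec t = cdec (p ||| t) := by
  ext i
  simp [mem_cdec, Nat.testBit_or]

theorem testBit_ge {p i : ℕ} (hp : p < 512) (hi : 9 ≤ i) : p.testBit i = false := by
  apply Nat.testBit_lt_two_pow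
  calc p < 2 ^ 9 := by simpa using hp
    _ ≤ 2 ^ i := Nat.pow_le_pow_right (by norm_num) hi

theorem cdec_disj {p t : ℕ} (hp : p < 512) : Disjoint (cdec p) (cdec t) ↔ p &&& t = 0 := by
  rw [disjoint_left]
  constructor
  · intro h
    apply Nat.eq_of_testBit_eq
    intro i
    rw [Nat.testBit_and, Nat.zero_testBit]
    by_cases hi : i < 9
    · by_cases hb : p.testBit i = true
      · have := h ((mem_cdec p ⟨i, hi⟩).2 hb)
        rw [mem_cdec] at this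
        simp only at this
        simp [this]
      · simp [hb]
    · have hb := testBit_ge hp (Nat.le_of_not_lt hi)
      simp [hb]
  · intro h a ha hb
    rw [mem_cdec] at ha hb
    have : (p &&& t).testBit a = true := by rw [Nat.testBit_and, ha, hb]; rfl
    rw [h] at this
    simp at this

theorem csh_cdec (Ψ : Fk) (p t : ℕ) (hp : p < 512) :
    csh (cdec t) Ψ (cdec p) =
      if p &&& t = 0 then (csgn p t 9 : ℝ) * Ψ (cdec (p ||| t)) else 0 := by
  unfold csh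
  rw [csgF_cdec, cdec_union]
  by_cases h : p &&& t = 0
  · rw [if_pos ((cdec_disj hp).2 h), if_pos h]
  · rw [if_neg (fun h' => h ((cdec_disj hp).1 h')), if_neg h]

theorem ctr_spec (Ψ : Fk) (t : ℕ) : ∀ r : CLF, (∀ p ∈ r, p.2 < 512) →
    clev (fun s => Ψ (cdec s)) (ctr t r) = clev (fun p => csh (cdec t) Ψ (cdec p)) r
  | [], _ => rfl
  | (c, p) :: r, h => by
    have ih := ctr_spec Ψ t r fun q hq => h q (by simp [hq])
    have hp : p < 512 := h (c, p) (by simp)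
    simp only [ctr]
    rw [clev, csh_cdec Ψ p t hp]
    split_ifs
    · rw [clev, ih]; push_cast; ring
    · rw [ih]; ring

theorem cacc_spec (Ψ : Fk) (w : ℤ) (t : ℕ) (ht : t < 512) (q : CQ 9) :
    ∀ R : List (ℕ × CLF), (∀ p ∈ R, p.1 < 512 ∧ ∀ e ∈ p.2, e.2 < 512) →
    ctev (fun s => Ψ (cdec s)) 9 0 1 (cacc w t R q) =
      ctev (fun s => Ψ (cdec s)) 9 0 1 q +
        (w : ℝ) * crev (fun p => csh (cdec t) Ψ (cdec p)) R
  | [], _ => by simp [cacc, crev]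
  | (p, r) :: R, h => by
    have ih := cacc_spec Ψ w t ht q R fun q hq => h q (by simp [hq])
    have hp := h (p, r) (by simp)
    have hor : p ||| t < 2 ^ 9 := Nat.or_lt_two_pow (by simpa using hp.1) (by simpa using ht)
    simp only [cacc]
    rw [crev, csh_cdec Ψ p t hp.1]
    split_ifs
    · rw [ctev_cupd _ _ _ _ _ _ _ hor, ih, clev_cscal, ctr_spec Ψ t r hp.2, zero_add, one_mul]
      push_cast; ring
    · rw [ih]; ring

theorem cfw_eq (t : ℕ) : ∀ k : ℕ,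
    (cfw t k : ℝ) = ∏ i ∈ range k, if t.testBit i = true then ((i.factorial : ℕ) : ℝ) else 1
  | 0 => by simp [cfw]
  | k + 1 => by
    rw [prod_range_succ, ← cfw_eq t k]
    simp only [cfw]
    split_ifs
    · push_cast; ring
    · simp

theorem om_cdec (t : ℕ) :
    om (fun t => ((t : ℕ).factorial : ℝ)) (cdec t) = (cfw t 9 : ℝ) := by
  unfold om
  rw [cfw_eq, ← Fin.prod_univ_eq_prod_range
    (fun i => if t.testBit i = true then ((i.factorial : ℕ) : ℝ) else 1) 9, cdec, prod_filter]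

theorem cdec_bij : Function.Bijective (fun t : Fin 512 => cdec t) := by
  rw [Fintype.bijective_iff_injective_and_card]
  constructor
  · intro s t h
    apply Fin.ext
    apply Nat.eq_of_testBit_eq
    intro i
    by_cases hi : i < 9
    · have h1 : (⟨i, hi⟩ : Fin 9) ∈ cdec s ↔ (⟨i, hi⟩ : Fin 9) ∈ cdec t := by
        simp only at h
        rw [h]
      rw [mem_cdec, mem_cdec] at h1
      simp only at h1
      exact Bool.eq_iff_iff.2 h1
    · rw [testBit_ge s.2 (by omega), testBit_ge t.2 (by omega)]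
  · simp

theorem sum_cdec (f : Finset (Fin 9) → ℝ) : ∑ T, f T = ∑ t ∈ range 512, f (cdec t) := by
  rw [← Fin.sum_univ_eq_sum_range (fun t => f (cdec t)) 512]
  exact (cdec_bij.sum_comp f).symm

theorem cert_eq (Ψ : Fk) :
    160000 * (fockForm (fun t => ((t : ℕ).factorial : ℝ)) Ψ
      - (1 / 10000) * ∑ m ∈ range 8, ∑ T : Finset (Fin 9), (bF m Ψ T) ^ 2)
      = crev (fun s => Ψ (cdec s)) cBs.flatten := by
  have hlt : ∀ p ∈ cBs.flatten, p.1 < 512 := by decide +kernel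
  have hP : ∀ p ∈ cLP, p.1 < 512 ∧ ∀ e ∈ p.2, e.2 < 512 := by decide +kernel
  have hE : ∀ p ∈ cLE, p.1 < 512 ∧ ∀ e ∈ p.2, e.2 < 512 := by decide +kernel
  have h1 := ctev_cbuild (fun s => Ψ (cdec s)) cBs.flatten (cemp 9) hlt
  rw [← cqeq_sound 9 _ _ cbig_eq, ctev_cemp, zero_add, cbig,
    ctev_cfor _ 512 _ (fun t => (cfw t 9 : ℝ) * (160000 * cphi (csh (cdec t) Ψ)) +
      ((-16 : ℤ) : ℝ) * ∑ m ∈ range 8, (bF m (csh (cdec t) Ψ) ∅) ^ 2), ctev_cemp, zero_add] at h1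
  · rw [← h1, fock_eq, sum_comm, sum_cdec, sum_cdec, mul_sub, mul_sum, mul_sum, mul_sum,
      ← sum_sub_distrib]
    refine sum_congr rfl fun t _ => ?_
    have h3 : ∀ m, bF m (csh (cdec t) Ψ) ∅ = bF m Ψ (cdec t) := fun m => by
      rw [← csh_bF, csh_empty]
    rw [om_cdec]
    simp only [h3]
    push_cast
    ring
  · intro t ht q
    rw [cacc_spec Ψ _ t ht _ _ hP, cacc_spec Ψ _ t ht _ _ hE,
      cLP_spec (csh (cdec t) Ψ), cLE_spec (csh (cdec t) Ψ)]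
    ring

theorem cert (Ψ : Fk) :
    (1 / 10000) * ∑ m ∈ range 8, ∑ T : Finset (Fin 9), (bF m Ψ T) ^ 2
      ≤ fockForm (fun t => ((t : ℕ).factorial : ℝ)) Ψ := by
  have h1 := cert_eq Ψ
  have h2 := big_nonneg (fun s => Ψ (cdec s))
  linarith

end Vale.Agent.P359
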