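import Mathlib

/-!
A kernel-evaluable test for positive semidefiniteness of integer symmetric matrices.

A symmetric matrix is stored as the list of its upper triangular rows: the `i`-th row is
`[A i i, A i (i+1), ..., A i (n-1)]`.
-/

namespace Vale.P359

/-- `sum_i v_i x_i` (truncated to the shorter list). -/
def ldot : List ℤ → List ℝ → ℝ
  | a :: v, x :: xs => (a : ℝ) * x + ldot v xs
  | _, _ => 0

/-- The quadratic form of a symmetric matrix given by its upper triangular rows. -/
def qf : List (List ℤ) → List ℝ → ℝ
  | (a :: v) :: R, x :: xs => (a : ℝ) * x ^ 2 + 2 * x * ldot v xs + qf R xs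
  | _, _ => 0

/-- `[a * r_j - c * v_j]_j`. -/
def comb (a c : ℤ) : List ℤ → List ℤ → List ℤ
  | r :: rs, v :: vs => (a * r - c * v) :: comb a c rs vs
  | _, _ => []

/-- Schur complement (times the pivot `a`). -/
def schur (a : ℤ) : List ℤ → List (List ℤ) → List (List ℤ)
  | v1 :: vs, r :: R => comb a v1 r (v1 :: vs) :: schur a vs R
  | _, _ => []

/-- Upper triangular shape of size `n`. -/
def shape : ℕ → List (List ℤ) → Bool
  | 0, [] => true
  | n + 1, r :: R => r.length == n + 1 && shape n R
  | _, _ => false

/-- gcd of all the entries. -/
def gcdRow (g : ℕ) : List ℤ → ℕ
  | [] => g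
  | a :: v => gcdRow (Nat.gcd g a.natAbs) v

def gcdAll (g : ℕ) : List (List ℤ) → ℕ
  | [] => g
  | r :: R => gcdAll (gcdRow g r) R

/-- divide all entries by `g`. -/
def divRow (g : ℤ) : List ℤ → List ℤ
  | [] => []
  | a :: v => (a / g) :: divRow g v

def divAll (g : ℤ) : List (List ℤ) → List (List ℤ)
  | [] => []
  | r :: R => divRow g r :: divAll g R

/-- check `B = g * C` entrywise -/
def eqMulRow (g : ℤ) : List ℤ → List ℤ → Bool
  | [], [] => true
  | b :: bs, c :: cs => (b == g * c) && eqMulRow g bs cs
  | _, _ => false

def eqMulAll (g : ℤ) : List (List ℤ) → List (List ℤ) → Bool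
  | [], [] => true
  | b :: bs, c :: cs => eqMulRow g b c && eqMulAll g bs cs
  | _, _ => false

/-- all entries zero -/
def zeroRow : List ℤ → Bool
  | [] => true
  | a :: v => (a == 0) && zeroRow v

/-- The test. -/
def psdCheck : ℕ → List (List ℤ) → Bool
  | 0, _ => true
  | _ + 1, [] => false
  | _ + 1, [] :: _ => false
  | n + 1, (a :: v) :: R =>
    if 0 < a then
      let B := schur a v R
      let g : ℤ := (gcdAll 0 B : ℕ)
      if 1 < g then
        let C := divAll g B
        eqMulAll g B C && psdCheck n C
      else psdCheck n B
    else
      (a == 0) && zeroRow v && psdCheck n R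

theorem qf_nil (x : List ℝ) : qf [] x = 0 := by cases x <;> rfl

theorem ldot_zero {v : List ℤ} (h : zeroRow v = true) (x : List ℝ) : ldot v x = 0 := by
  induction v generalizing x with
  | nil => cases x <;> rfl
  | cons a v ih =>
    simp only [zeroRow, Bool.and_eq_true, beq_iff_eq] at h
    cases x with
    | nil => rfl
    | cons y ys => simp [ldot, h.1, ih h.2]

theorem ldot_comb (a c : ℤ) (r v : List ℤ) (hl : r.length = v.length) (x : List ℝ) :
    ldot (comb a c r v) x = a * ldot r x - c * ldot v x := by
  induction r generalizing v x with
  | nil =>
    cases v with
    | nil => cases x <;> simp [comb, ldot]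
    | cons _ _ => simp at hl
  | cons b r ih =>
    cases v with
    | nil => simp at hl
    | cons w v =>
      cases x with
      | nil => simp [comb, ldot]
      | cons y ys =>
        simp only [List.length_cons, Nat.add_right_cancel_iff] at hl
        simp only [comb, ldot, ih v hl ys]
        push_cast
        ring

theorem qf_schur (a : ℤ) (v : List ℤ) (R : List (List ℤ)) (n : ℕ) (hv : v.length = n)
    (hR : shape n R = true) (x : List ℝ) :
    qf (schur a v R) x = a * qf R x - (ldot v x) ^ 2 := by
  induction n generalizing v R x with
  | zero =>
    cases v with
    | nil =>
      cases R with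
      | nil => cases x <;> simp [schur, qf, ldot]
      | cons _ _ => simp [shape] at hR
    | cons _ _ => simp at hv
  | succ n ih =>
    cases v with
    | nil => simp at hv
    | cons v1 vs =>
      cases R with
      | nil => simp [shape] at hR
      | cons r R =>
        simp only [shape, Bool.and_eq_true, beq_iff_eq] at hR
        cases r with
        | nil => simp at hR
        | cons r1 rs =>
          simp only [List.length_cons, Nat.add_right_cancel_iff] at hv hR
          cases x with
          | nil => simp [schur, qf, ldot, comb]
          | cons y ys =>
            simp only [schur, comb, qf, ldot]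
            rw [ldot_comb a v1 rs vs (by rw [hR.1, hv]) ys, ih vs R hv hR.2 ys]
            push_cast
            ring

theorem ldot_div {g : ℤ} {b c : List ℤ} (h : eqMulRow g b c = true) (x : List ℝ) :
    ldot b x = g * ldot c x := by
  induction b generalizing c x with
  | nil =>
    cases c with
    | nil => cases x <;> simp [ldot]
    | cons _ _ => simp [eqMulRow] at h
  | cons b1 bs ih =>
    cases c with
    | nil => simp [eqMulRow] at h
    | cons c1 cs =>
      simp only [eqMulRow, Bool.and_eq_true, beq_iff_eq] at h
      cases x with
      | nil => simp [ldot]
      | cons y ys =>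
        simp only [ldot, ih h.2 ys, h.1]
        push_cast
        ring

theorem qf_div {g : ℤ} {B C : List (List ℤ)} (h : eqMulAll g B C = true) (x : List ℝ) :
    qf B x = g * qf C x := by
  induction B generalizing C x with
  | nil =>
    cases C with
    | nil => simp [qf_nil]
    | cons _ _ => simp [eqMulAll] at h
  | cons b bs ih =>
    cases C with
    | nil => simp [eqMulAll] at h
    | cons c cs =>
      simp only [eqMulAll, Bool.and_eq_true] at h
      cases b with
      | nil =>
        cases c with
        | nil => cases x <;> simp [qf]
        | cons _ _ => simp [eqMulRow] at h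
      | cons b1 b' =>
        cases c with
        | nil => simp [eqMulRow] at h
        | cons c1 c' =>
          cases x with
          | nil => simp [qf]
          | cons y ys =>
            have h1 := h.1
            simp only [eqMulRow, Bool.and_eq_true, beq_iff_eq] at h1
            simp only [qf, ih h.2 ys, h1.1, ldot_div h1.2 ys]
            push_cast
            ring

theorem shape_schur (a : ℤ) (v : List ℤ) (R : List (List ℤ)) (n : ℕ) (hv : v.length = n)
    (hR : shape n R = true) : shape n (schur a v R) = true := by
  have hcomb : ∀ (a c : ℤ) (r v : List ℤ), r.length = v.length → (comb a c r v).length = v.length := by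
    intro a c r
    induction r with
    | nil => intro v h; cases v with
      | nil => rfl
      | cons _ _ => simp at h
    | cons b r ih => intro v h; cases v with
      | nil => simp at h
      | cons w v => simp only [comb, List.length_cons]; rw [ih v (by simpa using h)]
  induction n generalizing v R with
  | zero =>
    cases v with
    | nil =>
      cases R with
      | nil => rfl
      | cons _ _ => simp [shape] at hR
    | cons _ _ => simp at hv
  | succ n ih =>
    cases v with
    | nil => simp at hv
    | cons v1 vs =>
      cases R with
      | nil => simp [shape] at hR
      | cons r R =>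
        simp only [shape, Bool.and_eq_true, beq_iff_eq] at hR
        simp only [schur, shape, Bool.and_eq_true, beq_iff_eq]
        refine ⟨?_, ih vs R (by simpa using hv) hR.2⟩
        rw [hcomb _ _ _ _ (by rw [hR.1, hv]), hv]

theorem shape_div {g : ℤ} {B C : List (List ℤ)} (h : eqMulAll g B C = true) (n : ℕ)
    (hB : shape n B = true) : shape n C = true := by
  have hrow : ∀ (b c : List ℤ), eqMulRow g b c = true → b.length = c.length := by
    intro b
    induction b with
    | nil => intro c h; cases c with
      | nil => rfl
      | cons _ _ => simp [eqMulRow] at h
    | cons b1 bs ih => intro c h; cases c with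
      | nil => simp [eqMulRow] at h
      | cons c1 cs =>
        simp only [eqMulRow, Bool.and_eq_true] at h
        simp [ih cs h.2]
  induction B generalizing C n with
  | nil =>
    cases C with
    | nil => exact hB
    | cons _ _ => simp [eqMulAll] at h
  | cons b bs ih =>
    cases C with
    | nil => simp [eqMulAll] at h
    | cons c cs =>
      simp only [eqMulAll, Bool.and_eq_true] at h
      cases n with
      | zero => simp [shape] at hB
      | succ n =>
        simp only [shape, Bool.and_eq_true, beq_iff_eq] at hB ⊢
        exact ⟨by rw [← hrow b c h.1, hB.1], ih h.2 n hB.2⟩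

/-- Soundness of the test. -/
theorem qf_nonneg (n : ℕ) (A : List (List ℤ)) (hs : shape n A = true) (h : psdCheck n A = true)
    (x : List ℝ) : 0 ≤ qf A x := by
  induction n generalizing A x with
  | zero =>
    cases A with
    | nil => simp [qf_nil]
    | cons _ _ => simp [shape] at hs
  | succ n ih =>
    cases A with
    | nil => simp [shape] at hs
    | cons r R =>
      simp only [shape, Bool.and_eq_true, beq_iff_eq] at hs
      cases r with
      | nil => simp at hs
      | cons a v =>
        have hv : v.length = n := by simpa using hs.1
        cases x with
        | nil => simp [qf]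
        | cons y ys =>
          simp only [psdCheck] at h
          split at h
          next ha =>
            have haR : (0 : ℝ) < a := by exact_mod_cast ha
            have key : 0 ≤ qf (schur a v R) ys := by
              split at h
              next hg =>
                simp only [Bool.and_eq_true] at h
                rw [qf_div h.1 ys]
                have := ih _ (shape_div h.1 n (shape_schur a v R n hv hs.2)) h.2 ys
                have hgR : (0 : ℝ) < ((gcdAll 0 (schur a v R) : ℕ) : ℤ) := by
                  exact_mod_cast lt_trans Int.zero_lt_one hg
                positivity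
              next hg =>
                exact ih _ (shape_schur a v R n hv hs.2) h ys
            rw [qf_schur a v R n hv hs.2 ys] at key
            have h2 : (a : ℝ) * qf ((a :: v) :: R) (y :: ys)
                = (a * y + ldot v ys) ^ 2 + (a * qf R ys - (ldot v ys) ^ 2) := by
              simp only [qf]; ring
            have h3 : 0 ≤ (a : ℝ) * qf ((a :: v) :: R) (y :: ys) := by
              rw [h2]; positivity
            exact nonneg_of_mul_nonneg_right h3 haR
          next ha =>
            simp only [Bool.and_eq_true, beq_iff_eq] at h
            obtain ⟨⟨h0, hz⟩, hR⟩ := h
            simp only [qf, h0, ldot_zero hz]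
            have := ih R hs.2 hR ys
            simpa using this

end Vale.P359
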