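import Vale.Agent.P359.Defs
import Vale.Agent.P359.PsdCheck

/-! Linear and quadratic forms on `Fk`, coded with bit masks. -/

namespace Vale.Agent.P359

open Finset

/-- linear forms: lists of (coefficient, mask) -/
abbrev CLF := List (ℤ × ℕ)

noncomputable def clev (x : ℕ → ℝ) : CLF → ℝ
  | [] => 0
  | (c, s) :: l => (c : ℝ) * x s + clev x l

def cadd (c : ℤ) (s : ℕ) : CLF → CLF
  | [] => if c = 0 then [] else [(c, s)]
  | (c', s') :: l =>
      if c = 0 then (c', s') :: l
      else if s < s' then (c, s) :: (c', s') :: l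
      else if s = s' then (if c + c' = 0 then l else (c + c', s) :: l)
      else (c', s') :: cadd c s l

def cscal (w : ℤ) (l : CLF) : CLF := l.map fun p => (w * p.1, p.2)

def cmrg (r l : CLF) : CLF := r.foldr (fun p acc => cadd p.1 p.2 acc) l

theorem clev_cadd (x : ℕ → ℝ) (c : ℤ) (s : ℕ) (l : CLF) :
    clev x (cadd c s l) = (c : ℝ) * x s + clev x l := by
  induction l with
  | nil =>
    simp only [cadd]
    split_ifs with h
    · simp [clev, h]
    · simp [clev]
  | cons p l ih =>
    obtain ⟨c', s'⟩ := p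
    simp only [cadd]
    split_ifs with h0 h1 h2 h3
    · simp [clev, h0]
    · simp [clev]
    · have : (c' : ℝ) = -(c : ℝ) := by
        have : ((c + c' : ℤ) : ℝ) = 0 := by rw [h3]; simp
        push_cast at this; linarith
      simp only [clev, this, h2]; ring
    · simp only [clev, h2]; push_cast; ring
    · simp only [clev, ih]; ring

theorem clev_cscal (x : ℕ → ℝ) (w : ℤ) (l : CLF) :
    clev x (cscal w l) = (w : ℝ) * clev x l := by
  induction l with
  | nil => simp [cscal, clev]
  | cons p l ih =>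
    have : cscal w (p :: l) = (w * p.1, p.2) :: cscal w l := rfl
    rw [this]
    simp only [clev, ih]; push_cast; ring

theorem clev_cmrg (x : ℕ → ℝ) (r l : CLF) : clev x (cmrg r l) = clev x r + clev x l := by
  induction r with
  | nil => simp [cmrg, clev]
  | cons p r ih =>
    have : cmrg (p :: r) l = cadd p.1 p.2 (cmrg r l) := rfl
    rw [this, clev_cadd, ih]
    obtain ⟨c, s⟩ := p
    simp only [clev]; ring

theorem clev_append (x : ℕ → ℝ) (r l : CLF) : clev x (r ++ l) = clev x r + clev x l := by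
  induction r with
  | nil => simp [clev]
  | cons p r ih =>
    obtain ⟨c, s⟩ := p
    simp only [List.cons_append, clev, ih]; ring

theorem clev_flatMap (x : ℕ → ℝ) (n : ℕ) (g : ℕ → CLF) :
    clev x ((List.range n).flatMap g) = ∑ a ∈ range n, clev x (g a) := by
  induction n with
  | zero => simp [clev]
  | succ n ih =>
    rw [List.range_succ, List.flatMap_append, clev_append, ih, sum_range_succ]
    simp

/-! ### quadratic forms as binary tries of rows -/

@[reducible] def CQ : ℕ → Type
  | 0 => CLF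
  | k + 1 => CQ k × CQ k

def cemp : (k : ℕ) → CQ k
  | 0 => ([] : CLF)
  | k + 1 => (cemp k, cemp k)

def cupd : (k : ℕ) → ℕ → CLF → CQ k → CQ k
  | 0, _, r, q => cmrg r q
  | k + 1, s, r, (a, b) =>
    if s % 2 = 0 then (cupd k (s / 2) r a, b) else (a, cupd k (s / 2) r b)

noncomputable def ctev (x : ℕ → ℝ) : (k : ℕ) → ℕ → ℕ → CQ k → ℝ
  | 0, off, _, q => x off * clev x q
  | k + 1, off, mul, (a, b) => ctev x k off (2 * mul) a + ctev x k (off + mul) (2 * mul) b

theorem ctev_cemp (x : ℕ → ℝ) (k off mul : ℕ) : ctev x k off mul (cemp k) = 0 := by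
  induction k generalizing off mul with
  | zero => simp [ctev, cemp, clev]
  | succ k ih => simp [ctev, cemp, ih]

theorem ctev_cupd (x : ℕ → ℝ) (k : ℕ) (off mul s : ℕ) (r : CLF) (q : CQ k) (hs : s < 2 ^ k) :
    ctev x k off mul (cupd k s r q) = ctev x k off mul q + x (off + mul * s) * clev x r := by
  induction k generalizing off mul s with
  | zero =>
    have : s = 0 := by simpa using hs
    subst this
    simp only [ctev, cupd, clev_cmrg, mul_zero, add_zero]
    ring
  | succ k ih =>
    obtain ⟨a, b⟩ := q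
    have h2 : s / 2 < 2 ^ k := by omega
    simp only [cupd]
    split_ifs with h
    · simp only [ctev]
      rw [ih _ _ _ _ h2]
      have : off + 2 * mul * (s / 2) = off + mul * s := by
        obtain ⟨u, hu⟩ : ∃ u, s = 2 * u := ⟨s / 2, by omega⟩
        subst hu
        rw [Nat.mul_div_cancel_left _ (by norm_num)]; ring
      rw [this]; ring
    · simp only [ctev]
      rw [ih _ _ _ _ h2]
      have : off + mul + 2 * mul * (s / 2) = off + mul * s := by
        obtain ⟨u, hu⟩ : ∃ u, s = 2 * u + 1 := ⟨s / 2, by omega⟩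
        have : s / 2 = u := by omega
        rw [this, hu]; ring
      rw [this]; ring

/-- add the product `w * l * l'` -/
def cprod (w : ℤ) (l l' : CLF) (q : CQ 9) : CQ 9 :=
  l.foldr (fun p acc => cupd 9 p.2 (cscal (w * p.1) l') acc) q

theorem ctev_cprod (x : ℕ → ℝ) (w : ℤ) (l l' : CLF) (q : CQ 9) (hl : ∀ p ∈ l, p.2 < 512) :
    ctev x 9 0 1 (cprod w l l' q) = ctev x 9 0 1 q + (w : ℝ) * (clev x l * clev x l') := by
  induction l with
  | nil => simp [cprod, clev]
  | cons p l ih =>
    have : cprod w (p :: l) l' q = cupd 9 p.2 (cscal (w * p.1) l') (cprod w l l' q) := rfl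
    rw [this, ctev_cupd _ _ _ _ _ _ _ (by simpa using hl p (by simp)),
      ih (fun p' hp' => hl p' (by simp [hp'])), clev_cscal]
    obtain ⟨c, s⟩ := p
    simp only [clev, zero_add, one_mul]; push_cast; ring

/-- rows -/
noncomputable def crev (x : ℕ → ℝ) : List (ℕ × CLF) → ℝ
  | [] => 0
  | (s, r) :: R => x s * clev x r + crev x R

def cbuild (R : List (ℕ × CLF)) (q : CQ 9) : CQ 9 :=
  R.foldr (fun p acc => cupd 9 p.1 p.2 acc) q

theorem ctev_cbuild (x : ℕ → ℝ) (R : List (ℕ × CLF)) (q : CQ 9) (hR : ∀ p ∈ R, p.1 < 512) :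
    ctev x 9 0 1 (cbuild R q) = ctev x 9 0 1 q + crev x R := by
  induction R with
  | nil => simp [cbuild, crev]
  | cons p R ih =>
    have : cbuild (p :: R) q = cupd 9 p.1 p.2 (cbuild R q) := rfl
    rw [this, ctev_cupd _ _ _ _ _ _ _ (by simpa using hR p (by simp)),
      ih (fun p' hp' => hR p' (by simp [hp']))]
    obtain ⟨s, r⟩ := p
    simp only [crev, zero_add, one_mul]; ring

theorem crev_append (x : ℕ → ℝ) (R S : List (ℕ × CLF)) :
    crev x (R ++ S) = crev x R + crev x S := by
  induction R with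
  | nil => simp [crev]
  | cons p R ih =>
    obtain ⟨s, r⟩ := p
    simp only [List.cons_append, crev, ih]; ring

/-- loops -/
def cfor (n : ℕ) (step : ℕ → CQ 9 → CQ 9) (q : CQ 9) : CQ 9 :=
  (List.range n).foldr step q

theorem ctev_cfor (x : ℕ → ℝ) (n : ℕ) (step : ℕ → CQ 9 → CQ 9) (val : ℕ → ℝ)
    (h : ∀ i < n, ∀ q, ctev x 9 0 1 (step i q) = ctev x 9 0 1 q + val i) (q : CQ 9) :
    ctev x 9 0 1 (cfor n step q) = ctev x 9 0 1 q + ∑ i ∈ range n, val i := by
  induction n generalizing q with
  | zero => simp [cfor]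
  | succ n ih =>
    have : cfor (n + 1) step q = cfor n step (step n q) := by
      simp [cfor, List.range_succ, List.foldr_append]
    rw [this, ih (fun i hi => h i (by omega)), h n (by omega), sum_range_succ]
    ring

/-- equality test -/
def cleq : CLF → CLF → Bool
  | [], [] => true
  | (c, s) :: l, (c', s') :: l' => (c == c') && (s == s') && cleq l l'
  | _, _ => false

theorem cleq_sound : ∀ l l' : CLF, cleq l l' = true → l = l'
  | [], [], _ => rfl
  | (c, s) :: l, (c', s') :: l', h => by
    simp only [cleq, Bool.and_eq_true, beq_iff_eq] at h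
    rw [h.1.1, h.1.2, cleq_sound l l' h.2]
  | [], _ :: _, h => by simp [cleq] at h
  | _ :: _, [], h => by simp [cleq] at h

def cqeq : (k : ℕ) → CQ k → CQ k → Bool
  | 0, a, b => cleq a b
  | k + 1, (a, b), (c, d) => cqeq k a c && cqeq k b d

theorem cqeq_sound : ∀ (k : ℕ) (a b : CQ k), cqeq k a b = true → a = b
  | 0, a, b, h => cleq_sound a b h
  | k + 1, (a, b), (c, d), h => by
    simp only [cqeq, Bool.and_eq_true] at h
    exact Prod.ext (cqeq_sound k a c h.1) (cqeq_sound k b d h.2)

/-! ### masks -/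

def cdec (t : ℕ) : Finset (Fin 9) := univ.filter fun i => t.testBit i = true

theorem mem_cdec (t : ℕ) (i : Fin 9) : i ∈ cdec t ↔ t.testBit i = true := by
  simp [cdec]

theorem cdec_or (t : ℕ) (a : Fin 9) : cdec (t ||| 2 ^ (a : ℕ)) = insert a (cdec t) := by
  ext i
  simp only [mem_cdec, mem_insert, Nat.testBit_or, Nat.testBit_two_pow, Bool.or_eq_true,
    decide_eq_true_eq]
  rw [or_comm, Fin.ext_iff, eq_comm]

def csg (t : ℕ) : ℕ → ℤ
  | 0 => 1
  | a + 1 => if t.testBit a then - csg t a else csg t a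

theorem csg_eq (t : ℕ) : ∀ a ≤ 9,
    (-1 : ℝ) ^ ((cdec t).filter fun i : Fin 9 => (i : ℕ) < a).card = (csg t a : ℝ)
  | 0, _ => by simp [csg]
  | a + 1, ha => by
    have ih := csg_eq t a (by omega)
    simp only [csg]
    by_cases hb : t.testBit a = true
    · have : (cdec t).filter (fun i : Fin 9 => (i : ℕ) < a + 1) =
          insert (⟨a, by omega⟩ : Fin 9) ((cdec t).filter fun i : Fin 9 => (i : ℕ) < a) := by
        ext i
        simp only [mem_filter, mem_insert, mem_cdec, Fin.ext_iff]
        constructor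
        · rintro ⟨h1, h2⟩
          rcases Nat.lt_succ_iff_lt_or_eq.1 h2 with h | h
          · exact Or.inr ⟨h1, h⟩
          · exact Or.inl h
        · rintro (h | ⟨h1, h2⟩)
          · rw [h]; exact ⟨hb, by omega⟩
          · exact ⟨h1, by omega⟩
      rw [this, card_insert_of_notMem (by simp), pow_succ, ih, if_pos hb]
      push_cast; ring
    · have : (cdec t).filter (fun i : Fin 9 => (i : ℕ) < a + 1) =
          (cdec t).filter fun i : Fin 9 => (i : ℕ) < a := by
        ext i
        simp only [mem_filter, mem_cdec]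
        constructor
        · rintro ⟨h1, h2⟩
          refine ⟨h1, ?_⟩
          rcases Nat.lt_succ_iff_lt_or_eq.1 h2 with h | h
          · exact h
          · rw [h] at h1; exact absurd h1 hb
        · rintro ⟨h1, h2⟩; exact ⟨h1, by omega⟩
      rw [this, ih, if_neg hb]

theorem cop_cdec (a : Fin 9) (G : Fk) (t : ℕ) :
    cop a G (cdec t) = if t.testBit a = true then 0
      else (csg t a : ℝ) * G (cdec (t ||| 2 ^ (a : ℕ))) := by
  unfold cop
  rw [cdec_or]
  have := csg_eq t a (by omega)
  by_cases h : t.testBit a = true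
  · rw [if_pos ((mem_cdec t a).2 h), if_pos h]
  · rw [if_neg (fun h' => h ((mem_cdec t a).1 h')), if_neg h, ← this]
    rfl

/-- linear form attached to a value -/
def ccop (a : ℕ) (F : ℕ → CLF) (t : ℕ) : CLF :=
  if t.testBit a = true then [] else cscal (csg t a) (F (t ||| 2 ^ a))

theorem ccop_spec (Ψ G : Fk) (F : ℕ → CLF)
    (h : ∀ t, G (cdec t) = clev (fun s => Ψ (cdec s)) (F t)) (a : Fin 9) (t : ℕ) :
    cop a G (cdec t) = clev (fun s => Ψ (cdec s)) (ccop a F t) := by
  rw [cop_cdec]
  unfold ccop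
  split_ifs
  · rfl
  · rw [clev_cscal, h]

def cbF (m : ℕ) (F : ℕ → CLF) (t : ℕ) : CLF :=
  (List.range 9).flatMap fun a => (List.range 9).flatMap fun b =>
    if a + b = m + 1 then cscal ((a : ℤ) - (b : ℤ)) (ccop b (ccop a F) t) else []

theorem cbF_spec (Ψ G : Fk) (F : ℕ → CLF)
    (h : ∀ t, G (cdec t) = clev (fun s => Ψ (cdec s)) (F t)) (m t : ℕ) :
    bF m G (cdec t) = clev (fun s => Ψ (cdec s)) (cbF m F t) := by
  unfold bF cbF
  rw [clev_flatMap, ← Fin.sum_univ_eq_sum_range (fun a => clev (fun s => Ψ (cdec s))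
    ((List.range 9).flatMap fun b =>
      if a + b = m + 1 then cscal ((a : ℤ) - (b : ℤ)) (ccop b (ccop a F) t) else []))]
  refine sum_congr rfl fun a _ => ?_
  rw [clev_flatMap, ← Fin.sum_univ_eq_sum_range (fun b => clev (fun s => Ψ (cdec s))
    (if (a : ℕ) + b = m + 1 then cscal ((a : ℤ) - (b : ℤ)) (ccop b (ccop a F) t) else []))]
  refine sum_congr rfl fun b _ => ?_
  split_ifs
  · rw [clev_cscal, ← ccop_spec Ψ (cop a G) (ccop a F) (ccop_spec Ψ G F h a) b t]
    push_cast; ring
  · rfl

def cF0 (t : ℕ) : CLF := [(1, t)]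

theorem cF0_spec (Ψ : Fk) (t : ℕ) : Ψ (cdec t) = clev (fun s => Ψ (cdec s)) (cF0 t) := by
  simp [cF0, clev]

end Vale.Agent.P359
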