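import Vale.Agent.P359.CertA

/-! Reduction of the Fock form to its value at the empty set. -/

namespace Vale.Agent.P359

open Finset

noncomputable def csgF (P T : Finset (Fin 9)) : ℝ :=
  ∏ p ∈ P, (-1 : ℝ) ^ (T.filter fun t => t < p).card

noncomputable def csh (T : Finset (Fin 9)) (Ψ : Fk) : Fk :=
  fun P => if Disjoint P T then csgF P T * Ψ (P ∪ T) else 0

theorem csh_cop (T : Finset (Fin 9)) (a : Fin 9) (Ψ : Fk) :
    csh T (cop a Ψ) = cop a (csh T Ψ) := by
  funext P
  simp only [csh, cop]
  by_cases hP : a ∈ P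
  · rw [if_pos hP]
    by_cases hd : Disjoint P T
    · rw [if_pos hd, if_pos (mem_union_left _ hP), mul_zero]
    · rw [if_neg hd]
  · rw [if_neg hP]
    by_cases hd : Disjoint P T
    · rw [if_pos hd]
      by_cases hT : a ∈ T
      · rw [if_pos (mem_union_right _ hT), mul_zero, if_neg, mul_zero]
        intro h
        exact (disjoint_left.1 h (mem_insert_self a P)) hT
      · rw [if_neg (by simp [hP, hT]), if_pos (disjoint_insert_left.2 ⟨hT, hd⟩)]
        have h1 : csgF (insert a P) T = (-1 : ℝ) ^ (T.filter fun t => t < a).card * csgF P T := by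
          unfold csgF
          rw [prod_insert hP]
        have h2 : ((P ∪ T).filter fun t => t < a).card =
            (P.filter fun t => t < a).card + (T.filter fun t => t < a).card := by
          rw [filter_union, card_union_of_disjoint (disjoint_filter_filter hd)]
        rw [h1, h2, pow_add, insert_union]
        ring
    · rw [if_neg hd, if_neg, mul_zero]
      intro h
      exact hd (disjoint_insert_left.1 h).2

theorem csh_bF (T : Finset (Fin 9)) (m : ℕ) (Ψ : Fk) :
    csh T (bF m Ψ) = bF m (csh T Ψ) := by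
  funext P
  have h : ∀ a b : Fin 9, cop b (cop a (csh T Ψ)) P = csh T (cop b (cop a Ψ)) P := by
    intro a b
    rw [csh_cop, csh_cop]
  unfold bF
  simp only [h]
  unfold csh
  by_cases hd : Disjoint P T
  · simp only [if_pos hd, mul_sum]
    refine sum_congr rfl fun a _ => sum_congr rfl fun b _ => ?_
    split_ifs
    · ring
    · simp
  · simp [if_neg hd]

theorem csh_empty (T : Finset (Fin 9)) (G : Fk) : csh T G ∅ = G T := by
  simp [csh, csgF]

noncomputable def cphi (Θ : Fk) : ℝ :=
  (1 / 2) * (∑ m ∈ range 8, (gC m : ℝ) * (bF m Θ ∅) ^ 2)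
  + (1 / 2) * (∑ m ∈ range 8, ∑ m' ∈ range 8, ∑ a : Fin 9, ∑ a' : Fin 9,
      if m + (a : ℕ) = m' + (a' : ℕ) then
        (yC (m + a) m m' : ℝ) * (cop a (bF m Θ) ∅ * cop a' (bF m' Θ) ∅)
      else 0)
  + (1 / 4) * (∑ m ∈ range 8, ∑ m2 ∈ range 8, ∑ m' ∈ range 8, ∑ m2' ∈ range 8,
      if m + m2 = m' + m2' then
        (zC (m + m2) m m' : ℝ) * (bF m2 (bF m Θ) ∅ * bF m2' (bF m' Θ) ∅)
      else 0)

theorem fock_eq (w : Fin 9 → ℝ) (Ψ : Fk) :
    fockForm w Ψ = ∑ T : Finset (Fin 9), om w T * cphi (csh T Ψ) := by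
  have h1 : ∀ m T, bF m (csh T Ψ) ∅ = bF m Ψ T := fun m T => by
    rw [← csh_bF, csh_empty]
  have h2 : ∀ (a : Fin 9) m T, cop a (bF m (csh T Ψ)) ∅ = cop a (bF m Ψ) T := fun a m T => by
    rw [← csh_bF, ← csh_cop, csh_empty]
  have h3 : ∀ m2 m T, bF m2 (bF m (csh T Ψ)) ∅ = bF m2 (bF m Ψ) T := fun m2 m T => by
    rw [← csh_bF, ← csh_bF, csh_empty]
  unfold fockForm cphi
  simp only [h1, h2, h3, mul_add, sum_add_distrib]
  congr 1
  · congr 1
    · simp only [mul_sum]
      conv_rhs => rw [sum_comm]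
      refine sum_congr rfl fun m _ => ?_
      refine sum_congr rfl fun T _ => ?_
      ring
    · simp only [mul_sum]
      conv_rhs => rw [sum_comm]
      refine sum_congr rfl fun m _ => ?_
      conv_rhs => rw [sum_comm]
      refine sum_congr rfl fun m' _ => ?_
      conv_rhs => rw [sum_comm]
      refine sum_congr rfl fun a _ => ?_
      conv_rhs => rw [sum_comm]
      refine sum_congr rfl fun a' _ => ?_
      split_ifs
      · rw [mul_sum]
        refine sum_congr rfl fun T _ => ?_
        ring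
      · simp
  · simp only [mul_sum]
    conv_rhs => rw [sum_comm]
    refine sum_congr rfl fun m _ => ?_
    conv_rhs => rw [sum_comm]
    refine sum_congr rfl fun m2 _ => ?_
    conv_rhs => rw [sum_comm]
    refine sum_congr rfl fun m' _ => ?_
    conv_rhs => rw [sum_comm]
    refine sum_congr rfl fun m2' _ => ?_
    split_ifs
    · rw [mul_sum]
      refine sum_congr rfl fun T _ => ?_
      ring
    · simp

end Vale.Agent.P359
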