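import Vale.Agent.P359.FockA

namespace Vale.Agent.P359

open Finset

/-- Complex version of `cop`. -/
noncomputable def copC (a : Fin 9) (Ψ : Finset (Fin 9) → ℂ) : Finset (Fin 9) → ℂ :=
  fun T => if a ∈ T then 0 else (-1 : ℂ) ^ (T.filter (fun t => t < a)).card * Ψ (insert a T)

noncomputable def bC (m : ℕ) (Ψ : Finset (Fin 9) → ℂ) : Finset (Fin 9) → ℂ :=
  fun T => ∑ a : Fin 9, ∑ b : Fin 9,
    if (a : ℕ) + (b : ℕ) = m + 1 then (((a : ℕ) : ℂ) - ((b : ℕ) : ℂ)) * copC b (copC a Ψ) T else 0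

theorem FockRed_copC_re (a : Fin 9) (Ψ : Finset (Fin 9) → ℂ) :
    (fun T => (copC a Ψ T).re) = cop a (fun T => (Ψ T).re) := by
  funext T
  unfold copC cop
  split_ifs
  · simp
  · rw [show ((-1 : ℂ) ^ (T.filter (fun t => t < a)).card)
      = (((-1 : ℝ) ^ (T.filter (fun t => t < a)).card : ℝ) : ℂ) by push_cast; rfl]
    rw [Complex.re_ofReal_mul]

theorem FockRed_copC_im (a : Fin 9) (Ψ : Finset (Fin 9) → ℂ) :
    (fun T => (copC a Ψ T).im) = cop a (fun T => (Ψ T).im) := by
  funext T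
  unfold copC cop
  split_ifs
  · simp
  · rw [show ((-1 : ℂ) ^ (T.filter (fun t => t < a)).card)
      = (((-1 : ℝ) ^ (T.filter (fun t => t < a)).card : ℝ) : ℂ) by push_cast; rfl]
    rw [Complex.im_ofReal_mul]

theorem FockRed_bC_re (m : ℕ) (Ψ : Finset (Fin 9) → ℂ) :
    (fun T => (bC m Ψ T).re) = bF m (fun T => (Ψ T).re) := by
  funext T
  unfold bC bF
  rw [Complex.re_sum]
  apply Finset.sum_congr rfl
  intro a _
  rw [Complex.re_sum]
  apply Finset.sum_congr rfl
  intro b _
  split_ifs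
  · rw [show (((a : ℕ) : ℂ) - ((b : ℕ) : ℂ)) = ((((a : ℕ) : ℝ) - ((b : ℕ) : ℝ) : ℝ) : ℂ) by
      push_cast; rfl]
    rw [Complex.re_ofReal_mul]
    rw [← FockRed_copC_re a Ψ, ← FockRed_copC_re b (copC a Ψ)]
  · simp

theorem FockRed_bC_im (m : ℕ) (Ψ : Finset (Fin 9) → ℂ) :
    (fun T => (bC m Ψ T).im) = bF m (fun T => (Ψ T).im) := by
  funext T
  unfold bC bF
  rw [Complex.im_sum]
  apply Finset.sum_congr rfl
  intro a _
  rw [Complex.im_sum]
  apply Finset.sum_congr rfl
  intro b _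
  split_ifs
  · rw [show (((a : ℕ) : ℂ) - ((b : ℕ) : ℂ)) = ((((a : ℕ) : ℝ) - ((b : ℕ) : ℝ) : ℝ) : ℂ) by
      push_cast; rfl]
    rw [Complex.im_ofReal_mul]
    rw [← FockRed_copC_im a Ψ, ← FockRed_copC_im b (copC a Ψ)]
  · simp

/-- The embedding of the first nine orbitals. -/
def FockRed_emb (Q : ℕ) (hQ : 8 ≤ Q) : Fin 9 ↪ Fin (Q + 1) :=
  (Fin.castLEEmb (by omega : 9 ≤ Q + 1))

/-- Far orbital sets. -/
def FockRed_far (Q : ℕ) : Finset (Finset (Fin (Q + 1))) :=
  (Finset.univ.filter (fun x : Fin (Q + 1) => 9 ≤ (x : ℕ))).powerset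

def FockRed_join (Q : ℕ) (hQ : 8 ≤ Q) (X : Finset (Fin (Q + 1))) (T : Finset (Fin 9)) :
    Finset (Fin (Q + 1)) :=
  T.map (FockRed_emb Q hQ) ∪ X

theorem FockRed_emb_val (Q : ℕ) (hQ : 8 ≤ Q) (a : Fin 9) :
    ((FockRed_emb Q hQ a : Fin (Q + 1)) : ℕ) = (a : ℕ) := by
  simp [FockRed_emb]

theorem FockRed_mem_far {Q : ℕ} {X : Finset (Fin (Q + 1))} (hX : X ∈ FockRed_far Q)
    {x : Fin (Q + 1)} (hx : x ∈ X) : 9 ≤ (x : ℕ) := by
  unfold FockRed_far at hX
  rw [Finset.mem_powerset] at hX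
  have := hX hx
  simpa using this

theorem FockRed_mem_join {Q : ℕ} (hQ : 8 ≤ Q) {X : Finset (Fin (Q + 1))}
    (hX : X ∈ FockRed_far Q) (T : Finset (Fin 9)) (a : Fin 9) :
    FockRed_emb Q hQ a ∈ FockRed_join Q hQ X T ↔ a ∈ T := by
  unfold FockRed_join
  rw [Finset.mem_union]
  constructor
  · rintro (h | h)
    · exact (Finset.mem_map' _).mp h
    · have := FockRed_mem_far hX h
      rw [FockRed_emb_val] at this
      omega
  · intro h
    left
    exact (Finset.mem_map' _).mpr h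

theorem FockRed_insert_join {Q : ℕ} (hQ : 8 ≤ Q) (X : Finset (Fin (Q + 1)))
    (T : Finset (Fin 9)) (a : Fin 9) :
    insert (FockRed_emb Q hQ a) (FockRed_join Q hQ X T) = FockRed_join Q hQ X (insert a T) := by
  unfold FockRed_join
  rw [Finset.map_insert, Finset.insert_union]

theorem FockRed_filter_join {Q : ℕ} (hQ : 8 ≤ Q) {X : Finset (Fin (Q + 1))}
    (hX : X ∈ FockRed_far Q) (T : Finset (Fin 9)) (a : Fin 9) :
    ((FockRed_join Q hQ X T).filter (fun t => t < FockRed_emb Q hQ a)).card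
      = (T.filter (fun t => t < a)).card := by
  unfold FockRed_join
  rw [Finset.filter_union]
  have h1 : X.filter (fun t => t < FockRed_emb Q hQ a) = ∅ := by
    rw [Finset.filter_eq_empty_iff]
    intro x hx
    have := FockRed_mem_far hX hx
    rw [Fin.lt_def, FockRed_emb_val]
    omega
  rw [h1, Finset.union_empty, Finset.filter_map, Finset.card_map]
  congr 1


theorem FockRed_copG {Q : ℕ} (hQ : 8 ≤ Q) {X : Finset (Fin (Q + 1))}
    (hX : X ∈ FockRed_far Q) (Ψ : Finset (Fin (Q + 1)) → ℂ) (a : Fin 9) (T : Finset (Fin 9)) :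
    copG (FockRed_emb Q hQ a) Ψ (FockRed_join Q hQ X T)
      = copC a (fun T => Ψ (FockRed_join Q hQ X T)) T := by
  unfold copG copC
  by_cases h : a ∈ T
  · rw [if_pos h, if_pos ((FockRed_mem_join hQ hX T a).mpr h)]
  · rw [if_neg h, if_neg (fun h' => h ((FockRed_mem_join hQ hX T a).mp h')),
      FockRed_filter_join hQ hX, FockRed_insert_join]

/-- Local part of the second-quantized amplitude. -/
noncomputable def FockRed_loc {Q N : ℕ} (hQ : 8 ≤ Q) (f : Amp Q N) (X : Finset (Fin (Q + 1))) :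
    Finset (Fin 9) → ℂ :=
  fun T => PsiOf f (FockRed_join Q hQ X T)

theorem FockRed_loc_ev {Q N : ℕ} (hQ : 8 ≤ Q) (f : Amp Q (N + 1)) (hf : Anti f)
    {X : Finset (Fin (Q + 1))} (hX : X ∈ FockRed_far Q) (a : Fin 9) :
    FockRed_loc hQ (ev (FockRed_emb Q hQ a) f) X = copC a (FockRed_loc hQ f X) := by
  funext T
  unfold FockRed_loc
  rw [PsiOf_ev f hf, FockRed_copG hQ hX]

theorem FockRed_sum_near {Q : ℕ} (hQ : 8 ≤ Q) (G : Fin (Q + 1) → ℂ)
    (hG : ∀ a : Fin (Q + 1), 9 ≤ (a : ℕ) → G a = 0) :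
    ∑ a : Fin (Q + 1), G a = ∑ a : Fin 9, G (FockRed_emb Q hQ a) := by
  rw [← Finset.sum_map Finset.univ (FockRed_emb Q hQ) G]
  symm
  apply Finset.sum_subset (Finset.subset_univ _)
  intro x _ hx
  apply hG
  by_contra hcon
  apply hx
  rw [Finset.mem_map]
  refine ⟨⟨(x : ℕ), by omega⟩, Finset.mem_univ _, ?_⟩
  apply Fin.ext
  rw [FockRed_emb_val]

theorem FockRed_sum_nearR {Q : ℕ} (hQ : 8 ≤ Q) (G : Fin (Q + 1) → ℝ)
    (hG : ∀ a : Fin (Q + 1), 9 ≤ (a : ℕ) → G a = 0) :
    ∑ a : Fin (Q + 1), G a = ∑ a : Fin 9, G (FockRed_emb Q hQ a) := by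
  rw [← Finset.sum_map Finset.univ (FockRed_emb Q hQ) G]
  symm
  apply Finset.sum_subset (Finset.subset_univ _)
  intro x _ hx
  apply hG
  by_contra hcon
  apply hx
  rw [Finset.mem_map]
  refine ⟨⟨(x : ℕ), by omega⟩, Finset.mem_univ _, ?_⟩
  apply Fin.ext
  rw [FockRed_emb_val]

theorem FockRed_loc_bop {Q N : ℕ} (hQ : 8 ≤ Q) (f : Amp Q (N + 2)) (hf : Anti f)
    {X : Finset (Fin (Q + 1))} (hX : X ∈ FockRed_far Q) (m : ℕ) (hm : m < 8) :
    FockRed_loc hQ (bop m f) X = bC m (FockRed_loc hQ f X) := by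
  funext T
  unfold FockRed_loc
  rw [PsiOf_bop f hf m]
  unfold bC
  rw [FockRed_sum_near hQ]
  · apply Finset.sum_congr rfl
    intro a _
    rw [FockRed_sum_near hQ]
    · apply Finset.sum_congr rfl
      intro b _
      rw [FockRed_emb_val, FockRed_emb_val]
      split_ifs
      · rw [FockRed_copG hQ hX]
        congr 2
        funext T'
        rw [FockRed_copG hQ hX]
      · rfl
    · intro b hb
      rw [if_neg (by omega)]
  · intro a ha
    apply Finset.sum_eq_zero
    intro b _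
    rw [if_neg (by omega)]

/-- Splitting a sum over sets of orbitals. -/
theorem FockRed_split {Q : ℕ} (hQ : 8 ≤ Q) (G : Finset (Fin (Q + 1)) → ℂ) :
    ∑ S : Finset (Fin (Q + 1)), G S
      = ∑ X ∈ FockRed_far Q, ∑ T : Finset (Fin 9), G (FockRed_join Q hQ X T) := by
  rw [Finset.sum_sigma']
  symm
  apply Finset.sum_bij' (i := fun (p : (_ : Finset (Fin (Q + 1))) × Finset (Fin 9)) _ =>
      FockRed_join Q hQ p.1 p.2)
    (j := fun (S : Finset (Fin (Q + 1))) _ =>
      (⟨S.filter (fun x => 9 ≤ (x : ℕ)),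
        Finset.univ.filter (fun a : Fin 9 => FockRed_emb Q hQ a ∈ S)⟩ :
        (_ : Finset (Fin (Q + 1))) × Finset (Fin 9)))
  · intro p _
    exact Finset.mem_univ _
  · intro S _
    rw [Finset.mem_sigma]
    refine ⟨?_, Finset.mem_univ _⟩
    unfold FockRed_far
    rw [Finset.mem_powerset]
    intro x hx
    rw [Finset.mem_filter] at hx ⊢
    exact ⟨Finset.mem_univ _, hx.2⟩
  · rintro ⟨X, T⟩ hp
    rw [Finset.mem_sigma] at hp
    have hX := hp.1
    simp only at hX ⊢
    have e1 : (FockRed_join Q hQ X T).filter (fun x : Fin (Q + 1) => 9 ≤ (x : ℕ)) = X := by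
      ext x
      unfold FockRed_join
      rw [Finset.mem_filter, Finset.mem_union]
      constructor
      · rintro ⟨h | h, h9⟩
        · rw [Finset.mem_map] at h
          obtain ⟨a, _, rfl⟩ := h
          rw [FockRed_emb_val] at h9
          omega
        · exact h
      · intro h
        exact ⟨Or.inr h, FockRed_mem_far hX h⟩
    have e2 : Finset.univ.filter (fun a : Fin 9 => FockRed_emb Q hQ a ∈ FockRed_join Q hQ X T)
        = T := by
      ext a
      rw [Finset.mem_filter]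
      rw [FockRed_mem_join hQ hX]
      simp
    rw [e1, e2]
  · intro S _
    simp only
    unfold FockRed_join
    ext x
    rw [Finset.mem_union, Finset.mem_map, Finset.mem_filter]
    constructor
    · rintro (⟨a, ha, rfl⟩ | h)
      · rw [Finset.mem_filter] at ha
        exact ha.2
      · exact h.1
    · intro hx
      by_cases h9 : 9 ≤ (x : ℕ)
      · exact Or.inr ⟨hx, h9⟩
      · left
        refine ⟨⟨(x : ℕ), by omega⟩, ?_, ?_⟩
        · rw [Finset.mem_filter]
          refine ⟨Finset.mem_univ _, ?_⟩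
          have : FockRed_emb Q hQ ⟨(x : ℕ), by omega⟩ = x := by
            apply Fin.ext
            rw [FockRed_emb_val]
          rw [this]
          exact hx
        · apply Fin.ext
          rw [FockRed_emb_val]
  · rintro ⟨X, T⟩ _
    rfl

theorem FockRed_prod {Q : ℕ} (hQ : 8 ≤ Q) (w : Fin (Q + 1) → ℝ) {X : Finset (Fin (Q + 1))}
    (hX : X ∈ FockRed_far Q) (T : Finset (Fin 9)) :
    ∏ s ∈ FockRed_join Q hQ X T, w s
      = (∏ s ∈ X, w s) * om (fun t => w (FockRed_emb Q hQ t)) T := by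
  unfold FockRed_join om
  rw [Finset.prod_union, Finset.prod_map, mul_comm]
  rw [Finset.disjoint_left]
  intro x hx hxX
  rw [Finset.mem_map] at hx
  obtain ⟨a, _, rfl⟩ := hx
  have := FockRed_mem_far hX hxX
  rw [FockRed_emb_val] at this
  omega

theorem FockRed_ip {Q N : ℕ} (hQ : 8 ≤ Q) (w : Fin (Q + 1) → ℝ) (f g : Amp Q N)
    (hf : Anti f) (hg : Anti g) :
    (ip w f g).re = (N.factorial : ℝ) * ∑ X ∈ FockRed_far Q, (∏ s ∈ X, w s) *
      ∑ T : Finset (Fin 9), om (fun t => w (FockRed_emb Q hQ t)) T *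
        ((FockRed_loc hQ f X T).re * (FockRed_loc hQ g X T).re
          + (FockRed_loc hQ f X T).im * (FockRed_loc hQ g X T).im) := by
  rw [ip_PsiOf w f g hf hg, FockRed_split hQ]
  rw [show ((N.factorial : ℕ) : ℂ) = (((N.factorial : ℕ) : ℝ) : ℂ) by push_cast; rfl]
  rw [Complex.re_ofReal_mul, Complex.re_sum]
  congr 1
  apply Finset.sum_congr rfl
  intro X hX
  rw [Complex.re_sum, Finset.mul_sum]
  apply Finset.sum_congr rfl
  intro T _
  rw [FockRed_prod hQ w hX T, Complex.re_ofReal_mul, mul_assoc]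
  congr 2
  unfold FockRed_loc
  rw [Complex.mul_re, Complex.conj_re, Complex.conj_im]
  ring

theorem FockRed_fock {Q n : ℕ} (hQ : 8 ≤ Q) (w : Fin (Q + 1) → ℝ) (f : Amp Q (n + 4))
    (hf : Anti f) :
    locForm w f = ((n + 4).factorial : ℝ) * ∑ X ∈ FockRed_far Q, (∏ s ∈ X, w s) *
      (fockForm (fun t => w (FockRed_emb Q hQ t)) (fun T => (FockRed_loc hQ f X T).re)
        + fockForm (fun t => w (FockRed_emb Q hQ t)) (fun T => (FockRed_loc hQ f X T).im)) := by
  have hfac : ((n + 4).factorial : ℝ) = ((n : ℝ) + 4) * ((n : ℝ) + 3) * ((n : ℝ) + 2)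
      * ((n : ℝ) + 1) * (n.factorial : ℝ) := by
    rw [show n + 4 = n + 3 + 1 by rfl, Nat.factorial_succ, show n + 3 = n + 2 + 1 by rfl,
      Nat.factorial_succ, show n + 2 = n + 1 + 1 by rfl, Nat.factorial_succ, Nat.factorial_succ]
    push_cast
    ring
  have hfac2 : ((n + 2).factorial : ℝ) = ((n : ℝ) + 2) * ((n : ℝ) + 1) * (n.factorial : ℝ) := by
    rw [show n + 2 = n + 1 + 1 by rfl, Nat.factorial_succ, Nat.factorial_succ]
    push_cast
    ring
  have hfac1 : ((n + 1).factorial : ℝ) = ((n : ℝ) + 1) * (n.factorial : ℝ) := by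
    rw [Nat.factorial_succ]
    push_cast
    ring
  -- first term
  have t1 : (((n : ℝ) + 4) * ((n : ℝ) + 3) / 2) *
      (∑ m ∈ range 8, (gC m : ℝ) * (ip w (bop m f) (bop m f)).re)
      = ((n + 4).factorial : ℝ) * ∑ X ∈ FockRed_far Q, (∏ s ∈ X, w s) *
        ((1 / 2) * (∑ m ∈ range 8, (gC m : ℝ) * ∑ T : Finset (Fin 9),
          om (fun t => w (FockRed_emb Q hQ t)) T *
            (bF m (fun T => (FockRed_loc hQ f X T).re) T) ^ 2)
        + (1 / 2) * (∑ m ∈ range 8, (gC m : ℝ) * ∑ T : Finset (Fin 9),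
          om (fun t => w (FockRed_emb Q hQ t)) T *
            (bF m (fun T => (FockRed_loc hQ f X T).im) T) ^ 2)) := by
    have h : ∀ m ∈ range 8, (gC m : ℝ) * (ip w (bop m f) (bop m f)).re
        = ((n + 2).factorial : ℝ) * ∑ X ∈ FockRed_far Q, (∏ s ∈ X, w s) *
          ((gC m : ℝ) * (∑ T : Finset (Fin 9),
          om (fun t => w (FockRed_emb Q hQ t)) T *
            (bF m (fun T => (FockRed_loc hQ f X T).re) T) ^ 2)
          + (gC m : ℝ) * (∑ T : Finset (Fin 9),
          om (fun t => w (FockRed_emb Q hQ t)) T *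
            (bF m (fun T => (FockRed_loc hQ f X T).im) T) ^ 2)) := by
      intro m hm
      rw [Finset.mem_range] at hm
      rw [FockRed_ip hQ w _ _ (scale_anti_bop m f hf) (scale_anti_bop m f hf)]
      rw [mul_left_comm]
      congr 1
      rw [Finset.mul_sum]
      apply Finset.sum_congr rfl
      intro X hX
      rw [mul_left_comm]
      congr 1
      rw [← mul_add, ← Finset.sum_add_distrib]
      congr 1
      apply Finset.sum_congr rfl
      intro T _
      rw [← FockRed_bC_re, ← FockRed_bC_im, FockRed_loc_bop hQ f hf hX m hm]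
      ring
    rw [Finset.sum_congr rfl h, ← Finset.mul_sum, Finset.sum_comm, hfac, hfac2]
    rw [Finset.mul_sum, Finset.mul_sum, Finset.mul_sum]
    apply Finset.sum_congr rfl
    intro X _
    rw [← Finset.mul_sum, Finset.sum_add_distrib]
    ring
  -- second term
  have t2 : (((n : ℝ) + 4) * ((n : ℝ) + 3) * ((n : ℝ) + 2) / 2) *
      (∑ m ∈ range 8, ∑ m' ∈ range 8, ∑ a : Fin (Q + 1), ∑ a' : Fin (Q + 1),
        if m + (a : ℕ) = m' + (a' : ℕ) ∧ (a : ℕ) < 9 ∧ (a' : ℕ) < 9 then
          (yC (m + a) m m' : ℝ) * (ip w (ev a (bop m f)) (ev a' (bop m' f))).re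
        else 0)
      = ((n + 4).factorial : ℝ) * ∑ X ∈ FockRed_far Q, (∏ s ∈ X, w s) *
        ((1 / 2) * (∑ m ∈ range 8, ∑ m' ∈ range 8, ∑ a : Fin 9, ∑ a' : Fin 9,
          if m + (a : ℕ) = m' + (a' : ℕ) then
            (yC (m + a) m m' : ℝ) * ∑ T : Finset (Fin 9),
            om (fun t => w (FockRed_emb Q hQ t)) T *
            (cop a (bF m (fun T => (FockRed_loc hQ f X T).re)) T
              * cop a' (bF m' (fun T => (FockRed_loc hQ f X T).re)) T) else 0)
        + (1 / 2) * (∑ m ∈ range 8, ∑ m' ∈ range 8, ∑ a : Fin 9, ∑ a' : Fin 9,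
          if m + (a : ℕ) = m' + (a' : ℕ) then
            (yC (m + a) m m' : ℝ) * ∑ T : Finset (Fin 9),
            om (fun t => w (FockRed_emb Q hQ t)) T *
            (cop a (bF m (fun T => (FockRed_loc hQ f X T).im)) T
              * cop a' (bF m' (fun T => (FockRed_loc hQ f X T).im)) T) else 0)) := by
    have h : ∀ m ∈ range 8, ∀ m' ∈ range 8,
        (∑ a : Fin (Q + 1), ∑ a' : Fin (Q + 1),
        if m + (a : ℕ) = m' + (a' : ℕ) ∧ (a : ℕ) < 9 ∧ (a' : ℕ) < 9 then
          (yC (m + a) m m' : ℝ) * (ip w (ev a (bop m f)) (ev a' (bop m' f))).re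
        else 0)
        = ∑ a : Fin 9, ∑ a' : Fin 9, ((n + 1).factorial : ℝ) * ∑ X ∈ FockRed_far Q,
          (∏ s ∈ X, w s) * ((if m + (a : ℕ) = m' + (a' : ℕ) then
            (yC (m + a) m m' : ℝ) * ∑ T : Finset (Fin 9),
            om (fun t => w (FockRed_emb Q hQ t)) T *
            (cop a (bF m (fun T => (FockRed_loc hQ f X T).re)) T
              * cop a' (bF m' (fun T => (FockRed_loc hQ f X T).re)) T) else 0)
          + (if m + (a : ℕ) = m' + (a' : ℕ) then
            (yC (m + a) m m' : ℝ) * ∑ T : Finset (Fin 9),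
            om (fun t => w (FockRed_emb Q hQ t)) T *
            (cop a (bF m (fun T => (FockRed_loc hQ f X T).im)) T
              * cop a' (bF m' (fun T => (FockRed_loc hQ f X T).im)) T) else 0)) := by
      intro m hm m' hm'
      rw [Finset.mem_range] at hm hm'
      rw [FockRed_sum_nearR hQ]
      swap
      · intro a ha
        apply Finset.sum_eq_zero
        intro a' _
        rw [if_neg (by omega)]
      apply Finset.sum_congr rfl
      intro a _
      rw [FockRed_sum_nearR hQ]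
      swap
      · intro a' ha'
        rw [if_neg (by omega)]
      apply Finset.sum_congr rfl
      intro a' _
      rw [FockRed_emb_val, FockRed_emb_val]
      by_cases hs : m + (a : ℕ) = m' + (a' : ℕ)
      · rw [if_pos ⟨hs, a.2, a'.2⟩]
        simp only [if_pos hs]
        rw [FockRed_ip hQ w _ _ (FockA_anti_ev _ (scale_anti_bop m f hf) _)
          (FockA_anti_ev _ (scale_anti_bop m' f hf) _)]
        rw [mul_left_comm]
        congr 1
        rw [Finset.mul_sum]
        apply Finset.sum_congr rfl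
        intro X hX
        rw [mul_left_comm]
        congr 1
        rw [← mul_add, ← Finset.sum_add_distrib]
        congr 1
        apply Finset.sum_congr rfl
        intro T _
        rw [← FockRed_bC_re, ← FockRed_bC_im, ← FockRed_bC_re, ← FockRed_bC_im,
          ← FockRed_copC_re, ← FockRed_copC_im, ← FockRed_copC_re, ← FockRed_copC_im,
          FockRed_loc_ev hQ _ (scale_anti_bop m f hf) hX,
          FockRed_loc_ev hQ _ (scale_anti_bop m' f hf) hX,
          FockRed_loc_bop hQ f hf hX m hm, FockRed_loc_bop hQ f hf hX m' hm']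
        ring
      · rw [if_neg (fun h => hs h.1)]
        simp only [if_neg hs]
        simp
    rw [Finset.sum_congr rfl fun m hm => Finset.sum_congr rfl fun m' hm' => h m hm m' hm']
    have h2 : ∀ F : ℕ → ℕ → Fin 9 → Fin 9 → Finset (Fin (Q + 1)) → ℝ, ∀ c : ℝ,
        ∑ m ∈ range 8, ∑ m' ∈ range 8, ∑ a : Fin 9, ∑ a' : Fin 9,
          c * ∑ X ∈ FockRed_far Q, (∏ s ∈ X, w s) * F m m' a a' X
        = c * ∑ X ∈ FockRed_far Q, (∏ s ∈ X, w s) * ∑ m ∈ range 8, ∑ m' ∈ range 8,
          ∑ a : Fin 9, ∑ a' : Fin 9, F m m' a a' X := by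
      intro F c
      simp only [Finset.mul_sum]
      symm
      rw [Finset.sum_comm]
      apply Finset.sum_congr rfl
      intro m _
      rw [Finset.sum_comm]
      apply Finset.sum_congr rfl
      intro m' _
      rw [Finset.sum_comm]
      apply Finset.sum_congr rfl
      intro a _
      rw [Finset.sum_comm]
    rw [h2]
    rw [hfac, hfac1, Finset.mul_sum, Finset.mul_sum, Finset.mul_sum]
    apply Finset.sum_congr rfl
    intro X _
    simp only [Finset.sum_add_distrib]
    ring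
  -- third term
  have t3 : (((n : ℝ) + 4) * ((n : ℝ) + 3) * ((n : ℝ) + 2) * ((n : ℝ) + 1) / 4) *
      (∑ m ∈ range 8, ∑ m2 ∈ range 8, ∑ m' ∈ range 8, ∑ m2' ∈ range 8,
        if m + m2 = m' + m2' then
          (zC (m + m2) m m' : ℝ) * (ip w (bop m2 (bop m f)) (bop m2' (bop m' f))).re
        else 0)
      = ((n + 4).factorial : ℝ) * ∑ X ∈ FockRed_far Q, (∏ s ∈ X, w s) *
        ((1 / 4) * (∑ m ∈ range 8, ∑ m2 ∈ range 8, ∑ m' ∈ range 8, ∑ m2' ∈ range 8,
          if m + m2 = m' + m2' then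
            (zC (m + m2) m m' : ℝ) * ∑ T : Finset (Fin 9),
            om (fun t => w (FockRed_emb Q hQ t)) T *
            (bF m2 (bF m (fun T => (FockRed_loc hQ f X T).re)) T
              * bF m2' (bF m' (fun T => (FockRed_loc hQ f X T).re)) T) else 0)
        + (1 / 4) * (∑ m ∈ range 8, ∑ m2 ∈ range 8, ∑ m' ∈ range 8, ∑ m2' ∈ range 8,
          if m + m2 = m' + m2' then
            (zC (m + m2) m m' : ℝ) * ∑ T : Finset (Fin 9),
            om (fun t => w (FockRed_emb Q hQ t)) T *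
            (bF m2 (bF m (fun T => (FockRed_loc hQ f X T).im)) T
              * bF m2' (bF m' (fun T => (FockRed_loc hQ f X T).im)) T) else 0)) := by
    have h : ∀ m ∈ range 8, ∀ m2 ∈ range 8, ∀ m' ∈ range 8, ∀ m2' ∈ range 8,
        (if m + m2 = m' + m2' then
          (zC (m + m2) m m' : ℝ) * (ip w (bop m2 (bop m f)) (bop m2' (bop m' f))).re
        else 0)
        = (n.factorial : ℝ) * ∑ X ∈ FockRed_far Q,
          (∏ s ∈ X, w s) * ((if m + m2 = m' + m2' then
            (zC (m + m2) m m' : ℝ) * ∑ T : Finset (Fin 9),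
            om (fun t => w (FockRed_emb Q hQ t)) T *
            (bF m2 (bF m (fun T => (FockRed_loc hQ f X T).re)) T
              * bF m2' (bF m' (fun T => (FockRed_loc hQ f X T).re)) T) else 0)
          + (if m + m2 = m' + m2' then
            (zC (m + m2) m m' : ℝ) * ∑ T : Finset (Fin 9),
            om (fun t => w (FockRed_emb Q hQ t)) T *
            (bF m2 (bF m (fun T => (FockRed_loc hQ f X T).im)) T
              * bF m2' (bF m' (fun T => (FockRed_loc hQ f X T).im)) T) else 0)) := by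
      intro m hm m2 hm2 m' hm' m2' hm2'
      rw [Finset.mem_range] at hm hm2 hm' hm2'
      by_cases hs : m + m2 = m' + m2'
      · simp only [if_pos hs]
        rw [FockRed_ip hQ w _ _ (scale_anti_bop _ _ (scale_anti_bop m f hf))
          (scale_anti_bop _ _ (scale_anti_bop m' f hf))]
        rw [mul_left_comm]
        congr 1
        rw [Finset.mul_sum]
        apply Finset.sum_congr rfl
        intro X hX
        rw [mul_left_comm]
        congr 1
        rw [← mul_add, ← Finset.sum_add_distrib]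
        congr 1
        apply Finset.sum_congr rfl
        intro T _
        rw [← FockRed_bC_re, ← FockRed_bC_im, ← FockRed_bC_re, ← FockRed_bC_im,
          ← FockRed_bC_re, ← FockRed_bC_im, ← FockRed_bC_re, ← FockRed_bC_im,
          FockRed_loc_bop hQ _ (scale_anti_bop m f hf) hX m2 hm2,
          FockRed_loc_bop hQ _ (scale_anti_bop m' f hf) hX m2' hm2',
          FockRed_loc_bop hQ f hf hX m hm, FockRed_loc_bop hQ f hf hX m' hm']
        ring
      · simp only [if_neg hs]
        simp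
    rw [Finset.sum_congr rfl fun m hm => Finset.sum_congr rfl fun m2 hm2 =>
      Finset.sum_congr rfl fun m' hm' => Finset.sum_congr rfl fun m2' hm2' =>
        h m hm m2 hm2 m' hm' m2' hm2']
    have h2 : ∀ F : ℕ → ℕ → ℕ → ℕ → Finset (Fin (Q + 1)) → ℝ, ∀ c : ℝ,
        ∑ m ∈ range 8, ∑ m' ∈ range 8, ∑ a ∈ range 8, ∑ a' ∈ range 8,
          c * ∑ X ∈ FockRed_far Q, (∏ s ∈ X, w s) * F m m' a a' X
        = c * ∑ X ∈ FockRed_far Q, (∏ s ∈ X, w s) * ∑ m ∈ range 8, ∑ m' ∈ range 8,
          ∑ a ∈ range 8, ∑ a' ∈ range 8, F m m' a a' X := by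
      intro F c
      simp only [Finset.mul_sum]
      symm
      rw [Finset.sum_comm]
      apply Finset.sum_congr rfl
      intro m _
      rw [Finset.sum_comm]
      apply Finset.sum_congr rfl
      intro m' _
      rw [Finset.sum_comm]
      apply Finset.sum_congr rfl
      intro a _
      rw [Finset.sum_comm]
    rw [h2]
    rw [hfac, Finset.mul_sum, Finset.mul_sum, Finset.mul_sum]
    apply Finset.sum_congr rfl
    intro X _
    simp only [Finset.sum_add_distrib]
    ring
  unfold locForm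
  rw [t1, t2, t3, ← mul_add, ← mul_add, ← Finset.sum_add_distrib, ← Finset.sum_add_distrib]
  congr 1
  apply Finset.sum_congr rfl
  intro X _
  rw [← mul_add, ← mul_add]
  congr 1
  unfold fockForm
  ring

theorem locForm_of_fock (Q : ℕ) (hQ : 8 ≤ Q) (w : Fin (Q + 1) → ℝ) (hw : ∀ a, 0 < w a)
    (hpos : ∀ Ψ : Fk, 0 ≤ fockForm (fun t => w (Fin.castLE (by omega) t)) Ψ)
    (n : ℕ) (f : Amp Q (n + 4)) (hf : Anti f) : 0 ≤ locForm w f := by
  rw [FockRed_fock hQ w f hf]
  apply mul_nonneg (by positivity)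
  apply Finset.sum_nonneg
  intro X _
  apply mul_nonneg (Finset.prod_nonneg fun s _ => (hw s).le)
  apply add_nonneg
  · exact hpos _
  · exact hpos _

end Vale.Agent.P359
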