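import Vale.Agent.P359.HHb

namespace Vale.Agent.P359

open Finset

theorem re_ip_Ham {Q n : ℕ} (hQ : 2 ≤ Q) (f : Amp Q (n + 4)) (hf : Anti f) :
    (ip (wQ Q) f (Ham f)).re = (((n : ℝ) + 4) * ((n : ℝ) + 3) / 2) * (1 / (2 * (Q : ℝ)))
      * ∑ m ∈ range (2 * Q - 1),
        (ip (wQ Q) (bop m f) (bop m f)).re / ((2 * Q - 2).choose m : ℝ) := by
  rw [ip_Ham_left f f hf hf, ip_P01 hQ f]
  have h1 : (((n : ℂ) + 4) * ((n : ℂ) + 3) / 2) = (((((n : ℝ) + 4) * ((n : ℝ) + 3) / 2) : ℝ) : ℂ) := by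
    push_cast; ring
  have h2 : (1 / (2 * (Q : ℂ))) = ((1 / (2 * (Q : ℝ)) : ℝ) : ℂ) := by
    push_cast; ring
  rw [h1, h2, ← mul_assoc, ← Complex.ofReal_mul, Complex.re_ofReal_mul, Complex.re_sum]
  congr 1
  apply Finset.sum_congr rfl
  intro m _
  rw [show (((2 * Q - 2).choose m : ℕ) : ℂ) = ((((2 * Q - 2).choose m : ℕ) : ℝ) : ℂ) by
    push_cast; rfl]
  rw [Complex.div_ofReal_re]

theorem re_ip_Ham_Ham {Q n : ℕ} (hQ : 2 ≤ Q) (f : Amp Q (n + 4)) (hf : Anti f) :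
    (ip (wQ Q) (Ham f) (Ham f)).re
      = (((n : ℝ) + 4) * ((n : ℝ) + 3) / 2) * (1 / (2 * (Q : ℝ)))
        * ∑ m ∈ range (2 * Q - 1),
          (ip (wQ Q) (bop m f) (bop m f)).re / ((2 * Q - 2).choose m : ℝ)
      + (((n : ℝ) + 4) * ((n : ℝ) + 3) * ((n : ℝ) + 2) / 2) * (1 / (2 * (Q : ℝ)))
        * ∑ m ∈ range (2 * Q - 1), ∑ c ∈ range (Q + 1),
          Wop Q (fun m' c' => (ip (wQ Q) (evN c (bop m f)) (evN c' (bop m' f))).re) m c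
            / (((2 * Q - 2).choose m : ℝ) * (Q.choose c : ℝ))
      + (((n : ℝ) + 4) * ((n : ℝ) + 3) * ((n : ℝ) + 2) * ((n : ℝ) + 1) / 4)
        * (1 / (4 * (Q : ℝ) ^ 2))
        * ∑ m ∈ range (2 * Q - 1), ∑ m2 ∈ range (2 * Q - 1),
          (ip (wQ Q) (bop m2 (bop m f)) (bop m2 (bop m f))).re
            / (((2 * Q - 2).choose m : ℝ) * ((2 * Q - 2).choose m2 : ℝ)) := by
  have h1 : (((n : ℂ) + 4) * ((n : ℂ) + 3) / 2) = (((((n : ℝ) + 4) * ((n : ℝ) + 3) / 2) : ℝ) : ℂ) := by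
    push_cast; ring
  have h2 : (1 / (2 * (Q : ℂ))) = ((1 / (2 * (Q : ℝ)) : ℝ) : ℂ) := by
    push_cast; ring
  have h3 : (((n : ℂ) + 4) * ((n : ℂ) + 3) * ((n : ℂ) + 2))
      = (((((n : ℝ) + 4) * ((n : ℝ) + 3) * ((n : ℝ) + 2)) : ℝ) : ℂ) := by
    push_cast; ring
  have h4 : (((n : ℂ) + 4) * ((n : ℂ) + 3) * ((n : ℂ) + 2) * ((n : ℂ) + 1) / 4)
      = (((((n : ℝ) + 4) * ((n : ℝ) + 3) * ((n : ℝ) + 2) * ((n : ℝ) + 1) / 4) : ℝ) : ℂ) := by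
    push_cast; ring
  have h5 : (1 / (4 * (Q : ℂ) ^ 2)) = ((1 / (4 * (Q : ℝ) ^ 2) : ℝ) : ℂ) := by
    push_cast; ring
  have e1 : (ip (wQ Q) (Pij 0 1 f) (Pij 0 1 f)).re
      = (1 / (2 * (Q : ℝ))) * ∑ m ∈ range (2 * Q - 1),
          (ip (wQ Q) (bop m f) (bop m f)).re / ((2 * Q - 2).choose m : ℝ) := by
    rw [ip_P01_P01 hQ f, h2, Complex.re_ofReal_mul, Complex.re_sum]
    congr 1
    apply Finset.sum_congr rfl
    intro m _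
    rw [show (((2 * Q - 2).choose m : ℕ) : ℂ) = ((((2 * Q - 2).choose m : ℕ) : ℝ) : ℂ) by
      push_cast; rfl]
    rw [Complex.div_ofReal_re]
  have e3 : (ip (wQ Q) (Pij 2 3 f) (Pij 0 1 f)).re
      = (1 / (4 * (Q : ℝ) ^ 2)) * ∑ m ∈ range (2 * Q - 1), ∑ m2 ∈ range (2 * Q - 1),
          (ip (wQ Q) (bop m2 (bop m f)) (bop m2 (bop m f))).re
            / (((2 * Q - 2).choose m : ℝ) * ((2 * Q - 2).choose m2 : ℝ)) := by
    rw [ip_P23_P01 hQ f hf, h5, Complex.re_ofReal_mul, Complex.re_sum]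
    congr 1
    apply Finset.sum_congr rfl
    intro m _
    rw [Complex.re_sum]
    apply Finset.sum_congr rfl
    intro m2 _
    rw [show (((2 * Q - 2).choose m : ℕ) : ℂ) * (((2 * Q - 2).choose m2 : ℕ) : ℂ)
      = (((((2 * Q - 2).choose m : ℕ) : ℝ) * (((2 * Q - 2).choose m2 : ℕ) : ℝ) : ℝ) : ℂ) by
      push_cast; rfl]
    rw [Complex.div_ofReal_re]
  rw [ip_Ham_Ham_pairs hQ f hf, h4, h3, h1, Complex.add_re, Complex.add_re,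
    Complex.re_ofReal_mul, Complex.re_ofReal_mul, Complex.re_ofReal_mul, e1, e3,
    re_ip_P02_P01 hQ f hf]
  ring

end Vale.Agent.P359
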