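import Vale.Agent.P359.Sym

namespace Vale.Agent.P359

open Finset

theorem ev_tot {Q N : ℕ} (M : ℕ → ℕ → ℂ) (f : Amp Q (N + 1)) (a : Fin (Q + 1)) :
    ev a (tot M f) = (fun x => ∑ c : Fin (Q + 1), M a c * ev c f x) + tot M (ev a f) := by
  funext x
  simp only [ev, tot, Pi.add_apply]
  rw [Fin.sum_univ_succ]
  congr 1
  · refine Finset.sum_congr rfl fun c _ => ?_
    rw [Fin.cons_zero, Fin.update_cons_zero]
  · refine Finset.sum_congr rfl fun i _ => Finset.sum_congr rfl fun c _ => ?_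
    rw [Fin.cons_succ, Fin.cons_update]

theorem ip_tot_adj {Q N : ℕ} (f g : Amp Q N) :
    ip (wQ Q) (tot (Fm Q) f) g = ip (wQ Q) f (tot Em g) :=
  (sym_adj g f).symm

theorem ip_tot_adj' {Q N : ℕ} (f g : Amp Q N) :
    ip (wQ Q) (tot Em f) g = ip (wQ Q) f (tot (Fm Q) g) := by
  rw [← sym_ip_conj, sym_adj, sym_ip_conj]

/-- `tot` on two front slots -/
theorem inv_tot_cons {Q N : ℕ} (M : ℕ → ℕ → ℂ) (f : Amp Q (N + 2)) (a b : Fin (Q + 1))
    (x : Cfg Q N) :
    tot M f (Fin.cons a (Fin.cons b x)) =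
      (∑ c : Fin (Q + 1), M a c * f (Fin.cons c (Fin.cons b x))) +
      (∑ c : Fin (Q + 1), M b c * f (Fin.cons a (Fin.cons c x))) +
      ∑ i : Fin N, ∑ c : Fin (Q + 1),
        M (x i) c * f (Fin.cons a (Fin.cons b (Function.update x i c))) := by
  have h1 : tot M f (Fin.cons a (Fin.cons b x)) = ev b (ev a (tot M f)) x := rfl
  have h2 : ev b ((fun y => ∑ c : Fin (Q + 1), M a c * ev c f y) + tot M (ev a f)) x =
      (∑ c : Fin (Q + 1), M a c * f (Fin.cons c (Fin.cons b x))) +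
        ev b (tot M (ev a f)) x := rfl
  rw [h1, ev_tot, h2, ev_tot]
  simp only [Pi.add_apply, ev, tot]
  ring

/-- the common reduction for `bop m (tot M f)` -/
theorem inv_bop_tot {Q N : ℕ} (M : ℕ → ℕ → ℂ) (f : Amp Q (N + 2)) (m : ℕ) (x : Cfg Q N) :
    bop m (tot M f) x =
      (∑ a : Fin (Q + 1), ∑ b : Fin (Q + 1), if (a : ℕ) + (b : ℕ) = m + 1 then
        (((a : ℕ) : ℂ) - ((b : ℕ) : ℂ)) *
          ((∑ c : Fin (Q + 1), M a c * f (Fin.cons c (Fin.cons b x))) +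
          (∑ c : Fin (Q + 1), M b c * f (Fin.cons a (Fin.cons c x)))) else 0) +
      tot M (bop m f) x := by
  have h1 : tot M (bop m f) x = ∑ a : Fin (Q + 1), ∑ b : Fin (Q + 1),
      if (a : ℕ) + (b : ℕ) = m + 1 then
        (((a : ℕ) : ℂ) - ((b : ℕ) : ℂ)) * ∑ i : Fin N, ∑ c : Fin (Q + 1),
        M (x i) c * f (Fin.cons a (Fin.cons b (Function.update x i c))) else 0 := by
    unfold tot bop
    simp only [Finset.mul_sum]
    rw [Finset.sum_congr rfl fun i _ => Finset.sum_comm]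
    rw [Finset.sum_comm]
    refine Finset.sum_congr rfl fun a _ => ?_
    rw [Finset.sum_congr rfl fun i _ => Finset.sum_comm]
    rw [Finset.sum_comm]
    refine Finset.sum_congr rfl fun b _ => ?_
    split_ifs with h
    · refine Finset.sum_congr rfl fun i _ => Finset.sum_congr rfl fun c _ => ?_
      ring
    · simp
  rw [h1, ← Finset.sum_add_distrib]
  unfold bop
  refine Finset.sum_congr rfl fun a _ => ?_
  rw [← Finset.sum_add_distrib]
  refine Finset.sum_congr rfl fun b _ => ?_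
  split_ifs with h
  · rw [inv_tot_cons]
    ring
  · simp

theorem inv_sum_split {Q : ℕ} (m : ℕ) (g : Fin (Q + 1) → Fin (Q + 1) → ℂ)
    (M : ℕ → ℕ → ℂ) :
    (∑ a : Fin (Q + 1), ∑ b : Fin (Q + 1), if (a : ℕ) + (b : ℕ) = m + 1 then
        (((a : ℕ) : ℂ) - ((b : ℕ) : ℂ)) *
          ((∑ c : Fin (Q + 1), M a c * g c b) + (∑ c : Fin (Q + 1), M b c * g a c)) else 0) =
      ∑ c : Fin (Q + 1), ∑ d : Fin (Q + 1),
        ((∑ a : Fin (Q + 1), if (a : ℕ) + (d : ℕ) = m + 1 then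
            (((a : ℕ) : ℂ) - ((d : ℕ) : ℂ)) * M a c else 0) +
          (∑ b : Fin (Q + 1), if (c : ℕ) + (b : ℕ) = m + 1 then
            (((c : ℕ) : ℂ) - ((b : ℕ) : ℂ)) * M b d else 0)) * g c d := by
  have h1 : (∑ a : Fin (Q + 1), ∑ b : Fin (Q + 1), if (a : ℕ) + (b : ℕ) = m + 1 then
        (((a : ℕ) : ℂ) - ((b : ℕ) : ℂ)) *
          ((∑ c : Fin (Q + 1), M a c * g c b) + (∑ c : Fin (Q + 1), M b c * g a c)) else 0) =
      (∑ a : Fin (Q + 1), ∑ b : Fin (Q + 1), ∑ c : Fin (Q + 1),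
        (if (a : ℕ) + (b : ℕ) = m + 1 then
        (((a : ℕ) : ℂ) - ((b : ℕ) : ℂ)) * M a c else 0) * g c b) +
      (∑ a : Fin (Q + 1), ∑ b : Fin (Q + 1), ∑ c : Fin (Q + 1),
        (if (a : ℕ) + (b : ℕ) = m + 1 then
        (((a : ℕ) : ℂ) - ((b : ℕ) : ℂ)) * M b c else 0) * g a c) := by
    rw [← Finset.sum_add_distrib]
    refine Finset.sum_congr rfl fun a _ => ?_
    rw [← Finset.sum_add_distrib]
    refine Finset.sum_congr rfl fun b _ => ?_
    rw [← Finset.sum_add_distrib]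
    split_ifs with h
    · rw [← Finset.sum_add_distrib, Finset.mul_sum]
      refine Finset.sum_congr rfl fun c _ => ?_
      ring
    · simp
  rw [h1]
  have h2 : (∑ a : Fin (Q + 1), ∑ b : Fin (Q + 1), ∑ c : Fin (Q + 1),
        (if (a : ℕ) + (b : ℕ) = m + 1 then
        (((a : ℕ) : ℂ) - ((b : ℕ) : ℂ)) * M a c else 0) * g c b) =
      ∑ c : Fin (Q + 1), ∑ d : Fin (Q + 1),
        (∑ a : Fin (Q + 1), if (a : ℕ) + (d : ℕ) = m + 1 then
            (((a : ℕ) : ℂ) - ((d : ℕ) : ℂ)) * M a c else 0) * g c d := by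
    rw [Finset.sum_comm]
    rw [Finset.sum_congr rfl fun b _ => Finset.sum_comm]
    rw [Finset.sum_comm]
    refine Finset.sum_congr rfl fun c _ => Finset.sum_congr rfl fun d _ => ?_
    rw [Finset.sum_mul]
  have h3 : (∑ a : Fin (Q + 1), ∑ b : Fin (Q + 1), ∑ c : Fin (Q + 1),
        (if (a : ℕ) + (b : ℕ) = m + 1 then
        (((a : ℕ) : ℂ) - ((b : ℕ) : ℂ)) * M b c else 0) * g a c) =
      ∑ c : Fin (Q + 1), ∑ d : Fin (Q + 1),
        (∑ b : Fin (Q + 1), if (c : ℕ) + (b : ℕ) = m + 1 then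
            (((c : ℕ) : ℂ) - ((b : ℕ) : ℂ)) * M b d else 0) * g c d := by
    refine Finset.sum_congr rfl fun a _ => ?_
    rw [Finset.sum_comm]
    refine Finset.sum_congr rfl fun d _ => ?_
    rw [Finset.sum_mul]
  rw [h2, h3, ← Finset.sum_add_distrib]
  refine Finset.sum_congr rfl fun c _ => ?_
  rw [← Finset.sum_add_distrib]
  refine Finset.sum_congr rfl fun d _ => ?_
  ring

/-- value of the first inner sum for `Fm` -/
theorem inv_sumF {Q : ℕ} (m : ℕ) (c d : Fin (Q + 1)) (φ : ℕ → ℂ) :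
    (∑ a : Fin (Q + 1), if (a : ℕ) + (d : ℕ) = m + 1 then φ a * Fm Q a c else 0) =
      if (c : ℕ) + (d : ℕ) = m then φ ((c : ℕ) + 1) * ((Q : ℂ) - (c : ℕ)) else 0 := by
  have h := sym_sumF c (fun a => if a + (d : ℕ) = m + 1 then φ a else 0)
  have h2 : (∑ a : Fin (Q + 1), if (a : ℕ) + (d : ℕ) = m + 1 then φ a * Fm Q a c else 0) =
      ∑ a : Fin (Q + 1), (if (a : ℕ) + (d : ℕ) = m + 1 then φ a else 0) * Fm Q a c := by
    refine Finset.sum_congr rfl fun a _ => ?_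
    split_ifs <;> simp
  rw [h2, h]
  by_cases hc : (c : ℕ) + (d : ℕ) = m
  · rw [if_pos hc, if_pos (by omega)]
  · rw [if_neg hc, if_neg (by omega), zero_mul]

theorem inv_sumE {Q : ℕ} (m : ℕ) (c d : Fin (Q + 1)) (φ : ℕ → ℂ) :
    (∑ a : Fin (Q + 1), if (a : ℕ) + (d : ℕ) = m + 1 then φ a * Em a c else 0) =
      if (c : ℕ) + (d : ℕ) = m + 2 then φ ((c : ℕ) - 1) * ((c : ℕ) : ℂ) else 0 := by
  have h := sym_sumE c (fun a => if a + (d : ℕ) = m + 1 then φ a else 0)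
  have h2 : (∑ a : Fin (Q + 1), if (a : ℕ) + (d : ℕ) = m + 1 then φ a * Em a c else 0) =
      ∑ a : Fin (Q + 1), (if (a : ℕ) + (d : ℕ) = m + 1 then φ a else 0) * Em a c := by
    refine Finset.sum_congr rfl fun a _ => ?_
    split_ifs <;> simp
  rw [h2, h]
  by_cases h0 : (c : ℕ) = 0
  · rw [if_pos h0]
    split_ifs with hc
    · rw [h0]; simp
    · rfl
  · rw [if_neg h0]
    by_cases hc : (c : ℕ) + (d : ℕ) = m + 2
    · rw [if_pos hc, if_pos (by omega)]
    · rw [if_neg hc, if_neg (by omega), zero_mul]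

theorem bop_tot_F {Q N : ℕ} (hQ : 1 ≤ Q) (f : Amp Q (N + 2)) (m : ℕ) :
    bop m (tot (Fm Q) f)
      = (fun x => if m = 0 then 0 else
          (((2 * Q - 2 : ℕ) : ℂ) - (m : ℂ) + 1) * bop (m - 1) f x)
        + tot (Fm Q) (bop m f) := by
  funext x
  rw [inv_bop_tot, inv_sum_split m (fun a b => f (Fin.cons a (Fin.cons b x)))]
  simp only [Pi.add_apply]
  congr 1
  have hcast : ((2 * Q - 2 : ℕ) : ℂ) = 2 * (Q : ℂ) - 2 := by
    have h3 : 2 * Q - 2 + 2 = 2 * Q := by omega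
    have := congrArg (fun t : ℕ => (t : ℂ)) h3
    push_cast at this
    linear_combination this
  have hterm : ∀ c d : Fin (Q + 1),
      ((∑ a : Fin (Q + 1), if (a : ℕ) + (d : ℕ) = m + 1 then
            (((a : ℕ) : ℂ) - ((d : ℕ) : ℂ)) * Fm Q a c else 0) +
          (∑ b : Fin (Q + 1), if (c : ℕ) + (b : ℕ) = m + 1 then
            (((c : ℕ) : ℂ) - ((b : ℕ) : ℂ)) * Fm Q b d else 0)) =
        if (c : ℕ) + (d : ℕ) = m then
          (2 * (Q : ℂ) - m - 1) * (((c : ℕ) : ℂ) - ((d : ℕ) : ℂ)) else 0 := by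
    intro c d
    rw [inv_sumF m c d (fun a => (a : ℂ) - ((d : ℕ) : ℂ))]
    have e : (∑ b : Fin (Q + 1), if (c : ℕ) + (b : ℕ) = m + 1 then
            (((c : ℕ) : ℂ) - ((b : ℕ) : ℂ)) * Fm Q b d else 0) =
        ∑ b : Fin (Q + 1), if (b : ℕ) + (c : ℕ) = m + 1 then
            (((c : ℕ) : ℂ) - ((b : ℕ) : ℂ)) * Fm Q b d else 0 := by
      refine Finset.sum_congr rfl fun b _ => ?_
      rw [add_comm]
    rw [e, inv_sumF m d c (fun b => ((c : ℕ) : ℂ) - (b : ℂ))]
    by_cases h : (c : ℕ) + (d : ℕ) = m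
    · rw [if_pos h, if_pos (by omega), if_pos h]
      have hm : (m : ℂ) = ((c : ℕ) : ℂ) + ((d : ℕ) : ℂ) := by rw [← h]; push_cast; ring
      rw [hm]
      push_cast
      ring
    · rw [if_neg h, if_neg (by omega), if_neg h, add_zero]
  simp_rw [hterm]
  by_cases hm : m = 0
  · rw [if_pos hm]
    refine Finset.sum_eq_zero fun c _ => Finset.sum_eq_zero fun d _ => ?_
    split_ifs with h
    · have hc : (c : ℕ) = 0 := by omega
      have hd : (d : ℕ) = 0 := by omega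
      rw [hc, hd]
      simp
    · simp
  · rw [if_neg hm, hcast]
    unfold bop
    rw [Finset.mul_sum]
    refine Finset.sum_congr rfl fun c _ => ?_
    rw [Finset.mul_sum]
    refine Finset.sum_congr rfl fun d _ => ?_
    by_cases h : (c : ℕ) + (d : ℕ) = m
    · rw [if_pos h, if_pos (by omega)]
      ring
    · rw [if_neg h, if_neg (by omega)]
      simp

theorem bop_tot_E {Q N : ℕ} (_hQ : 1 ≤ Q) (f : Amp Q (N + 2)) (m : ℕ) :
    bop m (tot Em f) = (fun x => ((m : ℂ) + 1) * bop (m + 1) f x) + tot Em (bop m f) := by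
  funext x
  rw [inv_bop_tot, inv_sum_split m (fun a b => f (Fin.cons a (Fin.cons b x)))]
  simp only [Pi.add_apply]
  congr 1
  have hterm : ∀ c d : Fin (Q + 1),
      ((∑ a : Fin (Q + 1), if (a : ℕ) + (d : ℕ) = m + 1 then
            (((a : ℕ) : ℂ) - ((d : ℕ) : ℂ)) * Em a c else 0) +
          (∑ b : Fin (Q + 1), if (c : ℕ) + (b : ℕ) = m + 1 then
            (((c : ℕ) : ℂ) - ((b : ℕ) : ℂ)) * Em b d else 0)) =
        if (c : ℕ) + (d : ℕ) = m + 2 then
          ((m : ℂ) + 1) * (((c : ℕ) : ℂ) - ((d : ℕ) : ℂ)) else 0 := by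
    intro c d
    rw [inv_sumE m c d (fun a => (a : ℂ) - ((d : ℕ) : ℂ))]
    have e : (∑ b : Fin (Q + 1), if (c : ℕ) + (b : ℕ) = m + 1 then
            (((c : ℕ) : ℂ) - ((b : ℕ) : ℂ)) * Em b d else 0) =
        ∑ b : Fin (Q + 1), if (b : ℕ) + (c : ℕ) = m + 1 then
            (((c : ℕ) : ℂ) - ((b : ℕ) : ℂ)) * Em b d else 0 := by
      refine Finset.sum_congr rfl fun b _ => ?_
      rw [add_comm]
    rw [e, inv_sumE m d c (fun b => ((c : ℕ) : ℂ) - (b : ℂ))]
    have hsub : ∀ k : ℕ, (((k - 1 : ℕ) : ℂ)) * (k : ℂ) = ((k : ℂ) - 1) * (k : ℂ) := by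
      intro k
      rcases Nat.eq_zero_or_pos k with h | h
      · rw [h]; simp
      · rw [Nat.cast_sub h]; simp
    by_cases h : (c : ℕ) + (d : ℕ) = m + 2
    · rw [if_pos h, if_pos (by omega), if_pos h]
      have hm : (m : ℂ) = ((c : ℕ) : ℂ) + ((d : ℕ) : ℂ) - 2 := by
        have := congrArg (fun t : ℕ => (t : ℂ)) h
        push_cast at this
        linear_combination -this
      rw [hm]
      linear_combination hsub (c : ℕ) - hsub (d : ℕ)
    · rw [if_neg h, if_neg (by omega), if_neg h, add_zero]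
  simp_rw [hterm]
  unfold bop
  rw [Finset.mul_sum]
  refine Finset.sum_congr rfl fun c _ => ?_
  rw [Finset.mul_sum]
  refine Finset.sum_congr rfl fun d _ => ?_
  by_cases h : (c : ℕ) + (d : ℕ) = m + 2
  · rw [if_pos h, if_pos (by omega)]
    ring
  · rw [if_neg h, if_neg (by omega)]
    simp

theorem bop_big {Q N : ℕ} (hQ : 1 ≤ Q) (f : Amp Q (N + 2)) (m : ℕ) (hm : 2 * Q - 2 < m) :
    bop m f = 0 := by
  funext x
  unfold bop
  simp only [Pi.zero_apply]
  refine Finset.sum_eq_zero fun a _ => Finset.sum_eq_zero fun b _ => ?_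
  split_ifs with h
  · have ha := a.2
    have hb := b.2
    have h1 : (a : ℕ) = (b : ℕ) := by omega
    rw [h1]
    simp
  · rfl

/-! ### linearity -/

theorem inv_bop_lin {Q N D : ℕ} (m : ℕ) (c : Fin D → ℂ) (ψ : Fin D → Amp Q (N + 2)) :
    bop m (∑ j, c j • ψ j) = ∑ j, c j • bop m (ψ j) := by
  funext x
  simp only [bop, Finset.sum_apply, Pi.smul_apply, smul_eq_mul, Finset.mul_sum]
  rw [Finset.sum_comm (s := (Finset.univ : Finset (Fin D)))]
  refine Finset.sum_congr rfl fun a _ => ?_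
  rw [Finset.sum_comm (s := (Finset.univ : Finset (Fin D)))]
  refine Finset.sum_congr rfl fun b _ => ?_
  split_ifs with h
  · refine Finset.sum_congr rfl fun j _ => ?_
    ring
  · simp

theorem inv_bop_smul {Q N : ℕ} (m : ℕ) (c : ℂ) (f : Amp Q (N + 2)) :
    bop m (c • f) = c • bop m f := by
  have := inv_bop_lin m (fun _ : Fin 1 => c) (fun _ => f)
  simpa using this

theorem inv_bop_add {Q N : ℕ} (m : ℕ) (f g : Amp Q (N + 2)) :
    bop m (f + g) = bop m f + bop m g := by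
  have := inv_bop_lin m (fun _ : Fin 2 => (1 : ℂ)) (fun i => if i = 0 then f else g)
  simpa [Fin.sum_univ_two] using this

theorem inv_bop_zero {Q N : ℕ} (m : ℕ) : bop m (0 : Amp Q (N + 2)) = 0 := by
  have := inv_bop_smul (Q := Q) (N := N) m 0 0
  simpa using this

theorem inv_evN_add {Q N : ℕ} (a : ℕ) (f g : Amp Q (N + 1)) :
    evN a (f + g) = evN a f + evN a g := by
  unfold evN
  split_ifs with h
  · rfl
  · simp

theorem inv_evN_smul {Q N : ℕ} (a : ℕ) (c : ℂ) (f : Amp Q (N + 1)) :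
    evN a (c • f) = c • evN a f := by
  unfold evN
  split_ifs with h
  · rfl
  · simp

theorem inv_evN_zero {Q N : ℕ} (a : ℕ) : evN a (0 : Amp Q (N + 1)) = 0 := by
  unfold evN
  split_ifs with h
  · rfl
  · rfl

theorem inv_evN_sum {Q N D : ℕ} (a : ℕ) (ψ : Fin D → Amp Q (N + 1)) :
    evN a (∑ j, ψ j) = ∑ j, evN a (ψ j) := by
  unfold evN
  split_ifs with h
  · funext x
    simp [ev, Finset.sum_apply]
  · simp

theorem inv_ip_add_left {Q N : ℕ} (f g h : Amp Q N) :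
    ip (wQ Q) (f + g) h = ip (wQ Q) f h + ip (wQ Q) g h := by
  unfold ip
  rw [← Finset.sum_add_distrib]
  refine Finset.sum_congr rfl fun x _ => ?_
  rw [Pi.add_apply, map_add]
  ring

theorem inv_ip_add_right {Q N : ℕ} (f g h : Amp Q N) :
    ip (wQ Q) f (g + h) = ip (wQ Q) f g + ip (wQ Q) f h := by
  unfold ip
  rw [← Finset.sum_add_distrib]
  refine Finset.sum_congr rfl fun x _ => ?_
  rw [Pi.add_apply]
  ring

theorem inv_ip_smul_left {Q N : ℕ} (c : ℂ) (f g : Amp Q N) :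
    ip (wQ Q) (c • f) g = (starRingEnd ℂ) c * ip (wQ Q) f g := by
  unfold ip
  rw [Finset.mul_sum]
  refine Finset.sum_congr rfl fun x _ => ?_
  rw [Pi.smul_apply, smul_eq_mul, map_mul]
  ring

theorem inv_ip_smul_right {Q N : ℕ} (c : ℂ) (f g : Amp Q N) :
    ip (wQ Q) f (c • g) = c * ip (wQ Q) f g := by
  unfold ip
  rw [Finset.mul_sum]
  refine Finset.sum_congr rfl fun x _ => ?_
  rw [Pi.smul_apply, smul_eq_mul]
  ring

theorem inv_ip_zero_left {Q N : ℕ} (g : Amp Q N) : ip (wQ Q) 0 g = 0 := by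
  simp [ip]

theorem inv_ip_zero_right {Q N : ℕ} (f : Amp Q N) : ip (wQ Q) f 0 = 0 := by
  simp [ip]

theorem inv_ip_sum_left {Q N : ℕ} {ι : Type*} (s : Finset ι) (f : ι → Amp Q N) (g : Amp Q N) :
    ip (wQ Q) (∑ j ∈ s, f j) g = ∑ j ∈ s, ip (wQ Q) (f j) g := by
  unfold ip
  simp only [Finset.sum_apply, map_sum, Finset.sum_mul, Finset.mul_sum]
  rw [Finset.sum_comm]

theorem inv_ip_sum_right {Q N : ℕ} {ι : Type*} (s : Finset ι) (f : ι → Amp Q N) (g : Amp Q N) :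
    ip (wQ Q) g (∑ j ∈ s, f j) = ∑ j ∈ s, ip (wQ Q) g (f j) := by
  unfold ip
  simp only [Finset.sum_apply, Finset.mul_sum]
  rw [Finset.sum_comm]

theorem inv_ip_self {Q N : ℕ} (f : Amp Q N) : 0 ≤ (ip (wQ Q) f f).re := by
  unfold ip
  rw [Complex.re_sum]
  refine Finset.sum_nonneg fun x _ => ?_
  rw [Complex.re_ofReal_mul]
  apply mul_nonneg
  · exact Finset.prod_nonneg fun i _ => (sym_wpos Q _).le
  · rw [← Complex.normSq_eq_conj_mul_self, Complex.ofReal_re]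
    exact Complex.normSq_nonneg _

/-! ### the abstract invariance lemma -/

section General

variable {Q N N' D p q : ℕ} (L : ℕ → ℕ → Amp Q N → Amp Q N')

/-- the hypotheses on the family of contraction operators -/
structure InvFam (p q : ℕ) (L : ℕ → ℕ → Amp Q N → Amp Q N') : Prop where
  lin : ∀ (m a : ℕ) (D : ℕ) (c : Fin D → ℂ) (ψ : Fin D → Amp Q N),
    L m a (∑ j, c j • ψ j) = ∑ j, c j • L m a (ψ j)
  hF : ∀ (m a : ℕ) (f : Amp Q N), L m a (tot (Fm Q) f) =
    ((if m = 0 then 0 else ((p : ℂ) - (m : ℂ) + 1) • L (m - 1) a f)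
      + (if a = 0 then 0 else ((q : ℂ) - (a : ℂ) + 1) • L m (a - 1) f)) + tot (Fm Q) (L m a f)
  hE : ∀ (m a : ℕ) (f : Amp Q N), L m a (tot Em f) =
    (((m : ℂ) + 1) • L (m + 1) a f + ((a : ℂ) + 1) • L m (a + 1) f) + tot Em (L m a f)
  supp : ∀ (m a : ℕ) (f : Amp Q N), ¬ (m ≤ p ∧ a ≤ q) → L m a f = 0

/-- the complex kernel -/
noncomputable def invG (L : ℕ → ℕ → Amp Q N → Amp Q N') (ψ : Fin D → Amp Q N)
    (m a m' a' : ℕ) : ℂ := ∑ i, ip (wQ Q) (L m a (ψ i)) (L m' a' (ψ i))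

theorem inv_general_FE (hL : InvFam p q L) (ψ : Fin D → Amp Q N) (A : Fin D → Fin D → ℂ)
    (hF : ∀ i, tot (Fm Q) (ψ i) = ∑ j, A i j • ψ j)
    (hE : ∀ i, tot Em (ψ i) = ∑ j, (starRingEnd ℂ) (A j i) • ψ j) (m a m' a' : ℕ) :
    (∑ i, ip (wQ Q) ((if m = 0 then 0 else ((p : ℂ) - (m : ℂ) + 1) • L (m - 1) a (ψ i))
      + (if a = 0 then 0 else ((q : ℂ) - (a : ℂ) + 1) • L m (a - 1) (ψ i))) (L m' a' (ψ i))) =
    ∑ i, ip (wQ Q) (L m a (ψ i)) (((m' : ℂ) + 1) • L (m' + 1) a' (ψ i) +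
      ((a' : ℂ) + 1) • L m' (a' + 1) (ψ i)) := by
  have h1 : ∀ i, ip (wQ Q) ((if m = 0 then 0 else ((p : ℂ) - (m : ℂ) + 1) • L (m - 1) a (ψ i))
      + (if a = 0 then 0 else ((q : ℂ) - (a : ℂ) + 1) • L m (a - 1) (ψ i))) (L m' a' (ψ i)) =
      (∑ j, (starRingEnd ℂ) (A i j) * ip (wQ Q) (L m a (ψ j)) (L m' a' (ψ i))) -
        ip (wQ Q) (L m a (ψ i)) (tot Em (L m' a' (ψ i))) := by
    intro i
    have e1 := hL.hF m a (ψ i)
    rw [hF i, hL.lin] at e1
    have e2 := congrArg (fun v => ip (wQ Q) v (L m' a' (ψ i))) e1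
    rw [inv_ip_sum_left, inv_ip_add_left _ (tot (Fm Q) (L m a (ψ i))), ip_tot_adj] at e2
    simp only [inv_ip_smul_left] at e2
    rw [e2]
    ring
  have h2 : ∀ i, ip (wQ Q) (L m a (ψ i)) (((m' : ℂ) + 1) • L (m' + 1) a' (ψ i) +
      ((a' : ℂ) + 1) • L m' (a' + 1) (ψ i)) =
      (∑ j, (starRingEnd ℂ) (A j i) * ip (wQ Q) (L m a (ψ i)) (L m' a' (ψ j))) -
        ip (wQ Q) (L m a (ψ i)) (tot Em (L m' a' (ψ i))) := by
    intro i
    have e1 := hL.hE m' a' (ψ i)
    rw [hE i, hL.lin] at e1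
    have e2 := congrArg (fun v => ip (wQ Q) (L m a (ψ i)) v) e1
    rw [inv_ip_sum_right, inv_ip_add_right _ _ (tot Em (L m' a' (ψ i)))] at e2
    simp only [inv_ip_smul_right] at e2
    rw [e2]
    ring
  rw [Finset.sum_congr rfl fun i _ => h1 i, Finset.sum_congr rfl fun i _ => h2 i,
    Finset.sum_sub_distrib, Finset.sum_sub_distrib]
  congr 1
  rw [Finset.sum_comm]

theorem inv_general_EF (hL : InvFam p q L) (ψ : Fin D → Amp Q N) (A : Fin D → Fin D → ℂ)
    (hF : ∀ i, tot (Fm Q) (ψ i) = ∑ j, A i j • ψ j)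
    (hE : ∀ i, tot Em (ψ i) = ∑ j, (starRingEnd ℂ) (A j i) • ψ j) (m a m' a' : ℕ) :
    (∑ i, ip (wQ Q) (((m : ℂ) + 1) • L (m + 1) a (ψ i) +
      ((a : ℂ) + 1) • L m (a + 1) (ψ i)) (L m' a' (ψ i))) =
    ∑ i, ip (wQ Q) (L m a (ψ i))
      ((if m' = 0 then 0 else ((p : ℂ) - (m' : ℂ) + 1) • L (m' - 1) a' (ψ i))
      + (if a' = 0 then 0 else ((q : ℂ) - (a' : ℂ) + 1) • L m' (a' - 1) (ψ i))) := by
  have h1 : ∀ i, ip (wQ Q) (((m : ℂ) + 1) • L (m + 1) a (ψ i) +
      ((a : ℂ) + 1) • L m (a + 1) (ψ i)) (L m' a' (ψ i)) =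
      (∑ j, A j i * ip (wQ Q) (L m a (ψ j)) (L m' a' (ψ i))) -
        ip (wQ Q) (L m a (ψ i)) (tot (Fm Q) (L m' a' (ψ i))) := by
    intro i
    have e1 := hL.hE m a (ψ i)
    rw [hE i, hL.lin] at e1
    have e2 := congrArg (fun v => ip (wQ Q) v (L m' a' (ψ i))) e1
    rw [inv_ip_sum_left, inv_ip_add_left _ (tot Em (L m a (ψ i))), ip_tot_adj'] at e2
    simp only [inv_ip_smul_left, Complex.conj_conj] at e2
    rw [e2]
    ring
  have h2 : ∀ i, ip (wQ Q) (L m a (ψ i))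
      ((if m' = 0 then 0 else ((p : ℂ) - (m' : ℂ) + 1) • L (m' - 1) a' (ψ i))
      + (if a' = 0 then 0 else ((q : ℂ) - (a' : ℂ) + 1) • L m' (a' - 1) (ψ i))) =
      (∑ j, A i j * ip (wQ Q) (L m a (ψ i)) (L m' a' (ψ j))) -
        ip (wQ Q) (L m a (ψ i)) (tot (Fm Q) (L m' a' (ψ i))) := by
    intro i
    have e1 := hL.hF m' a' (ψ i)
    rw [hF i, hL.lin] at e1
    have e2 := congrArg (fun v => ip (wQ Q) (L m a (ψ i)) v) e1
    rw [inv_ip_sum_right, inv_ip_add_right _ _ (tot (Fm Q) (L m' a' (ψ i)))] at e2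
    simp only [inv_ip_smul_right] at e2
    rw [e2]
    ring
  rw [Finset.sum_congr rfl fun i _ => h1 i, Finset.sum_congr rfl fun i _ => h2 i,
    Finset.sum_sub_distrib, Finset.sum_sub_distrib]
  congr 1
  rw [Finset.sum_comm]

theorem inv_general (hL : InvFam p q L) (ψ : Fin D → Amp Q N) (A : Fin D → Fin D → ℂ)
    (hF : ∀ i, tot (Fm Q) (ψ i) = ∑ j, A i j • ψ j)
    (hE : ∀ i, tot Em (ψ i) = ∑ j, (starRingEnd ℂ) (A j i) • ψ j) :
    InvKer p q (fun m a m' a' => ∑ i, (ip (wQ Q) (L m a (ψ i)) (L m' a' (ψ i))).re) where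
  supp := by
    intro m a m' a' h
    refine Finset.sum_eq_zero fun i _ => ?_
    by_cases h1 : m ≤ p ∧ a ≤ q
    · have h2 : ¬ (m' ≤ p ∧ a' ≤ q) := by
        intro h3
        exact h ⟨h1.1, h1.2, h3.1, h3.2⟩
      rw [hL.supp m' a' _ h2, inv_ip_zero_right]
      simp
    · rw [hL.supp m a _ h1, inv_ip_zero_left]
      simp
  invFE := by
    intro m a m' a'
    have h := congrArg Complex.re (inv_general_FE L hL ψ A hF hE m a m' a')
    rw [Complex.re_sum, Complex.re_sum] at h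
    have e1 : ∀ i, (ip (wQ Q) ((if m = 0 then 0 else ((p : ℂ) - (m : ℂ) + 1) • L (m - 1) a (ψ i))
      + (if a = 0 then 0 else ((q : ℂ) - (a : ℂ) + 1) • L m (a - 1) (ψ i)))
        (L m' a' (ψ i))).re =
      (if m = 0 then 0 else ((p : ℝ) - (m : ℝ) + 1) *
          (ip (wQ Q) (L (m - 1) a (ψ i)) (L m' a' (ψ i))).re)
      + (if a = 0 then 0 else ((q : ℝ) - (a : ℝ) + 1) *
          (ip (wQ Q) (L m (a - 1) (ψ i)) (L m' a' (ψ i))).re) := by
      intro i
      rw [inv_ip_add_left, Complex.add_re]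
      congr 1
      · split_ifs
        · rw [inv_ip_zero_left]; simp
        · rw [inv_ip_smul_left]
          have e : (starRingEnd ℂ) ((p : ℂ) - (m : ℂ) + 1) =
              (((p : ℝ) - (m : ℝ) + 1 : ℝ) : ℂ) := by
            simp
          rw [e, Complex.re_ofReal_mul]
      · split_ifs
        · rw [inv_ip_zero_left]; simp
        · rw [inv_ip_smul_left]
          have e : (starRingEnd ℂ) ((q : ℂ) - (a : ℂ) + 1) =
              (((q : ℝ) - (a : ℝ) + 1 : ℝ) : ℂ) := by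
            simp
          rw [e, Complex.re_ofReal_mul]
    have e2 : ∀ i, (ip (wQ Q) (L m a (ψ i)) (((m' : ℂ) + 1) • L (m' + 1) a' (ψ i) +
      ((a' : ℂ) + 1) • L m' (a' + 1) (ψ i))).re =
      ((m' : ℝ) + 1) * (ip (wQ Q) (L m a (ψ i)) (L (m' + 1) a' (ψ i))).re
      + ((a' : ℝ) + 1) * (ip (wQ Q) (L m a (ψ i)) (L m' (a' + 1) (ψ i))).re := by
      intro i
      rw [inv_ip_add_right, Complex.add_re, inv_ip_smul_right, inv_ip_smul_right]
      have e : ((m' : ℂ) + 1) = (((m' : ℝ) + 1 : ℝ) : ℂ) := by simp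
      have e' : ((a' : ℂ) + 1) = (((a' : ℝ) + 1 : ℝ) : ℂ) := by simp
      rw [e, e', Complex.re_ofReal_mul, Complex.re_ofReal_mul]
    rw [Finset.sum_congr rfl fun i _ => e1 i, Finset.sum_congr rfl fun i _ => e2 i,
      Finset.sum_add_distrib, Finset.sum_add_distrib] at h
    unfold Fop Eop
    simp only [Finset.mul_sum]
    rw [← h]
    congr 1
    · split_ifs with h0
      · simp
      · rfl
    · split_ifs with h0
      · simp
      · rfl
  invEF := by
    intro m a m' a'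
    have h := congrArg Complex.re (inv_general_EF L hL ψ A hF hE m a m' a')
    rw [Complex.re_sum, Complex.re_sum] at h
    have e1 : ∀ i, (ip (wQ Q) (L m a (ψ i))
      ((if m' = 0 then 0 else ((p : ℂ) - (m' : ℂ) + 1) • L (m' - 1) a' (ψ i))
      + (if a' = 0 then 0 else ((q : ℂ) - (a' : ℂ) + 1) • L m' (a' - 1) (ψ i)))).re =
      (if m' = 0 then 0 else ((p : ℝ) - (m' : ℝ) + 1) *
          (ip (wQ Q) (L m a (ψ i)) (L (m' - 1) a' (ψ i))).re)
      + (if a' = 0 then 0 else ((q : ℝ) - (a' : ℝ) + 1) *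
          (ip (wQ Q) (L m a (ψ i)) (L m' (a' - 1) (ψ i))).re) := by
      intro i
      rw [inv_ip_add_right, Complex.add_re]
      congr 1
      · split_ifs
        · rw [inv_ip_zero_right]; simp
        · rw [inv_ip_smul_right]
          have e : ((p : ℂ) - (m' : ℂ) + 1) =
              (((p : ℝ) - (m' : ℝ) + 1 : ℝ) : ℂ) := by
            simp
          rw [e, Complex.re_ofReal_mul]
      · split_ifs
        · rw [inv_ip_zero_right]; simp
        · rw [inv_ip_smul_right]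
          have e : ((q : ℂ) - (a' : ℂ) + 1) =
              (((q : ℝ) - (a' : ℝ) + 1 : ℝ) : ℂ) := by
            simp
          rw [e, Complex.re_ofReal_mul]
    have e2 : ∀ i, (ip (wQ Q) (((m : ℂ) + 1) • L (m + 1) a (ψ i) +
      ((a : ℂ) + 1) • L m (a + 1) (ψ i)) (L m' a' (ψ i))).re =
      ((m : ℝ) + 1) * (ip (wQ Q) (L (m + 1) a (ψ i)) (L m' a' (ψ i))).re
      + ((a : ℝ) + 1) * (ip (wQ Q) (L m (a + 1) (ψ i)) (L m' a' (ψ i))).re := by
      intro i
      rw [inv_ip_add_left, Complex.add_re, inv_ip_smul_left, inv_ip_smul_left]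
      have e : (starRingEnd ℂ) ((m : ℂ) + 1) = (((m : ℝ) + 1 : ℝ) : ℂ) := by simp
      have e' : (starRingEnd ℂ) ((a : ℂ) + 1) = (((a : ℝ) + 1 : ℝ) : ℂ) := by simp
      rw [e, e', Complex.re_ofReal_mul, Complex.re_ofReal_mul]
    rw [Finset.sum_congr rfl fun i _ => e1 i, Finset.sum_congr rfl fun i _ => e2 i,
      Finset.sum_add_distrib, Finset.sum_add_distrib] at h
    unfold Fop Eop
    simp only [Finset.mul_sum]
    rw [h]
    congr 1
    · split_ifs with h0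
      · simp
      · rfl
    · split_ifs with h0
      · simp
      · rfl
  psd := by
    intro u
    have h : (∑ m ∈ range (p + 1), ∑ a ∈ range (q + 1),
        ∑ m' ∈ range (p + 1), ∑ a' ∈ range (q + 1), u m a * u m' a' *
          ∑ i, (ip (wQ Q) (L m a (ψ i)) (L m' a' (ψ i))).re) =
        ∑ i, (ip (wQ Q) (∑ z ∈ range (p + 1) ×ˢ range (q + 1), ((u z.1 z.2 : ℝ) : ℂ) •
            L z.1 z.2 (ψ i)) (∑ z ∈ range (p + 1) ×ˢ range (q + 1), ((u z.1 z.2 : ℝ) : ℂ) •
            L z.1 z.2 (ψ i))).re := by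
      have e1 : ∀ i, (ip (wQ Q) (∑ z ∈ range (p + 1) ×ˢ range (q + 1), ((u z.1 z.2 : ℝ) : ℂ) •
            L z.1 z.2 (ψ i)) (∑ z ∈ range (p + 1) ×ˢ range (q + 1), ((u z.1 z.2 : ℝ) : ℂ) •
            L z.1 z.2 (ψ i))).re = ∑ z ∈ range (p + 1) ×ˢ range (q + 1),
            ∑ z' ∈ range (p + 1) ×ˢ range (q + 1), u z.1 z.2 * u z'.1 z'.2 *
              (ip (wQ Q) (L z.1 z.2 (ψ i)) (L z'.1 z'.2 (ψ i))).re := by
        intro i
        rw [inv_ip_sum_left, Complex.re_sum]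
        refine Finset.sum_congr rfl fun z _ => ?_
        rw [inv_ip_sum_right, Complex.re_sum]
        refine Finset.sum_congr rfl fun z' _ => ?_
        rw [inv_ip_smul_left, inv_ip_smul_right, Complex.conj_ofReal, Complex.re_ofReal_mul,
          Complex.re_ofReal_mul]
        ring
      have e2 : (∑ m ∈ range (p + 1), ∑ a ∈ range (q + 1),
        ∑ m' ∈ range (p + 1), ∑ a' ∈ range (q + 1), u m a * u m' a' *
          ∑ i, (ip (wQ Q) (L m a (ψ i)) (L m' a' (ψ i))).re) =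
          ∑ z ∈ range (p + 1) ×ˢ range (q + 1), ∑ z' ∈ range (p + 1) ×ˢ range (q + 1),
            u z.1 z.2 * u z'.1 z'.2 *
            ∑ i, (ip (wQ Q) (L z.1 z.2 (ψ i)) (L z'.1 z'.2 (ψ i))).re := by
        rw [Finset.sum_product]
        refine Finset.sum_congr rfl fun m _ => Finset.sum_congr rfl fun a _ => ?_
        rw [Finset.sum_product]
      rw [e2, Finset.sum_congr rfl fun i _ => e1 i]
      symm
      rw [Finset.sum_comm]
      refine Finset.sum_congr rfl fun z _ => ?_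
      rw [Finset.sum_comm]
      refine Finset.sum_congr rfl fun z' _ => ?_
      rw [Finset.mul_sum]
    rw [h]
    exact Finset.sum_nonneg fun i _ => inv_ip_self _

end General

/-! ### the three families -/

theorem inv_tot_zero {Q N : ℕ} (M : ℕ → ℕ → ℂ) : tot M (0 : Amp Q N) = 0 := by
  funext x
  simp [tot]

theorem inv_evN_tot_F {Q N : ℕ} (f : Amp Q (N + 1)) (a : ℕ) :
    evN a (tot (Fm Q) f) = (if a = 0 then 0 else ((Q : ℂ) - (a : ℂ) + 1) • evN (a - 1) f) +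
      tot (Fm Q) (evN a f) := by
  by_cases ha : a < Q + 1
  · have e1 : evN a (tot (Fm Q) f) = ev ⟨a, ha⟩ (tot (Fm Q) f) := by
      unfold evN
      rw [dif_pos ha]
    have e2 : evN a f = ev ⟨a, ha⟩ f := by
      unfold evN
      rw [dif_pos ha]
    rw [e1, e2, ev_tot]
    congr 1
    funext x
    have h := sym_sumF' (Q := Q) ⟨a, ha⟩ (fun c => evN c f x)
    have h' : ∑ c : Fin (Q + 1), Fm Q ((⟨a, ha⟩ : Fin (Q + 1)) : ℕ) c * evN (c : ℕ) f x =
        ∑ c : Fin (Q + 1), Fm Q ((⟨a, ha⟩ : Fin (Q + 1)) : ℕ) c * ev c f x := by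
      refine Finset.sum_congr rfl fun c _ => ?_
      congr 1
      unfold evN
      rw [dif_pos c.2]
    rw [h'] at h
    rw [h]
    simp only
    split_ifs with h0
    · rfl
    · rw [Pi.smul_apply, smul_eq_mul]
      have : ((a - 1 : ℕ) : ℂ) = (a : ℂ) - 1 := by
        rw [Nat.cast_sub (by omega)]
        simp
      rw [this]
      ring
  · have e1 : evN a (tot (Fm Q) f) = 0 := by
      unfold evN
      rw [dif_neg ha]
    have e2 : evN a f = 0 := by
      unfold evN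
      rw [dif_neg ha]
    rw [e1, e2, inv_tot_zero, add_zero, if_neg (by omega)]
    by_cases ha' : a = Q + 1
    · subst ha'
      push_cast
      rw [show (Q : ℂ) - (Q + 1) + 1 = 0 by ring, zero_smul]
    · have e3 : evN (a - 1) f = 0 := by
        unfold evN
        rw [dif_neg (by omega)]
      rw [e3, smul_zero]

theorem inv_evN_tot_E {Q N : ℕ} (f : Amp Q (N + 1)) (a : ℕ) :
    evN a (tot Em f) = ((a : ℂ) + 1) • evN (a + 1) f + tot Em (evN a f) := by
  by_cases ha : a < Q + 1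
  · have e1 : evN a (tot Em f) = ev ⟨a, ha⟩ (tot Em f) := by
      unfold evN
      rw [dif_pos ha]
    have e2 : evN a f = ev ⟨a, ha⟩ f := by
      unfold evN
      rw [dif_pos ha]
    rw [e1, e2, ev_tot]
    congr 1
    funext x
    have h := sym_sumE' (Q := Q) ⟨a, ha⟩ (fun c => evN c f x)
    have h' : ∑ c : Fin (Q + 1), Em ((⟨a, ha⟩ : Fin (Q + 1)) : ℕ) c * evN (c : ℕ) f x =
        ∑ c : Fin (Q + 1), Em ((⟨a, ha⟩ : Fin (Q + 1)) : ℕ) c * ev c f x := by
      refine Finset.sum_congr rfl fun c _ => ?_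
      congr 1
      unfold evN
      rw [dif_pos c.2]
    rw [h'] at h
    rw [h]
    simp only
    rw [Pi.smul_apply, smul_eq_mul]
    split_ifs with h0
    · rfl
    · have e3 : evN (a + 1) f = 0 := by
        unfold evN
        rw [dif_neg h0]
      rw [e3]
      simp
  · have e1 : evN a (tot Em f) = 0 := by
      unfold evN
      rw [dif_neg ha]
    have e2 : evN a f = 0 := by
      unfold evN
      rw [dif_neg ha]
    have e3 : evN (a + 1) f = 0 := by
      unfold evN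
      rw [dif_neg (by omega)]
    rw [e1, e2, e3, inv_tot_zero, smul_zero, add_zero]

theorem inv_evN_big {Q N : ℕ} (f : Amp Q (N + 1)) (a : ℕ) (ha : Q < a) : evN a f = 0 := by
  unfold evN
  rw [dif_neg (by omega)]

/-- `bop` commutation in `smul` form -/
theorem inv_bop_F {Q N : ℕ} (hQ : 1 ≤ Q) (f : Amp Q (N + 2)) (m : ℕ) :
    bop m (tot (Fm Q) f) =
      (if m = 0 then 0 else (((2 * Q - 2 : ℕ) : ℂ) - (m : ℂ) + 1) • bop (m - 1) f)
        + tot (Fm Q) (bop m f) := by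
  rw [bop_tot_F hQ]
  congr 1
  funext x
  split_ifs with h
  · rfl
  · rfl

theorem inv_bop_E {Q N : ℕ} (hQ : 1 ≤ Q) (f : Amp Q (N + 2)) (m : ℕ) :
    bop m (tot Em f) = ((m : ℂ) + 1) • bop (m + 1) f + tot Em (bop m f) := by
  rw [bop_tot_E hQ]
  rfl

theorem inv_fam2 {Q n : ℕ} (hQ : 2 ≤ Q) :
    InvFam (2 * Q - 2) 0 (fun (m a : ℕ) (f : Amp Q (n + 4)) =>
      if a = 0 then bop m f else (0 : Amp Q (n + 2))) where
  lin := by
    intro m a D c ψ
    split_ifs with h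
    · exact inv_bop_lin m c ψ
    · simp
  hF := by
    intro m a f
    by_cases h : a = 0
    · rw [if_pos h, if_pos h, if_pos h, if_pos h, add_zero]
      exact inv_bop_F (by omega) f m
    · rw [if_neg h, if_neg h, if_neg h, if_neg h, inv_tot_zero, add_zero]
      simp only [smul_zero, ite_self, zero_add]
      split_ifs with h1
      · have : a = 1 := by omega
        subst this
        simp
      · simp
  hE := by
    intro m a f
    by_cases h : a = 0
    · rw [if_pos h, if_pos h, if_neg (by omega), if_pos h, smul_zero, add_zero]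
      exact inv_bop_E (by omega) f m
    · rw [if_neg h, if_neg h, if_neg (by omega), if_neg h, inv_tot_zero]
      simp
  supp := by
    intro m a f h
    split_ifs with h0
    · exact bop_big (by omega) f m (by omega)
    · rfl

theorem inv_fam3 {Q n : ℕ} (hQ : 2 ≤ Q) :
    InvFam (2 * Q - 2) Q (fun (m a : ℕ) (f : Amp Q (n + 4)) =>
      (evN a (bop m f) : Amp Q (n + 1))) where
  lin := by
    intro m a D c ψ
    rw [inv_bop_lin, inv_evN_sum]
    exact Finset.sum_congr rfl fun j _ => inv_evN_smul _ _ _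
  hF := by
    intro m a f
    rw [inv_bop_F (by omega), inv_evN_add, inv_evN_tot_F]
    have e : evN a (if m = 0 then (0 : Amp Q (n + 2)) else
        (((2 * Q - 2 : ℕ) : ℂ) - (m : ℂ) + 1) • bop (m - 1) f) =
        if m = 0 then (0 : Amp Q (n + 1)) else
        (((2 * Q - 2 : ℕ) : ℂ) - (m : ℂ) + 1) • evN a (bop (m - 1) f) := by
      split_ifs
      · exact inv_evN_zero a
      · exact inv_evN_smul _ _ _
    rw [e]
    exact (add_assoc _ _ _).symm
  hE := by
    intro m a f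
    rw [inv_bop_E (by omega), inv_evN_add, inv_evN_tot_E, inv_evN_smul]
    exact (add_assoc _ _ _).symm
  supp := by
    intro m a f h
    by_cases hm : m ≤ 2 * Q - 2
    · exact inv_evN_big _ a (by omega)
    · rw [bop_big (by omega) f m (by omega), inv_evN_zero]

theorem inv_fam4 {Q n : ℕ} (hQ : 2 ≤ Q) :
    InvFam (2 * Q - 2) (2 * Q - 2) (fun (m a : ℕ) (f : Amp Q (n + 4)) =>
      (bop a (bop m f) : Amp Q n)) where
  lin := by
    intro m a D c ψ
    rw [inv_bop_lin, inv_bop_lin]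
  hF := by
    intro m a f
    rw [inv_bop_F (by omega), inv_bop_add, inv_bop_F (by omega)]
    have e : bop a (if m = 0 then (0 : Amp Q (n + 2)) else
        (((2 * Q - 2 : ℕ) : ℂ) - (m : ℂ) + 1) • bop (m - 1) f) =
        if m = 0 then (0 : Amp Q n) else
        (((2 * Q - 2 : ℕ) : ℂ) - (m : ℂ) + 1) • bop a (bop (m - 1) f) := by
      split_ifs
      · exact inv_bop_zero a
      · exact inv_bop_smul _ _ _
    rw [e]
    exact (add_assoc _ _ _).symm
  hE := by
    intro m a f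
    rw [inv_bop_E (by omega), inv_bop_add, inv_bop_E (by omega), inv_bop_smul]
    exact (add_assoc _ _ _).symm
  supp := by
    intro m a f h
    by_cases hm : m ≤ 2 * Q - 2
    · exact bop_big (by omega) _ a (by omega)
    · rw [bop_big (by omega) f m (by omega), inv_bop_zero]

theorem invKer_K2 {Q n D : ℕ} (hQ : 2 ≤ Q) (ψ : Fin D → Amp Q (n + 4))
    (A : Fin D → Fin D → ℂ) (hF : ∀ i, tot (Fm Q) (ψ i) = ∑ j, A i j • ψ j)
    (hE : ∀ i, tot Em (ψ i) = ∑ j, (starRingEnd ℂ) (A j i) • ψ j) :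
    InvKer (2 * Q - 2) 0 (K2 ψ) := by
  have h := inv_general _ (inv_fam2 (n := n) hQ) ψ A hF hE
  have e : K2 ψ = fun m a m' a' => ∑ i, (ip (wQ Q)
      (if a = 0 then bop m (ψ i) else (0 : Amp Q (n + 2)))
      (if a' = 0 then bop m' (ψ i) else (0 : Amp Q (n + 2)))).re := by
    funext m a m' a'
    unfold K2
    by_cases h1 : a = 0
    · by_cases h2 : a' = 0
      · simp [h1, h2]
      · simp [h1, h2, inv_ip_zero_right]
    · simp [h1, inv_ip_zero_left]
  rw [e]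
  exact h

theorem invKer_K3 {Q n D : ℕ} (hQ : 2 ≤ Q) (ψ : Fin D → Amp Q (n + 4))
    (A : Fin D → Fin D → ℂ) (hF : ∀ i, tot (Fm Q) (ψ i) = ∑ j, A i j • ψ j)
    (hE : ∀ i, tot Em (ψ i) = ∑ j, (starRingEnd ℂ) (A j i) • ψ j) :
    InvKer (2 * Q - 2) Q (K3 ψ) :=
  inv_general _ (inv_fam3 (n := n) hQ) ψ A hF hE

theorem invKer_K4 {Q n D : ℕ} (hQ : 2 ≤ Q) (ψ : Fin D → Amp Q (n + 4))
    (A : Fin D → Fin D → ℂ) (hF : ∀ i, tot (Fm Q) (ψ i) = ∑ j, A i j • ψ j)
    (hE : ∀ i, tot Em (ψ i) = ∑ j, (starRingEnd ℂ) (A j i) • ψ j) :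
    InvKer (2 * Q - 2) (2 * Q - 2) (K4 ψ) :=
  inv_general _ (inv_fam4 (n := n) hQ) ψ A hF hE

end Vale.Agent.P359
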