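import Vale.Agent.P359.Defs

namespace Vale.Agent.P359

open Finset Filter Topology

theorem LimTail_geo (n : ℕ) :
    ∑ a ∈ range (55 + n), (if 55 ≤ a then 5 * (a : ℝ) * (3 / 4 : ℝ) ^ a else 0)
      = 5 * (3 / 4 : ℝ) ^ 55 * 232 - 5 * (3 / 4 : ℝ) ^ (55 + n) * (4 * ((55 + n : ℕ) : ℝ) + 12) := by
  induction n with
  | zero =>
    rw [Finset.sum_eq_zero]
    · norm_num
    · intro a ha
      rw [Finset.mem_range] at ha
      rw [if_neg (by omega)]
  | succ n ih =>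
    rw [← add_assoc, Finset.sum_range_succ, ih, if_pos (by omega)]
    push_cast
    rw [pow_succ]
    ring

theorem LimTail_geo_le (n : ℕ) :
    ∑ a ∈ range n, (if 55 ≤ a then 5 * (a : ℝ) * (3 / 4 : ℝ) ^ a else 0)
      ≤ 5 * (3 / 4 : ℝ) ^ 55 * 232 := by
  by_cases h : 55 ≤ n
  · obtain ⟨m, rfl⟩ := Nat.exists_eq_add_of_le h
    rw [LimTail_geo]
    have : (0 : ℝ) ≤ 5 * (3 / 4 : ℝ) ^ (55 + m) * (4 * ((55 + m : ℕ) : ℝ) + 12) := by positivity
    linarith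
  · rw [Finset.sum_eq_zero]
    · positivity
    · intro a ha
      rw [Finset.mem_range] at ha
      rw [if_neg (by omega)]

theorem LimTail_tC_nonneg (a : ℕ) : (0 : ℝ) ≤ (tC a : ℝ) := by
  have h2 : (0 : ℚ) ≤ tC a := by
    unfold tC
    split_ifs <;> norm_num
  exact_mod_cast h2

theorem LimTail_tC_sum (n : ℕ) : ∑ a ∈ range n, (tC a : ℝ) ≤ 461 / 100000 := by
  have h0 : ∀ a : ℕ, 55 ≤ a → tC a = 0 := by
    intro a ha
    unfold tC
    rw [if_neg (by omega), if_neg (by omega), if_neg (by omega), if_neg (by omega)]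
  have h1 : ∑ a ∈ range n, (tC a : ℝ) ≤ ∑ a ∈ range (55 + n), (tC a : ℝ) := by
    apply Finset.sum_le_sum_of_subset_of_nonneg
    · intro a ha
      simp only [Finset.mem_range] at ha ⊢
      omega
    · intro a _ _
      exact LimTail_tC_nonneg a
  have h2 : ∑ a ∈ range (55 + n), (tC a : ℝ) = ∑ a ∈ range 55, (tC a : ℝ) := by
    rw [Finset.sum_range_add]
    rw [Finset.sum_eq_zero (s := range n), add_zero]
    intro a _
    rw [h0 _ (by omega)]
    norm_num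
  have h3 : ∑ a ∈ range 55, (tC a : ℝ) = 461 / 100000 := by
    have : ∑ a ∈ range 55, tC a = 461 / 100000 := by decide +kernel
    have h4 : ((∑ a ∈ range 55, tC a : ℚ) : ℝ) = ((461 / 100000 : ℚ) : ℝ) := by rw [this]
    push_cast at h4
    exact h4
  linarith

theorem tau_sum (Q : ℕ) : ∑ a ∈ range (Q + 1), tau a ≤ 5 / 1000 := by
  have h1 := LimTail_tC_sum (Q + 1)
  have h2 := LimTail_geo_le (Q + 1)
  have h3 : ∑ a ∈ range (Q + 1), tau a ≤ ∑ a ∈ range (Q + 1), (tC a : ℝ)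
      + ∑ a ∈ range (Q + 1), (if 55 ≤ a then 5 * (a : ℝ) * (3 / 4 : ℝ) ^ a else 0) := by
    rw [← Finset.sum_add_distrib]
    apply Finset.sum_le_sum
    intro a _
    unfold tau
    have hnn : (0 : ℝ) ≤ 5 * (a : ℝ) * (3 / 4 : ℝ) ^ a := by positivity
    by_cases h55 : 55 ≤ a
    · by_cases hodd : a % 2 = 1
      · rw [if_pos ⟨h55, hodd⟩, if_pos h55]
      · rw [if_neg (fun h => hodd h.2), if_pos h55]
        linarith
    · rw [if_neg (fun h => h55 h.1), if_neg h55]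
  have h4 : 5 * (3 / 4 : ℝ) ^ 55 * 232 ≤ 2 / 10000 := by norm_num
  linarith

theorem tau_nonneg (a : ℕ) : 0 ≤ tau a := by
  unfold tau
  have h1 := LimTail_tC_nonneg a
  split_ifs
  · positivity
  · simpa using h1

theorem LimTail_chin_nonneg (p q k : ℕ) : 0 ≤ chin p q k := by
  unfold chin
  apply Finset.sum_nonneg
  intro l _
  positivity

theorem LimTail_Nk_nonneg (p q k i : ℕ) (h : 2 * k ≤ p + q) : 0 ≤ Nk p q k i := by
  unfold Nk
  apply mul_nonneg (LimTail_chin_nonneg p q k)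
  by_cases hi : i ≤ p + q - 2 * k
  · apply Finset.prod_nonneg
    intro l hl
    rw [Finset.mem_range] at hl
    have h1 : 2 * k + l ≤ p + q := by omega
    have h2 : ((2 * k + l : ℕ) : ℝ) ≤ ((p + q : ℕ) : ℝ) := by exact_mod_cast h1
    push_cast at h2
    apply mul_nonneg (by positivity)
    linarith
  · apply le_of_eq
    symm
    apply Finset.prod_eq_zero (i := p + q - 2 * k)
    · rw [Finset.mem_range]
      omega
    · rw [Nat.cast_sub h]
      push_cast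
      ring

theorem pak_nonneg (Q a k : ℕ) (hQ : 2 ≤ Q) (hk : k ≤ Q) : 0 ≤ pak Q a k := by
  unfold pak
  split_ifs
  · apply div_nonneg (sq_nonneg _)
    apply mul_nonneg (by positivity)
    exact LimTail_Nk_nonneg _ _ _ _ (by omega)
  · exact le_refl _

theorem LimTail_coef_nonneg (Q k : ℕ) (hk : k ≤ Q) (h1 : 1 ≤ k) :
    0 ≤ 3 * (k : ℝ) - 1 - (k : ℝ) * ((k : ℝ) + 1) / (Q : ℝ) := by
  have hQ : (0 : ℝ) < (Q : ℝ) := by
    have : 0 < Q := by omega
    exact_mod_cast this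
  have hk' : (k : ℝ) ≤ (Q : ℝ) := by exact_mod_cast hk
  have h1' : (1 : ℝ) ≤ (k : ℝ) := by exact_mod_cast h1
  have : (k : ℝ) * ((k : ℝ) + 1) / (Q : ℝ) ≤ (k : ℝ) + 1 := by
    rw [div_le_iff₀ hQ]
    nlinarith
  linarith

theorem wk_even_nonneg (Q k : ℕ) (hQ : 2 ≤ Q) (hk : k ≤ Q) (he : k % 2 = 0) (h1 : 1 ≤ k) :
    0 ≤ wk Q k := by
  unfold wk
  have h2 : (-1 : ℝ) ^ k = 1 := Even.neg_one_pow (Nat.even_iff.mpr he)
  rw [h2, one_mul]
  have := LimTail_coef_nonneg Q k hk h1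
  positivity

theorem LimTail_ratio (Q : ℕ) (hQ : 2 ≤ Q) (k : ℕ) (hk : k ≤ 2 * Q - 2) :
    (Q.choose k : ℝ) / ((2 * Q - 2).choose k : ℝ)
      ≤ 2 * (Q : ℝ) / (2 * (Q : ℝ) - 3) * (1 / 2) ^ k := by
  have hQr : (2 : ℝ) ≤ (Q : ℝ) := by exact_mod_cast hQ
  have h23 : (0 : ℝ) < 2 * (Q : ℝ) - 3 := by linarith
  have hc0 : (0 : ℝ) ≤ 2 * (Q : ℝ) / (2 * (Q : ℝ) - 3) := by positivity
  -- strong statement for k ≥ 2 by induction
  have key : ∀ j : ℕ, 2 + j ≤ 2 * Q - 2 →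
      (Q.choose (2 + j) : ℝ) / ((2 * Q - 2).choose (2 + j) : ℝ)
      ≤ 2 * (Q : ℝ) / (2 * (Q : ℝ) - 3) * (1 / 2) ^ (2 + j) := by
    intro j
    induction j with
    | zero =>
      intro _
      have e1 : (Q.choose 2 : ℝ) = (Q : ℝ) * ((Q : ℝ) - 1) / 2 := Nat.cast_choose_two ℝ Q
      have e2 : ((2 * Q - 2).choose 2 : ℝ)
          = (2 * (Q : ℝ) - 2) * (2 * (Q : ℝ) - 3) / 2 := by
        rw [Nat.cast_choose_two ℝ (2 * Q - 2), Nat.cast_sub (by omega)]
        push_cast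
        ring
      rw [add_zero, e1, e2]
      apply le_of_eq
      have hQ1 : (Q : ℝ) - 1 ≠ 0 := by
        have : (0 : ℝ) < (Q : ℝ) - 1 := by linarith
        exact ne_of_gt this
      have h3 : 2 * (Q : ℝ) - 3 ≠ 0 := ne_of_gt h23
      have h4 : 2 * (Q : ℝ) - 2 ≠ 0 := by
        have : (0 : ℝ) < 2 * (Q : ℝ) - 2 := by linarith
        exact ne_of_gt this
      field_simp
    | succ j ih =>
      intro hj
      have ih' := ih (by omega)
      have hpos : (0 : ℝ) < ((2 * Q - 2).choose (2 + j) : ℝ) := by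
        exact_mod_cast Nat.choose_pos (by omega)
      have hpos' : (0 : ℝ) < ((2 * Q - 2).choose (2 + (j + 1)) : ℝ) := by
        exact_mod_cast Nat.choose_pos (by omega)
      -- succ identities
      have e1 : (Q.choose (2 + (j + 1)) : ℝ) * ((2 + j : ℕ) + 1 : ℝ)
          = (Q.choose (2 + j) : ℝ) * ((Q - (2 + j) : ℕ) : ℝ) := by
        have := Nat.choose_succ_right_eq Q (2 + j)
        exact_mod_cast this
      have e2 : ((2 * Q - 2).choose (2 + (j + 1)) : ℝ) * ((2 + j : ℕ) + 1 : ℝ)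
          = ((2 * Q - 2).choose (2 + j) : ℝ) * ((2 * Q - 2 - (2 + j) : ℕ) : ℝ) := by
        have := Nat.choose_succ_right_eq (2 * Q - 2) (2 + j)
        exact_mod_cast this
      have hle : 2 * ((Q - (2 + j) : ℕ) : ℝ) ≤ ((2 * Q - 2 - (2 + j) : ℕ) : ℝ) := by
        have : 2 * (Q - (2 + j)) ≤ 2 * Q - 2 - (2 + j) := by omega
        exact_mod_cast this
      have hc : (0 : ℝ) < ((2 + j : ℕ) : ℝ) + 1 := by positivity
      rw [div_le_iff₀ hpos']
      rw [div_le_iff₀ hpos] at ih'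
      have hstep : (Q.choose (2 + (j + 1)) : ℝ) * (((2 + j : ℕ) : ℝ) + 1)
          ≤ (2 * (Q : ℝ) / (2 * (Q : ℝ) - 3) * (1 / 2) ^ (2 + (j + 1))
            * ((2 * Q - 2).choose (2 + (j + 1)) : ℝ)) * (((2 + j : ℕ) : ℝ) + 1) := by
        calc (Q.choose (2 + (j + 1)) : ℝ) * (((2 + j : ℕ) : ℝ) + 1)
            = (Q.choose (2 + j) : ℝ) * ((Q - (2 + j) : ℕ) : ℝ) := e1
          _ ≤ (2 * (Q : ℝ) / (2 * (Q : ℝ) - 3) * (1 / 2) ^ (2 + j)
                * ((2 * Q - 2).choose (2 + j) : ℝ)) * ((Q - (2 + j) : ℕ) : ℝ) :=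
              mul_le_mul_of_nonneg_right ih' (by positivity)
          _ ≤ (2 * (Q : ℝ) / (2 * (Q : ℝ) - 3) * (1 / 2) ^ (2 + j)
                * ((2 * Q - 2).choose (2 + j) : ℝ)) * ((1 / 2) * ((2 * Q - 2 - (2 + j) : ℕ) : ℝ)) := by
              apply mul_le_mul_of_nonneg_left
              · linarith
              · positivity
          _ = (2 * (Q : ℝ) / (2 * (Q : ℝ) - 3) * (1 / 2) ^ (2 + j) * (1 / 2))
                * (((2 * Q - 2).choose (2 + j) : ℝ) * ((2 * Q - 2 - (2 + j) : ℕ) : ℝ)) := by ring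
          _ = (2 * (Q : ℝ) / (2 * (Q : ℝ) - 3) * (1 / 2) ^ (2 + j) * (1 / 2))
                * (((2 * Q - 2).choose (2 + (j + 1)) : ℝ) * (((2 + j : ℕ) : ℝ) + 1)) := by
              rw [e2]
          _ = _ := by
              rw [← add_assoc, pow_succ]
              ring
      exact le_of_mul_le_mul_right hstep hc
  by_cases h2 : 2 ≤ k
  · obtain ⟨j, rfl⟩ := Nat.exists_eq_add_of_le h2
    exact key j hk
  · interval_cases k
    · simp only [Nat.choose_zero_right, Nat.cast_one, pow_zero, mul_one, div_one]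
      rw [le_div_iff₀ h23]
      linarith
    · simp only [Nat.choose_one_right, pow_one]
      have e : ((2 * Q - 2 : ℕ) : ℝ) = 2 * (Q : ℝ) - 2 := by
        rw [Nat.cast_sub (by omega)]
        push_cast
        ring
      rw [e]
      have h22 : (0 : ℝ) < 2 * (Q : ℝ) - 2 := by linarith
      rw [div_le_iff₀ h22, div_mul_eq_mul_div, div_mul_eq_mul_div, le_div_iff₀ h23]
      nlinarith

theorem LimTail_chin_le (Q k : ℕ) (hQ : 2 ≤ Q) (hk : k ≤ Q) :
    (Q.choose k : ℝ) * chin (2 * Q - 2) Q k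
      ≤ 2 * (Q : ℝ) / (2 * (Q : ℝ) - 3) * (3 / 2) ^ k := by
  have hQr : (2 : ℝ) ≤ (Q : ℝ) := by exact_mod_cast hQ
  have h23 : (0 : ℝ) < 2 * (Q : ℝ) - 3 := by linarith
  have hc0 : (0 : ℝ) ≤ 2 * (Q : ℝ) / (2 * (Q : ℝ) - 3) := by positivity
  unfold chin
  rw [Finset.mul_sum]
  have hterm : ∀ l ∈ range (k + 1),
      (Q.choose k : ℝ) * ((k.choose l : ℝ) ^ 2 / (((2 * Q - 2).choose l : ℝ) * (Q.choose (k - l) : ℝ)))
        ≤ 2 * (Q : ℝ) / (2 * (Q : ℝ) - 3) * ((1 / 2) ^ l * 1 ^ (k - l) * (k.choose l : ℝ)) := by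
    intro l hl
    rw [Finset.mem_range] at hl
    have hlk : l ≤ k := by omega
    have hpos1 : (0 : ℝ) < ((2 * Q - 2).choose l : ℝ) := by
      exact_mod_cast Nat.choose_pos (by omega)
    have hpos2 : (0 : ℝ) < (Q.choose (k - l) : ℝ) := by
      exact_mod_cast Nat.choose_pos (by omega)
    have e1 : (Q.choose k : ℝ) * (k.choose l : ℝ)
        = (Q.choose (k - l) : ℝ) * ((Q - (k - l)).choose l : ℝ) := by
      have h := Nat.choose_mul (n := Q) (k := k) (s := k - l) (by omega)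
      rw [Nat.choose_symm hlk] at h
      have h' : k - (k - l) = l := by omega
      rw [h'] at h
      exact_mod_cast h
    have e2 : (((Q - (k - l)).choose l : ℕ) : ℝ) ≤ (Q.choose l : ℝ) := by
      exact_mod_cast Nat.choose_le_choose l (Nat.sub_le _ _)
    have e3 := LimTail_ratio Q hQ l (by omega)
    calc (Q.choose k : ℝ) * ((k.choose l : ℝ) ^ 2
          / (((2 * Q - 2).choose l : ℝ) * (Q.choose (k - l) : ℝ)))
        = ((Q.choose k : ℝ) * (k.choose l : ℝ)) * (k.choose l : ℝ)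
          / (((2 * Q - 2).choose l : ℝ) * (Q.choose (k - l) : ℝ)) := by ring
      _ = ((Q - (k - l)).choose l : ℝ) * (k.choose l : ℝ) / ((2 * Q - 2).choose l : ℝ) := by
          rw [e1]
          field_simp
      _ ≤ (Q.choose l : ℝ) * (k.choose l : ℝ) / ((2 * Q - 2).choose l : ℝ) := by
          apply div_le_div_of_nonneg_right _ hpos1.le
          exact mul_le_mul_of_nonneg_right e2 (by positivity)
      _ = ((Q.choose l : ℝ) / ((2 * Q - 2).choose l : ℝ)) * (k.choose l : ℝ) := by ring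
      _ ≤ (2 * (Q : ℝ) / (2 * (Q : ℝ) - 3) * (1 / 2) ^ l) * (k.choose l : ℝ) :=
          mul_le_mul_of_nonneg_right e3 (by positivity)
      _ = _ := by
          rw [one_pow]
          ring
  refine le_trans (Finset.sum_le_sum hterm) ?_
  rw [← Finset.mul_sum, ← add_pow]
  norm_num

theorem LimTail_beta_zero (p q k : ℕ) : beta p q k 0 0 = 1 := by
  unfold beta
  simp

theorem LimTail_pak_diag (Q k : ℕ) :
    pak Q k k = 1 / ((Q.choose k : ℝ) * chin (2 * Q - 2) Q k) := by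
  unfold pak Nk
  rw [if_pos le_rfl, Nat.sub_self, LimTail_beta_zero]
  simp

theorem LimTail_chin_pos (Q k : ℕ) (hQ : 2 ≤ Q) (hk : k ≤ Q) : 0 < chin (2 * Q - 2) Q k := by
  unfold chin
  apply Finset.sum_pos'
  · intro l _
    positivity
  · refine ⟨0, by simp, ?_⟩
    have hpos2 : (0 : ℝ) < (Q.choose k : ℝ) := by
      exact_mod_cast Nat.choose_pos hk
    simp only [Nat.choose_zero_right, Nat.cast_one, one_pow, one_mul, Nat.sub_zero]
    positivity

theorem wk_tail : ∀ᶠ Q : ℕ in atTop, ∀ k, 55 ≤ k → k ≤ Q → k % 2 = 1 →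
    -(5 * (k : ℝ) * (3 / 4 : ℝ) ^ k * pak Q k k)
      ≤ wk Q k * (3 * (Q : ℝ) - 1 - 2 * k) / (2 * (Q : ℝ) - 1) := by
  rw [Filter.eventually_atTop]
  refine ⟨100, fun Q hQ k hk hkQ hodd => ?_⟩
  have hQr : (100 : ℝ) ≤ (Q : ℝ) := by exact_mod_cast hQ
  have hkr : (55 : ℝ) ≤ (k : ℝ) := by exact_mod_cast hk
  have hkQr : (k : ℝ) ≤ (Q : ℝ) := by exact_mod_cast hkQ
  have h23 : (0 : ℝ) < 2 * (Q : ℝ) - 3 := by linarith
  set c : ℝ := 2 * (Q : ℝ) / (2 * (Q : ℝ) - 3) with hc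
  have hc0 : 0 ≤ c := by positivity
  have hc1 : c ≤ 200 / 197 := by
    rw [hc, div_le_div_iff₀ h23 (by norm_num)]
    linarith
  have hcc : c ^ 2 ≤ 10 / 9 := by
    have : c ^ 2 ≤ (200 / 197) ^ 2 := pow_le_pow_left₀ hc0 hc1 2
    refine le_trans this ?_
    norm_num
  have hneg : (-1 : ℝ) ^ k = -1 := Odd.neg_one_pow (Nat.odd_iff.mpr hodd)
  rw [LimTail_pak_diag]
  unfold wk
  rw [hneg]
  have hCpos : (0 : ℝ) < (Q.choose k : ℝ) := by exact_mod_cast Nat.choose_pos hkQ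
  have hchpos := LimTail_chin_pos Q k (by omega) hkQ
  have hA := LimTail_ratio Q (by omega) k (by omega)
  have hB := LimTail_chin_le Q k (by omega) hkQ
  rw [← hc] at hA hB
  have hcoef := LimTail_coef_nonneg Q k hkQ (by omega)
  have hcoef2 : 3 * (k : ℝ) - 1 - (k : ℝ) * ((k : ℝ) + 1) / (Q : ℝ) ≤ 3 * (k : ℝ) := by
    have : 0 ≤ (k : ℝ) * ((k : ℝ) + 1) / (Q : ℝ) := by positivity
    linarith
  have hfrac0 : 0 ≤ (3 * (Q : ℝ) - 1 - 2 * k) / (2 * (Q : ℝ) - 1) := by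
    apply div_nonneg <;> linarith
  have hfrac : (3 * (Q : ℝ) - 1 - 2 * k) / (2 * (Q : ℝ) - 1) ≤ 3 / 2 := by
    rw [div_le_div_iff₀ (by linarith) (by norm_num)]
    linarith
  set X : ℝ := 3 * (k : ℝ) - 1 - (k : ℝ) * ((k : ℝ) + 1) / (Q : ℝ) with hX
  set R : ℝ := (Q.choose k : ℝ) / ((2 * Q - 2).choose k : ℝ) with hR
  set F : ℝ := (3 * (Q : ℝ) - 1 - 2 * k) / (2 * (Q : ℝ) - 1) with hF
  set Z : ℝ := (Q.choose k : ℝ) * chin (2 * Q - 2) Q k with hZ
  have hZpos : 0 < Z := mul_pos hCpos hchpos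
  have hR0 : 0 ≤ R := by positivity
  have hmain : X * R * F * Z ≤ 5 * (k : ℝ) * (3 / 4 : ℝ) ^ k := by
    have s1 : X * R ≤ (3 * (k : ℝ)) * (c * (1 / 2) ^ k) :=
      mul_le_mul hcoef2 hA hR0 (by positivity)
    have s2 : X * R * F ≤ (3 * (k : ℝ)) * (c * (1 / 2) ^ k) * (3 / 2) :=
      mul_le_mul s1 hfrac hfrac0 (by positivity)
    have s3 : X * R * F * Z ≤ (3 * (k : ℝ)) * (c * (1 / 2) ^ k) * (3 / 2) * (c * (3 / 2) ^ k) :=
      mul_le_mul s2 hB hZpos.le (by positivity)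
    refine le_trans s3 ?_
    have e : (3 * (k : ℝ)) * (c * (1 / 2) ^ k) * (3 / 2) * (c * (3 / 2) ^ k)
        = (9 / 2) * c ^ 2 * ((k : ℝ) * ((1 / 2) ^ k * (3 / 2) ^ k)) := by ring
    rw [e, ← mul_pow]
    have e2 : (1 / 2 * (3 / 2) : ℝ) = 3 / 4 := by norm_num
    rw [e2]
    have hnn : 0 ≤ (k : ℝ) * (3 / 4 : ℝ) ^ k := by positivity
    nlinarith
  have e1 : -1 * X * (Q.choose k : ℝ) / ((2 * Q - 2).choose k : ℝ) * (3 * (Q : ℝ) - 1 - 2 * k)
      / (2 * (Q : ℝ) - 1) = -(X * R * F) := by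
    rw [hR, hF]
    ring
  rw [e1, neg_le_neg_iff, mul_one_div, le_div_iff₀ hZpos]
  exact hmain

end Vale.Agent.P359
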