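import Vale.Agent.P359.LimA
import Vale.Agent.P359.LimTail

namespace Vale.Agent.P359

open Finset Filter Topology

theorem Lim_tC_nonneg (a : ℕ) : (0 : ℝ) ≤ (tC a : ℝ) := by
  have h2 : (0 : ℚ) ≤ tC a := by
    unfold tC
    split_ifs <;> norm_num
  exact_mod_cast h2

theorem Lim_tau_ge (a : ℕ) : (tC a : ℝ) ≤ tau a := by
  unfold tau
  split_ifs
  · have : (0 : ℝ) ≤ 5 * (a : ℝ) * (3 / 4 : ℝ) ^ a := by positivity
    linarith
  · simp

theorem Lim_Yk_zero (Q k : ℕ) (hk : 55 ≤ k) : Yk Q k = 0 := by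
  unfold Yk
  rw [Finset.Icc_eq_empty (by omega)]
  simp

theorem Lim_Zj_zero (Q j : ℕ) (hj : 14 < j) : Zj Q j = 0 := by
  unfold Zj
  rw [Finset.Icc_eq_empty (by omega)]
  simp

theorem lim_main : ∃ Q₀ : ℕ, ∀ Q : ℕ, Q₀ ≤ Q →
    (GQ Q + ∑ a ∈ range (Q + 1), tau a ≤ 99 / 100) ∧
    (∀ k ≤ Q, Yk Q k - ∑ a ∈ range (Q + 1), tau a * pak Q a k
      ≤ wk Q k * (3 * (Q : ℝ) - 1 - 2 * k) / (2 * (Q : ℝ) - 1)) ∧
    (∀ j ≤ 2 * Q - 2, Zj Q j ≤ (4 * (Q : ℝ) - 3 - 2 * j) / (2 * (Q : ℝ) - 1)) := by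
  have hZ : ∀ᶠ Q : ℕ in atTop, ∀ j ∈ range 15,
      Zj Q j ≤ (4 * (Q : ℝ) - 3 - 2 * j) / (2 * (Q : ℝ) - 1) := by
    rw [Filter.eventually_all_finset]
    intro j hj
    exact Zj_lim j (by simpa [Nat.lt_succ_iff] using hj)
  have hY : ∀ᶠ Q : ℕ in atTop, ∀ k ∈ range 55,
      Yk Q k - ∑ a ∈ range 55, (tC a : ℝ) * pak Q a k
        ≤ wk Q k * (3 * (Q : ℝ) - 1 - 2 * k) / (2 * (Q : ℝ) - 1) := by
    rw [Filter.eventually_all_finset]
    intro k hk
    exact Yk_lim k (by simpa [Nat.lt_succ_iff] using hk)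
  have hall := (((GQ_lim.and hZ).and hY).and wk_tail).and (Filter.eventually_ge_atTop 100)
  rw [Filter.eventually_atTop] at hall
  obtain ⟨Q₀, hQ₀⟩ := hall
  refine ⟨Q₀, fun Q hQ => ?_⟩
  obtain ⟨⟨⟨⟨h1, h2⟩, h3⟩, h4⟩, h5⟩ := hQ₀ Q hQ
  have hQr : (100 : ℝ) ≤ (Q : ℝ) := by exact_mod_cast h5
  refine ⟨?_, ?_, ?_⟩
  · have := tau_sum Q
    linarith
  · intro k hk
    have hpak : ∀ a, 0 ≤ pak Q a k := fun a => pak_nonneg Q a k (by omega) hk
    by_cases hk54 : k < 55
    · refine le_trans ?_ (h3 k (Finset.mem_range.mpr hk54))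
      have hsum : ∑ a ∈ range 55, (tC a : ℝ) * pak Q a k
          ≤ ∑ a ∈ range (Q + 1), tau a * pak Q a k := by
        calc ∑ a ∈ range 55, (tC a : ℝ) * pak Q a k
            ≤ ∑ a ∈ range 55, tau a * pak Q a k :=
              Finset.sum_le_sum fun a _ => mul_le_mul_of_nonneg_right (Lim_tau_ge a) (hpak a)
          _ ≤ ∑ a ∈ range (Q + 1), tau a * pak Q a k := by
              apply Finset.sum_le_sum_of_subset_of_nonneg
              · intro a ha
                simp only [Finset.mem_range] at ha ⊢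
                omega
              · intro a _ _
                exact mul_nonneg (tau_nonneg a) (hpak a)
      linarith
    · push Not at hk54
      rw [Lim_Yk_zero Q k hk54, zero_sub]
      have hkr : (k : ℝ) ≤ (Q : ℝ) := by exact_mod_cast hk
      by_cases hev : k % 2 = 0
      · have hw := wk_even_nonneg Q k (by omega) hk hev (by omega)
        have hs : 0 ≤ ∑ a ∈ range (Q + 1), tau a * pak Q a k :=
          Finset.sum_nonneg fun a _ => mul_nonneg (tau_nonneg a) (hpak a)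
        have hr : 0 ≤ wk Q k * (3 * (Q : ℝ) - 1 - 2 * k) / (2 * (Q : ℝ) - 1) := by
          apply div_nonneg
          · apply mul_nonneg hw
            linarith
          · linarith
        linarith
      · have hodd : k % 2 = 1 := by omega
        refine le_trans ?_ (h4 k hk54 hk hodd)
        have hs : tau k * pak Q k k ≤ ∑ a ∈ range (Q + 1), tau a * pak Q a k :=
          Finset.single_le_sum (f := fun a => tau a * pak Q a k)
            (fun a _ => mul_nonneg (tau_nonneg a) (hpak a)) (Finset.mem_range.mpr (by omega))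
        have ht : 5 * (k : ℝ) * (3 / 4 : ℝ) ^ k ≤ tau k := by
          unfold tau
          rw [if_pos ⟨hk54, hodd⟩]
          have := Lim_tC_nonneg k
          linarith
        have := mul_le_mul_of_nonneg_right ht (hpak k)
        linarith
  · intro j hj
    by_cases hj14 : j < 15
    · exact h2 j (Finset.mem_range.mpr hj14)
    · rw [Lim_Zj_zero Q j (by omega)]
      apply div_nonneg
      · have : (j : ℝ) ≤ 2 * (Q : ℝ) - 2 := by
          have : j + 2 ≤ 2 * Q := by omega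
          have h : ((j + 2 : ℕ) : ℝ) ≤ ((2 * Q : ℕ) : ℝ) := by exact_mod_cast this
          push_cast at h
          linarith
        linarith
      · linarith

end Vale.Agent.P359
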