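import Vale.Agent.P359.Cert

namespace Vale.Agent.P359

open Finset Filter

/-- the sum of squares controlling the Fock form -/
noncomputable def pertS (Ψ : Fk) : ℝ := ∑ m ∈ range 8, ∑ T : Finset (Fin 9), (bF m Ψ T) ^ 2

theorem pertS_nonneg (Ψ : Fk) : 0 ≤ pertS Ψ := by
  unfold pertS
  positivity

theorem pert_bF_sq (Ψ : Fk) (m : ℕ) (hm : m ∈ range 8) (T : Finset (Fin 9)) :
    (bF m Ψ T) ^ 2 ≤ pertS Ψ := by
  unfold pertS
  calc (bF m Ψ T) ^ 2 ≤ ∑ T : Finset (Fin 9), (bF m Ψ T) ^ 2 :=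
        Finset.single_le_sum (f := fun T => (bF m Ψ T) ^ 2) (fun _ _ => sq_nonneg _)
          (Finset.mem_univ T)
    _ ≤ _ := Finset.single_le_sum (f := fun m => ∑ T : Finset (Fin 9), (bF m Ψ T) ^ 2)
          (fun _ _ => by positivity) hm

theorem pert_bF_abs (Ψ : Fk) (m : ℕ) (hm : m ∈ range 8) (T : Finset (Fin 9)) :
    |bF m Ψ T| ≤ Real.sqrt (pertS Ψ) := by
  rw [← Real.sqrt_sq_eq_abs]
  exact Real.sqrt_le_sqrt (pert_bF_sq Ψ m hm T)

theorem pert_cop_abs (Φ : Fk) (B : ℝ) (hB : 0 ≤ B) (h : ∀ T, |Φ T| ≤ B) (a : Fin 9)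
    (T : Finset (Fin 9)) : |cop a Φ T| ≤ B := by
  unfold cop
  split_ifs
  · simpa using hB
  · rw [abs_mul, abs_pow, abs_neg, abs_one, one_pow, one_mul]
    exact h _

theorem pert_bF_le (Φ : Fk) (B : ℝ) (hB : 0 ≤ B) (h : ∀ T, |Φ T| ≤ B) (m : ℕ)
    (T : Finset (Fin 9)) : |bF m Φ T| ≤ 729 * B := by
  unfold bF
  have h1 : ∀ a b : Fin 9, |(if (a : ℕ) + (b : ℕ) = m + 1 then
      (((a : ℕ) : ℝ) - ((b : ℕ) : ℝ)) * cop b (cop a Φ) T else 0)| ≤ 9 * B := by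
    intro a b
    split_ifs
    · rw [abs_mul]
      have ha : ((a : ℕ) : ℝ) ≤ 9 := by exact_mod_cast a.2.le
      have hb : ((b : ℕ) : ℝ) ≤ 9 := by exact_mod_cast b.2.le
      have ha0 : (0 : ℝ) ≤ ((a : ℕ) : ℝ) := by positivity
      have hb0 : (0 : ℝ) ≤ ((b : ℕ) : ℝ) := by positivity
      have hab : |((a : ℕ) : ℝ) - ((b : ℕ) : ℝ)| ≤ 9 := by
        rw [abs_le]
        constructor <;> linarith
      have hc := pert_cop_abs (cop a Φ) B hB (pert_cop_abs Φ B hB h a) b T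
      calc _ ≤ 9 * |cop b (cop a Φ) T| := by gcongr
        _ ≤ 9 * B := by gcongr
    · rw [abs_zero]
      positivity
  calc |∑ a : Fin 9, ∑ b : Fin 9, (if (a : ℕ) + (b : ℕ) = m + 1 then
      (((a : ℕ) : ℝ) - ((b : ℕ) : ℝ)) * cop b (cop a Φ) T else 0)|
      ≤ ∑ a : Fin 9, |∑ b : Fin 9, (if (a : ℕ) + (b : ℕ) = m + 1 then
      (((a : ℕ) : ℝ) - ((b : ℕ) : ℝ)) * cop b (cop a Φ) T else 0)| :=
        Finset.abs_sum_le_sum_abs _ _
    _ ≤ ∑ a : Fin 9, ∑ b : Fin 9, |(if (a : ℕ) + (b : ℕ) = m + 1 then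
      (((a : ℕ) : ℝ) - ((b : ℕ) : ℝ)) * cop b (cop a Φ) T else 0)| := by
        apply Finset.sum_le_sum
        intro a _
        exact Finset.abs_sum_le_sum_abs _ _
    _ ≤ ∑ _a : Fin 9, ∑ _b : Fin 9, 9 * B := by
        apply Finset.sum_le_sum
        intro a _
        apply Finset.sum_le_sum
        intro b _
        exact h1 a b
    _ = 729 * B := by
        simp only [Finset.sum_const, Finset.card_univ, Fintype.card_fin, nsmul_eq_mul]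
        push_cast
        ring

/-- the total size of the coefficients -/
noncomputable def pertK : ℝ :=
  (1 / 2) * (∑ m ∈ range 8, |(gC m : ℝ)|)
  + (1 / 2) * (∑ m ∈ range 8, ∑ m' ∈ range 8, ∑ a : Fin 9, ∑ _a' : Fin 9,
      |(yC (m + a) m m' : ℝ)|)
  + (1 / 4) * (∑ m ∈ range 8, ∑ m2 ∈ range 8, ∑ m' ∈ range 8, ∑ _m2' ∈ range 8,
      |(zC (m + m2) m m' : ℝ)|) * 729 ^ 2

theorem pertK_nonneg : 0 ≤ pertK := by
  unfold pertK
  positivity

theorem pert_sumT (w w0 : Fin 9 → ℝ) (ε : ℝ) (hw : ∀ T, |om w T - om w0 T| ≤ ε)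
    (h : Finset (Fin 9) → ℝ) (B : ℝ) (hh : ∀ T, |h T| ≤ B) :
    |(∑ T : Finset (Fin 9), om w T * h T) - ∑ T : Finset (Fin 9), om w0 T * h T| ≤
      512 * (ε * B) := by
  rw [← Finset.sum_sub_distrib]
  have hε : 0 ≤ ε := le_trans (abs_nonneg _) (hw ∅)
  calc |∑ T : Finset (Fin 9), (om w T * h T - om w0 T * h T)|
      ≤ ∑ T : Finset (Fin 9), |om w T * h T - om w0 T * h T| := Finset.abs_sum_le_sum_abs _ _
    _ ≤ ∑ _T : Finset (Fin 9), ε * B := by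
        apply Finset.sum_le_sum
        intro T _
        rw [← sub_mul, abs_mul]
        exact mul_le_mul (hw T) (hh T) (abs_nonneg _) hε
    _ = 512 * (ε * B) := by
        simp only [Finset.sum_const, Finset.card_univ, Fintype.card_finset, Fintype.card_fin,
          nsmul_eq_mul]
        norm_num

theorem pert_abs_sum {ι : Type*} (s : Finset ι) (x y c : ι → ℝ)
    (h : ∀ i ∈ s, |x i - y i| ≤ c i) :
    |(∑ i ∈ s, x i) - ∑ i ∈ s, y i| ≤ ∑ i ∈ s, c i := by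
  rw [← Finset.sum_sub_distrib]
  exact le_trans (Finset.abs_sum_le_sum_abs _ _) (Finset.sum_le_sum h)

theorem pert_mul (c x y d : ℝ) (h : |x - y| ≤ d) : |c * x - c * y| ≤ |c| * d := by
  rw [← mul_sub, abs_mul]
  gcongr

theorem pert_ite (p : Prop) [Decidable p] (c x y d : ℝ) (h : |x - y| ≤ d) :
    |(if p then c * x else 0) - (if p then c * y else 0)| ≤ |c| * d := by
  split_ifs
  · exact pert_mul c x y d h
  · have : 0 ≤ d := le_trans (abs_nonneg _) h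
    rw [sub_zero, abs_zero]
    positivity

theorem pert_diff (w w0 : Fin 9 → ℝ) (ε : ℝ) (hw : ∀ T, |om w T - om w0 T| ≤ ε) (Ψ : Fk) :
    |fockForm w Ψ - fockForm w0 Ψ| ≤ 512 * ε * pertK * pertS Ψ := by
  have hε : 0 ≤ ε := le_trans (abs_nonneg _) (hw ∅)
  have hS := pertS_nonneg Ψ
  have hs0 : 0 ≤ Real.sqrt (pertS Ψ) := Real.sqrt_nonneg _
  have hss : Real.sqrt (pertS Ψ) * Real.sqrt (pertS Ψ) = pertS Ψ := Real.mul_self_sqrt hS
  have hprod : ∀ x y : ℝ, |x| ≤ Real.sqrt (pertS Ψ) → |y| ≤ Real.sqrt (pertS Ψ) →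
      |x * y| ≤ pertS Ψ := by
    intro x y hx hy
    rw [abs_mul, ← hss]
    exact mul_le_mul hx hy (abs_nonneg _) hs0
  -- first block
  have h1 : |(∑ m ∈ range 8, (gC m : ℝ) * ∑ T : Finset (Fin 9), om w T * (bF m Ψ T) ^ 2)
      - (∑ m ∈ range 8, (gC m : ℝ) * ∑ T : Finset (Fin 9), om w0 T * (bF m Ψ T) ^ 2)| ≤
      (∑ m ∈ range 8, |(gC m : ℝ)|) * (512 * (ε * pertS Ψ)) := by
    rw [Finset.sum_mul]
    apply pert_abs_sum
    intro m hm
    apply pert_mul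
    apply pert_sumT w w0 ε hw
    intro T
    rw [abs_of_nonneg (sq_nonneg _)]
    exact pert_bF_sq Ψ m hm T
  -- second block
  have h2 : |(∑ m ∈ range 8, ∑ m' ∈ range 8, ∑ a : Fin 9, ∑ a' : Fin 9,
      if m + (a : ℕ) = m' + (a' : ℕ) then
        (yC (m + a) m m' : ℝ) *
          ∑ T : Finset (Fin 9), om w T * (cop a (bF m Ψ) T * cop a' (bF m' Ψ) T)
      else 0) - (∑ m ∈ range 8, ∑ m' ∈ range 8, ∑ a : Fin 9, ∑ a' : Fin 9,
      if m + (a : ℕ) = m' + (a' : ℕ) then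
        (yC (m + a) m m' : ℝ) *
          ∑ T : Finset (Fin 9), om w0 T * (cop a (bF m Ψ) T * cop a' (bF m' Ψ) T)
      else 0)| ≤ (∑ m ∈ range 8, ∑ m' ∈ range 8, ∑ a : Fin 9, ∑ _a' : Fin 9,
      |(yC (m + a) m m' : ℝ)|) * (512 * (ε * pertS Ψ)) := by
    simp only [Finset.sum_mul]
    refine pert_abs_sum _ _ _ _ fun m hm => ?_
    refine pert_abs_sum _ _ _ _ fun m' hm' => ?_
    refine pert_abs_sum _ _ _ _ fun a _ => ?_
    refine pert_abs_sum _ _ _ _ fun a' _ => ?_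
    apply pert_ite
    apply pert_sumT w w0 ε hw
    intro T
    apply hprod
    · exact pert_cop_abs _ _ hs0 (pert_bF_abs Ψ m hm) a T
    · exact pert_cop_abs _ _ hs0 (pert_bF_abs Ψ m' hm') a' T
  -- third block
  have h3 : |(∑ m ∈ range 8, ∑ m2 ∈ range 8, ∑ m' ∈ range 8, ∑ m2' ∈ range 8,
      if m + m2 = m' + m2' then
        (zC (m + m2) m m' : ℝ) *
          ∑ T : Finset (Fin 9), om w T * (bF m2 (bF m Ψ) T * bF m2' (bF m' Ψ) T)
      else 0) - (∑ m ∈ range 8, ∑ m2 ∈ range 8, ∑ m' ∈ range 8, ∑ m2' ∈ range 8,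
      if m + m2 = m' + m2' then
        (zC (m + m2) m m' : ℝ) *
          ∑ T : Finset (Fin 9), om w0 T * (bF m2 (bF m Ψ) T * bF m2' (bF m' Ψ) T)
      else 0)| ≤ (∑ m ∈ range 8, ∑ m2 ∈ range 8, ∑ m' ∈ range 8, ∑ _m2' ∈ range 8,
      |(zC (m + m2) m m' : ℝ)|) * (512 * (ε * (729 ^ 2 * pertS Ψ))) := by
    simp only [Finset.sum_mul]
    refine pert_abs_sum _ _ _ _ fun m hm => ?_
    refine pert_abs_sum _ _ _ _ fun m2 _ => ?_
    refine pert_abs_sum _ _ _ _ fun m' hm' => ?_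
    refine pert_abs_sum _ _ _ _ fun m2' _ => ?_
    apply pert_ite
    apply pert_sumT w w0 ε hw
    intro T
    have g1 := pert_bF_le (bF m Ψ) _ hs0 (pert_bF_abs Ψ m hm) m2 T
    have g2 := pert_bF_le (bF m' Ψ) _ hs0 (pert_bF_abs Ψ m' hm') m2' T
    rw [abs_mul, ← hss]
    calc |bF m2 (bF m Ψ) T| * |bF m2' (bF m' Ψ) T|
        ≤ (729 * Real.sqrt (pertS Ψ)) * (729 * Real.sqrt (pertS Ψ)) :=
          mul_le_mul g1 g2 (abs_nonneg _) (by positivity)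
      _ = _ := by ring
  have e : ∀ X1 X2 X3 Y1 Y2 Y3 A B C : ℝ, |X1 - Y1| ≤ A → |X2 - Y2| ≤ B → |X3 - Y3| ≤ C →
      |((1 / 2) * X1 + (1 / 2) * X2 + (1 / 4) * X3) -
        ((1 / 2) * Y1 + (1 / 2) * Y2 + (1 / 4) * Y3)| ≤
        (1 / 2) * A + (1 / 2) * B + (1 / 4) * C := by
    intro X1 X2 X3 Y1 Y2 Y3 A B C hA hB hC
    rw [abs_le] at hA hB hC ⊢
    constructor <;> linarith [hA.1, hA.2, hB.1, hB.2, hC.1, hC.2]
  unfold fockForm
  refine le_trans (e _ _ _ _ _ _ _ _ _ h1 h2 h3) (le_of_eq ?_)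
  unfold pertK
  ring

theorem pert_om (w0 : Fin 9 → ℝ) (ε : ℝ) (hε : 0 < ε) : ∃ η : ℝ, 0 < η ∧ ∀ w : Fin 9 → ℝ,
    (∀ t, |w t - w0 t| < η) → ∀ T, |om w T - om w0 T| ≤ ε := by
  have h1 : ∀ T : Finset (Fin 9), Continuous (fun w : Fin 9 → ℝ => om w T) := by
    intro T
    unfold om
    fun_prop
  have h2 : ∀ᶠ w in nhds w0, ∀ T : Finset (Fin 9), |om w T - om w0 T| ≤ ε := by
    rw [Filter.eventually_all]
    intro T
    have h3 := (h1 T).tendsto w0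
    rw [Metric.tendsto_nhds] at h3
    filter_upwards [h3 ε hε] with w hw
    rw [Real.dist_eq] at hw
    exact hw.le
  obtain ⟨η, hη, h⟩ := Metric.eventually_nhds_iff.1 h2
  refine ⟨η, hη, fun w hw => h ?_⟩
  rw [dist_pi_lt_iff hη]
  intro t
  rw [Real.dist_eq]
  exact hw t

theorem fockForm_near : ∃ η : ℝ, 0 < η ∧ ∀ w : Fin 9 → ℝ,
    (∀ t, |w t - ((t : ℕ).factorial : ℝ)| < η) → ∀ Ψ : Fk, 0 ≤ fockForm w Ψ := by
  have hK := pertK_nonneg
  obtain ⟨η, hη, h⟩ := pert_om (fun t => ((t : ℕ).factorial : ℝ))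
    (1 / (10000 * (512 * pertK + 1))) (by positivity)
  refine ⟨η, hη, fun w hw Ψ => ?_⟩
  have h1 := pert_diff w _ _ (h w hw) Ψ
  have h2 := cert Ψ
  have hS := pertS_nonneg Ψ
  have h3 : 512 * (1 / (10000 * (512 * pertK + 1))) * pertK * pertS Ψ ≤
      1 / 10000 * pertS Ψ := by
    apply mul_le_mul_of_nonneg_right _ hS
    rw [mul_one_div, div_mul_eq_mul_div, div_le_iff₀ (by positivity)]
    linarith
  have h4 : (1 / 10000 : ℝ) * pertS Ψ ≤ fockForm (fun t => ((t : ℕ).factorial : ℝ)) Ψ := h2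
  rw [abs_le] at h1
  linarith [h1.1, h1.2]

theorem pert_lim (t : ℕ) : Tendsto (fun Q : ℕ => (Q : ℝ) ^ t / (Q.choose t : ℝ)) atTop
    (nhds (t.factorial : ℝ)) := by
  have h1 := (isEquivalent_choose t).symm
  have h2 : ∀ᶠ Q : ℕ in atTop, ((Q.choose t : ℕ) : ℝ) ≠ 0 := by
    filter_upwards [eventually_ge_atTop t] with Q hQ
    exact_mod_cast (Nat.choose_pos hQ).ne'
  have h3 := (Asymptotics.isEquivalent_iff_tendsto_one h2).1 h1
  have h4 := h3.const_mul (t.factorial : ℝ)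
  rw [mul_one] at h4
  refine h4.congr (fun Q => ?_)
  have hf : (t.factorial : ℝ) ≠ 0 := by exact_mod_cast t.factorial_pos.ne'
  simp only [Pi.div_apply]
  field_simp

theorem fockForm_eventually : ∃ Q₀ : ℕ, ∀ Q : ℕ, Q₀ ≤ Q → ∀ Ψ : Fk,
    0 ≤ fockForm (fun t => (Q : ℝ) ^ (t : ℕ) / (Q.choose (t : ℕ) : ℝ)) Ψ := by
  obtain ⟨η, hη, h⟩ := fockForm_near
  have h1 : ∀ᶠ Q : ℕ in atTop, ∀ t : Fin 9,
      |(Q : ℝ) ^ (t : ℕ) / (Q.choose (t : ℕ) : ℝ) - ((t : ℕ).factorial : ℝ)| < η := by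
    rw [Filter.eventually_all]
    intro t
    have h2 := pert_lim (t : ℕ)
    rw [Metric.tendsto_nhds] at h2
    filter_upwards [h2 η hη] with Q hQ
    rwa [Real.dist_eq] at hQ
  obtain ⟨Q₀, hQ₀⟩ := Filter.eventually_atTop.1 h1
  exact ⟨Q₀, fun Q hQ Ψ => h _ (hQ₀ Q hQ) Ψ⟩

end Vale.Agent.P359
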