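import Vale.Agent.P359.Defs

namespace Vale.Agent.P359

open Finset

/-- scaling operator -/
noncomputable def scaleOp {Q N : ℕ} (r : ℝ) (f : Amp Q N) : Amp Q N :=
  fun x => ((r : ℝ) : ℂ) ^ (∑ i, (x i : ℕ)) * f x

theorem scale_ev {Q N : ℕ} (r : ℝ) (f : Amp Q (N + 1)) (a : Fin (Q + 1)) :
    ev a (scaleOp r f) = ((r : ℝ) : ℂ) ^ (a : ℕ) • scaleOp r (ev a f) := by
  funext x
  simp only [ev, scaleOp, Pi.smul_apply, smul_eq_mul, Fin.sum_univ_succ, Fin.cons_zero,
    Fin.cons_succ, pow_add]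
  ring

theorem scale_bop {Q N : ℕ} (r : ℝ) (f : Amp Q (N + 2)) (m : ℕ) :
    bop m (scaleOp r f) = ((r : ℝ) : ℂ) ^ (m + 1) • scaleOp r (bop m f) := by
  funext x
  simp only [bop, scaleOp, Pi.smul_apply, smul_eq_mul, Finset.mul_sum]
  refine Finset.sum_congr rfl fun a _ => Finset.sum_congr rfl fun b _ => ?_
  split_ifs with h
  · simp only [Fin.sum_univ_succ, Fin.cons_zero, Fin.cons_succ]
    rw [← h, pow_add, pow_add, pow_add]
    ring
  · simp

theorem scale_ev_smul {Q N : ℕ} (c : ℂ) (f : Amp Q (N + 1)) (a : Fin (Q + 1)) :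
    ev a (c • f) = c • ev a f := rfl

theorem scale_bop_smul {Q N : ℕ} (c : ℂ) (f : Amp Q (N + 2)) (m : ℕ) :
    bop m (c • f) = c • bop m f := by
  funext x
  simp only [bop, Pi.smul_apply, smul_eq_mul, Finset.mul_sum]
  refine Finset.sum_congr rfl fun a _ => Finset.sum_congr rfl fun b _ => ?_
  split_ifs with h
  · ring
  · simp

theorem scale_ip_smul {Q N : ℕ} (w : Fin (Q + 1) → ℝ) (c d : ℝ) (f h : Amp Q N) :
    ip w ((c : ℂ) • f) ((d : ℂ) • h) = ((c * d : ℝ) : ℂ) * ip w f h := by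
  simp only [ip, Pi.smul_apply, smul_eq_mul, Finset.mul_sum, map_mul, Complex.conj_ofReal]
  refine Finset.sum_congr rfl fun x _ => ?_
  push_cast
  ring

theorem scale_ip {Q N : ℕ} (r : ℝ) (hr : r ^ 2 * Q = 1) (f h : Amp Q N) :
    ip (fun a => (Q : ℝ) ^ (a : ℕ) * wQ Q a) (scaleOp r f) (scaleOp r h) = ip (wQ Q) f h := by
  simp only [ip, scaleOp, map_mul, map_pow, Complex.conj_ofReal]
  refine Finset.sum_congr rfl fun x _ => ?_
  rw [Finset.prod_mul_distrib, Finset.prod_pow_eq_pow_sum]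
  have h1 : (r : ℂ) ^ (∑ i, (x i : ℕ)) * (r : ℂ) ^ (∑ i, (x i : ℕ)) *
      ((Q : ℂ) ^ (∑ i, (x i : ℕ))) = 1 := by
    rw [← mul_pow, ← mul_pow]
    have h2 : (r : ℂ) * r * Q = 1 := by
      have h3 : ((r ^ 2 * Q : ℝ) : ℂ) = 1 := by rw [hr]; simp
      push_cast at h3
      rw [← h3]
      ring
    rw [h2, one_pow]
  push_cast
  linear_combination ((∏ i, ((wQ Q (x i) : ℝ) : ℂ)) * ((starRingEnd ℂ) (f x) * h x)) * h1

theorem scale_anti {Q N : ℕ} (r : ℝ) (f : Amp Q N) (hf : Anti f) : Anti (scaleOp r f) := by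
  intro σ x
  simp only [scaleOp]
  rw [hf σ x]
  have h : ∑ i, (((x ∘ σ) i : Fin (Q + 1)) : ℕ) = ∑ i, (x i : ℕ) :=
    Equiv.sum_comp σ (fun i => (x i : ℕ))
  rw [h]
  ring

theorem locForm_scaled {Q n : ℕ} (hQ : 1 ≤ Q) (f : Amp Q (n + 4)) (hf : Anti f) :
    ∃ g : Amp Q (n + 4), Anti g ∧
      locForm (fun a => (Q : ℝ) ^ (a : ℕ) * wQ Q a) g =
        (((n : ℝ) + 4) * ((n : ℝ) + 3) / 2) *
          (∑ m ∈ range 8, (gC m : ℝ) * (ip (wQ Q) (bop m f) (bop m f)).re / (Q : ℝ) ^ (m + 1))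
        + (((n : ℝ) + 4) * ((n : ℝ) + 3) * ((n : ℝ) + 2) / 2) *
          (∑ m ∈ range 8, ∑ m' ∈ range 8, ∑ a : Fin (Q + 1), ∑ a' : Fin (Q + 1),
            if m + (a : ℕ) = m' + (a' : ℕ) ∧ (a : ℕ) < 9 ∧ (a' : ℕ) < 9 then
              (yC (m + a) m m' : ℝ) *
                (ip (wQ Q) (ev a (bop m f)) (ev a' (bop m' f))).re / (Q : ℝ) ^ (m + (a : ℕ) + 1)
            else 0)
        + (((n : ℝ) + 4) * ((n : ℝ) + 3) * ((n : ℝ) + 2) * ((n : ℝ) + 1) / 4) *
          (∑ m ∈ range 8, ∑ m2 ∈ range 8, ∑ m' ∈ range 8, ∑ m2' ∈ range 8,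
            if m + m2 = m' + m2' then
              (zC (m + m2) m m' : ℝ) *
                (ip (wQ Q) (bop m2 (bop m f)) (bop m2' (bop m' f))).re / (Q : ℝ) ^ (m + m2 + 2)
            else 0) := by
  have hQr : (0 : ℝ) < Q := by exact_mod_cast hQ
  set r : ℝ := (Real.sqrt Q)⁻¹ with hr
  have hr2 : r ^ 2 * Q = 1 := by
    rw [hr, inv_pow, Real.sq_sqrt hQr.le, inv_mul_cancel₀ hQr.ne']
  have hrr : r * r = 1 / (Q : ℝ) := by
    rw [eq_div_iff hQr.ne', ← hr2]
    ring
  have hpow : ∀ k : ℕ, r ^ k * r ^ k = 1 / (Q : ℝ) ^ k := by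
    intro k
    rw [← mul_pow, hrr, div_pow, one_pow]
  refine ⟨scaleOp r f, scale_anti r f hf, ?_⟩
  unfold locForm
  congr 1
  · congr 1
    · congr 1
      refine Finset.sum_congr rfl fun m _ => ?_
      rw [scale_bop, ← Complex.ofReal_pow, scale_ip_smul, scale_ip r hr2, Complex.re_ofReal_mul,
        hpow]
      ring
    · congr 1
      refine Finset.sum_congr rfl fun m _ => Finset.sum_congr rfl fun m' _ =>
        Finset.sum_congr rfl fun a _ => Finset.sum_congr rfl fun a' _ => ?_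
      split_ifs with h
      · have e : ((r : ℂ) ^ (m + 1)) * ((r : ℂ) ^ (a : ℕ)) = ((r ^ (m + (a : ℕ) + 1) : ℝ) : ℂ) := by
          push_cast
          ring
        have e' : ((r : ℂ) ^ (m' + 1)) * ((r : ℂ) ^ (a' : ℕ)) =
            ((r ^ (m + (a : ℕ) + 1) : ℝ) : ℂ) := by
          rw [h.1]
          push_cast
          ring
        rw [scale_bop, scale_bop, scale_ev_smul, scale_ev_smul, scale_ev, scale_ev, smul_smul,
          smul_smul, e, e', scale_ip_smul, scale_ip r hr2, Complex.re_ofReal_mul, hpow]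
        ring
      · rfl
  · congr 1
    refine Finset.sum_congr rfl fun m _ => Finset.sum_congr rfl fun m2 _ =>
      Finset.sum_congr rfl fun m' _ => Finset.sum_congr rfl fun m2' _ => ?_
    split_ifs with h
    · have e : ((r : ℂ) ^ (m + 1)) * ((r : ℂ) ^ (m2 + 1)) = ((r ^ (m + m2 + 2) : ℝ) : ℂ) := by
        push_cast
        ring
      have e' : ((r : ℂ) ^ (m' + 1)) * ((r : ℂ) ^ (m2' + 1)) =
          ((r ^ (m + m2 + 2) : ℝ) : ℂ) := by
        rw [h]
        push_cast
        ring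
      rw [scale_bop, scale_bop, scale_bop_smul, scale_bop_smul, scale_bop, scale_bop, smul_smul,
        smul_smul, e, e', scale_ip_smul, scale_ip r hr2, Complex.re_ofReal_mul, hpow]
      ring
    · rfl

theorem scale_cons_perm {Q N : ℕ} (σ : Equiv.Perm (Fin N)) :
    ∃ σ' : Equiv.Perm (Fin (N + 1)), Equiv.Perm.sign σ' = Equiv.Perm.sign σ ∧
      ∀ (a : Fin (Q + 1)) (y : Cfg Q N),
        (Fin.cons a (y ∘ σ) : Cfg Q (N + 1)) = (Fin.cons a y : Cfg Q (N + 1)) ∘ σ' := by
  refine ⟨Equiv.Perm.decomposeFin.symm (0, σ), ?_, ?_⟩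
  · simp
  · intro a y
    funext i
    refine Fin.cases ?_ (fun j => ?_) i
    · simp
    · simp

theorem scale_anti_bop {Q N : ℕ} (m : ℕ) (f : Amp Q (N + 2)) (hf : Anti f) :
    Anti (bop m f) := by
  intro σ x
  obtain ⟨σ', h1, h2⟩ := scale_cons_perm (Q := Q) σ
  obtain ⟨σ'', h3, h4⟩ := scale_cons_perm (Q := Q) σ'
  simp only [bop, Finset.mul_sum]
  refine Finset.sum_congr rfl fun a _ => Finset.sum_congr rfl fun b _ => ?_
  split_ifs with h
  · rw [h2, h4, hf, h3, h1]
    ring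
  · simp

theorem scale_anti_zero {Q N : ℕ} (f : Amp Q N) (hf : Anti f) (x : Cfg Q N) (i j : Fin N)
    (hij : i ≠ j) (hx : x i = x j) : f x = 0 := by
  have h := hf (Equiv.swap i j) x
  have h1 : x ∘ (Equiv.swap i j) = x := by
    funext k
    simp only [Function.comp_apply]
    by_cases hk : k = i
    · rw [hk, Equiv.swap_apply_left, hx]
    · by_cases hk' : k = j
      · rw [hk', Equiv.swap_apply_right, hx]
      · rw [Equiv.swap_apply_of_ne_of_ne hk hk']
  rw [h1, Equiv.Perm.sign_swap hij] at h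
  push_cast at h
  have h2 : (2 : ℂ) * f x = 0 := by linear_combination h
  simpa using h2

theorem scale_ip_re {Q N : ℕ} (w : Fin (Q + 1) → ℝ) (f : Amp Q N) :
    (ip w f f).re = ∑ x : Cfg Q N, (∏ i, w (x i)) * Complex.normSq (f x) := by
  simp only [ip, Complex.re_sum]
  refine Finset.sum_congr rfl fun x _ => ?_
  rw [Complex.re_ofReal_mul, Complex.normSq_eq_conj_mul_self.symm, Complex.ofReal_re]

theorem pauli {Q n : ℕ} (f : Amp Q (n + 4)) (hf : Anti f) (a : Fin (Q + 1)) :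
    ((n : ℝ) + 2) * wQ Q a * (ip (wQ Q) (ev a (bop 0 f)) (ev a (bop 0 f))).re
      ≤ (ip (wQ Q) (bop 0 f) (bop 0 f)).re := by
  have hb : Anti (bop 0 f) := scale_anti_bop 0 f hf
  set b : Amp Q (n + 2) := bop 0 f with hbdef
  have hw : ∀ c : Fin (Q + 1), 0 ≤ wQ Q c := by
    intro c
    unfold wQ
    positivity
  rw [scale_ip_re, scale_ip_re]
  -- the weight function
  set F : Cfg Q (n + 2) → ℝ := fun x => (∏ i, wQ Q (x i)) * Complex.normSq (b x) with hF
  have hF0 : ∀ x, 0 ≤ F x := by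
    intro x
    exact mul_nonneg (Finset.prod_nonneg fun i _ => hw _) (Complex.normSq_nonneg _)
  have hFσ : ∀ (σ : Equiv.Perm (Fin (n + 2))) (x : Cfg Q (n + 2)), F (x ∘ σ) = F x := by
    intro σ x
    simp only [hF]
    have h1 : ∏ i, wQ Q ((x ∘ σ) i) = ∏ i, wQ Q (x i) :=
      Equiv.prod_comp σ (fun i => wQ Q (x i))
    rw [h1, hb σ x, Complex.normSq_mul]
    have h2 : Complex.normSq ((Equiv.Perm.sign σ : ℤ) : ℂ) = 1 := by
      rcases Int.units_eq_one_or (Equiv.Perm.sign σ) with h | h <;> rw [h] <;> simp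
    rw [h2, one_mul]
  -- slot `i` can be moved to slot `0`
  have hslot : ∀ i : Fin (n + 2), (∑ x : Cfg Q (n + 2), if x i = a then F x else 0) =
      ∑ x : Cfg Q (n + 2), if x 0 = a then F x else 0 := by
    intro i
    refine Fintype.sum_equiv (Equiv.arrowCongr (Equiv.swap 0 i) (Equiv.refl _)) _ _ ?_
    intro x
    have h1 : (Equiv.arrowCongr (Equiv.swap 0 i) (Equiv.refl (Fin (Q + 1)))) x =
        x ∘ (Equiv.swap 0 i) := by
      funext k
      simp [Equiv.arrowCongr]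
    rw [h1, hFσ]
    simp
  have hzero : (∑ x : Cfg Q (n + 2), if x 0 = a then F x else 0) =
      wQ Q a * ∑ y : Cfg Q (n + 1), (∏ i, wQ Q (y i)) * Complex.normSq (ev a b y) := by
    have h1 := (Fin.consEquiv (fun _ : Fin (n + 2) => Fin (Q + 1))).sum_comp
      (fun x : Cfg Q (n + 2) => if x 0 = a then F x else 0)
    rw [← h1, Fintype.sum_prod_type, Finset.sum_eq_single a]
    · rw [Finset.mul_sum]
      refine Finset.sum_congr rfl fun y _ => ?_
      simp only [Fin.consEquiv, Equiv.coe_fn_mk, Fin.cons_zero, if_true, hF, ev,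
        Fin.prod_univ_succ, Fin.cons_succ]
      ring
    · intro c _ hc
      refine Finset.sum_eq_zero fun y _ => ?_
      simp [Fin.consEquiv, hc]
    · intro h
      exact absurd (Finset.mem_univ a) h
  have hcount : ∀ x : Cfg Q (n + 2),
      (∑ i : Fin (n + 2), if x i = a then F x else 0) ≤ F x := by
    intro x
    by_cases hinj : ∃ i j : Fin (n + 2), i ≠ j ∧ x i = x j
    · obtain ⟨i, j, hij, hx⟩ := hinj
      have h0 : F x = 0 := by
        simp only [hF]
        rw [scale_anti_zero b hb x i j hij hx]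
        simp
      rw [h0]
      simp
    · push Not at hinj
      by_cases hex : ∃ i, x i = a
      · obtain ⟨i, hi⟩ := hex
        rw [Finset.sum_eq_single i]
        · rw [if_pos hi]
        · intro j _ hj
          rw [if_neg]
          intro h
          exact hinj j i hj (by rw [h, hi])
        · intro h
          exact absurd (Finset.mem_univ i) h
      · push Not at hex
        rw [Finset.sum_eq_zero]
        · exact hF0 x
        · intro i _
          rw [if_neg (hex i)]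
  calc ((n : ℝ) + 2) * wQ Q a *
        ∑ y : Cfg Q (n + 1), (∏ i, wQ Q (y i)) * Complex.normSq (ev a b y)
      = ∑ _i : Fin (n + 2), ∑ x : Cfg Q (n + 2), (if x 0 = a then F x else 0) := by
        rw [hzero]
        simp only [Finset.sum_const, Finset.card_univ, Fintype.card_fin, nsmul_eq_mul]
        push_cast
        ring
    _ = ∑ i : Fin (n + 2), ∑ x : Cfg Q (n + 2), (if x i = a then F x else 0) := by
        refine Finset.sum_congr rfl fun i _ => ?_
        rw [hslot i]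
    _ = ∑ x : Cfg Q (n + 2), ∑ i : Fin (n + 2), (if x i = a then F x else 0) :=
        Finset.sum_comm
    _ ≤ ∑ x : Cfg Q (n + 2), F x := Finset.sum_le_sum fun x _ => hcount x

end Vale.Agent.P359
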