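import Vale.Agent.P359.Defs

namespace Vale.Agent.P359

open Finset

theorem anti_tot {Q N : ℕ} (M : ℕ → ℕ → ℂ) (f : Amp Q N) (hf : Anti f) : Anti (tot M f) := by
  intro σ x
  unfold tot
  rw [Finset.mul_sum]
  refine Eq.trans ?_ (Equiv.sum_comp σ _)
  refine Finset.sum_congr rfl fun i _ => ?_
  rw [Finset.mul_sum]
  refine Finset.sum_congr rfl fun a _ => ?_
  have h : Function.update (x ∘ σ) i a = (Function.update x (σ i) a) ∘ σ := by
    funext j
    by_cases hj : j = i
    · subst hj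
      simp
    · have hj' : σ j ≠ σ i := fun h => hj (σ.injective h)
      simp [Function.update_of_ne hj, Function.update_of_ne hj']
  rw [h, hf σ]
  simp only [Function.comp_apply]
  ring

/-- one-body operator at the slot `k` -/
noncomputable def symOb {Q N : ℕ} (k : Fin N) (M : ℕ → ℕ → ℂ) (f : Amp Q N) : Amp Q N :=
  fun x => ∑ a : Fin (Q + 1), M (x k : ℕ) (a : ℕ) * f (Function.update x k a)

theorem symTot {Q N : ℕ} (M : ℕ → ℕ → ℂ) (f : Amp Q N) :
    tot M f = fun x => ∑ k, symOb k M f x := rfl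

theorem symPij_sum {Q N : ℕ} {ι : Type} (s : Finset ι) (i j : Fin N) (g : ι → Amp Q N)
    (x : Cfg Q N) : Pij i j (fun y => ∑ k ∈ s, g k y) x = ∑ k ∈ s, Pij i j (g k) x := by
  unfold Pij
  simp only [Finset.mul_sum]
  rw [Finset.sum_comm]
  rw [Finset.sum_comm]
  have h : ∀ a : Fin (Q + 1), ∑ b : Fin (Q + 1), ∑ k ∈ s,
      pk Q (x i) (x j) a b * g k (Function.update (Function.update x i a) j b) =
      ∑ k ∈ s, ∑ b : Fin (Q + 1),
      pk Q (x i) (x j) a b * g k (Function.update (Function.update x i a) j b) := fun a =>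
    Finset.sum_comm
  simp_rw [h]
  rw [Finset.sum_comm]

theorem symOb_sum {Q N : ℕ} {ι : Type} (s : Finset ι) (k : Fin N) (M : ℕ → ℕ → ℂ)
    (g : ι → Amp Q N) (x : Cfg Q N) :
    symOb k M (fun y => ∑ l ∈ s, g l y) x = ∑ l ∈ s, symOb k M (g l) x := by
  unfold symOb
  simp only [Finset.mul_sum]
  rw [Finset.sum_comm]

theorem symOb_ite {Q N : ℕ} (k : Fin N) (M : ℕ → ℕ → ℂ) (p : Prop) [Decidable p]
    (g : Amp Q N) (x : Cfg Q N) :
    symOb k M (fun y => if p then g y else 0) x = if p then symOb k M g x else 0 := by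
  by_cases h : p
  · simp [h]
  · simp [h, symOb]

theorem sym_far {Q N : ℕ} {i j k : Fin N} (hki : k ≠ i) (hkj : k ≠ j)
    (M : ℕ → ℕ → ℂ) (f : Amp Q N) (x : Cfg Q N) :
    Pij i j (symOb k M f) x = symOb k M (Pij i j f) x := by
  unfold Pij symOb
  simp only [Finset.mul_sum]
  have hl : ∀ a b : Fin (Q + 1), ∑ c : Fin (Q + 1), pk Q (x i) (x j) a b *
      (M ((Function.update (Function.update x i a) j b) k : ℕ) c *
        f (Function.update (Function.update (Function.update x i a) j b) k c)) =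
      ∑ c : Fin (Q + 1), M (x k : ℕ) c * (pk Q (Function.update x k c i : ℕ)
        (Function.update x k c j : ℕ) a b *
        f (Function.update (Function.update (Function.update x k c) i a) j b)) := by
    intro a b
    refine Finset.sum_congr rfl fun c _ => ?_
    rw [Function.update_of_ne hkj, Function.update_of_ne hki, Function.update_of_ne hki.symm,
      Function.update_of_ne hkj.symm, Function.update_comm hkj.symm,
      Function.update_comm hki.symm]
    ring
  simp_rw [hl]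
  have h2 : ∀ a : Fin (Q + 1), ∑ b : Fin (Q + 1), ∑ c : Fin (Q + 1), M (x k : ℕ) c *
      (pk Q (Function.update x k c i : ℕ) (Function.update x k c j : ℕ) a b *
        f (Function.update (Function.update (Function.update x k c) i a) j b)) =
      ∑ c : Fin (Q + 1), ∑ b : Fin (Q + 1), M (x k : ℕ) c *
      (pk Q (Function.update x k c i : ℕ) (Function.update x k c j : ℕ) a b *
        f (Function.update (Function.update (Function.update x k c) i a) j b)) := fun a =>
    Finset.sum_comm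
  simp_rw [h2]
  rw [Finset.sum_comm]

/-- the kernel identity -/
def SymKer (Q : ℕ) (M : ℕ → ℕ → ℂ) : Prop :=
  ∀ x y c d : Fin (Q + 1),
    (∑ a : Fin (Q + 1), pk Q x y a d * M a c) + (∑ b : Fin (Q + 1), pk Q x y c b * M b d) =
      (∑ a : Fin (Q + 1), M x a * pk Q a y c d) + (∑ b : Fin (Q + 1), M y b * pk Q x b c d)

theorem sym_near {Q N : ℕ} {i j : Fin N} (hij : i ≠ j) {M : ℕ → ℕ → ℂ} (hM : SymKer Q M)
    (f : Amp Q N) (x : Cfg Q N) :
    Pij i j (symOb i M f) x + Pij i j (symOb j M f) x =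
      symOb i M (Pij i j f) x + symOb j M (Pij i j f) x := by
  have e1 : Pij i j (symOb i M f) x = ∑ c : Fin (Q + 1), ∑ d : Fin (Q + 1),
      (∑ a : Fin (Q + 1), pk Q (x i) (x j) a d * M a c) *
        f (Function.update (Function.update x i c) j d) := by
    unfold Pij symOb
    have h1 : ∀ a b : Fin (Q + 1), pk Q (x i) (x j) a b *
        (∑ c : Fin (Q + 1), M ((Function.update (Function.update x i a) j b) i : ℕ) c *
        f (Function.update (Function.update (Function.update x i a) j b) i c)) =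
        ∑ c : Fin (Q + 1), (pk Q (x i) (x j) a b * M a c) *
        f (Function.update (Function.update x i c) j b) := by
      intro a b
      rw [Finset.mul_sum]
      refine Finset.sum_congr rfl fun c _ => ?_
      rw [Function.update_of_ne hij, Function.update_self, Function.update_comm hij.symm,
        Function.update_idem]
      ring
    simp_rw [h1, Finset.sum_mul]
    rw [Finset.sum_comm]
    have h2 : ∀ b : Fin (Q + 1), ∑ a : Fin (Q + 1), ∑ c : Fin (Q + 1),
        (pk Q (x i) (x j) a b * M a c) * f (Function.update (Function.update x i c) j b) =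
        ∑ c : Fin (Q + 1), ∑ a : Fin (Q + 1),
        (pk Q (x i) (x j) a b * M a c) * f (Function.update (Function.update x i c) j b) :=
      fun b => Finset.sum_comm
    simp_rw [h2]
    rw [Finset.sum_comm]
  have e2 : Pij i j (symOb j M f) x = ∑ c : Fin (Q + 1), ∑ d : Fin (Q + 1),
      (∑ b : Fin (Q + 1), pk Q (x i) (x j) c b * M b d) *
        f (Function.update (Function.update x i c) j d) := by
    unfold Pij symOb
    refine Finset.sum_congr rfl fun a _ => ?_
    have h1 : ∀ b : Fin (Q + 1), pk Q (x i) (x j) a b *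
        (∑ c : Fin (Q + 1), M ((Function.update (Function.update x i a) j b) j : ℕ) c *
        f (Function.update (Function.update (Function.update x i a) j b) j c)) =
        ∑ c : Fin (Q + 1), (pk Q (x i) (x j) a b * M b c) *
        f (Function.update (Function.update x i a) j c) := by
      intro b
      rw [Finset.mul_sum]
      refine Finset.sum_congr rfl fun c _ => ?_
      rw [Function.update_self, Function.update_idem]
      ring
    simp_rw [h1, Finset.sum_mul]
    rw [Finset.sum_comm]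
  have e3 : symOb i M (Pij i j f) x = ∑ c : Fin (Q + 1), ∑ d : Fin (Q + 1),
      (∑ a : Fin (Q + 1), M (x i) a * pk Q a (x j) c d) *
        f (Function.update (Function.update x i c) j d) := by
    unfold Pij symOb
    have h1 : ∀ a : Fin (Q + 1), M (x i : ℕ) a * (∑ c : Fin (Q + 1), ∑ d : Fin (Q + 1),
        pk Q ((Function.update x i a) i : ℕ) ((Function.update x i a) j : ℕ) c d *
        f (Function.update (Function.update (Function.update x i a) i c) j d)) =
        ∑ c : Fin (Q + 1), ∑ d : Fin (Q + 1), (M (x i : ℕ) a * pk Q a (x j) c d) *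
        f (Function.update (Function.update x i c) j d) := by
      intro a
      rw [Finset.mul_sum]
      refine Finset.sum_congr rfl fun c _ => ?_
      rw [Finset.mul_sum]
      refine Finset.sum_congr rfl fun d _ => ?_
      rw [Function.update_self, Function.update_of_ne hij.symm, Function.update_idem]
      ring
    simp_rw [h1, Finset.sum_mul]
    rw [Finset.sum_comm]
    refine Finset.sum_congr rfl fun c _ => ?_
    rw [Finset.sum_comm]
  have e4 : symOb j M (Pij i j f) x = ∑ c : Fin (Q + 1), ∑ d : Fin (Q + 1),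
      (∑ b : Fin (Q + 1), M (x j) b * pk Q (x i) b c d) *
        f (Function.update (Function.update x i c) j d) := by
    unfold Pij symOb
    have h1 : ∀ a : Fin (Q + 1), M (x j : ℕ) a * (∑ c : Fin (Q + 1), ∑ d : Fin (Q + 1),
        pk Q ((Function.update x j a) i : ℕ) ((Function.update x j a) j : ℕ) c d *
        f (Function.update (Function.update (Function.update x j a) i c) j d)) =
        ∑ c : Fin (Q + 1), ∑ d : Fin (Q + 1), (M (x j : ℕ) a * pk Q (x i) a c d) *
        f (Function.update (Function.update x i c) j d) := by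
      intro a
      rw [Finset.mul_sum]
      refine Finset.sum_congr rfl fun c _ => ?_
      rw [Finset.mul_sum]
      refine Finset.sum_congr rfl fun d _ => ?_
      rw [Function.update_self, Function.update_of_ne hij, Function.update_comm hij.symm,
        Function.update_idem]
      ring
    simp_rw [h1, Finset.sum_mul]
    rw [Finset.sum_comm]
    refine Finset.sum_congr rfl fun c _ => ?_
    rw [Finset.sum_comm]
  rw [e1, e2, e3, e4, ← Finset.sum_add_distrib, ← Finset.sum_add_distrib]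
  refine Finset.sum_congr rfl fun c _ => ?_
  rw [← Finset.sum_add_distrib, ← Finset.sum_add_distrib]
  refine Finset.sum_congr rfl fun d _ => ?_
  rw [← add_mul, ← add_mul, hM]

theorem sym_pair {Q N : ℕ} {i j : Fin N} (hij : i ≠ j) {M : ℕ → ℕ → ℂ} (hM : SymKer Q M)
    (f : Amp Q N) (x : Cfg Q N) :
    ∑ k, Pij i j (symOb k M f) x = ∑ k, symOb k M (Pij i j f) x := by
  have hsplit : ∀ g : Fin N → ℂ, ∑ k, g k = (g i + g j) +
      ∑ k ∈ Finset.univ \ {i, j}, g k := by
    intro g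
    rw [← Finset.sum_pair hij, add_comm, Finset.sum_sdiff (Finset.subset_univ _)]
  rw [hsplit, hsplit (fun k => symOb k M (Pij i j f) x), sym_near hij hM]
  congr 1
  refine Finset.sum_congr rfl fun k hk => ?_
  simp only [Finset.mem_sdiff, Finset.mem_univ, Finset.mem_insert, Finset.mem_singleton,
    true_and, not_or] at hk
  exact sym_far hk.1 hk.2 M f x

theorem sym_comm {Q N : ℕ} {M : ℕ → ℕ → ℂ} (hM : SymKer Q M) (f : Amp Q N) :
    Ham (tot M f) = tot M (Ham f) := by
  funext x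
  have h1 : Ham (tot M f) x = ∑ i : Fin N, ∑ j : Fin N,
      if i < j then ∑ k, Pij i j (symOb k M f) x else 0 := by
    unfold Ham
    refine Finset.sum_congr rfl fun i _ => Finset.sum_congr rfl fun j _ => ?_
    rw [symTot, symPij_sum]
  have h2 : tot M (Ham f) x = ∑ i : Fin N, ∑ j : Fin N,
      if i < j then ∑ k, symOb k M (Pij i j f) x else 0 := by
    rw [symTot]
    unfold Ham
    simp_rw [symOb_sum, symOb_ite]
    rw [Finset.sum_comm]
    refine Finset.sum_congr rfl fun i _ => ?_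
    rw [Finset.sum_comm]
    refine Finset.sum_congr rfl fun j _ => ?_
    by_cases h : i < j
    · simp [h]
    · simp [h]
  rw [h1, h2]
  refine Finset.sum_congr rfl fun i _ => Finset.sum_congr rfl fun j _ => ?_
  by_cases h : i < j
  · rw [if_pos h, if_pos h, sym_pair h.ne hM]
  · rw [if_neg h, if_neg h]

theorem sym_binom {Q n : ℕ} (h1 : 1 ≤ n) (h2 : n ≤ 2 * Q - 2) :
    (n : ℂ) / (((2 * Q - 2).choose (n - 1) : ℕ) : ℂ) =
      (2 * (Q : ℂ) - 1 - n) / (((2 * Q - 2).choose n : ℕ) : ℂ) := by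
  obtain ⟨m, rfl⟩ : ∃ m, n = m + 1 := ⟨n - 1, by omega⟩
  have h := Nat.choose_succ_right_eq (2 * Q - 2) m
  have hB1 : (2 * Q - 2).choose (m + 1) ≠ 0 := (Nat.choose_pos h2).ne'
  have hB0 : (2 * Q - 2).choose m ≠ 0 := (Nat.choose_pos (by omega)).ne'
  have h' : (((2 * Q - 2).choose (m + 1) : ℕ) : ℂ) * ((m : ℂ) + 1) =
      (((2 * Q - 2).choose m : ℕ) : ℂ) * (2 * (Q : ℂ) - 2 - m) := by
    have h3 : 2 * Q - 2 - m + (m + 2) = 2 * Q := by omega
    have h4 : ((2 * Q - 2 - m : ℕ) : ℂ) = 2 * (Q : ℂ) - 2 - m := by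
      have := congrArg (fun t : ℕ => (t : ℂ)) h3
      push_cast at this
      linear_combination this
    rw [← h4]
    exact_mod_cast h
  rw [Nat.add_sub_cancel]
  have hB1' : (((2 * Q - 2).choose (m + 1) : ℕ) : ℂ) ≠ 0 := by exact_mod_cast hB1
  have hB0' : (((2 * Q - 2).choose m : ℕ) : ℂ) ≠ 0 := by exact_mod_cast hB0
  rw [div_eq_div_iff hB0' hB1']
  push_cast
  linear_combination h'

/-- `x C(Q,x) = (Q - x + 1) C(Q,x-1)` -/
theorem sym_ch {Q x : ℕ} (hx : x + 1 ≤ Q) :
    ((x : ℂ) + 1) * ((Q.choose (x + 1) : ℕ) : ℂ) = ((Q : ℂ) - x) * ((Q.choose x : ℕ) : ℂ) := by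
  have h := Nat.choose_succ_right_eq Q x
  have h4 : ((Q - x : ℕ) : ℂ) = (Q : ℂ) - x := by
    rw [Nat.cast_sub (by omega)]
  rw [← h4]
  have : ((Q.choose (x + 1) : ℕ) : ℂ) * ((x : ℂ) + 1) = ((Q.choose x : ℕ) : ℂ) *
      ((Q - x : ℕ) : ℂ) := by exact_mod_cast h
  linear_combination this

theorem sym_ch' {Q x : ℕ} (hx : x ≤ Q) :
    ((x : ℂ) + 1) * ((Q.choose (x + 1) : ℕ) : ℂ) = ((Q : ℂ) - x) * ((Q.choose x : ℕ) : ℂ) := by
  rcases Nat.lt_or_ge x Q with h | h
  · exact sym_ch h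
  · have : x = Q := by omega
    subst this
    simp

theorem sym_cross {Q x y c d n : ℕ} (hx : x ≤ Q) (hy : y ≤ Q) (hc : c ≤ Q) (hd : d ≤ Q)
    (h : (x + y = n ∧ c + d = n + 1) ∨ (x + y = n + 1 ∧ c + d = n)) :
    ((x : ℂ) - y) * ((c : ℂ) - d) * ((n : ℂ) / (((2 * Q - 2).choose (n - 1) : ℕ) : ℂ)) =
      ((x : ℂ) - y) * ((c : ℂ) - d) *
        ((2 * (Q : ℂ) - 1 - n) / (((2 * Q - 2).choose n : ℕ) : ℂ)) := by
  rcases Nat.eq_zero_or_pos n with h0 | h0
  · have : ((x : ℂ) - y) * ((c : ℂ) - d) = 0 := by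
      subst h0
      rcases h with ⟨h1, -⟩ | ⟨-, h1⟩
      · have hx0 : x = 0 := by omega
        have hy0 : y = 0 := by omega
        subst hx0 hy0
        simp
      · have hx0 : c = 0 := by omega
        have hy0 : d = 0 := by omega
        subst hx0 hy0
        simp
    rw [this, zero_mul, zero_mul]
  · rcases Nat.lt_or_ge (2 * Q - 2) n with h2 | h2
    · have : ((x : ℂ) - y) * ((c : ℂ) - d) = 0 := by
        rcases h with ⟨h1, h3⟩ | ⟨h1, h3⟩
        · have hx0 : c = Q := by omega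
          have hy0 : d = Q := by omega
          subst hx0 hy0
          simp
        · have hx0 : x = Q := by omega
          have hy0 : y = Q := by omega
          subst hx0 hy0
          simp
      rw [this, zero_mul, zero_mul]
    · rw [sym_binom h0 h2]

theorem sym_sumF {Q : ℕ} (c : Fin (Q + 1)) (h : ℕ → ℂ) :
    ∑ a : Fin (Q + 1), h a * Fm Q a c = h ((c : ℕ) + 1) * ((Q : ℂ) - (c : ℕ)) := by
  unfold Fm
  by_cases hc : (c : ℕ) + 1 < Q + 1
  · rw [Finset.sum_eq_single (⟨(c : ℕ) + 1, hc⟩ : Fin (Q + 1))]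
    · simp
    · intro b _ hb
      rw [if_neg, mul_zero]
      intro hb'
      exact hb (Fin.ext hb')
    · intro h'
      exact absurd (Finset.mem_univ _) h'
  · have hc' : (c : ℕ) = Q := by
      have := c.2
      omega
    rw [Finset.sum_eq_zero, hc', sub_self, mul_zero]
    intro b _
    rw [if_neg, mul_zero]
    have := b.2
    omega

theorem sym_sumF' {Q : ℕ} (x : Fin (Q + 1)) (h : ℕ → ℂ) :
    ∑ a : Fin (Q + 1), Fm Q x a * h a =
      if (x : ℕ) = 0 then 0 else ((Q : ℂ) - (((x : ℕ) - 1 : ℕ) : ℂ)) * h ((x : ℕ) - 1) := by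
  unfold Fm
  by_cases hx : (x : ℕ) = 0
  · rw [if_pos hx, Finset.sum_eq_zero]
    intro b _
    rw [if_neg (by omega), zero_mul]
  · rw [if_neg hx]
    have hx2 := x.2
    rw [Finset.sum_eq_single (⟨(x : ℕ) - 1, by omega⟩ : Fin (Q + 1))]
    · rw [if_pos (by simp only; omega)]
    · intro b _ hb
      rw [if_neg, zero_mul]
      intro hb'
      apply hb
      apply Fin.ext
      simp only
      omega
    · intro h'
      exact absurd (Finset.mem_univ _) h'

theorem sym_sumE {Q : ℕ} (c : Fin (Q + 1)) (h : ℕ → ℂ) :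
    ∑ a : Fin (Q + 1), h a * Em a c =
      if (c : ℕ) = 0 then 0 else h ((c : ℕ) - 1) * ((c : ℕ) : ℂ) := by
  unfold Em
  by_cases hc : (c : ℕ) = 0
  · rw [if_pos hc, Finset.sum_eq_zero]
    intro b _
    rw [if_neg (by omega), mul_zero]
  · rw [if_neg hc]
    have hc2 := c.2
    rw [Finset.sum_eq_single (⟨(c : ℕ) - 1, by omega⟩ : Fin (Q + 1))]
    · rw [if_pos (by simp only; omega)]
    · intro b _ hb
      rw [if_neg, mul_zero]
      intro hb'
      apply hb
      apply Fin.ext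
      simp only
      omega
    · intro h'
      exact absurd (Finset.mem_univ _) h'

theorem sym_sumE' {Q : ℕ} (x : Fin (Q + 1)) (h : ℕ → ℂ) :
    ∑ a : Fin (Q + 1), Em x a * h a =
      if (x : ℕ) + 1 < Q + 1 then (((x : ℕ) : ℂ) + 1) * h ((x : ℕ) + 1) else 0 := by
  unfold Em
  by_cases hx : (x : ℕ) + 1 < Q + 1
  · rw [if_pos hx, Finset.sum_eq_single (⟨(x : ℕ) + 1, hx⟩ : Fin (Q + 1))]
    · simp
    · intro b _ hb
      rw [if_neg, zero_mul]
      intro hb'
      exact hb (Fin.ext hb'.symm)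
    · intro h'
      exact absurd (Finset.mem_univ _) h'
  · rw [if_neg hx, Finset.sum_eq_zero]
    intro b _
    rw [if_neg, zero_mul]
    have := b.2
    omega

theorem symKer_F (Q : ℕ) : SymKer Q (Fm Q) := by
  rintro ⟨x, hx⟩ ⟨y, hy⟩ ⟨c, hc⟩ ⟨d, hd⟩
  rw [sym_sumF ⟨c, hc⟩ (fun a => pk Q x y a d), sym_sumF ⟨d, hd⟩ (fun b => pk Q x y c b),
    sym_sumF' ⟨x, hx⟩ (fun a => pk Q a y c d), sym_sumF' ⟨y, hy⟩ (fun b => pk Q x b c d)]
  simp only
  unfold pk
  by_cases h : x + y = c + d + 1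
  · rw [if_pos (by omega), if_pos (by omega)]
    have hcr := sym_cross (Q := Q) (x := x) (y := y) (c := c) (d := d) (n := c + d)
      (by omega) (by omega) (by omega) (by omega) (Or.inr ⟨h, rfl⟩)
    have e1 : c + 1 + d - 1 = c + d := by omega
    have e2 : c + (d + 1) - 1 = c + d := by omega
    rw [e1, e2]
    have hC : (x : ℂ) + y = c + d + 1 := by exact_mod_cast h
    -- the two brackets
    have hX : (if x = 0 then (0 : ℂ) else ((Q : ℂ) - ((x - 1 : ℕ) : ℂ)) *
        (if x - 1 + y = c + d then ((((x - 1 : ℕ) : ℂ) - (y : ℂ)) * (Q.choose (x - 1) : ℂ) *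
          (Q.choose y : ℂ)) * ((c : ℂ) - (d : ℂ)) /
          (2 * (Q : ℂ) * ((2 * Q - 2).choose (c + d - 1) : ℂ)) else 0)) =
        (x : ℂ) * ((x : ℂ) - 1 - y) * (Q.choose x : ℂ) * (Q.choose y : ℂ) *
          ((c : ℂ) - (d : ℂ)) / (2 * (Q : ℂ) * ((2 * Q - 2).choose (c + d - 1) : ℂ)) := by
      rcases Nat.eq_zero_or_pos x with h0 | h0
      · subst h0
        simp
      · obtain ⟨x', rfl⟩ : ∃ x', x = x' + 1 := ⟨x - 1, by omega⟩
        rw [if_neg (by omega), Nat.add_sub_cancel, if_pos (by omega)]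
        have := sym_ch (Q := Q) (x := x') (by omega)
        push_cast
        linear_combination (-((x' : ℂ) - y) * (Q.choose y : ℂ) * ((c : ℂ) - (d : ℂ)) /
          (2 * (Q : ℂ) * ((2 * Q - 2).choose (c + d - 1) : ℂ))) * this
    have hY : (if y = 0 then (0 : ℂ) else ((Q : ℂ) - ((y - 1 : ℕ) : ℂ)) *
        (if x + (y - 1) = c + d then (((x : ℂ) - ((y - 1 : ℕ) : ℂ)) * (Q.choose x : ℂ) *
          (Q.choose (y - 1) : ℂ)) * ((c : ℂ) - (d : ℂ)) /
          (2 * (Q : ℂ) * ((2 * Q - 2).choose (c + d - 1) : ℂ)) else 0)) =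
        (y : ℂ) * ((x : ℂ) - y + 1) * (Q.choose x : ℂ) * (Q.choose y : ℂ) *
          ((c : ℂ) - (d : ℂ)) / (2 * (Q : ℂ) * ((2 * Q - 2).choose (c + d - 1) : ℂ)) := by
      rcases Nat.eq_zero_or_pos y with h0 | h0
      · subst h0
        simp
      · obtain ⟨y', rfl⟩ : ∃ y', y = y' + 1 := ⟨y - 1, by omega⟩
        rw [if_neg (by omega), Nat.add_sub_cancel, if_pos (by omega)]
        have := sym_ch (Q := Q) (x := y') (by omega)
        push_cast
        linear_combination (-((x : ℂ) - y') * (Q.choose x : ℂ) * ((c : ℂ) - (d : ℂ)) /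
          (2 * (Q : ℂ) * ((2 * Q - 2).choose (c + d - 1) : ℂ))) * this
    rw [hX, hY]
    push_cast at hcr ⊢
    have hsum : ((x : ℂ) * ((x : ℂ) - 1 - y) + (y : ℂ) * ((x : ℂ) - y + 1)) =
        ((x : ℂ) - y) * (c + d) := by
      linear_combination ((x : ℂ) - y) * hC
    linear_combination (-(Q.choose x : ℂ) * (Q.choose y : ℂ) / (2 * (Q : ℂ))) * hcr -
      ((Q.choose x : ℂ) * (Q.choose y : ℂ) * ((c : ℂ) - (d : ℂ)) /
        (2 * (Q : ℂ) * ((2 * Q - 2).choose (c + d - 1) : ℂ))) * hsum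
  · rw [if_neg (by omega), if_neg (by omega), zero_mul, zero_mul, add_zero]
    have hX : (if x = 0 then (0 : ℂ) else ((Q : ℂ) - ((x - 1 : ℕ) : ℂ)) *
        (if x - 1 + y = c + d then ((((x - 1 : ℕ) : ℂ) - (y : ℂ)) * (Q.choose (x - 1) : ℂ) *
          (Q.choose y : ℂ)) * ((c : ℂ) - (d : ℂ)) /
          (2 * (Q : ℂ) * ((2 * Q - 2).choose (c + d - 1) : ℂ)) else 0)) = 0 := by
      by_cases h0 : x = 0
      · rw [if_pos h0]
      · rw [if_neg h0, if_neg (by omega), mul_zero]
    have hY : (if y = 0 then (0 : ℂ) else ((Q : ℂ) - ((y - 1 : ℕ) : ℂ)) *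
        (if x + (y - 1) = c + d then (((x : ℂ) - ((y - 1 : ℕ) : ℂ)) * (Q.choose x : ℂ) *
          (Q.choose (y - 1) : ℂ)) * ((c : ℂ) - (d : ℂ)) /
          (2 * (Q : ℂ) * ((2 * Q - 2).choose (c + d - 1) : ℂ)) else 0)) = 0 := by
      by_cases h0 : y = 0
      · rw [if_pos h0]
      · rw [if_neg h0, if_neg (by omega), mul_zero]
    rw [hX, hY, add_zero]

theorem symKer_E (Q : ℕ) : SymKer Q Em := by
  rintro ⟨x, hx⟩ ⟨y, hy⟩ ⟨c, hc⟩ ⟨d, hd⟩
  rw [sym_sumE ⟨c, hc⟩ (fun a => pk Q x y a d), sym_sumE ⟨d, hd⟩ (fun b => pk Q x y c b),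
    sym_sumE' ⟨x, hx⟩ (fun a => pk Q a y c d), sym_sumE' ⟨y, hy⟩ (fun b => pk Q x b c d)]
  simp only
  unfold pk
  by_cases h : x + y + 1 = c + d
  · have hcr := sym_cross (Q := Q) (x := x) (y := y) (c := c) (d := d) (n := x + y)
      (by omega) (by omega) (by omega) (by omega) (Or.inl ⟨rfl, h.symm⟩)
    have hC : (x : ℂ) + y + 1 = c + d := by exact_mod_cast h
    have hCc : (if c = 0 then (0 : ℂ) else
        (if x + y = c - 1 + d then (((x : ℂ) - (y : ℂ)) * (Q.choose x : ℂ) *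
          (Q.choose y : ℂ)) * (((c - 1 : ℕ) : ℂ) - (d : ℂ)) /
          (2 * (Q : ℂ) * ((2 * Q - 2).choose (c - 1 + d - 1) : ℂ)) else 0) * (c : ℂ)) =
        (c : ℂ) * ((c : ℂ) - 1 - d) * (((x : ℂ) - (y : ℂ)) * (Q.choose x : ℂ) *
          (Q.choose y : ℂ)) / (2 * (Q : ℂ) * ((2 * Q - 2).choose (x + y - 1) : ℂ)) := by
      rcases Nat.eq_zero_or_pos c with h0 | h0
      · subst h0
        simp
      · obtain ⟨c', rfl⟩ : ∃ c', c = c' + 1 := ⟨c - 1, by omega⟩
        rw [if_neg (by omega), Nat.add_sub_cancel, if_pos (by omega)]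
        have e : c' + d = x + y := by omega
        rw [e]
        push_cast
        ring
    have hDd : (if d = 0 then (0 : ℂ) else
        (if x + y = c + (d - 1) then (((x : ℂ) - (y : ℂ)) * (Q.choose x : ℂ) *
          (Q.choose y : ℂ)) * ((c : ℂ) - ((d - 1 : ℕ) : ℂ)) /
          (2 * (Q : ℂ) * ((2 * Q - 2).choose (c + (d - 1) - 1) : ℂ)) else 0) * (d : ℂ)) =
        (d : ℂ) * ((c : ℂ) - d + 1) * (((x : ℂ) - (y : ℂ)) * (Q.choose x : ℂ) *
          (Q.choose y : ℂ)) / (2 * (Q : ℂ) * ((2 * Q - 2).choose (x + y - 1) : ℂ)) := by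
      rcases Nat.eq_zero_or_pos d with h0 | h0
      · subst h0
        simp
      · obtain ⟨d', rfl⟩ : ∃ d', d = d' + 1 := ⟨d - 1, by omega⟩
        rw [if_neg (by omega), Nat.add_sub_cancel, if_pos (by omega)]
        have e : c + d' = x + y := by omega
        rw [e]
        push_cast
        ring
    have hX : (if x + 1 < Q + 1 then ((x : ℂ) + 1) *
        (if x + 1 + y = c + d then ((((x + 1 : ℕ) : ℂ) - (y : ℂ)) * (Q.choose (x + 1) : ℂ) *
          (Q.choose y : ℂ)) * ((c : ℂ) - (d : ℂ)) /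
          (2 * (Q : ℂ) * ((2 * Q - 2).choose (c + d - 1) : ℂ)) else 0) else 0) =
        ((Q : ℂ) - x) * ((x : ℂ) + 1 - y) * (Q.choose x : ℂ) * (Q.choose y : ℂ) *
          ((c : ℂ) - (d : ℂ)) / (2 * (Q : ℂ) * ((2 * Q - 2).choose (x + y) : ℂ)) := by
      have e : c + d - 1 = x + y := by omega
      rw [e]
      by_cases h0 : x + 1 < Q + 1
      · rw [if_pos h0, if_pos (by omega)]
        have := sym_ch (Q := Q) (x := x) (by omega)
        push_cast
        linear_combination (((x : ℂ) + 1 - y) * (Q.choose y : ℂ) * ((c : ℂ) - (d : ℂ)) /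
          (2 * (Q : ℂ) * ((2 * Q - 2).choose (x + y) : ℂ))) * this
      · rw [if_neg h0]
        have : x = Q := by omega
        subst this
        simp
    have hY : (if y + 1 < Q + 1 then ((y : ℂ) + 1) *
        (if x + (y + 1) = c + d then (((x : ℂ) - ((y + 1 : ℕ) : ℂ)) * (Q.choose x : ℂ) *
          (Q.choose (y + 1) : ℂ)) * ((c : ℂ) - (d : ℂ)) /
          (2 * (Q : ℂ) * ((2 * Q - 2).choose (c + d - 1) : ℂ)) else 0) else 0) =
        ((Q : ℂ) - y) * ((x : ℂ) - y - 1) * (Q.choose x : ℂ) * (Q.choose y : ℂ) *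
          ((c : ℂ) - (d : ℂ)) / (2 * (Q : ℂ) * ((2 * Q - 2).choose (x + y) : ℂ)) := by
      have e : c + d - 1 = x + y := by omega
      rw [e]
      by_cases h0 : y + 1 < Q + 1
      · rw [if_pos h0, if_pos (by omega)]
        have := sym_ch (Q := Q) (x := y) (by omega)
        push_cast
        linear_combination (((x : ℂ) - y - 1) * (Q.choose x : ℂ) * ((c : ℂ) - (d : ℂ)) /
          (2 * (Q : ℂ) * ((2 * Q - 2).choose (x + y) : ℂ))) * this
      · rw [if_neg h0]
        have : y = Q := by omega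
        subst this
        simp
    rw [hCc, hDd, hX, hY]
    push_cast at hcr ⊢
    have hs1 : (c : ℂ) * ((c : ℂ) - 1 - d) + (d : ℂ) * ((c : ℂ) - d + 1) =
        ((c : ℂ) - d) * (x + y) := by
      linear_combination (-((c : ℂ) - d)) * hC
    have hs2 : ((Q : ℂ) - x) * ((x : ℂ) + 1 - y) + ((Q : ℂ) - y) * ((x : ℂ) - y - 1) =
        ((x : ℂ) - y) * (2 * (Q : ℂ) - 1 - (x + y)) := by
      ring
    linear_combination ((Q.choose x : ℂ) * (Q.choose y : ℂ) / (2 * (Q : ℂ))) * hcr +
      (((x : ℂ) - y) * (Q.choose x : ℂ) * (Q.choose y : ℂ) /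
        (2 * (Q : ℂ) * ((2 * Q - 2).choose (x + y - 1) : ℂ))) * hs1 -
      ((Q.choose x : ℂ) * (Q.choose y : ℂ) * ((c : ℂ) - (d : ℂ)) /
        (2 * (Q : ℂ) * ((2 * Q - 2).choose (x + y) : ℂ))) * hs2
  · have hCc : (if c = 0 then (0 : ℂ) else
        (if x + y = c - 1 + d then (((x : ℂ) - (y : ℂ)) * (Q.choose x : ℂ) *
          (Q.choose y : ℂ)) * (((c - 1 : ℕ) : ℂ) - (d : ℂ)) /
          (2 * (Q : ℂ) * ((2 * Q - 2).choose (c - 1 + d - 1) : ℂ)) else 0) * (c : ℂ)) = 0 := by
      by_cases h0 : c = 0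
      · rw [if_pos h0]
      · rw [if_neg h0, if_neg (by omega), zero_mul]
    have hDd : (if d = 0 then (0 : ℂ) else
        (if x + y = c + (d - 1) then (((x : ℂ) - (y : ℂ)) * (Q.choose x : ℂ) *
          (Q.choose y : ℂ)) * ((c : ℂ) - ((d - 1 : ℕ) : ℂ)) /
          (2 * (Q : ℂ) * ((2 * Q - 2).choose (c + (d - 1) - 1) : ℂ)) else 0) * (d : ℂ)) = 0 := by
      by_cases h0 : d = 0
      · rw [if_pos h0]
      · rw [if_neg h0, if_neg (by omega), zero_mul]
    rw [hCc, hDd, if_neg (by omega : ¬ x + 1 + y = c + d),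
      if_neg (by omega : ¬ x + (y + 1) = c + d)]
    simp

theorem Ham_tot_F {Q N : ℕ} (hQ : 2 ≤ Q) (f : Amp Q N) :
    Ham (tot (Fm Q) f) = tot (Fm Q) (Ham f) :=
  sym_comm (symKer_F Q) f

theorem Ham_tot_E {Q N : ℕ} (hQ : 2 ≤ Q) (f : Amp Q N) :
    Ham (tot Em f) = tot Em (Ham f) :=
  sym_comm (symKer_E Q) f

theorem Ham_add {Q N : ℕ} (f g : Amp Q N) : Ham (f + g) = Ham f + Ham g := by
  funext x
  unfold Ham
  rw [Pi.add_apply, ← Finset.sum_add_distrib]
  refine Finset.sum_congr rfl fun i _ => ?_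
  rw [← Finset.sum_add_distrib]
  refine Finset.sum_congr rfl fun j _ => ?_
  by_cases h : i < j
  · rw [if_pos h, if_pos h, if_pos h]
    unfold Pij
    rw [← Finset.sum_add_distrib]
    refine Finset.sum_congr rfl fun a _ => ?_
    rw [← Finset.sum_add_distrib]
    refine Finset.sum_congr rfl fun b _ => ?_
    rw [Pi.add_apply]
    ring
  · rw [if_neg h, if_neg h, if_neg h, add_zero]

theorem Ham_smul {Q N : ℕ} (c : ℂ) (f : Amp Q N) : Ham (c • f) = c • Ham f := by
  funext x
  unfold Ham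
  rw [Pi.smul_apply, smul_eq_mul, Finset.mul_sum]
  refine Finset.sum_congr rfl fun i _ => ?_
  rw [Finset.mul_sum]
  refine Finset.sum_congr rfl fun j _ => ?_
  by_cases h : i < j
  · rw [if_pos h, if_pos h]
    unfold Pij
    rw [Finset.mul_sum]
    refine Finset.sum_congr rfl fun a _ => ?_
    rw [Finset.mul_sum]
    refine Finset.sum_congr rfl fun b _ => ?_
    rw [Pi.smul_apply, smul_eq_mul]
    ring
  · rw [if_neg h, if_neg h, mul_zero]

theorem sym_wpos (Q : ℕ) (a : Fin (Q + 1)) : 0 < wQ Q a := by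
  unfold wQ
  have h1 : 0 < Q.choose (a : ℕ) := Nat.choose_pos (by have := a.2; omega)
  have h2 : (0 : ℝ) < ((Q.choose (a : ℕ) : ℕ) : ℝ) := by exact_mod_cast h1
  positivity

/-- the weight of a configuration -/
noncomputable def symW {Q N : ℕ} (x : Cfg Q N) : ℝ := ∏ i, wQ Q (x i)

theorem symW_pos {Q N : ℕ} (x : Cfg Q N) : 0 < symW x :=
  Finset.prod_pos fun i _ => sym_wpos Q (x i)

theorem symW_update {Q N : ℕ} (x : Cfg Q N) (k : Fin N) (a : Fin (Q + 1)) :
    symW (Function.update x k a) * wQ Q (x k) = symW x * wQ Q a := by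
  unfold symW
  rw [← Finset.mul_prod_erase Finset.univ (fun i => wQ Q (Function.update x k a i))
    (Finset.mem_univ k), ← Finset.mul_prod_erase Finset.univ (fun i => wQ Q (x i))
    (Finset.mem_univ k), Function.update_self]
  have : ∏ i ∈ Finset.univ.erase k, wQ Q (Function.update x k a i) =
      ∏ i ∈ Finset.univ.erase k, wQ Q (x i) :=
    Finset.prod_congr rfl fun i hi => by
      rw [Function.update_of_ne (Finset.ne_of_mem_erase hi)]
  rw [this]
  ring

/-- the one-body operators `F` and `E` are adjoint -/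
theorem sym_adj_ob {Q N : ℕ} (k : Fin N) (f g : Amp Q N) :
    ip (wQ Q) g (symOb k Em f) = ip (wQ Q) (symOb k (Fm Q) g) f := by
  have hinv : Function.Involutive (fun p : Cfg Q N × Fin (Q + 1) =>
      (Function.update p.1 k p.2, p.1 k)) := by
    rintro ⟨x, a⟩
    simp
  have h1 : ip (wQ Q) g (symOb k Em f) = ∑ p : Cfg Q N × Fin (Q + 1),
      ((symW p.1 : ℝ) : ℂ) * ((starRingEnd ℂ) (g p.1) *
        (Em (p.1 k) p.2 * f (Function.update p.1 k p.2))) := by
    rw [Fintype.sum_prod_type]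
    unfold ip symOb
    refine Finset.sum_congr rfl fun x _ => ?_
    rw [Finset.mul_sum, Finset.mul_sum]
    rfl
  have h2 : ip (wQ Q) (symOb k (Fm Q) g) f = ∑ p : Cfg Q N × Fin (Q + 1),
      ((symW p.1 : ℝ) : ℂ) * ((starRingEnd ℂ) (Fm Q (p.1 k) p.2 *
        g (Function.update p.1 k p.2)) * f p.1) := by
    rw [Fintype.sum_prod_type]
    unfold ip symOb
    refine Finset.sum_congr rfl fun x _ => ?_
    rw [map_sum, Finset.sum_mul, Finset.mul_sum]
    rfl
  rw [h1, h2, ← Equiv.sum_comp hinv.toPerm]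
  refine Finset.sum_congr rfl fun p _ => ?_
  obtain ⟨x, a⟩ := p
  simp only [Function.Involutive.coe_toPerm, Function.update_self, Function.update_idem,
    Function.update_eq_self]
  have hw := symW_update x k a
  rw [map_mul]
  have key : ((symW (Function.update x k a) : ℝ) : ℂ) * Em a (x k) =
      ((symW x : ℝ) : ℂ) * (starRingEnd ℂ) (Fm Q (x k) a) := by
    unfold Em Fm
    by_cases h : (x k : ℕ) = (a : ℕ) + 1
    · rw [if_pos h.symm, if_pos h]
      have hxk := (x k).2
      have hw1 : wQ Q (x k) * (((Q.choose (x k : ℕ)) : ℕ) : ℝ) = 1 := by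
        unfold wQ
        have : (((Q.choose (x k : ℕ)) : ℕ) : ℝ) ≠ 0 := by
          exact_mod_cast (Nat.choose_pos (by omega)).ne'
        exact inv_mul_cancel₀ this
      have hw2 : wQ Q a * (((Q.choose (a : ℕ)) : ℕ) : ℝ) = 1 := by
        unfold wQ
        have : (((Q.choose (a : ℕ)) : ℕ) : ℝ) ≠ 0 := by
          exact_mod_cast (Nat.choose_pos (by omega)).ne'
        exact inv_mul_cancel₀ this
      have hch : (((a : ℕ) : ℝ) + 1) * ((Q.choose ((a : ℕ) + 1) : ℕ) : ℝ) =
          ((Q : ℝ) - ((a : ℕ) : ℝ)) * ((Q.choose (a : ℕ) : ℕ) : ℝ) := by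
        have := sym_ch (Q := Q) (x := (a : ℕ)) (by omega)
        exact_mod_cast this
      have hreal : symW (Function.update x k a) * (((a : ℕ) : ℝ) + 1) =
          symW x * ((Q : ℝ) - ((a : ℕ) : ℝ)) := by
        rw [h] at hw1
        calc symW (Function.update x k a) * (((a : ℕ) : ℝ) + 1)
            = (symW (Function.update x k a) * wQ Q (x k)) *
                ((((a : ℕ) : ℝ) + 1) * ((Q.choose ((a : ℕ) + 1) : ℕ) : ℝ)) := by
              linear_combination (-(symW (Function.update x k a) * (((a : ℕ) : ℝ) + 1))) * hw1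
          _ = (symW x * wQ Q a) * (((Q : ℝ) - ((a : ℕ) : ℝ)) *
                ((Q.choose (a : ℕ) : ℕ) : ℝ)) := by rw [hw, hch]
          _ = symW x * ((Q : ℝ) - ((a : ℕ) : ℝ)) := by
              linear_combination (symW x * ((Q : ℝ) - ((a : ℕ) : ℝ))) * hw2
      have hcast : (((x k : ℕ) : ℕ) : ℂ) = ((a : ℕ) : ℂ) + 1 := by
        rw [h]
        push_cast
        ring
      rw [hcast]
      have hconj : (starRingEnd ℂ) ((Q : ℂ) - ((a : ℕ) : ℂ)) = (Q : ℂ) - ((a : ℕ) : ℂ) := by
        simp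
      rw [hconj]
      exact_mod_cast hreal
    · rw [if_neg (fun h' => h h'.symm), if_neg h]
      simp
  linear_combination ((starRingEnd ℂ) (g (Function.update x k a)) * f x) * key

theorem sym_ip_sum_right {Q N : ℕ} {ι : Type} (s : Finset ι) (g : Amp Q N) (f : ι → Amp Q N) :
    ip (wQ Q) g (fun x => ∑ k ∈ s, f k x) = ∑ k ∈ s, ip (wQ Q) g (f k) := by
  unfold ip
  simp only [Finset.mul_sum]
  rw [Finset.sum_comm]

theorem sym_ip_sum_left {Q N : ℕ} {ι : Type} (s : Finset ι) (g : Amp Q N) (f : ι → Amp Q N) :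
    ip (wQ Q) (fun x => ∑ k ∈ s, f k x) g = ∑ k ∈ s, ip (wQ Q) (f k) g := by
  unfold ip
  simp only [map_sum, Finset.sum_mul, Finset.mul_sum]
  rw [Finset.sum_comm]

theorem sym_adj {Q N : ℕ} (f g : Amp Q N) :
    ip (wQ Q) g (tot Em f) = ip (wQ Q) (tot (Fm Q) g) f := by
  rw [symTot, symTot, sym_ip_sum_right, sym_ip_sum_left]
  exact Finset.sum_congr rfl fun k _ => sym_adj_ob k f g

theorem sym_ip_conj {Q N : ℕ} (f g : Amp Q N) :
    (starRingEnd ℂ) (ip (wQ Q) f g) = ip (wQ Q) g f := by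
  unfold ip
  rw [map_sum]
  refine Finset.sum_congr rfl fun x _ => ?_
  rw [map_mul, map_mul, Complex.conj_ofReal, Complex.conj_conj]
  ring

/-- the isometry onto the Euclidean space -/
noncomputable def symT (Q N : ℕ) : Amp Q N ≃ₗ[ℂ] EuclideanSpace ℂ (Cfg Q N) where
  toFun f := WithLp.toLp 2 fun x => ((√(symW x) : ℝ) : ℂ) * f x
  invFun g := fun x => (((√(symW x))⁻¹ : ℝ) : ℂ) * g x
  map_add' f g := by
    ext x
    simp [mul_add]
  map_smul' c f := by
    ext x
    simp only [Pi.smul_apply, smul_eq_mul, RingHom.id_apply, PiLp.smul_apply]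
    ring
  left_inv f := by
    funext x
    have h : (√(symW x) : ℝ) ≠ 0 := (Real.sqrt_pos.2 (symW_pos x)).ne'
    have h' : ((√(symW x) : ℝ) : ℂ) ≠ 0 := by exact_mod_cast h
    simp only [Complex.ofReal_inv]
    rw [← mul_assoc, inv_mul_cancel₀ h', one_mul]
  right_inv g := by
    ext x
    have h : (√(symW x) : ℝ) ≠ 0 := (Real.sqrt_pos.2 (symW_pos x)).ne'
    have h' : ((√(symW x) : ℝ) : ℂ) ≠ 0 := by exact_mod_cast h
    simp only [Complex.ofReal_inv]
    rw [← mul_assoc, mul_inv_cancel₀ h', one_mul]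

theorem symT_inner {Q N : ℕ} (f g : Amp Q N) :
    inner ℂ (symT Q N f) (symT Q N g) = ip (wQ Q) f g := by
  unfold ip
  rw [PiLp.inner_apply]
  refine Finset.sum_congr rfl fun x _ => ?_
  have h : ((√(symW x) : ℝ) : ℂ) * ((√(symW x) : ℝ) : ℂ) = ((symW x : ℝ) : ℂ) := by
    rw [← Complex.ofReal_mul, Real.mul_self_sqrt (symW_pos x).le]
  have h2 : ((∏ i, wQ Q (x i) : ℝ) : ℂ) = ((symW x : ℝ) : ℂ) := rfl
  rw [h2, ← h]
  simp only [symT, LinearEquiv.coe_mk, LinearMap.coe_mk, AddHom.coe_mk, RCLike.inner_apply,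
    map_mul, Complex.conj_ofReal]
  ring

theorem exists_basis {Q N : ℕ} (S : Submodule ℂ (Amp Q N))
    (hF : ∀ f ∈ S, tot (Fm Q) f ∈ S) (hE : ∀ f ∈ S, tot Em f ∈ S) (hne : S ≠ ⊥) :
    ∃ (D : ℕ) (ψ : Fin D → Amp Q N) (A : Fin D → Fin D → ℂ), 0 < D ∧ (∀ i, ψ i ∈ S) ∧
      (∀ i j, ip (wQ Q) (ψ i) (ψ j) = if i = j then 1 else 0) ∧
      (∀ i, tot (Fm Q) (ψ i) = ∑ j, A i j • ψ j) ∧
      (∀ i, tot Em (ψ i) = ∑ j, (starRingEnd ℂ) (A j i) • ψ j) := by
  let T := symT Q N
  let S' : Submodule ℂ (EuclideanSpace ℂ (Cfg Q N)) := S.map (T : Amp Q N →ₗ[ℂ] _)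
  let b := stdOrthonormalBasis ℂ S'
  have hmem : ∀ i, ∃ f ∈ S, T f = (b i : EuclideanSpace ℂ (Cfg Q N)) := by
    intro i
    obtain ⟨f, hf, hf'⟩ := (b i).2
    exact ⟨f, hf, hf'⟩
  choose ψ hψS hψ using hmem
  have hexp : ∀ f ∈ S, f = ∑ j, ip (wQ Q) (ψ j) f • ψ j := by
    intro f hf
    apply T.injective
    have hf' : T f ∈ S' := ⟨f, hf, rfl⟩
    have h1 := b.sum_repr' ⟨T f, hf'⟩
    have h2 := congrArg (fun z : S' => (z : EuclideanSpace ℂ (Cfg Q N))) h1
    simp only [Submodule.coe_sum, Submodule.coe_smul, Submodule.coe_inner] at h2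
    rw [map_sum, ← h2]
    refine Finset.sum_congr rfl fun j _ => ?_
    rw [map_smul, hψ, ← symT_inner]
    congr 2
    exact (hψ j).symm
  refine ⟨Module.finrank ℂ S', ψ, fun i j => ip (wQ Q) (ψ j) (tot (Fm Q) (ψ i)), ?_, hψS, ?_,
    ?_, ?_⟩
  · have h1 : Module.finrank ℂ S' = Module.finrank ℂ S := LinearEquiv.finrank_map_eq T S
    rw [h1, Module.finrank_pos_iff, Submodule.nontrivial_iff_ne_bot]
    exact hne
  · intro i j
    rw [← symT_inner]
    have h1 : inner ℂ (b i) (b j) = if i = j then (1 : ℂ) else 0 :=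
      orthonormal_iff_ite.1 b.orthonormal i j
    rw [← h1, Submodule.coe_inner]
    congr 1
    · exact hψ i
    · exact hψ j
  · intro i
    exact hexp _ (hF _ (hψS i))
  · intro i
    rw [hexp _ (hE _ (hψS i))]
    refine Finset.sum_congr rfl fun j _ => ?_
    rw [sym_ip_conj, sym_adj]

end Vale.Agent.P359
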