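import Vale.Agent.P359.CGa

namespace Vale.Agent.P359

open Finset

/-- the coefficient in `Wop` -/
noncomputable def Wmod_kap (Q a c : ℕ) : ℝ :=
  ((a : ℝ) - (c : ℝ)) * (Q.choose a : ℝ) * (Q.choose c : ℝ) / ((2 * Q - 2).choose (a + c - 1) : ℝ)

theorem Wmod_Wop (Q : ℕ) (v : ℕ → ℕ → ℝ) (m c : ℕ) :
    Wop Q v m c = -(1 / (Q : ℝ)) * ∑ a ∈ range (Q + 1), ∑ b ∈ range (Q + 1),
      if a + b = m + 1 then ((a : ℝ) - (b : ℝ)) * (Wmod_kap Q a c * v (a + c - 1) b) else 0 := by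
  unfold Wop Wmod_kap
  congr 1
  refine sum_congr rfl fun a _ => sum_congr rfl fun b _ => ?_
  split_ifs
  · ring
  · rfl

theorem Wmod_absorb (n a : ℕ) : ((a : ℝ) + 1) * (n.choose (a + 1) : ℝ) =
    ((n : ℝ) - a) * (n.choose a : ℝ) := by
  have h := Nat.choose_succ_right_eq n a
  rcases le_or_gt a n with ha | ha
  · have h2 : ((n.choose (a + 1) * (a + 1) : ℕ) : ℝ) = ((n.choose a * (n - a) : ℕ) : ℝ) := by
      rw [h]
    push_cast [Nat.cast_sub ha] at h2
    linarith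
  · rw [Nat.choose_eq_zero_of_lt ha, Nat.choose_eq_zero_of_lt (by omega)]
    simp

theorem Wmod_choose_ne {n a : ℕ} (h : a ≤ n) : (n.choose a : ℝ) ≠ 0 := by
  have := Nat.choose_pos h
  exact_mod_cast this.ne'

/-- `B^*` intertwines the lowering operators -/
theorem Wmod_F1 (Q a c : ℕ) (ha : a ≤ Q) (hc : c ≤ Q) :
    (if a = 0 then 0 else ((Q : ℝ) - a + 1) * Wmod_kap Q (a - 1) c) +
      (if c = 0 then 0 else ((Q : ℝ) - c + 1) * Wmod_kap Q a (c - 1)) =
    if a + c - 1 = 0 then 0 else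
      Wmod_kap Q a c * (((2 * Q - 2 : ℕ) : ℝ) - ((a + c - 1 : ℕ) : ℝ) + 1) := by
  rcases Nat.lt_or_ge (a + c) 2 with hs | hs
  · have h0 : a + c - 1 = 0 := by omega
    rw [if_pos h0]
    have h1 : (a = 0 ∧ c = 0) ∨ (a = 1 ∧ c = 0) ∨ (a = 0 ∧ c = 1) := by omega
    rcases h1 with ⟨rfl, rfl⟩ | ⟨rfl, rfl⟩ | ⟨rfl, rfl⟩ <;> simp [Wmod_kap]
  have h0 : a + c - 1 ≠ 0 := by omega
  rw [if_neg h0]
  have hQ : 1 ≤ Q := by omega
  -- both sides in terms of D2
  have hL : (if a = 0 then 0 else ((Q : ℝ) - a + 1) * Wmod_kap Q (a - 1) c) =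
      (a : ℝ) * ((a : ℝ) - 1 - c) * (Q.choose a : ℝ) * (Q.choose c : ℝ) /
        ((2 * Q - 2).choose (a + c - 2) : ℝ) := by
    rcases a with _ | a
    · simp
    · rw [if_neg (by omega)]
      unfold Wmod_kap
      have e1 : a + 1 - 1 = a := rfl
      have e2 : a + 1 - 1 + c - 1 = a + 1 + c - 2 := by omega
      rw [e2, e1]
      have h := Wmod_absorb Q a
      push_cast
      have e3 : ((Q : ℝ) - ((a : ℝ) + 1) + 1) * (((a : ℝ) - c) * (Q.choose a : ℝ) *
          (Q.choose c : ℝ) / ((2 * Q - 2).choose (a + 1 + c - 2) : ℝ)) =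
          (((Q : ℝ) - a) * (Q.choose a : ℝ)) * ((a : ℝ) - c) * (Q.choose c : ℝ) /
            ((2 * Q - 2).choose (a + 1 + c - 2) : ℝ) := by ring
      rw [e3, ← h]
      ring
  have hR : (if c = 0 then 0 else ((Q : ℝ) - c + 1) * Wmod_kap Q a (c - 1)) =
      (c : ℝ) * ((a : ℝ) - c + 1) * (Q.choose a : ℝ) * (Q.choose c : ℝ) /
        ((2 * Q - 2).choose (a + c - 2) : ℝ) := by
    rcases c with _ | c
    · simp
    · rw [if_neg (by omega)]
      unfold Wmod_kap
      have e1 : c + 1 - 1 = c := rfl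
      have e2 : a + (c + 1 - 1) - 1 = a + (c + 1) - 2 := by omega
      rw [e2, e1]
      have h := Wmod_absorb Q c
      push_cast
      have e3 : ((Q : ℝ) - ((c : ℝ) + 1) + 1) * (((a : ℝ) - c) * (Q.choose a : ℝ) *
          (Q.choose c : ℝ) / ((2 * Q - 2).choose (a + (c + 1) - 2) : ℝ)) =
          (((Q : ℝ) - c) * (Q.choose c : ℝ)) * ((a : ℝ) - c) * (Q.choose a : ℝ) /
            ((2 * Q - 2).choose (a + (c + 1) - 2) : ℝ) := by ring
      rw [e3, ← h]
      ring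
  rw [hL, hR]
  unfold Wmod_kap
  obtain ⟨s, hs'⟩ : ∃ s, a + c = s + 2 := ⟨a + c - 2, by omega⟩
  have e1 : a + c - 1 = s + 1 := by omega
  have e2 : a + c - 2 = s := by omega
  rw [e1, e2]
  have hcast : ((2 * Q - 2 : ℕ) : ℝ) = 2 * (Q : ℝ) - 2 := by
    rw [Nat.cast_sub (by omega)]; push_cast; ring
  have hs2 : (a : ℝ) + c = s + 2 := by exact_mod_cast hs'
  rcases Nat.lt_or_ge (2 * Q - 2) (s + 1) with hbig | hsm
  · have hac : a = c := by omega
    subst hac
    have : ((2 * Q - 2).choose (s + 1) : ℝ) = 0 := by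
      rw [Nat.choose_eq_zero_of_lt hbig]; simp
    rw [this]
    ring
  · have hD1 := Wmod_choose_ne hsm
    have hD2 : ((2 * Q - 2).choose s : ℝ) ≠ 0 := Wmod_choose_ne (by omega)
    have h := Wmod_absorb (2 * Q - 2) s
    rw [hcast] at h ⊢
    have h' : ((s : ℝ) + 1) / ((2 * Q - 2).choose s : ℝ) =
        (2 * (Q : ℝ) - 2 - s) / ((2 * Q - 2).choose (s + 1) : ℝ) := by
      rw [div_eq_div_iff hD2 hD1]; exact h
    have hc' : (c : ℝ) = s + 2 - a := by linarith
    calc _ = ((a : ℝ) - c) * (Q.choose a : ℝ) * (Q.choose c : ℝ) *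
          (((a : ℝ) + c - 1) / ((2 * Q - 2).choose s : ℝ)) := by ring
      _ = ((a : ℝ) - c) * (Q.choose a : ℝ) * (Q.choose c : ℝ) *
          (((s : ℝ) + 1) / ((2 * Q - 2).choose s : ℝ)) := by
            rw [hs2]; ring
      _ = ((a : ℝ) - c) * (Q.choose a : ℝ) * (Q.choose c : ℝ) *
          ((2 * (Q : ℝ) - 2 - s) / ((2 * Q - 2).choose (s + 1) : ℝ)) := by rw [h']
      _ = _ := by push_cast; ring

theorem Wmod_shiftA (Q m : ℕ) (g : ℕ → ℕ → ℝ) :
    ∑ a ∈ range (Q + 1), ∑ b ∈ range (Q + 1), (if a + b = m + 1 then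
      (if a = 0 then 0 else ((Q : ℝ) - a + 1) * g (a - 1) b) else 0) =
    ∑ a ∈ range (Q + 1), ∑ b ∈ range (Q + 1), if a + b = m then ((Q : ℝ) - a) * g a b else 0 := by
  have h1 := sum_range_succ' (fun a => ∑ b ∈ range (Q + 1), (if a + b = m + 1 then
      (if a = 0 then 0 else ((Q : ℝ) - a + 1) * g (a - 1) b) else 0)) Q
  have h2 := sum_range_succ (fun a => ∑ b ∈ range (Q + 1),
    if a + b = m then ((Q : ℝ) - a) * g a b else 0) Q
  rw [h1, h2]
  congr 1
  · refine sum_congr rfl fun a _ => sum_congr rfl fun b _ => ?_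
    have e : a + 1 + b = m + 1 ↔ a + b = m := by omega
    rw [if_neg (Nat.succ_ne_zero a), Nat.add_sub_cancel]
    by_cases h : a + b = m
    · rw [if_pos h, if_pos (e.mpr h)]; push_cast; ring
    · rw [if_neg h, if_neg (fun h' => h (e.mp h'))]
  · simp

theorem Wmod_shiftB (Q m : ℕ) (g : ℕ → ℕ → ℝ) :
    ∑ a ∈ range (Q + 1), ∑ b ∈ range (Q + 1), (if a + b = m + 1 then
      (if b = 0 then 0 else ((Q : ℝ) - b + 1) * g a (b - 1)) else 0) =
    ∑ a ∈ range (Q + 1), ∑ b ∈ range (Q + 1), if a + b = m then ((Q : ℝ) - b) * g a b else 0 := by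
  refine sum_congr rfl fun a _ => ?_
  have h1 := sum_range_succ' (fun b => (if a + b = m + 1 then
      (if b = 0 then 0 else ((Q : ℝ) - b + 1) * g a (b - 1)) else 0)) Q
  have h2 := sum_range_succ (fun b =>
    if a + b = m then ((Q : ℝ) - b) * g a b else 0) Q
  rw [h1, h2]
  congr 1
  · refine sum_congr rfl fun b _ => ?_
    have e : a + (b + 1) = m + 1 ↔ a + b = m := by omega
    rw [if_neg (Nat.succ_ne_zero b), Nat.add_sub_cancel]
    by_cases h : a + b = m
    · rw [if_pos h, if_pos (e.mpr h)]; push_cast; ring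
    · rw [if_neg h, if_neg (fun h' => h (e.mp h'))]
  · simp

/-- `Wop` commutes with the lowering operator -/
theorem Wmod_F (Q : ℕ) (v : ℕ → ℕ → ℝ) (m c : ℕ) (hQ : 2 ≤ Q) (hc : c ≤ Q) :
    Wop Q (Fop (2 * Q - 2) Q v) m c = Fop (2 * Q - 2) Q (Wop Q v) m c := by
  have hcast : ((2 * Q - 2 : ℕ) : ℝ) = 2 * (Q : ℝ) - 2 := by
    rw [Nat.cast_sub (by omega)]; push_cast; ring
  -- split the left hand side
  have hL : ∑ a ∈ range (Q + 1), ∑ b ∈ range (Q + 1), (if a + b = m + 1 then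
        ((a : ℝ) - (b : ℝ)) * (Wmod_kap Q a c * Fop (2 * Q - 2) Q v (a + c - 1) b) else 0) =
      ∑ a ∈ range (Q + 1), ∑ b ∈ range (Q + 1), (if a + b = m + 1 then
        (if a = 0 then 0 else ((Q : ℝ) - a + 1) *
          ((((a - 1 : ℕ) : ℝ) + 1 - b) * (Wmod_kap Q (a - 1) c * v ((a - 1) + c - 1) b))) else 0) +
      ∑ a ∈ range (Q + 1), ∑ b ∈ range (Q + 1), (if a + b = m + 1 then
        (if c = 0 then 0 else ((Q : ℝ) - c + 1) * (((a : ℝ) - (b : ℝ)) *
          (Wmod_kap Q a (c - 1) * v (a + (c - 1) - 1) b))) else 0) +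
      ∑ a ∈ range (Q + 1), ∑ b ∈ range (Q + 1), (if a + b = m + 1 then
        (if b = 0 then 0 else ((Q : ℝ) - b + 1) * (((a : ℝ) - ((b - 1 : ℕ) : ℝ) - 1) *
          (Wmod_kap Q a c * v (a + c - 1) (b - 1)))) else 0) := by
    rw [← sum_add_distrib, ← sum_add_distrib]
    refine sum_congr rfl fun a ha => ?_
    rw [← sum_add_distrib, ← sum_add_distrib]
    refine sum_congr rfl fun b _ => ?_
    have haQ : a ≤ Q := by rw [mem_range] at ha; omega
    by_cases hab : a + b = m + 1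
    swap
    · simp only [if_neg hab, add_zero]
    simp only [if_pos hab]
    have hF1 := Wmod_F1 Q a c haQ hc
    have hv1 : (if a = 0 then 0 else ((Q : ℝ) - a + 1) *
          ((((a - 1 : ℕ) : ℝ) + 1 - b) * (Wmod_kap Q (a - 1) c * v ((a - 1) + c - 1) b))) =
        ((a : ℝ) - b) * (if a = 0 then 0 else ((Q : ℝ) - a + 1) * Wmod_kap Q (a - 1) c) *
          v (a + c - 1 - 1) b := by
      rcases a with _ | a
      · simp
      · rw [if_neg (Nat.succ_ne_zero a), if_neg (Nat.succ_ne_zero a)]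
        have e : a + 1 - 1 + c - 1 = a + 1 + c - 1 - 1 := by omega
        rw [e, Nat.add_sub_cancel]
        push_cast; ring
    have hv2 : (if c = 0 then 0 else ((Q : ℝ) - c + 1) * (((a : ℝ) - (b : ℝ)) *
          (Wmod_kap Q a (c - 1) * v (a + (c - 1) - 1) b))) =
        ((a : ℝ) - b) * (if c = 0 then 0 else ((Q : ℝ) - c + 1) * Wmod_kap Q a (c - 1)) *
          v (a + c - 1 - 1) b := by
      rcases c with _ | c
      · simp
      · rw [if_neg (Nat.succ_ne_zero c), if_neg (Nat.succ_ne_zero c)]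
        have e : a + (c + 1 - 1) - 1 = a + (c + 1) - 1 - 1 := by omega
        rw [e]
        ring
    have hv3 : (if b = 0 then 0 else ((Q : ℝ) - b + 1) * (((a : ℝ) - ((b - 1 : ℕ) : ℝ) - 1) *
          (Wmod_kap Q a c * v (a + c - 1) (b - 1)))) =
        ((a : ℝ) - b) * Wmod_kap Q a c *
          (if b = 0 then 0 else ((Q : ℝ) - b + 1) * v (a + c - 1) (b - 1)) := by
      rcases b with _ | b
      · simp
      · rw [if_neg (Nat.succ_ne_zero b), if_neg (Nat.succ_ne_zero b), Nat.add_sub_cancel]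
        push_cast; ring
    rw [hv1, hv2, hv3, Fop]
    have hcomb : ((a : ℝ) - b) * (if a = 0 then 0 else ((Q : ℝ) - a + 1) * Wmod_kap Q (a - 1) c) *
          v (a + c - 1 - 1) b +
        ((a : ℝ) - b) * (if c = 0 then 0 else ((Q : ℝ) - c + 1) * Wmod_kap Q a (c - 1)) *
          v (a + c - 1 - 1) b =
        ((a : ℝ) - b) * ((if a + c - 1 = 0 then 0 else
      Wmod_kap Q a c * (((2 * Q - 2 : ℕ) : ℝ) - ((a + c - 1 : ℕ) : ℝ) + 1)) *
        v (a + c - 1 - 1) b) := by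
      rw [← hF1]; ring
    rw [hcomb]
    by_cases hs : a + c - 1 = 0
    · rw [if_pos hs, if_pos hs]; ring
    · rw [if_neg hs, if_neg hs]; ring
  have hA := Wmod_shiftA Q m (fun a b => ((a : ℝ) + 1 - b) * (Wmod_kap Q a c * v (a + c - 1) b))
  have hB := Wmod_shiftB Q m (fun a b => ((a : ℝ) - (b : ℝ) - 1) * (Wmod_kap Q a c * v (a + c - 1) b))
  rw [Wmod_Wop, hL, hA, hB]
  unfold Fop
  have h1 : (if m = 0 then 0 else (((2 * Q - 2 : ℕ) : ℝ) - (m : ℝ) + 1) * Wop Q v (m - 1) c) =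
      -(1 / (Q : ℝ)) * ∑ a ∈ range (Q + 1), ∑ b ∈ range (Q + 1),
        if a + b = m then (2 * (Q : ℝ) - m - 1) *
          (((a : ℝ) - b) * (Wmod_kap Q a c * v (a + c - 1) b)) else 0 := by
    rcases m with _ | m
    · rw [if_pos rfl]
      have : ∀ a ∈ range (Q + 1), ∀ b ∈ range (Q + 1), (if a + b = 0 then (2 * (Q : ℝ) - (0 : ℕ) - 1) *
          (((a : ℝ) - b) * (Wmod_kap Q a c * v (a + c - 1) b)) else 0) = 0 := by
        intro a _ b _
        split_ifs with h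
        · have ha : a = 0 := by omega
          have hb : b = 0 := by omega
          subst ha hb; simp
        · rfl
      rw [sum_congr rfl fun a ha => sum_congr rfl (this a ha)]
      simp
    · rw [if_neg (Nat.succ_ne_zero m), Nat.add_sub_cancel, Wmod_Wop, hcast]
      rw [← mul_assoc, mul_comm (2 * (Q : ℝ) - 2 - ((m + 1 : ℕ) : ℝ) + 1), mul_assoc, mul_sum]
      congr 1
      refine sum_congr rfl fun a _ => ?_
      rw [mul_sum]
      refine sum_congr rfl fun b _ => ?_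
      split_ifs
      · push_cast; ring
      · simp
  have h2 : (if c = 0 then 0 else ((Q : ℝ) - (c : ℝ) + 1) * Wop Q v m (c - 1)) =
      -(1 / (Q : ℝ)) * ∑ a ∈ range (Q + 1), ∑ b ∈ range (Q + 1), (if a + b = m + 1 then
        (if c = 0 then 0 else ((Q : ℝ) - c + 1) * (((a : ℝ) - (b : ℝ)) *
          (Wmod_kap Q a (c - 1) * v (a + (c - 1) - 1) b))) else 0) := by
    rcases c with _ | c
    · simp
    · rw [if_neg (Nat.succ_ne_zero c), Wmod_Wop]
      rw [← mul_assoc, mul_comm ((Q : ℝ) - ((c + 1 : ℕ) : ℝ) + 1), mul_assoc, mul_sum]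
      congr 1
      refine sum_congr rfl fun a _ => ?_
      rw [mul_sum]
      refine sum_congr rfl fun b _ => ?_
      rw [if_neg (Nat.succ_ne_zero c), Nat.add_sub_cancel]
      split_ifs <;> simp
  rw [h1, h2, ← mul_add]
  congr 1
  rw [add_right_comm]
  congr 1
  rw [← sum_add_distrib]
  refine sum_congr rfl fun a _ => ?_
  rw [← sum_add_distrib]
  refine sum_congr rfl fun b _ => ?_
  split_ifs with h
  · have hm : (m : ℝ) = a + b := by rw [← h]; push_cast; ring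
    rw [hm]; ring
  · simp

/-- the raising identity for the coefficients -/
theorem Wmod_E1 (Q a c : ℕ) (hQ : 2 ≤ Q) (hs : a + c ≤ 2 * Q - 2) :
    ((a : ℝ) + 1) * Wmod_kap Q (a + 1) c + ((c : ℝ) + 1) * Wmod_kap Q a (c + 1) =
      ((a : ℝ) + c) * Wmod_kap Q a c := by
  have hcast : ((2 * Q - 2 : ℕ) : ℝ) = 2 * (Q : ℝ) - 2 := by
    rw [Nat.cast_sub (by omega)]; push_cast; ring
  unfold Wmod_kap
  have e1 : a + 1 + c - 1 = a + c := by omega
  have e2 : a + (c + 1) - 1 = a + c := by omega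
  rw [e1, e2]
  have ha := Wmod_absorb Q a
  have hc := Wmod_absorb Q c
  have hL : ((a : ℝ) + 1) * ((((a + 1 : ℕ) : ℝ) - c) * (Q.choose (a + 1) : ℝ) *
        (Q.choose c : ℝ) / ((2 * Q - 2).choose (a + c) : ℝ)) +
      ((c : ℝ) + 1) * (((a : ℝ) - ((c + 1 : ℕ) : ℝ)) * (Q.choose a : ℝ) *
        (Q.choose (c + 1) : ℝ) / ((2 * Q - 2).choose (a + c) : ℝ)) =
      ((a : ℝ) - c) * (Q.choose a : ℝ) * (Q.choose c : ℝ) *
        ((2 * (Q : ℝ) - 1 - a - c) / ((2 * Q - 2).choose (a + c) : ℝ)) := by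
    have e3 : ((a : ℝ) + 1) * ((((a + 1 : ℕ) : ℝ) - c) * (Q.choose (a + 1) : ℝ) *
        (Q.choose c : ℝ) / ((2 * Q - 2).choose (a + c) : ℝ)) =
        (((a : ℝ) + 1) * (Q.choose (a + 1) : ℝ)) * (((a + 1 : ℕ) : ℝ) - c) *
        (Q.choose c : ℝ) / ((2 * Q - 2).choose (a + c) : ℝ) := by ring
    have e4 : ((c : ℝ) + 1) * (((a : ℝ) - ((c + 1 : ℕ) : ℝ)) * (Q.choose a : ℝ) *
        (Q.choose (c + 1) : ℝ) / ((2 * Q - 2).choose (a + c) : ℝ)) =
        (((c : ℝ) + 1) * (Q.choose (c + 1) : ℝ)) * ((a : ℝ) - ((c + 1 : ℕ) : ℝ)) *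
        (Q.choose a : ℝ) / ((2 * Q - 2).choose (a + c) : ℝ) := by ring
    rw [e3, e4, ha, hc]
    push_cast
    ring
  rw [hL]
  rcases Nat.eq_zero_or_pos (a + c) with h0 | h0
  · have ha0 : a = 0 := by omega
    have hc0 : c = 0 := by omega
    subst ha0 hc0; simp
  · obtain ⟨s, hs'⟩ : ∃ s, a + c = s + 1 := ⟨a + c - 1, by omega⟩
    have e5 : a + c - 1 = s := by omega
    rw [e5, hs']
    have hs2 : (a : ℝ) + c = s + 1 := by exact_mod_cast hs'
    have hD1 : ((2 * Q - 2).choose (s + 1) : ℝ) ≠ 0 := Wmod_choose_ne (by omega)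
    have hD2 : ((2 * Q - 2).choose s : ℝ) ≠ 0 := Wmod_choose_ne (by omega)
    have h := Wmod_absorb (2 * Q - 2) s
    rw [hcast] at h
    have h' : ((s : ℝ) + 1) / ((2 * Q - 2).choose s : ℝ) =
        (2 * (Q : ℝ) - 2 - s) / ((2 * Q - 2).choose (s + 1) : ℝ) := by
      rw [div_eq_div_iff hD2 hD1]; exact h
    have e6 : 2 * (Q : ℝ) - 1 - a - c = 2 * (Q : ℝ) - 2 - s := by linarith
    rw [e6, ← h', hs2]
    ring

theorem Wmod_shiftC (Q m : ℕ) (g : ℕ → ℕ → ℝ) (hg : ∀ b, g (Q + 1) b = 0) :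
    ∑ a ∈ range (Q + 1), ∑ b ∈ range (Q + 1), (if a + b = m + 1 then
      ((a : ℝ) + 1) * g (a + 1) b else 0) =
    ∑ a ∈ range (Q + 1), ∑ b ∈ range (Q + 1), if a + b = m + 2 then (a : ℝ) * g a b else 0 := by
  have h1 := sum_range_succ' (fun a => ∑ b ∈ range (Q + 1), (if a + b = m + 2 then
      (a : ℝ) * g a b else 0)) Q
  have h2 := sum_range_succ (fun a => ∑ b ∈ range (Q + 1),
    if a + b = m + 1 then ((a : ℝ) + 1) * g (a + 1) b else 0) Q
  rw [h1, h2]
  congr 1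
  · refine sum_congr rfl fun a _ => sum_congr rfl fun b _ => ?_
    have e : a + 1 + b = m + 2 ↔ a + b = m + 1 := by omega
    by_cases h : a + b = m + 1
    · rw [if_pos h, if_pos (e.mpr h)]; push_cast; ring
    · rw [if_neg h, if_neg (fun h' => h (e.mp h'))]
  · simp [hg]

theorem Wmod_shiftD (Q m : ℕ) (g : ℕ → ℕ → ℝ) (hg : ∀ a, g a (Q + 1) = 0) :
    ∑ a ∈ range (Q + 1), ∑ b ∈ range (Q + 1), (if a + b = m + 1 then
      ((b : ℝ) + 1) * g a (b + 1) else 0) =
    ∑ a ∈ range (Q + 1), ∑ b ∈ range (Q + 1), if a + b = m + 2 then (b : ℝ) * g a b else 0 := by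
  refine sum_congr rfl fun a _ => ?_
  have h1 := sum_range_succ' (fun b => (if a + b = m + 2 then
      (b : ℝ) * g a b else 0)) Q
  have h2 := sum_range_succ (fun b =>
    if a + b = m + 1 then ((b : ℝ) + 1) * g a (b + 1) else 0) Q
  rw [h1, h2]
  congr 1
  · refine sum_congr rfl fun b _ => ?_
    have e : a + (b + 1) = m + 2 ↔ a + b = m + 1 := by omega
    by_cases h : a + b = m + 1
    · rw [if_pos h, if_pos (e.mpr h)]; push_cast; ring
    · rw [if_neg h, if_neg (fun h' => h (e.mp h'))]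
  · simp [hg]

/-- lowest weight vectors are mapped to lowest weight vectors -/
theorem Wmod_E (Q : ℕ) (v : ℕ → ℕ → ℝ) (m c : ℕ) (hQ : 2 ≤ Q) (hmc : m + c + 1 ≤ 2 * Q - 2)
    (hv : ∀ s t, Eop v s t = 0) (hvQ : ∀ s, v s (Q + 1) = 0) :
    ((m : ℝ) + 1) * Wop Q v (m + 1) c + ((c : ℝ) + 1) * Wop Q v m (c + 1) = 0 := by
  have hQ0 : (Q : ℝ) ≠ 0 := by
    have : (0 : ℝ) < Q := by exact_mod_cast (by omega : 0 < Q)
    exact this.ne'
  -- the sum of the left-hand side with `Eop v`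
  have h0 : ∑ a ∈ range (Q + 1), ∑ b ∈ range (Q + 1), (if a + b = m + 1 then
        ((a : ℝ) - (b : ℝ)) * (Wmod_kap Q a c * (((a : ℝ) + c) * v (a + c) b +
          ((b : ℝ) + 1) * v (a + c - 1) (b + 1))) else 0) = 0 := by
    refine sum_eq_zero fun a _ => sum_eq_zero fun b _ => ?_
    split_ifs
    · rcases Nat.eq_zero_or_pos (a + c) with h | h
      · have ha0 : a = 0 := by omega
        have hc0 : c = 0 := by omega
        subst ha0 hc0; simp [Wmod_kap]
      · have h1 := hv (a + c - 1) b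
        unfold Eop at h1
        have e1 : a + c - 1 + 1 = a + c := by omega
        have e2 : ((a + c - 1 : ℕ) : ℝ) + 1 = (a : ℝ) + c := by
          have : ((a + c - 1 + 1 : ℕ) : ℝ) = ((a + c : ℕ) : ℝ) := by rw [e1]
          push_cast at this
          exact this
        rw [e1, e2] at h1
        rw [h1]; ring
    · rfl
  have hsplit : ∑ a ∈ range (Q + 1), ∑ b ∈ range (Q + 1), (if a + b = m + 1 then
        ((a : ℝ) - (b : ℝ)) * (Wmod_kap Q a c * (((a : ℝ) + c) * v (a + c) b +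
          ((b : ℝ) + 1) * v (a + c - 1) (b + 1))) else 0) =
      ∑ a ∈ range (Q + 1), ∑ b ∈ range (Q + 1), (if a + b = m + 1 then
        ((a : ℝ) + 1) * ((((a + 1 : ℕ) : ℝ) - 1 - b) * (Wmod_kap Q (a + 1) c *
          v (a + 1 + c - 1) b)) else 0) +
      ∑ a ∈ range (Q + 1), ∑ b ∈ range (Q + 1), (if a + b = m + 1 then
        ((c : ℝ) + 1) * (((a : ℝ) - b) * (Wmod_kap Q a (c + 1) * v (a + (c + 1) - 1) b)) else 0) +
      ∑ a ∈ range (Q + 1), ∑ b ∈ range (Q + 1), (if a + b = m + 1 then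
        ((b : ℝ) + 1) * (((a : ℝ) - ((b + 1 : ℕ) : ℝ) + 1) * (Wmod_kap Q a c *
          v (a + c - 1) (b + 1))) else 0) := by
    rw [← sum_add_distrib, ← sum_add_distrib]
    refine sum_congr rfl fun a ha => ?_
    rw [← sum_add_distrib, ← sum_add_distrib]
    refine sum_congr rfl fun b _ => ?_
    by_cases hab : a + b = m + 1
    swap
    · simp only [if_neg hab, add_zero]
    simp only [if_pos hab]
    have hE := Wmod_E1 Q a c hQ (by omega)
    have e1 : a + 1 + c - 1 = a + c := by omega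
    have e2 : a + (c + 1) - 1 = a + c := by omega
    rw [e1, e2]
    push_cast
    linear_combination (-(((a : ℝ) - b) * v (a + c) b)) * hE
  have hC := Wmod_shiftC Q m (fun a b => ((a : ℝ) - 1 - b) * (Wmod_kap Q a c * v (a + c - 1) b))
    (by
      intro b
      have : Wmod_kap Q (Q + 1) c = 0 := by
        unfold Wmod_kap
        rw [Nat.choose_eq_zero_of_lt (Nat.lt_succ_self Q)]; simp
      simp only [this]; ring)
  have hD := Wmod_shiftD Q m (fun a b => ((a : ℝ) - b + 1) * (Wmod_kap Q a c * v (a + c - 1) b))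
    (by intro a; simp only [hvQ]; ring)
  rw [hsplit, hC, hD] at h0
  have h1 : ((m : ℝ) + 1) * Wop Q v (m + 1) c = -(1 / (Q : ℝ)) *
      ∑ a ∈ range (Q + 1), ∑ b ∈ range (Q + 1), (if a + b = m + 2 then
        ((m : ℝ) + 1) * (((a : ℝ) - b) * (Wmod_kap Q a c * v (a + c - 1) b)) else 0) := by
    rw [Wmod_Wop, ← mul_assoc, mul_comm ((m : ℝ) + 1), mul_assoc, mul_sum]
    congr 1
    refine sum_congr rfl fun a _ => ?_
    rw [mul_sum]
    refine sum_congr rfl fun b _ => ?_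
    split_ifs <;> simp
  have h2 : ((c : ℝ) + 1) * Wop Q v m (c + 1) = -(1 / (Q : ℝ)) *
      ∑ a ∈ range (Q + 1), ∑ b ∈ range (Q + 1), (if a + b = m + 1 then
        ((c : ℝ) + 1) * (((a : ℝ) - b) * (Wmod_kap Q a (c + 1) * v (a + (c + 1) - 1) b))
        else 0) := by
    rw [Wmod_Wop, ← mul_assoc, mul_comm ((c : ℝ) + 1), mul_assoc, mul_sum]
    congr 1
    refine sum_congr rfl fun a _ => ?_
    rw [mul_sum]
    refine sum_congr rfl fun b _ => ?_
    split_ifs <;> simp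
  have h3 : ∑ a ∈ range (Q + 1), ∑ b ∈ range (Q + 1), (if a + b = m + 2 then
        ((m : ℝ) + 1) * (((a : ℝ) - b) * (Wmod_kap Q a c * v (a + c - 1) b)) else 0) =
      ∑ a ∈ range (Q + 1), ∑ b ∈ range (Q + 1), (if a + b = m + 2 then
        (a : ℝ) * (((a : ℝ) - 1 - b) * (Wmod_kap Q a c * v (a + c - 1) b)) else 0) +
      ∑ a ∈ range (Q + 1), ∑ b ∈ range (Q + 1), (if a + b = m + 2 then
        (b : ℝ) * (((a : ℝ) - b + 1) * (Wmod_kap Q a c * v (a + c - 1) b)) else 0) := by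
    rw [← sum_add_distrib]
    refine sum_congr rfl fun a _ => ?_
    rw [← sum_add_distrib]
    refine sum_congr rfl fun b _ => ?_
    split_ifs with h
    · have hm : (m : ℝ) = a + b - 2 := by
        have : ((a + b : ℕ) : ℝ) = ((m + 2 : ℕ) : ℝ) := by rw [h]
        push_cast at this; linarith
      rw [hm]; ring
    · simp
  rw [h1, h2, ← mul_add, h3]
  have : (∑ a ∈ range (Q + 1), ∑ b ∈ range (Q + 1), (if a + b = m + 2 then
        (a : ℝ) * (((a : ℝ) - 1 - b) * (Wmod_kap Q a c * v (a + c - 1) b)) else 0) +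
      ∑ a ∈ range (Q + 1), ∑ b ∈ range (Q + 1), (if a + b = m + 2 then
        (b : ℝ) * (((a : ℝ) - b + 1) * (Wmod_kap Q a c * v (a + c - 1) b)) else 0) +
      ∑ a ∈ range (Q + 1), ∑ b ∈ range (Q + 1), (if a + b = m + 1 then
        ((c : ℝ) + 1) * (((a : ℝ) - b) * (Wmod_kap Q a (c + 1) * v (a + (c + 1) - 1) b))
        else 0)) = 0 := by
    linarith [h0]
  rw [this]; ring

theorem Wmod_two (n : ℕ) (f : ℕ → ℕ → ℝ) :
    ∑ a ∈ range (n + 2), ∑ b ∈ range (n + 2), (if a + b = 1 then f a b else 0) =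
      f 0 1 + f 1 0 := by
  rw [sum_range_succ', sum_range_succ']
  have h1 : ∑ k ∈ range n, ∑ b ∈ range (n + 2), (if k + 1 + 1 + b = 1 then f (k + 1 + 1) b else 0)
      = 0 := by
    refine sum_eq_zero fun a _ => sum_eq_zero fun b _ => ?_
    rw [if_neg (by omega)]
  have h2 : ∑ b ∈ range (n + 2), (if 0 + 1 + b = 1 then f (0 + 1) b else 0) = f 1 0 := by
    rw [sum_eq_single 0]
    · simp
    · intro b _ hb
      rw [if_neg (by omega)]
    · intro h
      exact absurd (mem_range.mpr (by omega)) h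
  have h3 : ∑ b ∈ range (n + 2), (if 0 + b = 1 then f 0 b else 0) = f 0 1 := by
    rw [sum_eq_single 1]
    · simp
    · intro b _ hb
      rw [if_neg (by omega)]
    · intro h
      exact absurd (mem_range.mpr (by omega)) h
  rw [h1, h2, h3]
  ring

theorem Wmod_chi (Q k m a : ℕ) : bv (2 * Q - 2) Q k 0 m a =
    if m + a = k then (-1 : ℝ) ^ m * (k.choose m : ℝ) else 0 := by
  unfold bv
  simp only [add_zero]
  split_ifs with h
  · exact beta_zero _ _ _ _ (by omega)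
  · rfl

theorem Wmod_top (Q k : ℕ) (hQ : 2 ≤ Q) (hk : k ≤ Q) :
    Wop Q (bv (2 * Q - 2) Q k 0) 0 k = wk Q k := by
  have hQ0 : (Q : ℝ) ≠ 0 := by
    have : (0 : ℝ) < Q := by exact_mod_cast (by omega : 0 < Q)
    exact this.ne'
  have hcast : ((2 * Q - 2 : ℕ) : ℝ) = 2 * (Q : ℝ) - 2 := by
    rw [Nat.cast_sub (by omega)]; push_cast; ring
  rw [Wmod_Wop]
  obtain ⟨n, hn⟩ : ∃ n, Q + 1 = n + 2 := ⟨Q - 1, by omega⟩
  have h := Wmod_two n (fun a b => ((a : ℝ) - (b : ℝ)) * (Wmod_kap Q a k *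
    bv (2 * Q - 2) Q k 0 (a + k - 1) b))
  rw [← hn] at h
  simp only [zero_add]
  rw [h, Wmod_chi, Wmod_chi, if_pos (by omega : 1 + k - 1 + 0 = k)]
  have e1 : 1 + k - 1 = k := by omega
  rw [e1, Nat.choose_self]
  unfold wk
  rcases k with _ | k
  · simp [Wmod_kap]
    field_simp
  · rw [if_pos (by omega : 0 + (k + 1) - 1 + 1 = k + 1)]
    have e2 : 0 + (k + 1) - 1 = k := by omega
    rw [e2]
    have hch : (((k + 1).choose k : ℕ) : ℝ) = (k : ℝ) + 1 := by
      rw [Nat.choose_succ_self_right]; push_cast; ring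
    rw [hch]
    unfold Wmod_kap
    have e3 : 1 + (k + 1) - 1 = k + 1 := by omega
    rw [e2, e3]
    have hD1 : ((2 * Q - 2).choose (k + 1) : ℝ) ≠ 0 := Wmod_choose_ne (by omega)
    have hD2 : ((2 * Q - 2).choose k : ℝ) ≠ 0 := Wmod_choose_ne (by omega)
    have h := Wmod_absorb (2 * Q - 2) k
    rw [hcast] at h
    have h' : ((k : ℝ) + 1) / ((2 * Q - 2).choose k : ℝ) =
        (2 * (Q : ℝ) - 2 - k) / ((2 * Q - 2).choose (k + 1) : ℝ) := by
      rw [div_eq_div_iff hD2 hD1]; exact h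
    rw [Nat.choose_zero_right, Nat.choose_one_right]
    have hgoal : -(1 / (Q : ℝ)) * ((((0 : ℕ) : ℝ) - ((1 : ℕ) : ℝ)) *
        ((((0 : ℕ) : ℝ) - ((k + 1 : ℕ) : ℝ)) * ((1 : ℕ) : ℝ) * (Q.choose (k + 1) : ℝ) /
          ((2 * Q - 2).choose k : ℝ) * ((-1) ^ k * ((k : ℝ) + 1))) +
        (((1 : ℕ) : ℝ) - ((0 : ℕ) : ℝ)) * ((((1 : ℕ) : ℝ) - ((k + 1 : ℕ) : ℝ)) * (Q : ℝ) *
          (Q.choose (k + 1) : ℝ) / ((2 * Q - 2).choose (k + 1) : ℝ) *
            ((-1) ^ (k + 1) * ((1 : ℕ) : ℝ)))) =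
        (-1) ^ (k + 1) * (Q.choose (k + 1) : ℝ) * (((k : ℝ) + 1) / (Q : ℝ) *
          (((k : ℝ) + 1) / ((2 * Q - 2).choose k : ℝ)) + (Q : ℝ) / (Q : ℝ) *
            ((k : ℝ) / ((2 * Q - 2).choose (k + 1) : ℝ))) := by
      push_cast
      ring
    rw [hgoal, h', div_self hQ0]
    push_cast
    field_simp
    ring

theorem Wmod_low (Q k : ℕ) (hQ : 2 ≤ Q) (hk : k ≤ Q) (m : ℕ) (hm : m ≤ k) :
    Wop Q (bv (2 * Q - 2) Q k 0) m (k - m) = (-1 : ℝ) ^ m * (k.choose m : ℝ) * wk Q k := by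
  induction m with
  | zero => simp [Wmod_top Q k hQ hk]
  | succ m ih =>
    have hih := ih (by omega)
    have hE := Wmod_E Q (bv (2 * Q - 2) Q k 0) m (k - (m + 1)) hQ (by omega)
      (fun s t => Eop_bv_zero _ _ k hk (by omega) s t)
      (fun s => bv_supp _ _ k 0 hk (by omega) s (Q + 1) (Or.inr (Nat.lt_succ_self Q)))
    have e1 : k - (m + 1) + 1 = k - m := by omega
    have e2 : ((k - (m + 1) : ℕ) : ℝ) + 1 = (k : ℝ) - m := by
      rw [Nat.cast_sub hm]; push_cast; ring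
    rw [e1, e2, hih] at hE
    have hab := Wmod_absorb k m
    have hm1 : ((m : ℝ) + 1) ≠ 0 := by positivity
    apply mul_left_cancel₀ hm1
    rw [pow_succ]
    linear_combination hE + ((-1 : ℝ) ^ m * wk Q k) * hab

theorem Wmod_off (Q k : ℕ) (m c : ℕ) (h : m + c ≠ k) :
    Wop Q (bv (2 * Q - 2) Q k 0) m c = 0 := by
  rw [Wmod_Wop]
  have : ∑ a ∈ range (Q + 1), ∑ b ∈ range (Q + 1),
      (if a + b = m + 1 then ((a : ℝ) - (b : ℝ)) *
        (Wmod_kap Q a c * bv (2 * Q - 2) Q k 0 (a + c - 1) b) else 0) = 0 := by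
    refine sum_eq_zero fun a _ => sum_eq_zero fun b _ => ?_
    split_ifs with hab
    · rcases Nat.eq_zero_or_pos (a + c) with h0 | h0
      · have ha0 : a = 0 := by omega
        have hc0 : c = 0 := by omega
        subst ha0 hc0; simp [Wmod_kap]
      · rw [Wmod_chi, if_neg (by omega)]; ring
    · rfl
  rw [this]; ring

theorem Wmod_base (Q k : ℕ) (hQ : 2 ≤ Q) (hk : k ≤ Q) (m c : ℕ) :
    Wop Q (bv (2 * Q - 2) Q k 0) m c = wk Q k * bv (2 * Q - 2) Q k 0 m c := by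
  by_cases h : m + c = k
  · have e : c = k - m := by omega
    subst e
    rw [Wmod_low Q k hQ hk m (by omega), Wmod_chi, if_pos h]
    ring
  · rw [Wmod_off Q k m c h, Wmod_chi, if_neg h]; ring

theorem Wmod_all (Q k : ℕ) (hQ : 2 ≤ Q) (hk : k ≤ Q) (i : ℕ) : ∀ (m c : ℕ), c ≤ Q →
    Wop Q (bv (2 * Q - 2) Q k i) m c = wk Q k * bv (2 * Q - 2) Q k i m c := by
  induction i with
  | zero => intro m c _; exact Wmod_base Q k hQ hk m c
  | succ i ih =>
    intro m c hc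
    have hfun : bv (2 * Q - 2) Q k (i + 1) = Fop (2 * Q - 2) Q (bv (2 * Q - 2) Q k i) := by
      funext s t
      exact (Fop_bv _ _ k i hk (by omega) s t).symm
    rw [hfun, Wmod_F Q _ m c hQ hc]
    unfold Fop
    rw [mul_add]
    congr 1
    · split_ifs
      · ring
      · rw [ih (m - 1) c hc]; ring
    · split_ifs
      · ring
      · rw [ih m (c - 1) (by omega)]; ring

theorem Wop_bv (Q k i : ℕ) (hQ : 2 ≤ Q) (hk : k ≤ Q) (m c : ℕ) (hm : m ≤ 2 * Q - 2)
    (hc : c ≤ Q) :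
    Wop Q (bv (2 * Q - 2) Q k i) m c = wk Q k * bv (2 * Q - 2) Q k i m c :=
  Wmod_all Q k hQ hk i m c hc

theorem Wmod_Wop_sum (Q : ℕ) (S : Finset ℕ) (co : ℕ → ℝ) (w : ℕ → ℕ → ℕ → ℝ) (m c : ℕ) :
    Wop Q (fun s t => ∑ k ∈ S, co k * w k s t) m c = ∑ k ∈ S, co k * Wop Q (w k) m c := by
  induction S using Finset.induction_on with
  | empty =>
    simp only [sum_empty]
    rw [Wmod_Wop]
    simp
  | insert x S hx ih =>
    rw [sum_insert hx, ← ih, Wmod_Wop, Wmod_Wop, Wmod_Wop]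
    have e : ∑ a ∈ range (Q + 1), ∑ b ∈ range (Q + 1), (if a + b = m + 1 then
          ((a : ℝ) - (b : ℝ)) * (Wmod_kap Q a c * ∑ k ∈ insert x S, co k * w k (a + c - 1) b)
          else 0) =
        co x * ∑ a ∈ range (Q + 1), ∑ b ∈ range (Q + 1), (if a + b = m + 1 then
          ((a : ℝ) - (b : ℝ)) * (Wmod_kap Q a c * w x (a + c - 1) b) else 0) +
        ∑ a ∈ range (Q + 1), ∑ b ∈ range (Q + 1), (if a + b = m + 1 then
          ((a : ℝ) - (b : ℝ)) * (Wmod_kap Q a c * ∑ k ∈ S, co k * w k (a + c - 1) b) else 0) := by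
      rw [mul_sum, ← sum_add_distrib]
      refine sum_congr rfl fun a _ => ?_
      rw [mul_sum, ← sum_add_distrib]
      refine sum_congr rfl fun b _ => ?_
      rw [sum_insert hx]
      split_ifs
      · ring
      · ring
    rw [e]
    ring

/-- the diagonal of one isotypic component -/
theorem Wmod_diag (Q k : ℕ) (m c : ℕ) (hm : m ≤ 2 * Q - 2) (hc : c ≤ Q) (hQ : 2 ≤ Q) :
    (if k ≤ m + c then (bv (2 * Q - 2) Q k (m + c - k) m c) ^ 2 / Nk (2 * Q - 2) Q k (m + c - k)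
      else 0) =
    ∑ i ∈ range (3 * Q), (bv (2 * Q - 2) Q k i m c) ^ 2 / Nk (2 * Q - 2) Q k i := by
  split_ifs with h
  · rw [sum_eq_single (m + c - k)]
    · intro i _ hi
      have : bv (2 * Q - 2) Q k i m c = 0 := by
        unfold bv
        rw [if_neg (by omega)]
      rw [this]; simp
    · intro h'
      exact absurd (mem_range.mpr (by omega)) h'
  · symm
    refine sum_eq_zero fun i _ => ?_
    have : bv (2 * Q - 2) Q k i m c = 0 := by
      unfold bv
      rw [if_neg (by omega)]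
    rw [this]; simp

theorem Wmod_count (Q k : ℕ) (hQ : 2 ≤ Q) (hk : k ≤ Q) :
    ∑ i ∈ range (3 * Q), Nk (2 * Q - 2) Q k i / Nk (2 * Q - 2) Q k i = 3 * (Q : ℝ) - 1 - 2 * k := by
  have h1 : ∀ i ∈ range (3 * Q), Nk (2 * Q - 2) Q k i / Nk (2 * Q - 2) Q k i =
      if i ∈ range (3 * Q - 1 - 2 * k) then (1 : ℝ) else 0 := by
    intro i _
    simp only [mem_range]
    split_ifs with h
    · exact div_self (Nk_pos _ _ k i hk (by omega) (by omega)).ne'
    · rw [Nk_zero _ _ k i hk (by omega) (by omega)]; simp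
  rw [sum_congr rfl h1, ← sum_filter]
  have h2 : (range (3 * Q)).filter (fun i => i ∈ range (3 * Q - 1 - 2 * k)) =
      range (3 * Q - 1 - 2 * k) := by
    ext i; simp only [mem_filter, mem_range]; omega
  rw [h2]
  simp only [sum_const, card_range, nsmul_eq_mul, mul_one]
  rw [Nat.cast_sub (by omega), Nat.cast_sub (by omega)]
  push_cast; ring

theorem W_trace (Q : ℕ) (hQ : 2 ≤ Q) (r : ℕ → ℝ) (R : ℕ → ℕ → ℕ → ℕ → ℝ)
    (h : CGForm (2 * Q - 2) Q r R) :
    ∑ m ∈ range (2 * Q - 1), ∑ c ∈ range (Q + 1),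
      Wop Q (fun m' c' => R m c m' c') m c / (((2 * Q - 2).choose m : ℝ) * (Q.choose c : ℝ))
      = ∑ k ∈ range (Q + 1), r k * wk Q k * (3 * (Q : ℝ) - 1 - 2 * k) := by
  have key : ∀ m ∈ range (2 * Q - 1), ∀ c ∈ range (Q + 1),
      Wop Q (fun m' c' => R m c m' c') m c / (((2 * Q - 2).choose m : ℝ) * (Q.choose c : ℝ)) =
      ∑ k ∈ range (Q + 1), ∑ i ∈ range (3 * Q), r k * wk Q k *
        (((bv (2 * Q - 2) Q k i m c) ^ 2 / (((2 * Q - 2).choose m : ℝ) * (Q.choose c : ℝ))) /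
          Nk (2 * Q - 2) Q k i) := by
    intro m hm c hc
    rw [mem_range] at hm hc
    have hm' : m ≤ 2 * Q - 2 := by omega
    have hc' : c ≤ Q := by omega
    have hfun : (fun m' c' => R m c m' c') = fun s t => ∑ k ∈ range (Q + 1),
        (if k ≤ m + c then r k * beta (2 * Q - 2) Q k (m + c - k) m /
          Nk (2 * Q - 2) Q k (m + c - k) else 0) * bv (2 * Q - 2) Q k (m + c - k) s t := by
      funext s t
      rw [h m c s t]
      by_cases hst : m + c = s + t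
      · rw [if_pos hst]
        refine sum_congr rfl fun k _ => ?_
        by_cases hk : k ≤ m + c
        · rw [if_pos hk, if_pos hk]
          unfold bv
          rw [if_pos (by omega)]
          ring
        · rw [if_neg hk, if_neg hk]; ring
      · rw [if_neg hst]
        symm
        refine sum_eq_zero fun k _ => ?_
        by_cases hk : k ≤ m + c
        · rw [if_pos hk]
          unfold bv
          rw [if_neg (by omega)]
          ring
        · rw [if_neg hk]; ring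
    rw [hfun, Wmod_Wop_sum, sum_div]
    refine sum_congr rfl fun k hk => ?_
    rw [mem_range] at hk
    rw [Wmod_all Q k hQ (by omega) _ m c hc']
    have hd := Wmod_diag Q k m c hm' hc' hQ
    have e : ∑ i ∈ range (3 * Q), r k * wk Q k *
        (((bv (2 * Q - 2) Q k i m c) ^ 2 / (((2 * Q - 2).choose m : ℝ) * (Q.choose c : ℝ))) /
          Nk (2 * Q - 2) Q k i) =
        r k * wk Q k / (((2 * Q - 2).choose m : ℝ) * (Q.choose c : ℝ)) *
        ∑ i ∈ range (3 * Q), (bv (2 * Q - 2) Q k i m c) ^ 2 / Nk (2 * Q - 2) Q k i := by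
      rw [mul_sum]
      refine sum_congr rfl fun i _ => ?_
      ring
    rw [e, ← hd]
    by_cases hkm : k ≤ m + c
    · rw [if_pos hkm, if_pos hkm]
      unfold bv
      rw [if_pos (by omega)]
      ring
    · rw [if_neg hkm, if_neg hkm]; ring
  rw [sum_congr rfl fun m hm => sum_congr rfl (key m hm)]
  -- exchange the sums
  rw [sum_congr rfl fun m _ => sum_comm]
  rw [sum_comm]
  refine sum_congr rfl fun k hk => ?_
  rw [mem_range] at hk
  rw [sum_congr rfl fun m _ => sum_comm]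
  rw [sum_comm]
  rw [← Wmod_count Q k hQ (by omega), mul_sum]
  refine sum_congr rfl fun i _ => ?_
  have hb := beta_norm (2 * Q - 2) Q k i (by omega) (by omega)
  have e1 : 2 * Q - 2 + 1 = 2 * Q - 1 := by omega
  rw [e1] at hb
  have hb2 : Nk (2 * Q - 2) Q k i / Nk (2 * Q - 2) Q k i =
      (∑ m ∈ range (2 * Q - 1), ∑ a ∈ range (Q + 1),
        bv (2 * Q - 2) Q k i m a ^ 2 / (((2 * Q - 2).choose m : ℝ) * (Q.choose a : ℝ))) /
        Nk (2 * Q - 2) Q k i := by rw [hb]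
  rw [hb2, sum_div, mul_sum]
  refine sum_congr rfl fun m _ => ?_
  rw [sum_div, mul_sum]

end Vale.Agent.P359
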