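import Vale.Agent.P359.CGb
import Vale.Agent.P359.Wmod
import Vale.Agent.P359.HH
import Vale.Agent.P359.Inv
import Vale.Agent.P359.Sym
import Vale.Agent.P359.FockRed
import Vale.Agent.P359.Pert
import Vale.Agent.P359.Scale
import Vale.Agent.P359.Lim

namespace Vale.Agent.P359

open Finset

theorem Core_sum_fin (Q : ℕ) (hQ : 8 ≤ Q) (G : ℕ → ℝ) :
    ∑ a : Fin (Q + 1), (if (a : ℕ) < 9 then G a else 0) = ∑ a ∈ range 9, G a := by
  rw [Fin.sum_univ_eq_sum_range (fun a => if a < 9 then G a else 0) (Q + 1)]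
  rw [← Finset.sum_filter]
  apply Finset.sum_congr _ (fun _ _ => rfl)
  ext a
  simp only [Finset.mem_filter, Finset.mem_range]
  omega

theorem Core_reindex (L m m' : ℕ) (hm : m < 8) (F : ℕ → ℝ) :
    ∑ a ∈ range L, ∑ a' ∈ range L, (if m + a = m' + a' then F (m + a) else 0)
      = ∑ n ∈ range (7 + L), (if m ≤ n ∧ m' ≤ n ∧ n < m + L ∧ n < m' + L then F n else 0) := by
  have h1 : ∀ a ∈ range L, ∑ a' ∈ range L, (if m + a = m' + a' then F (m + a) else 0)
      = if m' ≤ m + a ∧ m + a < m' + L then F (m + a) else 0 := by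
    intro a _
    by_cases h : m' ≤ m + a ∧ m + a < m' + L
    · rw [if_pos h, Finset.sum_eq_single (m + a - m')]
      · rw [if_pos (by omega)]
      · intro b _ hb
        rw [if_neg (by omega)]
      · intro hb
        simp only [Finset.mem_range] at hb
        omega
    · rw [if_neg h]
      apply Finset.sum_eq_zero
      intro b hb
      simp only [Finset.mem_range] at hb
      rw [if_neg (by omega)]
  rw [Finset.sum_congr rfl h1]
  rw [← Finset.sum_filter, ← Finset.sum_filter]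
  apply Finset.sum_nbij' (fun a => m + a) (fun n => n - m)
  · intro a ha
    simp only [Finset.mem_filter, Finset.mem_range] at ha ⊢
    omega
  · intro n hn
    simp only [Finset.mem_filter, Finset.mem_range] at hn ⊢
    omega
  · intro a ha
    simp only [Finset.mem_filter, Finset.mem_range] at ha
    omega
  · intro n hn
    simp only [Finset.mem_filter, Finset.mem_range] at hn
    omega
  · intro a ha
    rfl

theorem Core_expand (p q e L : ℕ) (Qr : ℝ) (r : ℕ → ℝ) (R : ℕ → ℕ → ℕ → ℕ → ℝ)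
    (h : CGForm p q r R) (c : ℕ → ℕ → ℕ → ℝ) :
    ∑ m ∈ range 8, ∑ m' ∈ range 8, ∑ a ∈ range L, ∑ a' ∈ range L,
      (if m + a = m' + a' then c (m + a) m m' * R m a m' a' / Qr ^ (m + a + e) else 0)
    = ∑ k ∈ range (q + 1), r k * ∑ n ∈ Icc k (6 + L), ∑ m ∈ range 8, ∑ m' ∈ range 8,
      (if m ≤ n ∧ m' ≤ n ∧ n < m + L ∧ n < m' + L then
        c n m m' * beta p q k (n - k) m * beta p q k (n - k) m'
          / (Qr ^ (n + e) * Nk p q k (n - k)) else 0) := by
  have hR : ∀ m a m' a', m + a = m' + a' → R m a m' a' =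
      ∑ k ∈ range (q + 1), (if k ≤ m + a then
      r k * beta p q k (m + a - k) m * beta p q k (m + a - k) m' / Nk p q k (m + a - k)
      else 0) := by
    intro m a m' a' hh
    rw [h m a m' a', if_pos hh]
  have h1 : ∀ m ∈ range 8, ∀ m' ∈ range 8, ∑ a ∈ range L, ∑ a' ∈ range L,
      (if m + a = m' + a' then c (m + a) m m' * R m a m' a' / Qr ^ (m + a + e) else 0)
      = ∑ n ∈ range (7 + L), (if m ≤ n ∧ m' ≤ n ∧ n < m + L ∧ n < m' + L then
          c n m m' * (∑ k ∈ range (q + 1), (if k ≤ n then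
      r k * beta p q k (n - k) m * beta p q k (n - k) m' / Nk p q k (n - k)
      else 0)) / Qr ^ (n + e) else 0) := by
    intro m hm m' _
    rw [← Core_reindex L m m' (by simpa using hm) (fun n => c n m m' *
      (∑ k ∈ range (q + 1), (if k ≤ n then
      r k * beta p q k (n - k) m * beta p q k (n - k) m' / Nk p q k (n - k)
      else 0)) / Qr ^ (n + e))]
    apply Finset.sum_congr rfl
    intro a _
    apply Finset.sum_congr rfl
    intro a' _
    split_ifs with hh
    · rw [hR m a m' a' hh]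
    · rfl
  rw [Finset.sum_congr rfl fun m hm => Finset.sum_congr rfl (h1 m hm)]
  -- push the k sum out
  have h2 : ∀ k ∈ range (q + 1), r k * ∑ n ∈ Icc k (6 + L), ∑ m ∈ range 8, ∑ m' ∈ range 8,
      (if m ≤ n ∧ m' ≤ n ∧ n < m + L ∧ n < m' + L then
        c n m m' * beta p q k (n - k) m * beta p q k (n - k) m'
          / (Qr ^ (n + e) * Nk p q k (n - k)) else 0)
      = ∑ m ∈ range 8, ∑ m' ∈ range 8, ∑ n ∈ range (7 + L),
        (if m ≤ n ∧ m' ≤ n ∧ n < m + L ∧ n < m' + L then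
          c n m m' * (if k ≤ n then
      r k * beta p q k (n - k) m * beta p q k (n - k) m' / Nk p q k (n - k)
      else 0) / Qr ^ (n + e) else 0) := by
    intro k _
    have hs : ∑ n ∈ Icc k (6 + L), ∑ m ∈ range 8, ∑ m' ∈ range 8,
      (if m ≤ n ∧ m' ≤ n ∧ n < m + L ∧ n < m' + L then
        c n m m' * beta p q k (n - k) m * beta p q k (n - k) m'
          / (Qr ^ (n + e) * Nk p q k (n - k)) else 0)
      = ∑ n ∈ range (7 + L), if k ≤ n then ∑ m ∈ range 8, ∑ m' ∈ range 8,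
      (if m ≤ n ∧ m' ≤ n ∧ n < m + L ∧ n < m' + L then
        c n m m' * beta p q k (n - k) m * beta p q k (n - k) m'
          / (Qr ^ (n + e) * Nk p q k (n - k)) else 0) else 0 := by
      rw [← Finset.sum_filter]
      apply Finset.sum_congr _ (fun _ _ => rfl)
      ext n
      simp only [Finset.mem_filter, Finset.mem_range, Finset.mem_Icc]
      omega
    rw [hs, Finset.mul_sum]
    have hr : ∑ m ∈ range 8, ∑ m' ∈ range 8, ∑ n ∈ range (7 + L),
        (if m ≤ n ∧ m' ≤ n ∧ n < m + L ∧ n < m' + L then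
          c n m m' * (if k ≤ n then
      r k * beta p q k (n - k) m * beta p q k (n - k) m' / Nk p q k (n - k)
      else 0) / Qr ^ (n + e) else 0)
      = ∑ n ∈ range (7 + L), ∑ m ∈ range 8, ∑ m' ∈ range 8,
        (if m ≤ n ∧ m' ≤ n ∧ n < m + L ∧ n < m' + L then
          c n m m' * (if k ≤ n then
      r k * beta p q k (n - k) m * beta p q k (n - k) m' / Nk p q k (n - k)
      else 0) / Qr ^ (n + e) else 0) := by
      rw [Finset.sum_comm' (t' := range (7 + L)) (s' := fun _ => range 8)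
        (s := range 8) (t := fun _ => range (7 + L))
        (f := fun m n => ∑ m' ∈ range 8,
        (if m ≤ n ∧ m' ≤ n ∧ n < m + L ∧ n < m' + L then
          c n m m' * (if k ≤ n then
      r k * beta p q k (n - k) m * beta p q k (n - k) m' / Nk p q k (n - k)
      else 0) / Qr ^ (n + e) else 0)) (by intros; tauto) |>.symm]
      apply Finset.sum_congr rfl
      intro m _
      rw [Finset.sum_comm]
    rw [hr]
    apply Finset.sum_congr rfl
    intro n _
    by_cases hk : k ≤ n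
    · simp only [if_pos hk]
      rw [Finset.mul_sum]
      apply Finset.sum_congr rfl
      intro m _
      rw [Finset.mul_sum]
      apply Finset.sum_congr rfl
      intro m' _
      split_ifs
      · rw [← div_div_eq_mul_div, div_div_eq_mul_div]
        by_cases h0 : Nk p q k (n - k) = 0
        · rw [h0]; simp
        · by_cases h1 : Qr ^ (n + e) = 0
          · rw [h1]; simp
          · field_simp
      · simp
    · simp only [if_neg hk]
      simp
  rw [Finset.sum_congr rfl h2]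
  symm
  rw [Finset.sum_comm]
  apply Finset.sum_congr rfl
  intro m _
  rw [Finset.sum_comm]
  apply Finset.sum_congr rfl
  intro m' _
  rw [Finset.sum_comm]
  apply Finset.sum_congr rfl
  intro n _
  split_ifs
  · rw [Finset.mul_sum, Finset.sum_div]
  · simp

theorem Core_Yk (Q k : ℕ) (hQ : 1 ≤ Q) :
    ∑ n ∈ Icc k (6 + 9), ∑ m ∈ range 8, ∑ m' ∈ range 8,
      (if m ≤ n ∧ m' ≤ n ∧ n < m + 9 ∧ n < m' + 9 then
        (yC n m m' : ℝ) * beta (2 * Q - 2) Q k (n - k) m * beta (2 * Q - 2) Q k (n - k) m'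
          / ((Q : ℝ) ^ (n + 1) * Nk (2 * Q - 2) Q k (n - k)) else 0)
      = Yk Q k / (2 * (Q : ℝ)) := by
  have hQr : (Q : ℝ) ≠ 0 := by positivity
  unfold Yk
  rw [Finset.sum_div]
  apply Finset.sum_congr rfl
  intro n _
  rw [Finset.sum_div]
  apply Finset.sum_congr rfl
  intro m _
  rw [Finset.sum_div]
  apply Finset.sum_congr rfl
  intro m' _
  split_ifs
  · by_cases h0 : Nk (2 * Q - 2) Q k (n - k) = 0
    · rw [h0]; simp
    · rw [pow_succ]
      field_simp
  · simp

theorem Core_Zj (Q j : ℕ) (hQ : 1 ≤ Q) :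
    ∑ n ∈ Icc j (6 + 8), ∑ m ∈ range 8, ∑ m' ∈ range 8,
      (if m ≤ n ∧ m' ≤ n ∧ n < m + 8 ∧ n < m' + 8 then
        (zC n m m' : ℝ) * beta (2 * Q - 2) (2 * Q - 2) j (n - j) m
          * beta (2 * Q - 2) (2 * Q - 2) j (n - j) m'
          / ((Q : ℝ) ^ (n + 2) * Nk (2 * Q - 2) (2 * Q - 2) j (n - j)) else 0)
      = Zj Q j / (4 * (Q : ℝ) ^ 2) := by
  have hQr : (Q : ℝ) ≠ 0 := by positivity
  unfold Zj
  rw [Finset.sum_div]
  apply Finset.sum_congr rfl
  intro n _
  rw [Finset.sum_div]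
  apply Finset.sum_congr rfl
  intro m _
  rw [Finset.sum_div]
  apply Finset.sum_congr rfl
  intro m' _
  split_ifs
  · by_cases h0 : Nk (2 * Q - 2) (2 * Q - 2) j (n - j) = 0
    · rw [h0]; simp
    · rw [pow_add]
      field_simp
  · simp

theorem Core_evN_fin {Q N : ℕ} (a : Fin (Q + 1)) (f : Amp Q (N + 1)) :
    evN (a : ℕ) f = ev a f := by
  unfold evN
  rw [dif_pos a.2]

/-- Local positivity summed over a family, in terms of the invariant kernels. -/
theorem Core_local {Q n D : ℕ} (hQ : 8 ≤ Q)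
    (hfock : ∀ Ψ : Fk, 0 ≤ fockForm (fun t => (Q : ℝ) ^ (t : ℕ) / (Q.choose (t : ℕ) : ℝ)) Ψ)
    (ψ : Fin D → Amp Q (n + 4)) (hψ : ∀ i, Anti (ψ i)) :
    0 ≤ (((n : ℝ) + 4) * ((n : ℝ) + 3) / 2) *
          (∑ m ∈ range 8, (gC m : ℝ) * K2 ψ m 0 m 0 / (Q : ℝ) ^ (m + 1))
        + (((n : ℝ) + 4) * ((n : ℝ) + 3) * ((n : ℝ) + 2) / 2) *
          (∑ m ∈ range 8, ∑ m' ∈ range 8, ∑ a ∈ range 9, ∑ a' ∈ range 9,
            if m + a = m' + a' then
              (yC (m + a) m m' : ℝ) * K3 ψ m a m' a' / (Q : ℝ) ^ (m + a + 1)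
            else 0)
        + (((n : ℝ) + 4) * ((n : ℝ) + 3) * ((n : ℝ) + 2) * ((n : ℝ) + 1) / 4) *
          (∑ m ∈ range 8, ∑ m' ∈ range 8, ∑ a ∈ range 8, ∑ a' ∈ range 8,
            if m + a = m' + a' then
              (zC (m + a) m m' : ℝ) * K4 ψ m a m' a' / (Q : ℝ) ^ (m + a + 2)
            else 0) := by
  have hw : ∀ a : Fin (Q + 1), 0 < (Q : ℝ) ^ (a : ℕ) * wQ Q a := by
    intro a
    unfold wQ
    have h1 : 0 < (Q.choose (a : ℕ)) := Nat.choose_pos (by omega)
    have h2 : (0 : ℝ) < (Q : ℝ) := by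
      have : 0 < Q := by omega
      exact_mod_cast this
    positivity
  have hloc : ∀ i, 0 ≤ (((n : ℝ) + 4) * ((n : ℝ) + 3) / 2) *
          (∑ m ∈ range 8, (gC m : ℝ) * (ip (wQ Q) (bop m (ψ i)) (bop m (ψ i))).re
            / (Q : ℝ) ^ (m + 1))
        + (((n : ℝ) + 4) * ((n : ℝ) + 3) * ((n : ℝ) + 2) / 2) *
          (∑ m ∈ range 8, ∑ m' ∈ range 8, ∑ a ∈ range 9, ∑ a' ∈ range 9,
            if m + a = m' + a' then
              (yC (m + a) m m' : ℝ) *
                (ip (wQ Q) (evN a (bop m (ψ i))) (evN a' (bop m' (ψ i)))).re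
                  / (Q : ℝ) ^ (m + a + 1)
            else 0)
        + (((n : ℝ) + 4) * ((n : ℝ) + 3) * ((n : ℝ) + 2) * ((n : ℝ) + 1) / 4) *
          (∑ m ∈ range 8, ∑ m' ∈ range 8, ∑ a ∈ range 8, ∑ a' ∈ range 8,
            if m + a = m' + a' then
              (zC (m + a) m m' : ℝ) *
                (ip (wQ Q) (bop a (bop m (ψ i))) (bop a' (bop m' (ψ i)))).re
                  / (Q : ℝ) ^ (m + a + 2)
            else 0) := by
    intro i
    obtain ⟨g, hg, heq⟩ := locForm_scaled (by omega : 1 ≤ Q) (ψ i) (hψ i)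
    have hpos := locForm_of_fock Q hQ (fun a => (Q : ℝ) ^ (a : ℕ) * wQ Q a) hw
      (by
        intro Ψ
        have := hfock Ψ
        convert this using 2
        funext t
        simp [wQ, div_eq_mul_inv]) n g hg
    rw [heq] at hpos
    refine le_of_le_of_eq hpos ?_
    congr 1
    · congr 1
      congr 1
      apply Finset.sum_congr rfl
      intro m _
      apply Finset.sum_congr rfl
      intro m' _
      rw [← Core_sum_fin Q hQ (fun a => ∑ a' ∈ range 9,
            if m + a = m' + a' then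
              (yC (m + a) m m' : ℝ) *
                (ip (wQ Q) (evN a (bop m (ψ i))) (evN a' (bop m' (ψ i)))).re
                  / (Q : ℝ) ^ (m + a + 1)
            else 0)]
      apply Finset.sum_congr rfl
      intro a _
      by_cases ha : (a : ℕ) < 9
      · rw [if_pos ha]
        rw [← Core_sum_fin Q hQ (fun a' =>
            if m + (a : ℕ) = m' + a' then
              (yC (m + a) m m' : ℝ) *
                (ip (wQ Q) (evN a (bop m (ψ i))) (evN a' (bop m' (ψ i)))).re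
                  / (Q : ℝ) ^ (m + (a : ℕ) + 1)
            else 0)]
        apply Finset.sum_congr rfl
        intro a' _
        rw [Core_evN_fin, Core_evN_fin]
        by_cases ha' : (a' : ℕ) < 9
        · by_cases hs : m + (a : ℕ) = m' + (a' : ℕ)
          · rw [if_pos ⟨hs, ha, ha'⟩, if_pos ha', if_pos hs]
          · rw [if_neg (fun h => hs h.1), if_pos ha', if_neg hs]
        · rw [if_neg (fun h => ha' h.2.2), if_neg ha']
      · rw [if_neg ha]
        apply Finset.sum_eq_zero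
        intro a' _
        rw [if_neg (fun h => ha h.2.1)]
    · congr 1
      apply Finset.sum_congr rfl
      intro m _
      rw [Finset.sum_comm]
  have hsum := Finset.sum_nonneg fun i (_ : i ∈ (Finset.univ : Finset (Fin D))) => hloc i
  refine le_of_le_of_eq hsum ?_
  rw [Finset.sum_add_distrib, Finset.sum_add_distrib, ← Finset.mul_sum, ← Finset.mul_sum,
    ← Finset.mul_sum]
  congr 1
  · congr 1
    · congr 1
      rw [Finset.sum_comm]
      apply Finset.sum_congr rfl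
      intro m _
      unfold K2
      rw [if_pos ⟨rfl, rfl⟩, Finset.mul_sum, Finset.sum_div]
    · congr 1
      rw [Finset.sum_comm]
      apply Finset.sum_congr rfl
      intro m _
      rw [Finset.sum_comm]
      apply Finset.sum_congr rfl
      intro m' _
      rw [Finset.sum_comm]
      apply Finset.sum_congr rfl
      intro a _
      rw [Finset.sum_comm]
      apply Finset.sum_congr rfl
      intro a' _
      split_ifs
      · unfold K3
        rw [Finset.mul_sum, Finset.sum_div]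
      · simp
  · congr 1
    rw [Finset.sum_comm]
    apply Finset.sum_congr rfl
    intro m _
    rw [Finset.sum_comm]
    apply Finset.sum_congr rfl
    intro m' _
    rw [Finset.sum_comm]
    apply Finset.sum_congr rfl
    intro a _
    rw [Finset.sum_comm]
    apply Finset.sum_congr rfl
    intro a' _
    split_ifs
    · unfold K4
      rw [Finset.mul_sum, Finset.sum_div]
    · simp

theorem Core_Wop_sum {D : ℕ} (Q : ℕ) (v : Fin D → ℕ → ℕ → ℝ) (m c : ℕ) :
    Wop Q (fun m' c' => ∑ i, v i m' c') m c = ∑ i, Wop Q (v i) m c := by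
  unfold Wop
  rw [← Finset.mul_sum]
  congr 1
  symm
  rw [Finset.sum_comm]
  apply Finset.sum_congr rfl
  intro a _
  rw [Finset.sum_comm]
  apply Finset.sum_congr rfl
  intro b _
  split_ifs
  · rw [Finset.mul_sum]
  · simp

theorem Core_anti_add {Q N : ℕ} (f g : Amp Q N) (hf : Anti f) (hg : Anti g) : Anti (f + g) := by
  intro σ x
  simp only [Pi.add_apply]
  rw [hf σ x, hg σ x]
  ring

theorem Core_anti_smul {Q N : ℕ} (c : ℂ) (f : Amp Q N) (hf : Anti f) : Anti (c • f) := by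
  intro σ x
  simp only [Pi.smul_apply, smul_eq_mul]
  rw [hf σ x]
  ring

theorem Core_tot_smul {Q N : ℕ} (M : ℕ → ℕ → ℂ) (c : ℂ) (f : Amp Q N) :
    tot M (c • f) = c • tot M f := by
  funext x
  simp only [tot, Pi.smul_apply, smul_eq_mul, Finset.mul_sum]
  apply Finset.sum_congr rfl
  intro i _
  apply Finset.sum_congr rfl
  intro a _
  ring

theorem Core_ip_smul_right {Q N : ℕ} (w : Fin (Q + 1) → ℝ) (c : ℂ) (f g : Amp Q N) :
    ip w f (c • g) = c * ip w f g := by
  simp only [ip, Pi.smul_apply, smul_eq_mul, Finset.mul_sum]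
  apply Finset.sum_congr rfl
  intro x _
  ring

theorem Core_ip_smul_left {Q N : ℕ} (w : Fin (Q + 1) → ℝ) (c : ℂ) (f g : Amp Q N) :
    ip w (c • f) g = (starRingEnd ℂ) c * ip w f g := by
  simp only [ip, Pi.smul_apply, smul_eq_mul, Finset.mul_sum, map_mul]
  apply Finset.sum_congr rfl
  intro x _
  ring

/-- The eigenspace. -/
noncomputable def CoreS (Q N : ℕ) (lam : ℂ) : Submodule ℂ (Amp Q N) where
  carrier := {g | Anti g ∧ Ham g = lam • g}
  add_mem' := by
    intro f g hf hg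
    refine ⟨Core_anti_add f g hf.1 hg.1, ?_⟩
    rw [Ham_add, hf.2, hg.2, smul_add]
  zero_mem' := by
    refine ⟨?_, ?_⟩
    · intro σ x
      simp
    · have := Ham_smul (Q := Q) (N := N) 0 0
      simpa using this
  smul_mem' := by
    intro c f hf
    refine ⟨Core_anti_smul c f hf.1, ?_⟩
    rw [Ham_smul, hf.2, smul_comm]

theorem core : ∃ Q₀ : ℕ, ∀ Q : ℕ, Q₀ ≤ Q → ∀ (n : ℕ) (lam : ℝ) (f : Amp Q (n + 4)),
    Anti f → f ≠ 0 → Ham f = (lam : ℂ) • f → lam ≤ 0 ∨ 1 / 100 ≤ lam := by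
  obtain ⟨Q₁, hQ₁⟩ := lim_main
  obtain ⟨Q₂, hQ₂⟩ := fockForm_eventually
  refine ⟨max (max Q₁ Q₂) 100, ?_⟩
  intro Q hQ n lam f hf hf0 hHf
  have hq1 : Q₁ ≤ Q := le_trans (le_trans (le_max_left _ _) (le_max_left _ _)) hQ
  have hq2 : Q₂ ≤ Q := le_trans (le_trans (le_max_right _ _) (le_max_left _ _)) hQ
  have hq3 : 100 ≤ Q := le_trans (le_max_right _ _) hQ
  obtain ⟨hG, hY, hZ⟩ := hQ₁ Q hq1
  have hfock := hQ₂ Q hq2
  by_contra hcon
  push Not at hcon
  obtain ⟨hlam0, hlam1⟩ := hcon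
  -- the eigenspace and its basis
  obtain ⟨D, ψ, A, hD, hψS, hψo, hψF, hψE⟩ := exists_basis (CoreS Q (n + 4) (lam : ℂ))
    (by
      intro g hg
      refine ⟨anti_tot _ g hg.1, ?_⟩
      rw [Ham_tot_F (by omega), hg.2, Core_tot_smul])
    (by
      intro g hg
      refine ⟨anti_tot _ g hg.1, ?_⟩
      rw [Ham_tot_E (by omega), hg.2, Core_tot_smul])
    (by
      intro h
      apply hf0
      have : f ∈ CoreS Q (n + 4) (lam : ℂ) := ⟨hf, hHf⟩
      rw [h] at this
      exact (Submodule.mem_bot ℂ).mp this)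
  have hψA : ∀ i, Anti (ψ i) := fun i => (hψS i).1
  have hψH : ∀ i, Ham (ψ i) = (lam : ℂ) • ψ i := fun i => (hψS i).2
  -- kernels
  obtain ⟨r2, hr2, hC2⟩ := cg (2 * Q - 2) 0 (by omega) (K2 ψ)
    (invKer_K2 (by omega) ψ A hψF hψE)
  obtain ⟨r3, hr3, hC3⟩ := cg (2 * Q - 2) Q (by omega) (K3 ψ)
    (invKer_K3 (by omega) ψ A hψF hψE)
  obtain ⟨r4, hr4, hC4⟩ := cg (2 * Q - 2) (2 * Q - 2) (by omega) (K4 ψ)
    (invKer_K4 (by omega) ψ A hψF hψE)
  have hK2 : ∀ m ≤ 2 * Q - 2, K2 ψ m 0 m 0 = r2 0 * ((2 * Q - 2).choose m : ℝ) :=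
    fun m hm => cg_q_zero (2 * Q - 2) r2 (K2 ψ) hC2 m hm
  have hQpos : (0 : ℝ) < (Q : ℝ) := by
    have : 0 < Q := by omega
    exact_mod_cast this
  have hQ100 : (100 : ℝ) ≤ (Q : ℝ) := by exact_mod_cast hq3
  set t : ℝ := r2 0 with ht
  set c2 : ℝ := ((n : ℝ) + 4) * ((n : ℝ) + 3) / 2 with hc2
  set c3 : ℝ := ((n : ℝ) + 4) * ((n : ℝ) + 3) * ((n : ℝ) + 2) / 2 with hc3
  set c4 : ℝ := ((n : ℝ) + 4) * ((n : ℝ) + 3) * ((n : ℝ) + 2) * ((n : ℝ) + 1) / 4 with hc4
  have hc2p : 0 < c2 := by positivity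
  have hc3p : 0 < c3 := by positivity
  have hc4p : 0 < c4 := by positivity
  have hc32 : c3 = c2 * ((n : ℝ) + 2) := by rw [hc3, hc2]; ring
  -- trace of K2
  have htr2 : ∑ i, ∑ m ∈ range (2 * Q - 1),
      (ip (wQ Q) (bop m (ψ i)) (bop m (ψ i))).re / ((2 * Q - 2).choose m : ℝ)
      = (2 * (Q : ℝ) - 1) * t := by
    rw [Finset.sum_comm]
    have : ∀ m ∈ range (2 * Q - 1), ∑ i,
        (ip (wQ Q) (bop m (ψ i)) (bop m (ψ i))).re / ((2 * Q - 2).choose m : ℝ) = t := by
      intro m hm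
      rw [Finset.mem_range] at hm
      have h := hK2 m (by omega)
      unfold K2 at h
      rw [if_pos ⟨rfl, rfl⟩] at h
      rw [← Finset.sum_div, h]
      have hch : (0 : ℝ) < ((2 * Q - 2).choose m : ℝ) := by
        exact_mod_cast Nat.choose_pos (by omega : m ≤ 2 * Q - 2)
      field_simp
    rw [Finset.sum_congr rfl this, Finset.sum_const, Finset.card_range, nsmul_eq_mul]
    rw [Nat.cast_sub (by omega)]
    push_cast
    ring
  -- (A)
  have hA : (2 * (Q : ℝ) - 1) * (c2 * t / (2 * (Q : ℝ))) = lam * D := by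
    have h1 : ∑ i, (ip (wQ Q) (ψ i) (Ham (ψ i))).re = lam * D := by
      have : ∀ i ∈ (Finset.univ : Finset (Fin D)),
          (ip (wQ Q) (ψ i) (Ham (ψ i))).re = lam := by
        intro i _
        rw [hψH i, Core_ip_smul_right, hψo i i, if_pos rfl]
        simp
      rw [Finset.sum_congr rfl this, Finset.sum_const, Finset.card_univ, Fintype.card_fin,
        nsmul_eq_mul]
      ring
    have h2 : ∑ i, (ip (wQ Q) (ψ i) (Ham (ψ i))).re
        = c2 * (1 / (2 * (Q : ℝ))) * ((2 * (Q : ℝ) - 1) * t) := by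
      rw [Finset.sum_congr rfl fun i _ => re_ip_Ham (by omega) (ψ i) (hψA i), ← Finset.mul_sum,
        htr2]
    rw [← h1, h2]
    field_simp
  -- (B)
  have hB : (2 * (Q : ℝ) - 1) * (c2 * t / (2 * (Q : ℝ)))
      + ∑ k ∈ range (Q + 1), (c3 * r3 k / (2 * (Q : ℝ))) * (wk Q k * (3 * (Q : ℝ) - 1 - 2 * k))
      + ∑ j ∈ range (2 * Q - 1), (c4 * r4 j / (4 * (Q : ℝ) ^ 2)) * (4 * (Q : ℝ) - 3 - 2 * j)
      = lam ^ 2 * D := by
    have h1 : ∑ i, (ip (wQ Q) (Ham (ψ i)) (Ham (ψ i))).re = lam ^ 2 * D := by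
      have : ∀ i ∈ (Finset.univ : Finset (Fin D)),
          (ip (wQ Q) (Ham (ψ i)) (Ham (ψ i))).re = lam ^ 2 := by
        intro i _
        rw [hψH i, Core_ip_smul_right, Core_ip_smul_left, hψo i i, if_pos rfl]
        simp
        ring
      rw [Finset.sum_congr rfl this, Finset.sum_const, Finset.card_univ, Fintype.card_fin,
        nsmul_eq_mul]
      ring
    have h3 : ∑ i, ∑ m ∈ range (2 * Q - 1), ∑ c ∈ range (Q + 1),
          Wop Q (fun m' c' => (ip (wQ Q) (evN c (bop m (ψ i))) (evN c' (bop m' (ψ i)))).re) m c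
            / (((2 * Q - 2).choose m : ℝ) * (Q.choose c : ℝ))
        = ∑ k ∈ range (Q + 1), r3 k * wk Q k * (3 * (Q : ℝ) - 1 - 2 * k) := by
      rw [← W_trace Q (by omega) r3 (K3 ψ) hC3]
      rw [Finset.sum_comm]
      apply Finset.sum_congr rfl
      intro m _
      rw [Finset.sum_comm]
      apply Finset.sum_congr rfl
      intro c _
      rw [← Finset.sum_div]
      congr 1
      rw [← Core_Wop_sum]
      rfl
    have h4 : ∑ i, ∑ m ∈ range (2 * Q - 1), ∑ m2 ∈ range (2 * Q - 1),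
          (ip (wQ Q) (bop m2 (bop m (ψ i))) (bop m2 (bop m (ψ i)))).re
            / (((2 * Q - 2).choose m : ℝ) * ((2 * Q - 2).choose m2 : ℝ))
        = ∑ j ∈ range (2 * Q - 1), r4 j * (4 * (Q : ℝ) - 3 - 2 * j) := by
      have h := cg_trace (2 * Q - 2) (2 * Q - 2) le_rfl r4 (K4 ψ) hC4
      rw [show 2 * Q - 2 + 1 = 2 * Q - 1 by omega] at h
      rw [show (∑ j ∈ range (2 * Q - 1), r4 j * (4 * (Q : ℝ) - 3 - 2 * j))
        = ∑ k ∈ range (2 * Q - 1), r4 k *
          (((2 * Q - 2 : ℕ) : ℝ) + ((2 * Q - 2 : ℕ) : ℝ) - 2 * k + 1) by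
          apply Finset.sum_congr rfl
          intro k _
          rw [Nat.cast_sub (by omega)]
          push_cast
          ring]
      rw [← h]
      rw [Finset.sum_comm]
      apply Finset.sum_congr rfl
      intro m _
      rw [Finset.sum_comm]
      apply Finset.sum_congr rfl
      intro c _
      rw [← Finset.sum_div]
      rfl
    have h2 := Finset.sum_congr (rfl : (Finset.univ : Finset (Fin D)) = Finset.univ)
      fun i _ => re_ip_Ham_Ham (by omega : 2 ≤ Q) (ψ i) (hψA i)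
    rw [h1] at h2
    rw [h2, Finset.sum_add_distrib, Finset.sum_add_distrib, ← Finset.mul_sum, ← Finset.mul_sum,
      ← Finset.mul_sum, htr2, h3, h4]
    rw [← hc4, ← hc3, ← hc2]
    congr 1
    · congr 1
      · field_simp
      · rw [Finset.mul_sum]
        apply Finset.sum_congr rfl
        intro k _
        field_simp
    · rw [Finset.mul_sum]
      apply Finset.sum_congr rfl
      intro k _
      field_simp
  -- (C)
  have hC : 0 ≤ (c2 * t / (2 * (Q : ℝ))) * GQ Q
      + ∑ k ∈ range (Q + 1), (c3 * r3 k / (2 * (Q : ℝ))) * Yk Q k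
      + ∑ j ∈ range (2 * Q - 1), (c4 * r4 j / (4 * (Q : ℝ) ^ 2)) * Zj Q j := by
    have h := Core_local (by omega : 8 ≤ Q) hfock ψ hψA
    rw [← hc4, ← hc3, ← hc2] at h
    rw [Core_expand (2 * Q - 2) Q 1 9 (Q : ℝ) r3 (K3 ψ) hC3 (fun n m m' => (yC n m m' : ℝ)),
      Core_expand (2 * Q - 2) (2 * Q - 2) 2 8 (Q : ℝ) r4 (K4 ψ) hC4
        (fun n m m' => (zC n m m' : ℝ))] at h
    refine le_of_le_of_eq h ?_
    rw [show 2 * Q - 2 + 1 = 2 * Q - 1 by omega]
    congr 1
    · congr 1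
      · unfold GQ
        rw [Finset.mul_sum, Finset.mul_sum]
        apply Finset.sum_congr rfl
        intro m hm
        rw [Finset.mem_range] at hm
        rw [hK2 m (by omega), pow_succ]
        field_simp
      · rw [Finset.mul_sum]
        apply Finset.sum_congr rfl
        intro k _
        rw [Core_Yk Q k (by omega)]
        field_simp
    · rw [Finset.mul_sum]
      apply Finset.sum_congr rfl
      intro k _
      rw [Core_Zj Q k (by omega)]
      field_simp
  -- (D)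
  have hDa : ∀ a ≤ Q, ∑ k ∈ range (Q + 1), (c3 * r3 k / (2 * (Q : ℝ))) * pak Q a k
      ≤ c2 * t / (2 * (Q : ℝ)) := by
    intro a ha
    have h1 : ∑ i, ((n : ℝ) + 2) * wQ Q ⟨a, by omega⟩ *
        (ip (wQ Q) (ev ⟨a, by omega⟩ (bop 0 (ψ i))) (ev ⟨a, by omega⟩ (bop 0 (ψ i)))).re
        ≤ ∑ i, (ip (wQ Q) (bop 0 (ψ i)) (bop 0 (ψ i))).re :=
      Finset.sum_le_sum fun i _ => pauli (ψ i) (hψA i) ⟨a, by omega⟩
    have h2 : ∑ i, (ip (wQ Q) (bop 0 (ψ i)) (bop 0 (ψ i))).re = t := by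
      have := hK2 0 (by omega)
      unfold K2 at this
      rw [if_pos ⟨rfl, rfl⟩] at this
      rw [this]
      simp
    have h3 : ∑ i, ((n : ℝ) + 2) * wQ Q ⟨a, by omega⟩ *
        (ip (wQ Q) (ev ⟨a, by omega⟩ (bop 0 (ψ i))) (ev ⟨a, by omega⟩ (bop 0 (ψ i)))).re
        = ((n : ℝ) + 2) * ((Q.choose a : ℝ))⁻¹ * K3 ψ 0 a 0 a := by
      rw [← Finset.mul_sum]
      congr 1
      unfold K3
      apply Finset.sum_congr rfl
      intro i _
      rw [show evN a (bop 0 (ψ i)) = ev (⟨a, by omega⟩ : Fin (Q + 1)) (bop 0 (ψ i)) from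
        Core_evN_fin (⟨a, by omega⟩ : Fin (Q + 1)) (bop 0 (ψ i))]
    have h4 : ((Q.choose a : ℝ))⁻¹ * K3 ψ 0 a 0 a = ∑ k ∈ range (Q + 1), r3 k * pak Q a k := by
      rw [hC3 0 a 0 a, if_pos rfl, Finset.mul_sum]
      apply Finset.sum_congr rfl
      intro k _
      unfold pak
      simp only [zero_add]
      split_ifs
      · rw [sq]
        by_cases h0 : Nk (2 * Q - 2) Q k (a - k) = 0
        · rw [h0]; simp
        · have hch : ((Q.choose a : ℝ)) ≠ 0 := by
            have : 0 < Q.choose a := Nat.choose_pos ha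
            positivity
          field_simp
      · simp
    rw [h3, h2, mul_assoc, h4] at h1
    have h5 : ∑ k ∈ range (Q + 1), (c3 * r3 k / (2 * (Q : ℝ))) * pak Q a k
        = c2 / (2 * (Q : ℝ)) * (((n : ℝ) + 2) * ∑ k ∈ range (Q + 1), r3 k * pak Q a k) := by
      rw [Finset.mul_sum, Finset.mul_sum]
      apply Finset.sum_congr rfl
      intro k _
      rw [hc32]
      field_simp
    rw [h5]
    calc c2 / (2 * (Q : ℝ)) * (((n : ℝ) + 2) * ∑ k ∈ range (Q + 1), r3 k * pak Q a k)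
        ≤ c2 / (2 * (Q : ℝ)) * t := mul_le_mul_of_nonneg_left h1 (by positivity)
      _ = c2 * t / (2 * (Q : ℝ)) := by ring
  -- final
  set X : ℝ := c2 * t / (2 * (Q : ℝ)) with hX
  have hXpos : 0 ≤ X := by
    have := hr2 0
    positivity
  set Rk : ℕ → ℝ := fun k => c3 * r3 k / (2 * (Q : ℝ)) with hRk
  have hRpos : ∀ k, 0 ≤ Rk k := by
    intro k
    have := hr3 k
    simp only [hRk]
    positivity
  set Sj : ℕ → ℝ := fun j => c4 * r4 j / (4 * (Q : ℝ) ^ 2) with hSj
  have hSpos : ∀ j, 0 ≤ Sj j := by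
    intro j
    have := hr4 j
    simp only [hSj]
    positivity
  have hB' : (2 * (Q : ℝ) - 1) * X
      + ∑ k ∈ range (Q + 1), Rk k * (wk Q k * (3 * (Q : ℝ) - 1 - 2 * k))
      + ∑ j ∈ range (2 * Q - 1), Sj j * (4 * (Q : ℝ) - 3 - 2 * j) = lam ^ 2 * D := hB
  have hC' : 0 ≤ X * GQ Q + ∑ k ∈ range (Q + 1), Rk k * Yk Q k
      + ∑ j ∈ range (2 * Q - 1), Sj j * Zj Q j := hC
  have hD' : ∑ k ∈ range (Q + 1), Rk k * (∑ a ∈ range (Q + 1), tau a * pak Q a k)
      ≤ X * ∑ a ∈ range (Q + 1), tau a := by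
    have h1 : ∑ k ∈ range (Q + 1), Rk k * (∑ a ∈ range (Q + 1), tau a * pak Q a k)
        = ∑ a ∈ range (Q + 1), tau a * ∑ k ∈ range (Q + 1), Rk k * pak Q a k := by
      rw [Finset.sum_congr rfl fun k _ => Finset.mul_sum _ _ _]
      rw [Finset.sum_comm]
      apply Finset.sum_congr rfl
      intro a _
      rw [Finset.mul_sum]
      apply Finset.sum_congr rfl
      intro k _
      ring
    rw [h1, Finset.mul_sum]
    apply Finset.sum_le_sum
    intro a ha
    rw [mul_comm X]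
    apply mul_le_mul_of_nonneg_left (hDa a (by simpa [Nat.lt_succ_iff] using ha)) (tau_nonneg a)
  have hq : (0 : ℝ) < 2 * (Q : ℝ) - 1 := by linarith
  have hE1 : ∑ k ∈ range (Q + 1), Rk k * Yk Q k
      - ∑ k ∈ range (Q + 1), Rk k * (∑ a ∈ range (Q + 1), tau a * pak Q a k)
      ≤ (∑ k ∈ range (Q + 1), Rk k * (wk Q k * (3 * (Q : ℝ) - 1 - 2 * k)))
        / (2 * (Q : ℝ) - 1) := by
    rw [← Finset.sum_sub_distrib, Finset.sum_div]
    apply Finset.sum_le_sum
    intro k hk
    rw [← mul_sub, mul_div_assoc]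
    exact mul_le_mul_of_nonneg_left (hY k (by simpa [Nat.lt_succ_iff] using hk)) (hRpos k)
  have hE2 : ∑ j ∈ range (2 * Q - 1), Sj j * Zj Q j
      ≤ (∑ j ∈ range (2 * Q - 1), Sj j * (4 * (Q : ℝ) - 3 - 2 * j)) / (2 * (Q : ℝ) - 1) := by
    rw [Finset.sum_div]
    apply Finset.sum_le_sum
    intro j hj
    rw [Finset.mem_range] at hj
    rw [mul_div_assoc]
    exact mul_le_mul_of_nonneg_left (hZ j (by omega)) (hSpos j)
  have hG' : X * (GQ Q + ∑ a ∈ range (Q + 1), tau a) ≤ X * (99 / 100) :=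
    mul_le_mul_of_nonneg_left hG hXpos
  set W3 : ℝ := ∑ k ∈ range (Q + 1), Rk k * (wk Q k * (3 * (Q : ℝ) - 1 - 2 * k)) with hW3
  set W4 : ℝ := ∑ j ∈ range (2 * Q - 1), Sj j * (4 * (Q : ℝ) - 3 - 2 * j) with hW4
  have hF : 0 ≤ X * (99 / 100) + W3 / (2 * (Q : ℝ) - 1) + W4 / (2 * (Q : ℝ) - 1) := by
    rw [mul_add] at hG'
    linarith
  have hF2 : 0 ≤ (2 * (Q : ℝ) - 1) * X * (99 / 100) + W3 + W4 := by
    have := mul_nonneg hq.le hF
    have e : (2 * (Q : ℝ) - 1) * (X * (99 / 100) + W3 / (2 * (Q : ℝ) - 1)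
        + W4 / (2 * (Q : ℝ) - 1)) = (2 * (Q : ℝ) - 1) * X * (99 / 100) + W3 + W4 := by
      field_simp
    linarith
  have hDpos : (0 : ℝ) < D := by exact_mod_cast hD
  have hlast : 0 ≤ (lam ^ 2 - lam / 100) * D := by
    have : (lam ^ 2 - lam / 100) * D = lam ^ 2 * D - lam * D / 100 := by ring
    rw [this, ← hA, ← hB']
    linarith
  have hneg : (lam ^ 2 - lam / 100) * D < 0 := by
    apply mul_neg_of_neg_of_pos _ hDpos
    nlinarith
  linarith

end Vale.Agent.P359
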