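import Mathlib
import Vale.Agent.P359.Data

namespace Vale.Agent.P359

open Finset

abbrev Cfg (Q N : ℕ) := Fin N → Fin (Q + 1)

abbrev Amp (Q N : ℕ) := Cfg Q N → ℂ

def ev {Q N : ℕ} (a : Fin (Q + 1)) (f : Amp Q (N + 1)) : Amp Q N :=
  fun x => f (Fin.cons a x)

noncomputable def evN {Q N : ℕ} (a : ℕ) (f : Amp Q (N + 1)) : Amp Q N :=
  if h : a < Q + 1 then ev ⟨a, h⟩ f else 0

noncomputable def bop {Q N : ℕ} (m : ℕ) (f : Amp Q (N + 2)) : Amp Q N :=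
  fun x => ∑ a : Fin (Q + 1), ∑ b : Fin (Q + 1),
    if (a : ℕ) + (b : ℕ) = m + 1 then
      (((a : ℕ) : ℂ) - ((b : ℕ) : ℂ)) * f (Fin.cons a (Fin.cons b x))
    else 0

noncomputable def ip {Q N : ℕ} (w : Fin (Q + 1) → ℝ) (f g : Amp Q N) : ℂ :=
  ∑ x : Cfg Q N, ((∏ i, w (x i) : ℝ) : ℂ) * ((starRingEnd ℂ) (f x) * g x)

noncomputable def wQ (Q : ℕ) (a : Fin (Q + 1)) : ℝ := ((Q.choose (a : ℕ) : ℕ) : ℝ)⁻¹

def Anti {Q N : ℕ} (f : Amp Q N) : Prop :=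
  ∀ (σ : Equiv.Perm (Fin N)) (x : Cfg Q N), f (x ∘ σ) = ((Equiv.Perm.sign σ : ℤ) : ℂ) * f x

noncomputable def tot {Q N : ℕ} (M : ℕ → ℕ → ℂ) (f : Amp Q N) : Amp Q N :=
  fun x => ∑ i : Fin N, ∑ a : Fin (Q + 1),
    M (x i : ℕ) (a : ℕ) * f (Function.update x i a)

noncomputable def Fm (p : ℕ) (x a : ℕ) : ℂ := if x = a + 1 then ((p : ℂ) - (a : ℂ)) else 0

noncomputable def Em (x a : ℕ) : ℂ := if x + 1 = a then (a : ℂ) else 0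

noncomputable def pk (Q : ℕ) (x y a b : ℕ) : ℂ :=
  if x + y = a + b then
    (((x : ℂ) - (y : ℂ)) * (Q.choose x : ℂ) * (Q.choose y : ℂ)) * ((a : ℂ) - (b : ℂ)) /
      (2 * (Q : ℂ) * ((2 * Q - 2).choose (a + b - 1) : ℂ))
  else 0

noncomputable def Pij {Q N : ℕ} (i j : Fin N) (f : Amp Q N) : Amp Q N :=
  fun x => ∑ a : Fin (Q + 1), ∑ b : Fin (Q + 1),
    pk Q (x i) (x j) a b * f (Function.update (Function.update x i a) j b)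

noncomputable def Ham {Q N : ℕ} (f : Amp Q N) : Amp Q N :=
  fun x => ∑ i : Fin N, ∑ j : Fin N, if i < j then Pij i j f x else 0

noncomputable def locForm {Q n : ℕ} (w : Fin (Q + 1) → ℝ) (f : Amp Q (n + 4)) : ℝ :=
  (((n : ℝ) + 4) * ((n : ℝ) + 3) / 2) *
      (∑ m ∈ range 8, (gC m : ℝ) * (ip w (bop m f) (bop m f)).re)
  + (((n : ℝ) + 4) * ((n : ℝ) + 3) * ((n : ℝ) + 2) / 2) *
      (∑ m ∈ range 8, ∑ m' ∈ range 8, ∑ a : Fin (Q + 1), ∑ a' : Fin (Q + 1),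
        if m + (a : ℕ) = m' + (a' : ℕ) ∧ (a : ℕ) < 9 ∧ (a' : ℕ) < 9 then
          (yC (m + a) m m' : ℝ) * (ip w (ev a (bop m f)) (ev a' (bop m' f))).re
        else 0)
  + (((n : ℝ) + 4) * ((n : ℝ) + 3) * ((n : ℝ) + 2) * ((n : ℝ) + 1) / 4) *
      (∑ m ∈ range 8, ∑ m2 ∈ range 8, ∑ m' ∈ range 8, ∑ m2' ∈ range 8,
        if m + m2 = m' + m2' then
          (zC (m + m2) m m' : ℝ) * (ip w (bop m2 (bop m f)) (bop m2' (bop m' f))).re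
        else 0)

noncomputable def Fop (p q : ℕ) (v : ℕ → ℕ → ℝ) (m a : ℕ) : ℝ :=
  (if m = 0 then 0 else ((p : ℝ) - (m : ℝ) + 1) * v (m - 1) a)
    + (if a = 0 then 0 else ((q : ℝ) - (a : ℝ) + 1) * v m (a - 1))

noncomputable def Eop (v : ℕ → ℕ → ℝ) (m a : ℕ) : ℝ :=
  ((m : ℝ) + 1) * v (m + 1) a + ((a : ℝ) + 1) * v m (a + 1)

structure InvKer (p q : ℕ) (R : ℕ → ℕ → ℕ → ℕ → ℝ) : Prop where
  supp : ∀ m a m' a', ¬ (m ≤ p ∧ a ≤ q ∧ m' ≤ p ∧ a' ≤ q) → R m a m' a' = 0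
  invFE : ∀ m a m' a', Fop p q (fun s t => R s t m' a') m a = Eop (fun s t => R m a s t) m' a'
  invEF : ∀ m a m' a', Eop (fun s t => R s t m' a') m a = Fop p q (fun s t => R m a s t) m' a'
  psd : ∀ u : ℕ → ℕ → ℝ, 0 ≤ ∑ m ∈ range (p + 1), ∑ a ∈ range (q + 1),
    ∑ m' ∈ range (p + 1), ∑ a' ∈ range (q + 1), u m a * u m' a' * R m a m' a'

noncomputable def beta (p q k i m : ℕ) : ℝ :=
  ∑ l ∈ range (i + 1), if l ≤ m ∧ m - l ≤ k then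
    (-1 : ℝ) ^ (m - l) * (k.choose (m - l) : ℝ) * (i.choose l : ℝ)
      * ((p - k).descFactorial l : ℝ) * ((q - k).descFactorial (i - l) : ℝ)
  else 0

noncomputable def bv (p q k i : ℕ) (m a : ℕ) : ℝ := if m + a = k + i then beta p q k i m else 0

noncomputable def chin (p q k : ℕ) : ℝ :=
  ∑ l ∈ range (k + 1), (k.choose l : ℝ) ^ 2 / ((p.choose l : ℝ) * (q.choose (k - l) : ℝ))

noncomputable def Nk (p q k i : ℕ) : ℝ :=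
  chin p q k * ∏ l ∈ range i, (((l : ℝ) + 1) * ((p : ℝ) + q - 2 * k - l))

noncomputable def Wop (Q : ℕ) (v : ℕ → ℕ → ℝ) (m c : ℕ) : ℝ :=
  -(1 / (Q : ℝ)) * ∑ a ∈ range (Q + 1), ∑ b ∈ range (Q + 1),
    if a + b = m + 1 then
      ((a : ℝ) - (b : ℝ)) * ((a : ℝ) - (c : ℝ)) * (Q.choose a : ℝ) * (Q.choose c : ℝ)
        / ((2 * Q - 2).choose (a + c - 1) : ℝ) * v (a + c - 1) b
    else 0

noncomputable def wk (Q k : ℕ) : ℝ :=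
  (-1 : ℝ) ^ k * (3 * (k : ℝ) - 1 - (k : ℝ) * ((k : ℝ) + 1) / (Q : ℝ))
    * (Q.choose k : ℝ) / ((2 * Q - 2).choose k : ℝ)

noncomputable def Yk (Q k : ℕ) : ℝ :=
  ∑ n ∈ Icc k 15, ∑ m ∈ range 8, ∑ m' ∈ range 8,
    if m ≤ n ∧ m' ≤ n ∧ n < m + 9 ∧ n < m' + 9 then
      2 * (yC n m m' : ℝ) * beta (2 * Q - 2) Q k (n - k) m * beta (2 * Q - 2) Q k (n - k) m'
        / ((Q : ℝ) ^ n * Nk (2 * Q - 2) Q k (n - k))
    else 0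

noncomputable def Zj (Q j : ℕ) : ℝ :=
  ∑ n ∈ Icc j 14, ∑ m ∈ range 8, ∑ m' ∈ range 8,
    if m ≤ n ∧ m' ≤ n ∧ n < m + 8 ∧ n < m' + 8 then
      4 * (zC n m m' : ℝ) * beta (2 * Q - 2) (2 * Q - 2) j (n - j) m
        * beta (2 * Q - 2) (2 * Q - 2) j (n - j) m'
        / ((Q : ℝ) ^ n * Nk (2 * Q - 2) (2 * Q - 2) j (n - j))
    else 0

noncomputable def pak (Q a k : ℕ) : ℝ :=
  if k ≤ a then (beta (2 * Q - 2) Q k (a - k) 0) ^ 2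
    / ((Q.choose a : ℝ) * Nk (2 * Q - 2) Q k (a - k)) else 0

noncomputable def GQ (Q : ℕ) : ℝ :=
  ∑ m ∈ range 8, (gC m : ℝ) * 2 * ((2 * Q - 2).choose m : ℝ) / (Q : ℝ) ^ m

noncomputable def tau (a : ℕ) : ℝ :=
  (tC a : ℝ) + if 55 ≤ a ∧ a % 2 = 1 then 5 * (a : ℝ) * (3 / 4 : ℝ) ^ a else 0

def CGForm (p q : ℕ) (r : ℕ → ℝ) (R : ℕ → ℕ → ℕ → ℕ → ℝ) : Prop :=
  ∀ m a m' a', R m a m' a' = if m + a = m' + a' then
    ∑ k ∈ range (q + 1), (if k ≤ m + a then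
      r k * beta p q k (m + a - k) m * beta p q k (m + a - k) m' / Nk p q k (m + a - k)
      else 0) else 0

abbrev Fk := Finset (Fin 9) → ℝ

noncomputable def cop (a : Fin 9) (Ψ : Fk) : Fk :=
  fun T => if a ∈ T then 0 else (-1 : ℝ) ^ (T.filter (fun t => t < a)).card * Ψ (insert a T)

noncomputable def bF (m : ℕ) (Ψ : Fk) : Fk :=
  fun T => ∑ a : Fin 9, ∑ b : Fin 9,
    if (a : ℕ) + (b : ℕ) = m + 1 then (((a : ℕ) : ℝ) - ((b : ℕ) : ℝ)) * cop b (cop a Ψ) T else 0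

noncomputable def om (w : Fin 9 → ℝ) (T : Finset (Fin 9)) : ℝ := ∏ t ∈ T, w t

noncomputable def fockForm (w : Fin 9 → ℝ) (Ψ : Fk) : ℝ :=
  (1 / 2) * (∑ m ∈ range 8, (gC m : ℝ) * ∑ T : Finset (Fin 9), om w T * (bF m Ψ T) ^ 2)
  + (1 / 2) * (∑ m ∈ range 8, ∑ m' ∈ range 8, ∑ a : Fin 9, ∑ a' : Fin 9,
      if m + (a : ℕ) = m' + (a' : ℕ) then
        (yC (m + a) m m' : ℝ) *
          ∑ T : Finset (Fin 9), om w T * (cop a (bF m Ψ) T * cop a' (bF m' Ψ) T)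
      else 0)
  + (1 / 4) * (∑ m ∈ range 8, ∑ m2 ∈ range 8, ∑ m' ∈ range 8, ∑ m2' ∈ range 8,
      if m + m2 = m' + m2' then
        (zC (m + m2) m m' : ℝ) *
          ∑ T : Finset (Fin 9), om w T * (bF m2 (bF m Ψ) T * bF m2' (bF m' Ψ) T)
      else 0)

noncomputable def K2 {Q n D : ℕ} (ψ : Fin D → Amp Q (n + 4)) (m a m' a' : ℕ) : ℝ :=
  if a = 0 ∧ a' = 0 then ∑ i, (ip (wQ Q) (bop m (ψ i)) (bop m' (ψ i))).re else 0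

noncomputable def K3 {Q n D : ℕ} (ψ : Fin D → Amp Q (n + 4)) (m a m' a' : ℕ) : ℝ :=
  ∑ i, (ip (wQ Q) (evN a (bop m (ψ i))) (evN a' (bop m' (ψ i)))).re

noncomputable def K4 {Q n D : ℕ} (ψ : Fin D → Amp Q (n + 4)) (m a m' a' : ℕ) : ℝ :=
  ∑ i, (ip (wQ Q) (bop a (bop m (ψ i))) (bop a' (bop m' (ψ i)))).re

end Vale.Agent.P359
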