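import Vale.Agent.P359.HHa

namespace Vale.Agent.P359

open Finset

theorem HHb_sum_cons {Q N : ℕ} (F : Cfg Q (N + 1) → ℂ) :
    ∑ x, F x = ∑ a, ∑ y : Cfg Q N, F (Fin.cons a y) := by
  rw [← Fintype.sum_prod_type' (f := fun a (y : Cfg Q N) => F (Fin.cons a y))]
  symm
  exact Equiv.sum_comp (Fin.consEquiv (fun _ : Fin (N + 1) => Fin (Q + 1))) F

theorem HHb_ip_cons {Q N : ℕ} (w : Fin (Q + 1) → ℝ) (f g : Amp Q (N + 1)) :
    ip w f g = ∑ a, (w a : ℂ) * ip w (ev a f) (ev a g) := by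
  unfold ip
  rw [HHb_sum_cons]
  refine Finset.sum_congr rfl fun a _ => ?_
  rw [Finset.mul_sum]
  refine Finset.sum_congr rfl fun y _ => ?_
  rw [Fin.prod_univ_succ]
  simp only [Fin.cons_zero, Fin.cons_succ, ev]
  push_cast
  ring

theorem HHb_ip_smul_right {Q N : ℕ} (w : Fin (Q + 1) → ℝ) (c : ℂ) (f g : Amp Q N) :
    ip w f (c • g) = c * ip w f g := by
  unfold ip
  rw [Finset.mul_sum]
  refine Finset.sum_congr rfl fun y _ => ?_
  simp only [Pi.smul_apply, smul_eq_mul]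
  ring

theorem HHb_ip_smul_left {Q N : ℕ} (w : Fin (Q + 1) → ℝ) (c : ℂ) (f g : Amp Q N) :
    ip w (c • f) g = (starRingEnd ℂ) c * ip w f g := by
  unfold ip
  rw [Finset.mul_sum]
  refine Finset.sum_congr rfl fun y _ => ?_
  simp only [Pi.smul_apply, smul_eq_mul, map_mul]
  ring

theorem HHb_ip_sum_left {Q N : ℕ} {ι : Type} (s : Finset ι) (w : Fin (Q + 1) → ℝ)
    (f : ι → Amp Q N) (g : Amp Q N) :
    ip w (∑ i ∈ s, f i) g = ∑ i ∈ s, ip w (f i) g := by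
  unfold ip
  rw [Finset.sum_comm]
  refine Finset.sum_congr rfl fun y _ => ?_
  rw [Finset.sum_apply, map_sum, Finset.sum_mul, Finset.mul_sum]

theorem HHb_ip_sum_right {Q N : ℕ} {ι : Type} (s : Finset ι) (w : Fin (Q + 1) → ℝ)
    (f : Amp Q N) (g : ι → Amp Q N) :
    ip w f (∑ i ∈ s, g i) = ∑ i ∈ s, ip w f (g i) := by
  unfold ip
  rw [Finset.sum_comm]
  refine Finset.sum_congr rfl fun y _ => ?_
  rw [Finset.sum_apply, Finset.mul_sum, Finset.mul_sum]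

theorem HHb_ip_zero_left {Q N : ℕ} (w : Fin (Q + 1) → ℝ) (g : Amp Q N) :
    ip w 0 g = 0 := by
  unfold ip
  simp

theorem HHb_ip_zero_right {Q N : ℕ} (w : Fin (Q + 1) → ℝ) (g : Amp Q N) :
    ip w g 0 = 0 := by
  unfold ip
  simp

theorem HHb_bop_eq {Q N : ℕ} (m : ℕ) (f : Amp Q (N + 2)) :
    bop m f = ∑ a : Fin (Q + 1), ∑ b : Fin (Q + 1),
      if (a : ℕ) + (b : ℕ) = m + 1 then (((a : ℕ) : ℂ) - ((b : ℕ) : ℂ)) • ev b (ev a f) else 0 := by
  funext x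
  rw [Finset.sum_apply]
  unfold bop
  refine Finset.sum_congr rfl fun a _ => ?_
  rw [Finset.sum_apply]
  refine Finset.sum_congr rfl fun b _ => ?_
  split_ifs
  · rfl
  · rfl

theorem HHb_bop_ip_left {Q N : ℕ} (w : Fin (Q + 1) → ℝ) (m : ℕ) (f : Amp Q (N + 2))
    (g : Amp Q N) :
    ip w (bop m f) g = ∑ a : Fin (Q + 1), ∑ b : Fin (Q + 1),
      if (a : ℕ) + (b : ℕ) = m + 1 then
        (((a : ℕ) : ℂ) - ((b : ℕ) : ℂ)) * ip w (ev b (ev a f)) g else 0 := by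
  rw [HHb_bop_eq, HHb_ip_sum_left]
  refine Finset.sum_congr rfl fun a _ => ?_
  rw [HHb_ip_sum_left]
  refine Finset.sum_congr rfl fun b _ => ?_
  split_ifs
  · rw [HHb_ip_smul_left]
    simp
  · exact HHb_ip_zero_left w g

theorem HHb_bop_ip_right {Q N : ℕ} (w : Fin (Q + 1) → ℝ) (m : ℕ) (f : Amp Q (N + 2))
    (g : Amp Q N) :
    ip w g (bop m f) = ∑ a : Fin (Q + 1), ∑ b : Fin (Q + 1),
      if (a : ℕ) + (b : ℕ) = m + 1 then
        (((a : ℕ) : ℂ) - ((b : ℕ) : ℂ)) * ip w g (ev b (ev a f)) else 0 := by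
  rw [HHb_bop_eq, HHb_ip_sum_right]
  refine Finset.sum_congr rfl fun a _ => ?_
  rw [HHb_ip_sum_right]
  refine Finset.sum_congr rfl fun b _ => ?_
  split_ifs
  · rw [HHb_ip_smul_right]
  · exact HHb_ip_zero_right w g

/-- the coefficient (x-y) C(Q,x) C(Q,y) / (2Q C(2Q-2,x+y-1)). -/
noncomputable def HHb_kap (Q : ℕ) (x y : Fin (Q + 1)) : ℂ :=
  (((x : ℕ) : ℂ) - ((y : ℕ) : ℂ)) * (Q.choose (x : ℕ) : ℂ) * (Q.choose (y : ℕ) : ℂ) /
    (2 * (Q : ℂ) * ((2 * Q - 2).choose ((x : ℕ) + (y : ℕ) - 1) : ℂ))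

theorem HHb_pk_sum {Q N : ℕ} (x y : Fin (Q + 1)) (f : Amp Q (N + 2)) (z : Cfg Q N) :
    (∑ a : Fin (Q + 1), ∑ b : Fin (Q + 1),
      pk Q (x : ℕ) (y : ℕ) (a : ℕ) (b : ℕ) * f (Fin.cons a (Fin.cons b z))) =
      HHb_kap Q x y * bop ((x : ℕ) + (y : ℕ) - 1) f z := by
  by_cases hxy : x = y
  · subst hxy
    unfold HHb_kap
    rw [sub_self]
    simp only [zero_mul, zero_div]
    refine Finset.sum_eq_zero fun a _ => Finset.sum_eq_zero fun b _ => ?_
    unfold pk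
    split_ifs
    · rw [sub_self]
      simp
    · simp
  · have hpos : 1 ≤ (x : ℕ) + (y : ℕ) := by
      by_contra hcon
      apply hxy
      apply Fin.ext
      omega
    unfold bop
    rw [Finset.mul_sum]
    refine Finset.sum_congr rfl fun a _ => ?_
    rw [Finset.mul_sum]
    refine Finset.sum_congr rfl fun b _ => ?_
    unfold pk HHb_kap
    have h1 : (x : ℕ) + (y : ℕ) = (a : ℕ) + (b : ℕ) ↔
        (a : ℕ) + (b : ℕ) = (x : ℕ) + (y : ℕ) - 1 + 1 := by omega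
    by_cases h : (x : ℕ) + (y : ℕ) = (a : ℕ) + (b : ℕ)
    · rw [if_pos h, if_pos (h1.1 h), h]
      ring
    · rw [if_neg h, if_neg fun h' => h (h1.2 h')]
      simp

theorem HHb_upd0 {Q N : ℕ} (x a : Fin (Q + 1)) (z : Cfg Q N) :
    Function.update (Fin.cons x z : Cfg Q (N + 1)) 0 a = Fin.cons a z :=
  @Fin.update_cons_zero N (fun _ => Fin (Q + 1)) x z a

theorem HHb_updS {Q N : ℕ} (x a : Fin (Q + 1)) (i : Fin N) (z : Cfg Q N) :
    Function.update (Fin.cons x z : Cfg Q (N + 1)) i.succ a = Fin.cons x (Function.update z i a) :=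
  (@Fin.cons_update N (fun _ => Fin (Q + 1)) x z i a).symm

theorem HHb_P01_ev {Q n : ℕ} (x y : Fin (Q + 1)) (f : Amp Q (n + 4)) :
    ev y (ev x (Pij 0 1 f)) = HHb_kap Q x y • bop ((x : ℕ) + (y : ℕ) - 1) f := by
  funext z
  rw [Pi.smul_apply, smul_eq_mul, ← HHb_pk_sum]
  show Pij 0 1 f (Fin.cons x (Fin.cons y z)) = _
  unfold Pij
  refine Finset.sum_congr rfl fun a _ => Finset.sum_congr rfl fun b _ => ?_
  have h1 : (1 : Fin (n + 4)) = Fin.succ (0 : Fin (n + 3)) := rfl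
  rw [h1, HHb_upd0, HHb_updS, HHb_upd0]
  rfl

theorem HHb_pair_sum {Q : ℕ} (hQ : 2 ≤ Q) (G : Fin (Q + 1) → Fin (Q + 1) → ℕ → ℂ) :
    (∑ x : Fin (Q + 1), ∑ y : Fin (Q + 1),
      (((x : ℕ) : ℂ) - ((y : ℕ) : ℂ)) * G x y ((x : ℕ) + (y : ℕ) - 1)) =
    ∑ m ∈ range (2 * Q - 1), ∑ x : Fin (Q + 1), ∑ y : Fin (Q + 1),
      if (x : ℕ) + (y : ℕ) = m + 1 then (((x : ℕ) : ℂ) - ((y : ℕ) : ℂ)) * G x y m else 0 := by
  rw [Finset.sum_comm (s := range (2 * Q - 1))]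
  refine Finset.sum_congr rfl fun x _ => ?_
  rw [Finset.sum_comm (s := range (2 * Q - 1))]
  refine Finset.sum_congr rfl fun y _ => ?_
  by_cases hxy : x = y
  · subst hxy
    rw [sub_self]
    simp
  · have hne : (x : ℕ) ≠ (y : ℕ) := fun h => hxy (Fin.ext h)
    have hx := x.isLt
    have hy := y.isLt
    have hmem : (x : ℕ) + (y : ℕ) - 1 ∈ range (2 * Q - 1) := by
      rw [Finset.mem_range]
      omega
    rw [Finset.sum_eq_single_of_mem _ hmem]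
    · rw [if_pos (by omega)]
    · intro m _ hm
      rw [if_neg]
      omega

theorem HHb_choose_ne {Q : ℕ} (x : Fin (Q + 1)) : (Q.choose (x : ℕ) : ℂ) ≠ 0 := by
  have hx := x.isLt
  have := Nat.choose_pos (n := Q) (k := (x : ℕ)) (by omega)
  exact_mod_cast this.ne'

theorem HHb_w_choose {Q : ℕ} (x : Fin (Q + 1)) :
    ((wQ Q x : ℝ) : ℂ) = (Q.choose (x : ℕ) : ℂ)⁻¹ := by
  unfold wQ
  push_cast
  rfl

theorem HHb_kap_w {Q : ℕ} (x y : Fin (Q + 1)) :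
    ((wQ Q x : ℝ) : ℂ) * ((wQ Q y : ℝ) : ℂ) * HHb_kap Q x y =
      (((x : ℕ) : ℂ) - ((y : ℕ) : ℂ)) /
        (2 * (Q : ℂ) * ((2 * Q - 2).choose ((x : ℕ) + (y : ℕ) - 1) : ℂ)) := by
  rw [HHb_w_choose, HHb_w_choose]
  unfold HHb_kap
  have hx := HHb_choose_ne x
  have hy := HHb_choose_ne y
  rw [div_eq_mul_inv, div_eq_mul_inv]
  field_simp

theorem HHb_kap_conj {Q : ℕ} (x y : Fin (Q + 1)) :
    (starRingEnd ℂ) (HHb_kap Q x y) = HHb_kap Q x y := by
  unfold HHb_kap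
  simp only [map_div₀, map_mul, map_sub, Complex.conj_natCast, Complex.conj_ofNat]

theorem ip_P01 {Q n : ℕ} (hQ : 2 ≤ Q) (f : Amp Q (n + 4)) :
    ip (wQ Q) f (Pij 0 1 f) = (1 / (2 * (Q : ℂ))) * ∑ m ∈ range (2 * Q - 1),
      ip (wQ Q) (bop m f) (bop m f) / ((2 * Q - 2).choose m : ℂ) := by
  have h1 : ip (wQ Q) f (Pij 0 1 f) =
      (1 / (2 * (Q : ℂ))) * ∑ x : Fin (Q + 1), ∑ y : Fin (Q + 1),
        (((x : ℕ) : ℂ) - ((y : ℕ) : ℂ)) *
          (ip (wQ Q) (ev y (ev x f)) (bop ((x : ℕ) + (y : ℕ) - 1) f) /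
            ((2 * Q - 2).choose ((x : ℕ) + (y : ℕ) - 1) : ℂ)) := by
    rw [HHb_ip_cons, Finset.mul_sum]
    refine Finset.sum_congr rfl fun x _ => ?_
    rw [HHb_ip_cons, Finset.mul_sum, Finset.mul_sum]
    refine Finset.sum_congr rfl fun y _ => ?_
    rw [HHb_P01_ev, HHb_ip_smul_right]
    have := HHb_kap_w x y
    calc _ = (((wQ Q x : ℝ) : ℂ) * ((wQ Q y : ℝ) : ℂ) * HHb_kap Q x y) *
          ip (wQ Q) (ev y (ev x f)) (bop ((x : ℕ) + (y : ℕ) - 1) f) := by ring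
      _ = _ := by
        rw [this, div_eq_mul_inv, mul_inv, mul_inv]
        ring
  rw [h1, HHb_pair_sum hQ (fun x y m => ip (wQ Q) (ev y (ev x f)) (bop m f) /
            ((2 * Q - 2).choose m : ℂ))]
  congr 1
  refine Finset.sum_congr rfl fun m _ => ?_
  rw [HHb_bop_ip_left, Finset.sum_div]
  refine Finset.sum_congr rfl fun x _ => ?_
  rw [Finset.sum_div]
  refine Finset.sum_congr rfl fun y _ => ?_
  split_ifs
  · ring
  · simp

theorem HHb_anti_sum (Q M : ℕ) (F : ℕ → ℕ → ℂ)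
    (hF : ∀ i j, i + j = M → (Q < i ∨ Q < j) → F i j = 0) :
    (∑ x : Fin (Q + 1), ∑ y : Fin (Q + 1),
      if (x : ℕ) + (y : ℕ) = M then F (x : ℕ) (y : ℕ) else 0) =
    ∑ p ∈ antidiagonal M, F p.1 p.2 := by
  have h1 : (∑ x : Fin (Q + 1), ∑ y : Fin (Q + 1),
      if (x : ℕ) + (y : ℕ) = M then F (x : ℕ) (y : ℕ) else 0) =
      ∑ x ∈ range (Q + 1), ∑ y ∈ range (Q + 1), if x + y = M then F x y else 0 := by
    rw [Finset.sum_range]
    refine Finset.sum_congr rfl fun x _ => ?_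
    rw [Finset.sum_range]
  rw [h1, ← Finset.sum_product', ← Finset.sum_filter]
  apply Finset.sum_subset
  · intro p hp
    rw [Finset.mem_filter] at hp
    rw [HasAntidiagonal.mem_antidiagonal]
    exact hp.2
  · intro p hp hnp
    rw [HasAntidiagonal.mem_antidiagonal] at hp
    apply hF _ _ hp
    by_contra hcon
    push Not at hcon
    apply hnp
    rw [Finset.mem_filter, Finset.mem_product, Finset.mem_range, Finset.mem_range]
    omega

theorem HHb_vand (Q M : ℕ) :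
    (∑ p ∈ antidiagonal M, (Q.choose p.1 : ℂ) * (Q.choose p.2 : ℂ)) = ((2 * Q).choose M : ℂ) := by
  rw [two_mul, Nat.add_choose_eq]
  push_cast
  rfl

theorem HHb_vand2 (Q M : ℕ) :
    (∑ p ∈ antidiagonal (M + 2), (p.1 : ℂ) * (p.2 : ℂ) * ((Q + 1).choose p.1 : ℂ) *
      ((Q + 1).choose p.2 : ℂ)) = ((Q : ℂ) + 1) ^ 2 * ((2 * Q).choose M : ℂ) := by
  rw [Finset.Nat.sum_antidiagonal_succ, Finset.Nat.sum_antidiagonal_succ']
  simp only [Nat.cast_zero, zero_mul, mul_zero, zero_add]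
  rw [← HHb_vand, Finset.mul_sum]
  refine Finset.sum_congr rfl fun p _ => ?_
  have h1 : ((p.1 + 1 : ℕ) : ℂ) * ((Q + 1).choose (p.1 + 1) : ℂ) =
      ((Q : ℂ) + 1) * (Q.choose p.1 : ℂ) := by
    have := Nat.add_one_mul_choose_eq Q p.1
    have h2 : (((Q + 1) * Q.choose p.1 : ℕ) : ℂ) = (((Q + 1).choose (p.1 + 1) * (p.1 + 1) : ℕ) : ℂ) := by
      rw [this]
    push_cast at h2
    push_cast
    rw [h2]
    ring
  have h2 : ((p.2 + 1 : ℕ) : ℂ) * ((Q + 1).choose (p.2 + 1) : ℂ) =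
      ((Q : ℂ) + 1) * (Q.choose p.2 : ℂ) := by
    have := Nat.add_one_mul_choose_eq Q p.2
    have h2 : (((Q + 1) * Q.choose p.2 : ℕ) : ℂ) = (((Q + 1).choose (p.2 + 1) * (p.2 + 1) : ℕ) : ℂ) := by
      rw [this]
    push_cast at h2
    push_cast
    rw [h2]
    ring
  calc _ = (((p.1 + 1 : ℕ) : ℂ) * ((Q + 1).choose (p.1 + 1) : ℂ)) *
        (((p.2 + 1 : ℕ) : ℂ) * ((Q + 1).choose (p.2 + 1) : ℂ)) := by ring
    _ = _ := by
      rw [h1, h2]
      ring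

theorem HHb_comb_anti (R M : ℕ) :
    (∑ p ∈ antidiagonal (M + 1), ((p.1 : ℂ) - (p.2 : ℂ)) ^ 2 * ((R + 1).choose p.1 : ℂ) *
      ((R + 1).choose p.2 : ℂ)) = 2 * ((R : ℂ) + 1) * ((2 * R).choose M : ℂ) := by
  have key : (∑ p ∈ antidiagonal (M + 1), ((p.1 : ℂ) - (p.2 : ℂ)) ^ 2 * ((R + 1).choose p.1 : ℂ) *
      ((R + 1).choose p.2 : ℂ)) =
      ((M : ℂ) + 1) ^ 2 * ((2 * (R + 1)).choose (M + 1) : ℂ) -
      4 * (∑ p ∈ antidiagonal (M + 1), (p.1 : ℂ) * (p.2 : ℂ) * ((R + 1).choose p.1 : ℂ) *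
      ((R + 1).choose p.2 : ℂ)) := by
    rw [← HHb_vand, Finset.mul_sum, Finset.mul_sum, ← Finset.sum_sub_distrib]
    refine Finset.sum_congr rfl fun p hp => ?_
    rw [HasAntidiagonal.mem_antidiagonal] at hp
    have : ((M : ℂ) + 1) = (p.1 : ℂ) + (p.2 : ℂ) := by
      rw [← Nat.cast_add, hp]
      push_cast
      ring
    rw [this]
    ring
  rw [key]
  have hA : ((M : ℂ) + 1) * ((2 * R + 1 + 1).choose (M + 1) : ℂ) =
      (2 * (R : ℂ) + 2) * ((2 * R + 1).choose M : ℂ) := by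
    have := Nat.add_one_mul_choose_eq (2 * R + 1) M
    have h2 : (((2 * R + 1 + 1) * (2 * R + 1).choose M : ℕ) : ℂ) =
      (((2 * R + 1 + 1).choose (M + 1) * (M + 1) : ℕ) : ℂ) := by
      rw [this]
    push_cast at h2
    calc _ = ((2 * R + 1 + 1).choose (M + 1) : ℂ) * ((M : ℂ) + 1) := by ring
      _ = _ := by
        rw [← h2]
        ring
  have e1 : 2 * (R + 1) = 2 * R + 1 + 1 := by ring
  rw [e1]
  rcases M with _ | M
  · rw [Finset.Nat.sum_antidiagonal_succ]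
    simp
    ring
  · rw [HHb_vand2]
    have hB : ((M : ℂ) + 1) * ((2 * R + 1).choose (M + 1) : ℂ) =
        (2 * (R : ℂ) + 1) * ((2 * R).choose M : ℂ) := by
      have := Nat.add_one_mul_choose_eq (2 * R) M
      have h2 : (((2 * R + 1) * (2 * R).choose M : ℕ) : ℂ) =
        (((2 * R + 1).choose (M + 1) * (M + 1) : ℕ) : ℂ) := by
        rw [this]
      push_cast at h2
      calc _ = ((2 * R + 1).choose (M + 1) : ℂ) * ((M : ℂ) + 1) := by ring
        _ = _ := by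
          rw [← h2]
    have hC : ((2 * R + 1).choose (M + 1) : ℂ) = ((2 * R).choose M : ℂ) +
        ((2 * R).choose (M + 1) : ℂ) := by
      rw [Nat.choose_succ_succ]
      push_cast
      rfl
    have hA' := hA
    push_cast at hA'
    calc _ = ((M : ℂ) + 1 + 1) * (((M : ℂ) + 1 + 1) * ((2 * R + 1 + 1).choose (M + 1 + 1) : ℂ)) -
          4 * (((R : ℂ) + 1) ^ 2 * ((2 * R).choose M : ℂ)) := by
          push_cast
          ring
      _ = (2 * (R : ℂ) + 2) * (((M : ℂ) + 1) * ((2 * R + 1).choose (M + 1) : ℂ) +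
          ((2 * R + 1).choose (M + 1) : ℂ)) -
          4 * (((R : ℂ) + 1) ^ 2 * ((2 * R).choose M : ℂ)) := by
          rw [hA']
          ring
      _ = _ := by
          rw [hB, hC]
          ring

theorem HHb_comb (Q m : ℕ) (hQ : 2 ≤ Q) :
    (∑ x : Fin (Q + 1), ∑ y : Fin (Q + 1),
      if (x : ℕ) + (y : ℕ) = m + 1 then
        (((x : ℕ) : ℂ) - ((y : ℕ) : ℂ)) ^ 2 * (Q.choose (x : ℕ) : ℂ) * (Q.choose (y : ℕ) : ℂ)
      else 0) = 2 * (Q : ℂ) * ((2 * Q - 2).choose m : ℂ) := by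
  rw [HHb_anti_sum Q (m + 1) (fun i j => ((i : ℂ) - (j : ℂ)) ^ 2 * (Q.choose i : ℂ) *
    (Q.choose j : ℂ))]
  · obtain ⟨R, rfl⟩ : ∃ R, Q = R + 1 := ⟨Q - 1, by omega⟩
    have e : 2 * (R + 1) - 2 = 2 * R := by omega
    rw [e, HHb_comb_anti]
    push_cast
    ring
  · intro i j _ h
    rcases h with h | h
    · simp only [Nat.choose_eq_zero_of_lt h, Nat.cast_zero, mul_zero, zero_mul]
    · simp only [Nat.choose_eq_zero_of_lt h, Nat.cast_zero, mul_zero]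

theorem ip_P01_P01 {Q n : ℕ} (hQ : 2 ≤ Q) (f : Amp Q (n + 4)) :
    ip (wQ Q) (Pij 0 1 f) (Pij 0 1 f) = (1 / (2 * (Q : ℂ))) * ∑ m ∈ range (2 * Q - 1),
      ip (wQ Q) (bop m f) (bop m f) / ((2 * Q - 2).choose m : ℂ) := by
  have hQ0 : (Q : ℂ) ≠ 0 := by
    have : Q ≠ 0 := by omega
    exact_mod_cast this
  have h1 : ip (wQ Q) (Pij 0 1 f) (Pij 0 1 f) =
      (1 / (2 * (Q : ℂ)) ^ 2) * ∑ x : Fin (Q + 1), ∑ y : Fin (Q + 1),
        (((x : ℕ) : ℂ) - ((y : ℕ) : ℂ)) *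
          ((((x : ℕ) : ℂ) - ((y : ℕ) : ℂ)) * (Q.choose (x : ℕ) : ℂ) * (Q.choose (y : ℕ) : ℂ) *
          (ip (wQ Q) (bop ((x : ℕ) + (y : ℕ) - 1) f) (bop ((x : ℕ) + (y : ℕ) - 1) f) /
            ((2 * Q - 2).choose ((x : ℕ) + (y : ℕ) - 1) : ℂ) ^ 2)) := by
    rw [HHb_ip_cons, Finset.mul_sum]
    refine Finset.sum_congr rfl fun x _ => ?_
    rw [HHb_ip_cons, Finset.mul_sum, Finset.mul_sum]
    refine Finset.sum_congr rfl fun y _ => ?_
    rw [HHb_P01_ev, HHb_ip_smul_right, HHb_ip_smul_left, HHb_kap_conj]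
    have := HHb_kap_w x y
    calc _ = (((wQ Q x : ℝ) : ℂ) * ((wQ Q y : ℝ) : ℂ) * HHb_kap Q x y) *
          (HHb_kap Q x y * ip (wQ Q) (bop ((x : ℕ) + (y : ℕ) - 1) f)
            (bop ((x : ℕ) + (y : ℕ) - 1) f)) := by ring
      _ = _ := by
        rw [this]
        unfold HHb_kap
        simp only [div_eq_mul_inv, mul_inv, mul_pow]
        ring
  rw [h1, HHb_pair_sum hQ (fun x y m => ((((x : ℕ) : ℂ) - ((y : ℕ) : ℂ)) *
          (Q.choose (x : ℕ) : ℂ) * (Q.choose (y : ℕ) : ℂ) *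
          (ip (wQ Q) (bop m f) (bop m f) / ((2 * Q - 2).choose m : ℂ) ^ 2)))]
  rw [Finset.mul_sum, Finset.mul_sum]
  refine Finset.sum_congr rfl fun m hm => ?_
  rw [Finset.mem_range] at hm
  have hcm : ((2 * Q - 2).choose m : ℂ) ≠ 0 := by
    have := Nat.choose_pos (n := 2 * Q - 2) (k := m) (by omega)
    exact_mod_cast this.ne'
  have h2 := HHb_comb Q m hQ
  have h3 : (∑ x : Fin (Q + 1), ∑ y : Fin (Q + 1),
      if (x : ℕ) + (y : ℕ) = m + 1 then (((x : ℕ) : ℂ) - ((y : ℕ) : ℂ)) *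
        ((((x : ℕ) : ℂ) - ((y : ℕ) : ℂ)) * (Q.choose (x : ℕ) : ℂ) * (Q.choose (y : ℕ) : ℂ) *
          (ip (wQ Q) (bop m f) (bop m f) / ((2 * Q - 2).choose m : ℂ) ^ 2)) else 0) =
      (∑ x : Fin (Q + 1), ∑ y : Fin (Q + 1),
      if (x : ℕ) + (y : ℕ) = m + 1 then
        (((x : ℕ) : ℂ) - ((y : ℕ) : ℂ)) ^ 2 * (Q.choose (x : ℕ) : ℂ) * (Q.choose (y : ℕ) : ℂ)
      else 0) * (ip (wQ Q) (bop m f) (bop m f) / ((2 * Q - 2).choose m : ℂ) ^ 2) := by
    rw [Finset.sum_mul]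
    refine Finset.sum_congr rfl fun x _ => ?_
    rw [Finset.sum_mul]
    refine Finset.sum_congr rfl fun y _ => ?_
    split_ifs
    · ring
    · simp
  rw [h3, h2]
  field_simp

theorem HHb_swap_cons {Q N : ℕ} (f : Amp Q (N + 3)) (hf : Anti f) (a b c : Fin (Q + 1))
    (z : Cfg Q N) :
    f (Fin.cons a (Fin.cons b (Fin.cons c z))) = - f (Fin.cons a (Fin.cons c (Fin.cons b z))) := by
  have h := hf (Equiv.swap (Fin.succ 0) (Fin.succ (Fin.succ 0)))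
    (Fin.cons a (Fin.cons c (Fin.cons b z)))
  have h12 : (Fin.succ 0 : Fin (N + 3)) ≠ Fin.succ (Fin.succ 0) := by
    intro h
    exact Fin.succ_ne_zero _ (Fin.succ_injective _ h).symm
  rw [Equiv.Perm.sign_swap h12] at h
  have e : (Fin.cons a (Fin.cons c (Fin.cons b z)) : Cfg Q (N + 3)) ∘
      (Equiv.swap (Fin.succ 0) (Fin.succ (Fin.succ 0))) =
      Fin.cons a (Fin.cons b (Fin.cons c z)) := by
    funext i
    refine Fin.cases ?_ (fun i => Fin.cases ?_ (fun i => Fin.cases ?_ (fun i => ?_) i) i) i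
    · rw [Function.comp_apply, Equiv.swap_apply_of_ne_of_ne]
      · rfl
      · exact (Fin.succ_ne_zero _).symm
      · exact (Fin.succ_ne_zero _).symm
    · rw [Function.comp_apply, Equiv.swap_apply_left]
      rfl
    · rw [Function.comp_apply, Equiv.swap_apply_right]
      rfl
    · rw [Function.comp_apply, Equiv.swap_apply_of_ne_of_ne]
      · rfl
      · intro h
        exact Fin.succ_ne_zero _ (Fin.succ_injective _ h)
      · intro h
        exact Fin.succ_ne_zero _ (Fin.succ_injective _ (Fin.succ_injective _ h))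
  rw [e] at h
  rw [h]
  simp

theorem HHb_swap_cons0 {Q N : ℕ} (f : Amp Q (N + 2)) (hf : Anti f) (a b : Fin (Q + 1))
    (z : Cfg Q N) :
    f (Fin.cons a (Fin.cons b z)) = - f (Fin.cons b (Fin.cons a z)) := by
  have h := hf (Equiv.swap 0 (Fin.succ 0)) (Fin.cons b (Fin.cons a z))
  have h12 : (0 : Fin (N + 2)) ≠ Fin.succ 0 := (Fin.succ_ne_zero _).symm
  rw [Equiv.Perm.sign_swap h12] at h
  have e : (Fin.cons b (Fin.cons a z) : Cfg Q (N + 2)) ∘ (Equiv.swap 0 (Fin.succ 0)) =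
      Fin.cons a (Fin.cons b z) := by
    funext i
    refine Fin.cases ?_ (fun i => Fin.cases ?_ (fun i => ?_) i) i
    · rw [Function.comp_apply, Equiv.swap_apply_left]
      rfl
    · rw [Function.comp_apply, Equiv.swap_apply_right]
      rfl
    · rw [Function.comp_apply, Equiv.swap_apply_of_ne_of_ne]
      · rfl
      · exact Fin.succ_ne_zero _
      · intro h
        exact Fin.succ_ne_zero _ (Fin.succ_injective _ h)
  rw [e] at h
  rw [h]
  simp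

theorem HHb_swap_cons2 {Q N : ℕ} (f : Amp Q (N + 4)) (hf : Anti f) (a b c d : Fin (Q + 1))
    (z : Cfg Q N) :
    f (Fin.cons a (Fin.cons b (Fin.cons c (Fin.cons d z)))) =
      - f (Fin.cons a (Fin.cons b (Fin.cons d (Fin.cons c z)))) := by
  have h := hf (Equiv.swap (Fin.succ (Fin.succ 0)) (Fin.succ (Fin.succ (Fin.succ 0))))
    (Fin.cons a (Fin.cons b (Fin.cons d (Fin.cons c z))))
  have h12 : (Fin.succ (Fin.succ 0) : Fin (N + 4)) ≠ Fin.succ (Fin.succ (Fin.succ 0)) := by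
    intro h
    exact Fin.succ_ne_zero _ (Fin.succ_injective _ (Fin.succ_injective _ h)).symm
  rw [Equiv.Perm.sign_swap h12] at h
  have e : (Fin.cons a (Fin.cons b (Fin.cons d (Fin.cons c z))) : Cfg Q (N + 4)) ∘
      (Equiv.swap (Fin.succ (Fin.succ 0)) (Fin.succ (Fin.succ (Fin.succ 0)))) =
      Fin.cons a (Fin.cons b (Fin.cons c (Fin.cons d z))) := by
    funext i
    refine Fin.cases ?_ (fun i => Fin.cases ?_ (fun i => Fin.cases ?_
      (fun i => Fin.cases ?_ (fun i => ?_) i) i) i) i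
    · rw [Function.comp_apply, Equiv.swap_apply_of_ne_of_ne]
      · rfl
      · exact (Fin.succ_ne_zero _).symm
      · exact (Fin.succ_ne_zero _).symm
    · rw [Function.comp_apply, Equiv.swap_apply_of_ne_of_ne]
      · rfl
      · intro h
        exact Fin.succ_ne_zero _ (Fin.succ_injective _ h).symm
      · intro h
        exact Fin.succ_ne_zero _ (Fin.succ_injective _ h).symm
    · rw [Function.comp_apply, Equiv.swap_apply_left]
      rfl
    · rw [Function.comp_apply, Equiv.swap_apply_right]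
      rfl
    · rw [Function.comp_apply, Equiv.swap_apply_of_ne_of_ne]
      · rfl
      · intro h
        exact Fin.succ_ne_zero _ (Fin.succ_injective _ (Fin.succ_injective _ h))
      · intro h
        exact Fin.succ_ne_zero _ (Fin.succ_injective _ (Fin.succ_injective _
          (Fin.succ_injective _ h)))
  rw [e] at h
  rw [h]
  simp

theorem HHb_pair_swap {Q N : ℕ} (f : Amp Q (N + 4)) (hf : Anti f) (a b c d : Fin (Q + 1))
    (z : Cfg Q N) :
    f (Fin.cons a (Fin.cons b (Fin.cons c (Fin.cons d z)))) =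
      f (Fin.cons c (Fin.cons d (Fin.cons a (Fin.cons b z)))) := by
  rw [HHb_swap_cons f hf a b c, HHb_swap_cons0 f hf a c, HHb_swap_cons2 f hf c a b d,
    HHb_swap_cons f hf c a d]
  simp

theorem HHb_P02_ev {Q n : ℕ} (x y t : Fin (Q + 1)) (f : Amp Q (n + 4)) (hf : Anti f) :
    ev t (ev y (ev x (Pij 0 2 f))) =
      (- HHb_kap Q x t) • ev y (bop ((x : ℕ) + (t : ℕ) - 1) f) := by
  funext z
  rw [Pi.smul_apply, smul_eq_mul, neg_mul]
  show Pij 0 2 f (Fin.cons x (Fin.cons y (Fin.cons t z))) =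
    -(HHb_kap Q x t * bop ((x : ℕ) + (t : ℕ) - 1) f (Fin.cons y z))
  rw [← HHb_pk_sum]
  unfold Pij
  rw [← Finset.sum_neg_distrib]
  refine Finset.sum_congr rfl fun a _ => ?_
  rw [← Finset.sum_neg_distrib]
  refine Finset.sum_congr rfl fun b _ => ?_
  have h2 : (2 : Fin (n + 4)) = Fin.succ (Fin.succ (0 : Fin (n + 2))) := rfl
  rw [h2, HHb_upd0, HHb_updS, HHb_updS, HHb_upd0, HHb_swap_cons f hf a y b, mul_neg]
  rfl

theorem HHb_P23_ev {Q n : ℕ} (x y s t : Fin (Q + 1)) (f : Amp Q (n + 4)) (hf : Anti f) :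
    ev t (ev s (ev y (ev x (Pij 2 3 f)))) =
      HHb_kap Q s t • ev y (ev x (bop ((s : ℕ) + (t : ℕ) - 1) f)) := by
  funext z
  rw [Pi.smul_apply, smul_eq_mul]
  show Pij 2 3 f (Fin.cons x (Fin.cons y (Fin.cons s (Fin.cons t z)))) =
    (HHb_kap Q s t * bop ((s : ℕ) + (t : ℕ) - 1) f (Fin.cons x (Fin.cons y z)))
  rw [← HHb_pk_sum]
  unfold Pij
  refine Finset.sum_congr rfl fun a _ => ?_
  refine Finset.sum_congr rfl fun b _ => ?_
  have h2 : (2 : Fin (n + 4)) = Fin.succ (Fin.succ (0 : Fin (n + 2))) := rfl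
  have h3 : (3 : Fin (n + 4)) = Fin.succ (Fin.succ (Fin.succ (0 : Fin (n + 1)))) := rfl
  rw [h2, h3]
  simp only [HHb_updS, HHb_upd0]
  rw [HHb_pair_swap f hf x y a b]
  rfl

theorem HHb_bop_comm {Q n : ℕ} (m m2 : ℕ) (f : Amp Q (n + 4)) (hf : Anti f) :
    bop m (bop m2 f) = bop m2 (bop m f) := by
  have key : ∀ (k l : ℕ) (z : Cfg Q n), bop k (bop l f) z =
      ∑ a : Fin (Q + 1), ∑ b : Fin (Q + 1), ∑ c : Fin (Q + 1), ∑ d : Fin (Q + 1),
        (if (a : ℕ) + (b : ℕ) = k + 1 ∧ (c : ℕ) + (d : ℕ) = l + 1 then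
          (((a : ℕ) : ℂ) - ((b : ℕ) : ℂ)) * (((c : ℕ) : ℂ) - ((d : ℕ) : ℂ)) *
            f (Fin.cons c (Fin.cons d (Fin.cons a (Fin.cons b z)))) else 0) := by
    intro k l z
    unfold bop
    refine Finset.sum_congr rfl fun a _ => Finset.sum_congr rfl fun b _ => ?_
    by_cases h : (a : ℕ) + (b : ℕ) = k + 1
    · rw [if_pos h, Finset.mul_sum]
      refine Finset.sum_congr rfl fun c _ => ?_
      rw [Finset.mul_sum]
      refine Finset.sum_congr rfl fun d _ => ?_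
      by_cases h' : (c : ℕ) + (d : ℕ) = l + 1
      · rw [if_pos h', if_pos ⟨h, h'⟩]
        ring
      · rw [if_neg h', if_neg fun hh => h' hh.2]
        simp
    · rw [if_neg h]
      symm
      refine Finset.sum_eq_zero fun c _ => Finset.sum_eq_zero fun d _ => ?_
      rw [if_neg fun hh => h hh.1]
  funext z
  rw [key, key]
  have s1 : ∀ G : Fin (Q + 1) → Fin (Q + 1) → Fin (Q + 1) → Fin (Q + 1) → ℂ,
      (∑ a, ∑ b, ∑ c, ∑ d, G a b c d) = ∑ c, ∑ d, ∑ a, ∑ b, G a b c d := by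
    intro G
    have e1 : (∑ a, ∑ b, ∑ c, ∑ d, G a b c d) = ∑ a, ∑ c, ∑ b, ∑ d, G a b c d :=
      Finset.sum_congr rfl fun a _ => Finset.sum_comm
    have e2 : (∑ a, ∑ c, ∑ b, ∑ d, G a b c d) = ∑ c, ∑ a, ∑ b, ∑ d, G a b c d :=
      Finset.sum_comm
    have e3 : (∑ c, ∑ a, ∑ b, ∑ d, G a b c d) = ∑ c, ∑ d, ∑ a, ∑ b, G a b c d := by
      refine Finset.sum_congr rfl fun c _ => ?_
      have e4 : (∑ a, ∑ b, ∑ d, G a b c d) = ∑ a, ∑ d, ∑ b, G a b c d :=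
        Finset.sum_congr rfl fun a _ => Finset.sum_comm
      rw [e4, Finset.sum_comm]
    rw [e1, e2, e3]
  rw [s1]
  refine Finset.sum_congr rfl fun c _ => Finset.sum_congr rfl fun d _ =>
    Finset.sum_congr rfl fun a _ => Finset.sum_congr rfl fun b _ => ?_
  rw [HHb_pair_swap f hf c d a b]
  by_cases h : (a : ℕ) + (b : ℕ) = m + 1 ∧ (c : ℕ) + (d : ℕ) = m2 + 1
  · rw [if_pos h, if_pos h.symm]
    ring
  · rw [if_neg h, if_neg fun hh => h hh.symm]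

theorem HHb_ev_smul {Q N : ℕ} (a : Fin (Q + 1)) (c : ℂ) (f : Amp Q (N + 1)) :
    ev a (c • f) = c • ev a f := rfl

theorem HHb_kap_conj_neg {Q : ℕ} (x y : Fin (Q + 1)) :
    (starRingEnd ℂ) (- HHb_kap Q x y) = - HHb_kap Q x y := by
  rw [map_neg, HHb_kap_conj]

/-- the real coefficient of the three-body expansion. -/
noncomputable def HHb_rc (Q m c a b : ℕ) : ℝ :=
  - (((a : ℝ) - (b : ℝ)) * ((a : ℝ) - (c : ℝ)) * (Q.choose a : ℝ) /
    (4 * (Q : ℝ) ^ 2 * ((2 * Q - 2).choose m : ℝ) * ((2 * Q - 2).choose (a + c - 1) : ℝ)))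

theorem HHb_ip_P02_P01 {Q n : ℕ} (hQ : 2 ≤ Q) (f : Amp Q (n + 4)) (hf : Anti f) :
    ip (wQ Q) (Pij 0 2 f) (Pij 0 1 f) =
      ∑ m ∈ range (2 * Q - 1), ∑ c : Fin (Q + 1), ∑ a : Fin (Q + 1), ∑ b : Fin (Q + 1),
        if (a : ℕ) + (b : ℕ) = m + 1 then
          ((HHb_rc Q m c a b : ℝ) : ℂ) *
            ip (wQ Q) (ev c (bop m f)) (ev b (bop ((a : ℕ) + (c : ℕ) - 1) f)) else 0 := by
  have h1 : ip (wQ Q) (Pij 0 2 f) (Pij 0 1 f) =
      ∑ c : Fin (Q + 1), ∑ a : Fin (Q + 1), ∑ b : Fin (Q + 1),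
        (((a : ℕ) : ℂ) - ((b : ℕ) : ℂ)) *
          (-((((a : ℕ) : ℂ) - ((c : ℕ) : ℂ)) * (Q.choose (a : ℕ) : ℂ) /
            (4 * (Q : ℂ) ^ 2 * ((2 * Q - 2).choose ((a : ℕ) + (b : ℕ) - 1) : ℂ) *
              ((2 * Q - 2).choose ((a : ℕ) + (c : ℕ) - 1) : ℂ))) *
            ip (wQ Q) (ev c (bop ((a : ℕ) + (b : ℕ) - 1) f))
              (ev b (bop ((a : ℕ) + (c : ℕ) - 1) f))) := by
    rw [Finset.sum_comm, HHb_ip_cons]
    refine Finset.sum_congr rfl fun x _ => ?_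
    rw [HHb_ip_cons, Finset.mul_sum]
    refine Finset.sum_congr rfl fun y _ => ?_
    rw [HHb_ip_cons, Finset.mul_sum, Finset.mul_sum]
    refine Finset.sum_congr rfl fun t _ => ?_
    rw [HHb_P02_ev x y t f hf, HHb_P01_ev, HHb_ev_smul, HHb_ip_smul_right, HHb_ip_smul_left,
      HHb_kap_conj_neg]
    have h2 := HHb_kap_w x t
    have h3 : ((wQ Q y : ℝ) : ℂ) * HHb_kap Q x y =
      (((x : ℕ) : ℂ) - ((y : ℕ) : ℂ)) * (Q.choose (x : ℕ) : ℂ) /
        (2 * (Q : ℂ) * ((2 * Q - 2).choose ((x : ℕ) + (y : ℕ) - 1) : ℂ)) := by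
      rw [HHb_w_choose]
      unfold HHb_kap
      have hy := HHb_choose_ne y
      rw [div_eq_mul_inv, div_eq_mul_inv]
      field_simp
    calc _ = - (((wQ Q x : ℝ) : ℂ) * ((wQ Q t : ℝ) : ℂ) * HHb_kap Q x t) *
          (((wQ Q y : ℝ) : ℂ) * HHb_kap Q x y) * ip (wQ Q) (ev y (bop ((x : ℕ) + (t : ℕ) - 1) f))
            (ev t (bop ((x : ℕ) + (y : ℕ) - 1) f)) := by ring
      _ = _ := by
        rw [h2, h3]
        have e4 : (4 : ℂ) = 2 * 2 := by norm_num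
        rw [e4]
        simp only [div_eq_mul_inv, mul_inv, pow_two]
        ring
  rw [h1, Finset.sum_comm (s := range (2 * Q - 1))]
  refine Finset.sum_congr rfl fun c _ => ?_
  rw [HHb_pair_sum hQ (fun a b m => (-((((a : ℕ) : ℂ) - ((c : ℕ) : ℂ)) * (Q.choose (a : ℕ) : ℂ) /
            (4 * (Q : ℂ) ^ 2 * ((2 * Q - 2).choose m : ℂ) *
              ((2 * Q - 2).choose ((a : ℕ) + (c : ℕ) - 1) : ℂ))) *
            ip (wQ Q) (ev c (bop m f))
              (ev b (bop ((a : ℕ) + (c : ℕ) - 1) f))))]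
  refine Finset.sum_congr rfl fun m _ => Finset.sum_congr rfl fun a _ =>
    Finset.sum_congr rfl fun b _ => ?_
  split_ifs
  · unfold HHb_rc
    push_cast
    simp only [div_eq_mul_inv]
    ring
  · rfl

theorem HHb_evN {Q N : ℕ} (a : Fin (Q + 1)) (f : Amp Q (N + 1)) : evN (a : ℕ) f = ev a f := by
  unfold evN
  rw [dif_pos a.isLt]

theorem re_ip_P02_P01 {Q n : ℕ} (hQ : 2 ≤ Q) (f : Amp Q (n + 4)) (hf : Anti f) :
    (ip (wQ Q) (Pij 0 2 f) (Pij 0 1 f)).re = (1 / (4 * (Q : ℝ))) *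
      ∑ m ∈ range (2 * Q - 1), ∑ c ∈ range (Q + 1),
        Wop Q (fun m' c' => (ip (wQ Q) (evN c (bop m f)) (evN c' (bop m' f))).re) m c
          / (((2 * Q - 2).choose m : ℝ) * (Q.choose c : ℝ)) := by
  rw [HHb_ip_P02_P01 hQ f hf, Complex.re_sum, Finset.mul_sum]
  refine Finset.sum_congr rfl fun m _ => ?_
  rw [Complex.re_sum, Finset.sum_range, Finset.mul_sum]
  refine Finset.sum_congr rfl fun c _ => ?_
  have hc : (Q.choose (c : ℕ) : ℝ) ≠ 0 := by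
    have := HHb_choose_ne c
    exact_mod_cast this
  unfold Wop
  rw [Finset.sum_range, Complex.re_sum, Finset.mul_sum, Finset.sum_div, Finset.mul_sum]
  refine Finset.sum_congr rfl fun a _ => ?_
  rw [Finset.sum_range, Complex.re_sum, Finset.mul_sum, Finset.sum_div, Finset.mul_sum]
  refine Finset.sum_congr rfl fun b _ => ?_
  beta_reduce
  rw [HHb_evN, HHb_evN]
  by_cases h : (a : ℕ) + (b : ℕ) = m + 1
  · rw [if_pos h, if_pos h, Complex.re_ofReal_mul]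
    unfold HHb_rc
    field_simp
  · rw [if_neg h, if_neg h]
    simp

theorem ip_P23_P01 {Q n : ℕ} (hQ : 2 ≤ Q) (f : Amp Q (n + 4)) (hf : Anti f) :
    ip (wQ Q) (Pij 2 3 f) (Pij 0 1 f) = (1 / (4 * (Q : ℂ) ^ 2)) *
      ∑ m ∈ range (2 * Q - 1), ∑ m2 ∈ range (2 * Q - 1),
        ip (wQ Q) (bop m2 (bop m f)) (bop m2 (bop m f))
          / (((2 * Q - 2).choose m : ℂ) * ((2 * Q - 2).choose m2 : ℂ)) := by
  have h1 : ip (wQ Q) (Pij 2 3 f) (Pij 0 1 f) = (1 / (4 * (Q : ℂ) ^ 2)) *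
      ∑ x : Fin (Q + 1), ∑ y : Fin (Q + 1), (((x : ℕ) : ℂ) - ((y : ℕ) : ℂ)) *
        ∑ s : Fin (Q + 1), ∑ t : Fin (Q + 1), (((s : ℕ) : ℂ) - ((t : ℕ) : ℂ)) *
          (ip (wQ Q) (ev y (ev x (bop ((s : ℕ) + (t : ℕ) - 1) f)))
            (ev t (ev s (bop ((x : ℕ) + (y : ℕ) - 1) f))) /
            (((2 * Q - 2).choose ((s : ℕ) + (t : ℕ) - 1) : ℂ) *
              ((2 * Q - 2).choose ((x : ℕ) + (y : ℕ) - 1) : ℂ))) := by
    rw [HHb_ip_cons, Finset.mul_sum]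
    refine Finset.sum_congr rfl fun x _ => ?_
    rw [HHb_ip_cons, Finset.mul_sum, Finset.mul_sum]
    refine Finset.sum_congr rfl fun y _ => ?_
    rw [HHb_ip_cons, Finset.mul_sum, Finset.mul_sum, Finset.mul_sum, Finset.mul_sum]
    refine Finset.sum_congr rfl fun s _ => ?_
    rw [HHb_ip_cons, Finset.mul_sum, Finset.mul_sum, Finset.mul_sum, Finset.mul_sum,
      Finset.mul_sum]
    refine Finset.sum_congr rfl fun t _ => ?_
    rw [HHb_P23_ev x y s t f hf, HHb_P01_ev, HHb_ev_smul, HHb_ev_smul, HHb_ip_smul_right,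
      HHb_ip_smul_left, HHb_kap_conj]
    have h2 := HHb_kap_w x y
    have h3 := HHb_kap_w s t
    calc _ = (((wQ Q x : ℝ) : ℂ) * ((wQ Q y : ℝ) : ℂ) * HHb_kap Q x y) *
          (((wQ Q s : ℝ) : ℂ) * ((wQ Q t : ℝ) : ℂ) * HHb_kap Q s t) *
          ip (wQ Q) (ev y (ev x (bop ((s : ℕ) + (t : ℕ) - 1) f)))
            (ev t (ev s (bop ((x : ℕ) + (y : ℕ) - 1) f))) := by ring
      _ = _ := by
        rw [h2, h3]
        have e4 : (4 : ℂ) = 2 * 2 := by norm_num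
        rw [e4]
        simp only [div_eq_mul_inv, mul_inv, pow_two]
        ring
  rw [h1]
  congr 1
  rw [HHb_pair_sum hQ (fun x y m2 => ∑ s : Fin (Q + 1), ∑ t : Fin (Q + 1),
      (((s : ℕ) : ℂ) - ((t : ℕ) : ℂ)) *
          (ip (wQ Q) (ev y (ev x (bop ((s : ℕ) + (t : ℕ) - 1) f)))
            (ev t (ev s (bop m2 f))) /
            (((2 * Q - 2).choose ((s : ℕ) + (t : ℕ) - 1) : ℂ) *
              ((2 * Q - 2).choose m2 : ℂ))))]
  rw [Finset.sum_comm (s := range (2 * Q - 1)) (t := range (2 * Q - 1))]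
  refine Finset.sum_congr rfl fun m2 _ => ?_
  have h4 : ∀ m ∈ range (2 * Q - 1),
      ip (wQ Q) (bop m2 (bop m f)) (bop m2 (bop m f))
          / (((2 * Q - 2).choose m : ℂ) * ((2 * Q - 2).choose m2 : ℂ)) =
      ∑ x : Fin (Q + 1), ∑ y : Fin (Q + 1), if (x : ℕ) + (y : ℕ) = m2 + 1 then
        (((x : ℕ) : ℂ) - ((y : ℕ) : ℂ)) * ∑ s : Fin (Q + 1), ∑ t : Fin (Q + 1),
          (if (s : ℕ) + (t : ℕ) = m + 1 then (((s : ℕ) : ℂ) - ((t : ℕ) : ℂ)) *
            (ip (wQ Q) (ev y (ev x (bop m f))) (ev t (ev s (bop m2 f))) /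
              (((2 * Q - 2).choose m : ℂ) * ((2 * Q - 2).choose m2 : ℂ))) else 0)
        else 0 := by
    intro m _
    have e : ip (wQ Q) (bop m2 (bop m f)) (bop m2 (bop m f)) =
        ip (wQ Q) (bop m2 (bop m f)) (bop m (bop m2 f)) := by
      rw [HHb_bop_comm m m2 f hf]
    rw [e, HHb_bop_ip_left, Finset.sum_div]
    refine Finset.sum_congr rfl fun x _ => ?_
    rw [Finset.sum_div]
    refine Finset.sum_congr rfl fun y _ => ?_
    by_cases h : (x : ℕ) + (y : ℕ) = m2 + 1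
    · rw [if_pos h, if_pos h, HHb_bop_ip_right, Finset.mul_sum, Finset.sum_div, Finset.mul_sum]
      refine Finset.sum_congr rfl fun s _ => ?_
      rw [Finset.mul_sum, Finset.sum_div, Finset.mul_sum]
      refine Finset.sum_congr rfl fun t _ => ?_
      by_cases h' : (s : ℕ) + (t : ℕ) = m + 1
      · rw [if_pos h', if_pos h']
        ring
      · rw [if_neg h', if_neg h']
        simp
    · rw [if_neg h, if_neg h]
      simp
  rw [Finset.sum_congr rfl h4, Finset.sum_comm (s := range (2 * Q - 1))]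
  refine Finset.sum_congr rfl fun x _ => ?_
  rw [Finset.sum_comm (s := range (2 * Q - 1))]
  refine Finset.sum_congr rfl fun y _ => ?_
  by_cases h : (x : ℕ) + (y : ℕ) = m2 + 1
  · simp only [if_pos h]
    rw [HHb_pair_sum hQ (fun s t m => (ip (wQ Q) (ev y (ev x (bop m f)))
            (ev t (ev s (bop m2 f))) /
            (((2 * Q - 2).choose m : ℂ) * ((2 * Q - 2).choose m2 : ℂ)))), Finset.mul_sum]
  · simp only [if_neg h]
    simp

end Vale.Agent.P359
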