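import Vale.Agent.P359.LaughA
import Vale.Agent.P359.Bridge
import Vale.Agent.P359.HHb

namespace Vale.Agent.P359

open Finset MvPolynomial LaughlinGap

/-! ### auxiliary facts on `vdm3` -/

theorem laughB_vdm3_eq_det (N : ℕ) :
    vdm3 N = (Matrix.vandermonde (fun i : Fin N => (X i : MvPolynomial (Fin N) ℂ))).det ^ 3 := by
  rw [Matrix.det_vandermonde]
  unfold vdm3
  rw [← Finset.prod_pow]
  refine Finset.prod_congr rfl fun i _ => ?_
  rw [← Finset.prod_pow]

theorem laughB_rename_vdm3 (N : ℕ) (σ : Equiv.Perm (Fin N)) :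
    rename σ (vdm3 N) = C ((Equiv.Perm.sign σ : ℤ) : ℂ) * vdm3 N := by
  rw [laughB_vdm3_eq_det, map_pow]
  have h1 : rename σ (Matrix.vandermonde (fun i : Fin N => (X i : MvPolynomial (Fin N) ℂ))).det =
      ((Matrix.vandermonde (fun i : Fin N => (X i : MvPolynomial (Fin N) ℂ))).submatrix σ id).det := by
    rw [AlgHom.map_det]
    congr 1
    ext i j : 2
    simp [Matrix.vandermonde_apply, AlgHom.mapMatrix_apply]
  rw [h1, Matrix.det_permute, mul_pow]
  congr 1
  have h2 : ((Equiv.Perm.sign σ : ℤˣ) : ℤ) ^ 3 = ((Equiv.Perm.sign σ : ℤˣ) : ℤ) := by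
    rcases Int.units_eq_one_or (Equiv.Perm.sign σ) with h | h <;> rw [h] <;> norm_num
  rw [← Int.cast_pow, h2]
  simp

theorem laughB_vdm3_ne (N : ℕ) : vdm3 N ≠ 0 := by
  unfold vdm3
  rw [Finset.prod_ne_zero_iff]
  intro i _
  rw [Finset.prod_ne_zero_iff]
  intro j hj
  apply pow_ne_zero
  rw [sub_ne_zero]
  intro h
  have := X_injective h
  rw [Finset.mem_Ioi] at hj
  exact absurd this hj.ne'

theorem laughB_degreeOf (n : ℕ) (i : Fin (n + 2)) : degreeOf i (vdm3 (n + 2)) ≤ 3 * (n + 1) := by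
  classical
  unfold vdm3
  refine (degreeOf_prod_le _ _ _).trans ?_
  have h1 : ∀ a : Fin (n + 2), degreeOf i (∏ j ∈ Finset.Ioi a,
      ((X j : MvPolynomial (Fin (n + 2)) ℂ) - X a) ^ 3) ≤
      ∑ j ∈ Finset.Ioi a, 3 * ((if i = a then 1 else 0) + (if i = j then 1 else 0)) := by
    intro a
    refine (degreeOf_prod_le _ _ _).trans (Finset.sum_le_sum fun j _ => ?_)
    refine (degreeOf_pow_le _ _ _).trans ?_
    apply Nat.mul_le_mul_left
    refine (degreeOf_sub_le _ _ _).trans ?_
    rw [degreeOf_X, degreeOf_X]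
    exact max_le (Nat.le_add_left _ _) (Nat.le_add_right _ _)
  refine (Finset.sum_le_sum fun a _ => h1 a).trans ?_
  simp only [← Finset.mul_sum, Finset.sum_add_distrib]
  apply Nat.mul_le_mul_left
  have h2 : ∑ a : Fin (n + 2), ∑ _j ∈ Finset.Ioi a, (if i = a then 1 else 0) =
      (Finset.Ioi i).card := by
    rw [Finset.sum_eq_single i]
    · simp
    · intro b _ hb
      simp [hb.symm]
    · intro h
      exact absurd (Finset.mem_univ _) h
  have h3 : ∑ a : Fin (n + 2), ∑ j ∈ Finset.Ioi a, (if i = j then 1 else 0) =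
      (Finset.Iio i).card := by
    have : ∀ a : Fin (n + 2), ∑ j ∈ Finset.Ioi a, (if i = j then 1 else 0) =
        if a < i then 1 else 0 := by
      intro a
      rw [Finset.sum_ite_eq]
      simp only [Finset.mem_Ioi]
    simp only [this]
    rw [Finset.sum_boole]
    simp only [Nat.cast_id]
    congr 1
    ext a
    simp
  rw [h2, h3, Fin.card_Ioi, Fin.card_Iio]
  have := i.isLt
  omega

/-- the amplitude of `vdm3`. -/
noncomputable def laughBAmp (n : ℕ) : Amp (3 * (n + 1)) (n + 2) :=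
  fun x => coeff (Finsupp.equivFunOnFinite.symm (fun i => (x i : ℕ))) (vdm3 (n + 2))

theorem laughB_zpoly_amp (n : ℕ) : zpoly (laughBAmp n) = vdm3 (n + 2) := by
  classical
  have hterm : ∀ x : Cfg (3 * (n + 1)) (n + 2), C (laughBAmp n x) * ∏ i, X i ^ (x i : ℕ) =
      monomial (Finsupp.equivFunOnFinite.symm (fun i => (x i : ℕ)))
        (coeff (Finsupp.equivFunOnFinite.symm (fun i => (x i : ℕ))) (vdm3 (n + 2))) := by
    intro x
    rw [monomial_eq, laughBAmp, Finsupp.prod_fintype _ _ (fun i => pow_zero _)]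
    rfl
  unfold zpoly
  simp only [hterm]
  ext d
  rw [coeff_sum]
  simp only [coeff_monomial]
  by_cases hd : ∀ i, d i ≤ 3 * (n + 1)
  · set x : Cfg (3 * (n + 1)) (n + 2) := fun i => ⟨d i, Nat.lt_succ_of_le (hd i)⟩ with hx
    rw [Finset.sum_eq_single x]
    · have : Finsupp.equivFunOnFinite.symm (fun i => (x i : ℕ)) = d := by
        ext i
        simp [hx]
      rw [this, if_pos rfl]
    · intro y _ hy
      rw [if_neg]
      intro h
      apply hy
      funext i
      apply Fin.ext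
      have := DFunLike.congr_fun h i
      simpa [hx] using this
    · intro h
      exact absurd (Finset.mem_univ _) h
  · push Not at hd
    obtain ⟨i, hi⟩ := hd
    have h0 : coeff d (vdm3 (n + 2)) = 0 := by
      rw [← notMem_support_iff]
      exact notMem_support_of_degreeOf_lt i (lt_of_le_of_lt (laughB_degreeOf n i) hi)
    rw [h0]
    refine Finset.sum_eq_zero fun y _ => ?_
    rw [if_neg]
    intro h
    have := DFunLike.congr_fun h i
    have h2 := (y i).isLt
    simp at this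
    omega

theorem laughB_anti (n : ℕ) : Anti (laughBAmp n) := by
  intro σ x
  unfold laughBAmp
  set d := Finsupp.equivFunOnFinite.symm (fun i => (((x ∘ σ) i : Fin _) : ℕ)) with hd
  have h1 : Finsupp.mapDomain σ d = Finsupp.equivFunOnFinite.symm (fun i => ((x i : Fin _) : ℕ)) := by
    ext i
    have h2 : i = σ (σ.symm i) := by simp
    rw [h2, Finsupp.mapDomain_apply σ.injective]
    simp [hd]
  have h3 := coeff_rename_mapDomain σ σ.injective (vdm3 (n + 2)) d
  rw [h1, laughB_rename_vdm3, coeff_C_mul] at h3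
  rw [← h3]

theorem exists_vdm3_amp (n : ℕ) : ∃ f : Amp (3 * (n + 1)) (n + 2),
    zpoly f = vdm3 (n + 2) ∧ Anti f ∧ f ≠ 0 ∧ (∀ m, bop m f = 0) := by
  refine ⟨laughBAmp n, laughB_zpoly_amp n, laughB_anti n, ?_, ?_⟩
  · intro h
    apply laughB_vdm3_ne (n + 2)
    rw [← laughB_zpoly_amp, h]
    simp [zpoly]
  · intro m
    apply bop_zero_of_pair_cube
    rw [laughB_zpoly_amp]
    refine (pow_dvd_pow _ (by norm_num : 2 ≤ 3)).trans ?_
    unfold vdm3
    refine Dvd.dvd.trans ?_ (Finset.dvd_prod_of_mem _ (Finset.mem_univ (0 : Fin (n + 2))))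
    refine Finset.dvd_prod_of_mem (fun j => ((X j : MvPolynomial (Fin (n + 2)) ℂ) - X 0) ^ 3)
      (Finset.mem_Ioi.2 (by exact Fin.zero_lt_one))

/-! ### homogenization -/

theorem laughB_prod_pairs {N : ℕ} (u : Fin N → ℂ) :
    ∏ i : Fin N, ∏ j ∈ Finset.Ioi i, (u i * u j) = ∏ i : Fin N, u i ^ (N - 1) := by
  have h1 : ∏ i : Fin N, ∏ j ∈ Finset.Ioi i, (u i * u j) =
      (∏ i : Fin N, u i ^ (Finset.Ioi i).card) * ∏ i : Fin N, ∏ j ∈ Finset.Ioi i, u j := by
    rw [← Finset.prod_mul_distrib]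
    refine Finset.prod_congr rfl fun i _ => ?_
    rw [Finset.prod_mul_distrib, Finset.prod_const]
  have h2 : ∏ i : Fin N, ∏ j ∈ Finset.Ioi i, u j = ∏ j : Fin N, u j ^ (Finset.Iio j).card := by
    rw [Finset.prod_comm' (t' := Finset.univ) (s' := fun j => Finset.Iio j)]
    · refine Finset.prod_congr rfl fun j _ => ?_
      rw [Finset.prod_const]
    · intro i j
      simp
  rw [h1, h2, ← Finset.prod_mul_distrib]
  refine Finset.prod_congr rfl fun i _ => ?_
  rw [← pow_add, Fin.card_Ioi, Fin.card_Iio]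
  congr 1
  have := i.isLt
  omega

theorem laughB_toPoly_eq {Q N : ℕ} (ψ : EuclideanSpace ℂ (Fin N → Fin (Q + 1))) :
    toPoly ψ = ∑ x : Fin N → Fin (Q + 1), C (hat ψ x) *
      ∏ i : Fin N, (X (Sum.inl i) ^ (Q - (x i : ℕ)) * X (Sum.inr i) ^ (x i : ℕ)) := by
  unfold toPoly
  refine Finset.sum_congr rfl fun x _ => ?_
  have : ∏ i : Fin N, (C ((Real.sqrt (Q.choose (x i : ℕ)) : ℝ) : ℂ)
      * X (Sum.inl i) ^ (Q - (x i : ℕ)) * X (Sum.inr i) ^ (x i : ℕ)) =
      (∏ i : Fin N, C (((Real.sqrt (Q.choose (x i : ℕ)) : ℝ) : ℂ)) :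
        MvPolynomial (Fin N ⊕ Fin N) ℂ) *
      ∏ i : Fin N, (X (Sum.inl i) ^ (Q - (x i : ℕ)) * X (Sum.inr i) ^ (x i : ℕ)) := by
    rw [← Finset.prod_mul_distrib]
    refine Finset.prod_congr rfl fun i _ => ?_
    ring
  rw [this, ← mul_assoc]
  congr 1
  rw [← map_prod, ← C_mul]
  congr 1
  unfold hat
  rw [Complex.ofReal_prod]

theorem toPoly_of_zpoly (n : ℕ) (ψ : EuclideanSpace ℂ (Fin (n + 2) → Fin (3 * (n + 1) + 1)))
    (h : zpoly (hat ψ) = vdm3 (n + 2)) : IsLaughlin ψ := by
  unfold IsLaughlin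
  have hne : (∏ i : Fin (n + 2), X (Sum.inl i) : MvPolynomial (Fin (n + 2) ⊕ Fin (n + 2)) ℂ) ≠ 0 := by
    rw [Finset.prod_ne_zero_iff]
    intro i _
    exact X_ne_zero _
  apply mul_left_cancel₀ hne
  apply MvPolynomial.funext
  intro w
  rw [map_mul, map_mul, map_prod]
  simp only [eval_X]
  by_cases hw : ∏ i : Fin (n + 2), w (Sum.inl i) = 0
  · rw [hw, zero_mul, zero_mul]
  · congr 1
    have hu : ∀ i, w (Sum.inl i) ≠ 0 := fun i hi =>
      hw (Finset.prod_eq_zero (Finset.mem_univ i) hi)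
    -- evaluate `h` at `z_i = v_i / u_i`
    have he := congrArg (eval (fun i : Fin (n + 2) => w (Sum.inr i) / w (Sum.inl i))) h
    unfold zpoly vdm3 at he
    rw [map_sum, map_prod] at he
    simp only [map_mul, map_prod, map_pow, eval_C, eval_X, map_sub] at he
    rw [laughB_toPoly_eq, map_sum]
    unfold laughlinPoly
    rw [map_prod]
    simp only [map_mul, map_prod, map_pow, eval_C, eval_X, map_sub]
    have h1 : ∑ x : Fin (n + 2) → Fin (3 * (n + 1) + 1), hat ψ x *
        ∏ i, (w (Sum.inl i) ^ (3 * (n + 1) - (x i : ℕ)) * w (Sum.inr i) ^ (x i : ℕ)) =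
        (∏ i, w (Sum.inl i) ^ (3 * (n + 1))) *
          ∑ x : Fin (n + 2) → Fin (3 * (n + 1) + 1), hat ψ x *
            ∏ i, (w (Sum.inr i) / w (Sum.inl i)) ^ (x i : ℕ) := by
      rw [Finset.mul_sum]
      refine Finset.sum_congr rfl fun x _ => ?_
      rw [mul_left_comm, ← Finset.prod_mul_distrib]
      congr 1
      refine Finset.prod_congr rfl fun i _ => ?_
      have hle : (x i : ℕ) ≤ 3 * (n + 1) := Nat.lt_succ_iff.1 (x i).isLt
      rw [div_pow]
      have e : w (Sum.inl i) ^ (3 * (n + 1)) =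
          w (Sum.inl i) ^ (3 * (n + 1) - (x i : ℕ)) * w (Sum.inl i) ^ (x i : ℕ) := by
        rw [← pow_add, Nat.sub_add_cancel hle]
      rw [e]
      have := pow_ne_zero (x i : ℕ) (hu i)
      field_simp
    rw [h1, he]
    have h2 : ∏ i : Fin (n + 2), w (Sum.inl i) ^ (3 * (n + 1)) =
        ∏ i : Fin (n + 2), ∏ j ∈ Finset.Ioi i, (w (Sum.inl i) * w (Sum.inl j)) ^ 3 := by
      have h3 := laughB_prod_pairs (fun i : Fin (n + 2) => w (Sum.inl i))
      calc ∏ i : Fin (n + 2), w (Sum.inl i) ^ (3 * (n + 1))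
          = (∏ i : Fin (n + 2), w (Sum.inl i) ^ (n + 2 - 1)) ^ 3 := by
            rw [← Finset.prod_pow]
            refine Finset.prod_congr rfl fun i _ => ?_
            rw [← pow_mul]
            congr 1
            omega
        _ = (∏ i : Fin (n + 2), ∏ j ∈ Finset.Ioi i, (w (Sum.inl i) * w (Sum.inl j))) ^ 3 := by
            rw [← h3]
        _ = _ := by
            rw [← Finset.prod_pow]
            refine Finset.prod_congr rfl fun i _ => ?_
            rw [← Finset.prod_pow]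
    rw [h2, ← Finset.prod_mul_distrib]
    refine Finset.prod_congr rfl fun i _ => ?_
    rw [← Finset.prod_mul_distrib]
    refine Finset.prod_congr rfl fun j _ => ?_
    rw [← mul_pow]
    congr 1
    have e1 := hu i
    have e2 := hu j
    field_simp

/-! ### kernel of the Hamiltonian -/

theorem laughB_exists_perm {n : ℕ} {i j : Fin (n + 2)} (hij : i ≠ j) :
    ∃ σ : Equiv.Perm (Fin (n + 2)), σ 0 = i ∧ σ 1 = j := by
  set τ : Equiv.Perm (Fin (n + 2)) := Equiv.swap 0 i with hτ
  have h1 : τ.symm j ≠ 0 := by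
    intro h
    apply hij
    have := congrArg τ h
    rw [Equiv.apply_symm_apply] at this
    rw [this, hτ, Equiv.swap_apply_left]
  refine ⟨τ * Equiv.swap 1 (τ.symm j), ?_, ?_⟩
  · rw [Equiv.Perm.mul_apply, Equiv.swap_apply_of_ne_of_ne (by exact Fin.zero_ne_one) h1.symm, hτ,
      Equiv.swap_apply_left]
  · rw [Equiv.Perm.mul_apply, Equiv.swap_apply_left, Equiv.apply_symm_apply]

theorem laughB_pair_sum {Q n : ℕ} (f : Amp Q (n + 2)) (hf : Anti f) (hb : ∀ m, bop m f = 0)
    {i j : Fin (n + 2)} (hij : i ≠ j) (x : Cfg Q (n + 2)) (s : ℕ) :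
    ∑ a : Fin (Q + 1), ∑ b : Fin (Q + 1),
      (if (a : ℕ) + (b : ℕ) = s then (((a : ℕ) : ℂ) - ((b : ℕ) : ℂ)) *
        f (Function.update (Function.update x i a) j b) else 0) = 0 := by
  obtain ⟨σ, h0, h1⟩ := laughB_exists_perm hij
  set r : Cfg Q n := fun k => x (σ k.succ.succ) with hr
  have key : ∀ a b : Fin (Q + 1), (Function.update (Function.update x i a) j b) ∘ σ =
      Fin.cons a (Fin.cons b r : Cfg Q (n + 1)) := by
    intro a b
    funext k
    refine Fin.cases ?_ (fun k => ?_) k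
    · simp only [Function.comp_apply, h0, Fin.cons_zero]
      rw [Function.update_of_ne hij, Function.update_self]
    · refine Fin.cases ?_ (fun k => ?_) k
      · simp only [Function.comp_apply, Fin.cons_succ, Fin.cons_zero]
        rw [show (Fin.succ (0 : Fin (n + 1))) = (1 : Fin (n + 2)) from rfl, h1, Function.update_self]
      · simp only [Function.comp_apply, Fin.cons_succ, hr]
        have e1 : σ k.succ.succ ≠ j := by
          rw [← h1]
          intro h
          have := σ.injective h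
          exact absurd this (by
            intro h'
            have := congrArg Fin.val h'
            simp at this)
        have e2 : σ k.succ.succ ≠ i := by
          rw [← h0]
          intro h
          have := σ.injective h
          exact absurd this (by
            intro h'
            have := congrArg Fin.val h'
            simp at this)
        rw [Function.update_of_ne e1, Function.update_of_ne e2]
  have hval : ∀ a b : Fin (Q + 1), f (Function.update (Function.update x i a) j b) =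
      ((Equiv.Perm.sign σ : ℤ) : ℂ) * f (Fin.cons a (Fin.cons b r : Cfg Q (n + 1))) := by
    intro a b
    have h := hf σ (Function.update (Function.update x i a) j b)
    rw [key] at h
    rw [h, ← mul_assoc, ← Int.cast_mul]
    have : ((Equiv.Perm.sign σ : ℤˣ) : ℤ) * ((Equiv.Perm.sign σ : ℤˣ) : ℤ) = 1 := by
      rcases Int.units_eq_one_or (Equiv.Perm.sign σ) with h | h <;> rw [h] <;> norm_num
    rw [this, Int.cast_one, one_mul]
  rcases s with _ | m
  · refine Finset.sum_eq_zero fun a _ => Finset.sum_eq_zero fun b _ => ?_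
    split_ifs with h
    · have ha : (a : ℕ) = 0 := by omega
      have hb' : (b : ℕ) = 0 := by omega
      rw [ha, hb']
      simp
    · rfl
  · have h := congrFun (hb m) r
    simp only [bop, Pi.zero_apply] at h
    have h2 : ∑ a : Fin (Q + 1), ∑ b : Fin (Q + 1),
      (if (a : ℕ) + (b : ℕ) = m + 1 then (((a : ℕ) : ℂ) - ((b : ℕ) : ℂ)) *
        f (Function.update (Function.update x i a) j b) else 0) =
      ((Equiv.Perm.sign σ : ℤ) : ℂ) * ∑ a : Fin (Q + 1), ∑ b : Fin (Q + 1),
      (if (a : ℕ) + (b : ℕ) = m + 1 then (((a : ℕ) : ℂ) - ((b : ℕ) : ℂ)) *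
        f (Fin.cons a (Fin.cons b r : Cfg Q (n + 1))) else 0) := by
      rw [Finset.mul_sum]
      refine Finset.sum_congr rfl fun a _ => ?_
      rw [Finset.mul_sum]
      refine Finset.sum_congr rfl fun b _ => ?_
      rw [hval]
      split_ifs
      · ring
      · rw [mul_zero]
    rw [h2, h, mul_zero]

theorem Ham_zero_of_bop {Q n : ℕ} (f : Amp Q (n + 2)) (hf : Anti f) (hb : ∀ m, bop m f = 0) :
    Ham f = 0 := by
  funext x
  unfold Ham
  refine Finset.sum_eq_zero fun i _ => Finset.sum_eq_zero fun j _ => ?_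
  split_ifs with hij
  · unfold Pij
    set cst : ℂ := ((((x i : ℕ) : ℂ) - ((x j : ℕ) : ℂ)) * (Q.choose (x i : ℕ) : ℂ) *
      (Q.choose (x j : ℕ) : ℂ)) /
      (2 * (Q : ℂ) * ((2 * Q - 2).choose ((x i : ℕ) + (x j : ℕ) - 1) : ℂ)) with hc
    have h := laughB_pair_sum f hf hb hij.ne x ((x i : ℕ) + (x j : ℕ))
    have h2 : ∑ a : Fin (Q + 1), ∑ b : Fin (Q + 1),
        pk Q (x i) (x j) a b * f (Function.update (Function.update x i a) j b) =
        cst * ∑ a : Fin (Q + 1), ∑ b : Fin (Q + 1),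
      (if (a : ℕ) + (b : ℕ) = (x i : ℕ) + (x j : ℕ) then (((a : ℕ) : ℂ) - ((b : ℕ) : ℂ)) *
        f (Function.update (Function.update x i a) j b) else 0) := by
      rw [Finset.mul_sum]
      refine Finset.sum_congr rfl fun a _ => ?_
      rw [Finset.mul_sum]
      refine Finset.sum_congr rfl fun b _ => ?_
      unfold pk
      by_cases hab : (x i : ℕ) + (x j : ℕ) = (a : ℕ) + (b : ℕ)
      · rw [if_pos hab, if_pos hab.symm, hc, ← hab]
        ring
      · rw [if_neg hab, if_neg (fun h => hab h.symm), zero_mul, mul_zero]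
    rw [h2, h, mul_zero]
  · rfl

theorem laughB_ip_self {Q N : ℕ} (g : Amp Q N) :
    ip (wQ Q) g g = ((∑ x : Cfg Q N, (∏ i, wQ Q (x i)) * ‖g x‖ ^ 2 : ℝ) : ℂ) := by
  unfold ip
  rw [Complex.ofReal_sum]
  refine Finset.sum_congr rfl fun x _ => ?_
  rw [Complex.ofReal_mul]
  congr 1
  rw [← Complex.normSq_eq_conj_mul_self, Complex.normSq_eq_norm_sq]

theorem laughB_wQ_pos {Q : ℕ} (a : Fin (Q + 1)) : 0 < wQ Q a := by
  unfold wQ
  have : 0 < Q.choose (a : ℕ) := Nat.choose_pos (Nat.lt_succ_iff.1 a.isLt)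
  positivity

theorem laughB_eq_zero {Q N : ℕ} (g : Amp Q N)
    (h : ∑ x : Cfg Q N, (∏ i, wQ Q (x i)) * ‖g x‖ ^ 2 = 0) : g = 0 := by
  have hpos : ∀ x : Cfg Q N, 0 < ∏ i, wQ Q (x i) := fun x =>
    Finset.prod_pos fun i _ => laughB_wQ_pos _
  rw [Finset.sum_eq_zero_iff_of_nonneg (fun x _ => mul_nonneg (hpos x).le (sq_nonneg _))] at h
  funext x
  have h1 := h x (Finset.mem_univ x)
  rcases mul_eq_zero.1 h1 with h2 | h2
  · exact absurd h2 (hpos x).ne'
  · simpa using h2

theorem bop_zero_of_Ham {Q n : ℕ} (hQ : 2 ≤ Q) (f : Amp Q (n + 4)) (hf : Anti f)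
    (h : Ham f = 0) (m : ℕ) : bop m f = 0 := by
  by_cases hm : m < 2 * Q - 1
  · have h1 := ip_Ham_left f f hf hf
    rw [h, ip_P01 hQ f] at h1
    have h0 : ip (wQ Q) f (0 : Amp Q (n + 4)) = 0 := by
      unfold ip
      simp
    rw [h0] at h1
    have hn : (((n : ℂ) + 4) * ((n : ℂ) + 3) / 2) ≠ 0 := by
      have e1 : ((n : ℂ) + 4) ≠ 0 := by
        exact_mod_cast Nat.succ_ne_zero (n + 3)
      have e2 : ((n : ℂ) + 3) ≠ 0 := by
        exact_mod_cast Nat.succ_ne_zero (n + 2)
      exact div_ne_zero (mul_ne_zero e1 e2) two_ne_zero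
    have hQ0 : (1 / (2 * (Q : ℂ))) ≠ 0 := by
      have : (Q : ℂ) ≠ 0 := by
        exact_mod_cast (by omega : Q ≠ 0)
      exact one_div_ne_zero (mul_ne_zero two_ne_zero this)
    have h2 : ∑ m ∈ range (2 * Q - 1),
        ip (wQ Q) (bop m f) (bop m f) / ((2 * Q - 2).choose m : ℂ) = 0 := by
      rcases mul_eq_zero.1 h1.symm with h3 | h3
      · exact absurd h3 hn
      · rcases mul_eq_zero.1 h3 with h4 | h4
        · exact absurd h4 hQ0
        · exact h4
    have h3 : ∑ m ∈ range (2 * Q - 1), ((∑ x : Cfg Q (n + 2), (∏ i, wQ Q (x i)) *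
        ‖bop m f x‖ ^ 2) / ((2 * Q - 2).choose m : ℝ)) = 0 := by
      have h5 : ((∑ m ∈ range (2 * Q - 1), ((∑ x : Cfg Q (n + 2), (∏ i, wQ Q (x i)) *
        ‖bop m f x‖ ^ 2) / ((2 * Q - 2).choose m : ℝ)) : ℝ) : ℂ) = 0 := by
        rw [Complex.ofReal_sum, ← h2]
        refine Finset.sum_congr rfl fun k _ => ?_
        rw [laughB_ip_self, Complex.ofReal_div, Complex.ofReal_natCast]
      exact_mod_cast h5
    have hnn : ∀ k ∈ range (2 * Q - 1), 0 ≤ ((∑ x : Cfg Q (n + 2), (∏ i, wQ Q (x i)) *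
        ‖bop k f x‖ ^ 2) / ((2 * Q - 2).choose k : ℝ)) := by
      intro k _
      apply div_nonneg _ (Nat.cast_nonneg _)
      exact Finset.sum_nonneg fun x _ => mul_nonneg
        (Finset.prod_nonneg fun i _ => (laughB_wQ_pos _).le) (sq_nonneg _)
    rw [Finset.sum_eq_zero_iff_of_nonneg hnn] at h3
    have h4 := h3 m (Finset.mem_range.2 hm)
    have hch : ((2 * Q - 2).choose m : ℝ) ≠ 0 := by
      have : 0 < (2 * Q - 2).choose m := Nat.choose_pos (by omega)
      exact_mod_cast this.ne'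
    rw [div_eq_zero_iff] at h4
    rcases h4 with h4 | h4
    · exact laughB_eq_zero _ h4
    · exact absurd h4 hch
  · funext x
    unfold bop
    refine Finset.sum_eq_zero fun a _ => Finset.sum_eq_zero fun b _ => ?_
    split_ifs with hab
    · have ha := a.isLt
      have hb := b.isLt
      have e1 : (a : ℕ) = Q := by omega
      have e2 : (b : ℕ) = Q := by omega
      rw [e1, e2, sub_self, zero_mul]
    · rfl

end Vale.Agent.P359
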