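import Vale.Agent.P359.Defs

namespace Vale.Agent.P359

open Finset

/-- action of a permutation of the slots -/
def HHa_U {Q N : ℕ} (σ : Equiv.Perm (Fin N)) (f : Amp Q N) : Amp Q N := fun x => f (x ∘ σ)

theorem HHa_sign_sq {N : ℕ} (σ : Equiv.Perm (Fin N)) :
    ((Equiv.Perm.sign σ : ℤ) : ℂ) * ((Equiv.Perm.sign σ : ℤ) : ℂ) = 1 := by
  have : ((Equiv.Perm.sign σ : ℤˣ) : ℤ) * ((Equiv.Perm.sign σ : ℤˣ) : ℤ) = 1 := by
    rw [← Units.val_mul, Int.units_mul_self]
    rfl
  exact_mod_cast this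

theorem HHa_anti_iff {Q N : ℕ} (f : Amp Q N) :
    Anti f ↔ ∀ σ, HHa_U σ f = ((Equiv.Perm.sign σ : ℤ) : ℂ) • f := by
  constructor
  · intro h σ
    funext x
    exact h σ x
  · intro h σ x
    exact congrFun (h σ) x

theorem HHa_update_comp {Q N : ℕ} (σ : Equiv.Perm (Fin N)) (x : Cfg Q N) (i : Fin N)
    (a : Fin (Q + 1)) :
    Function.update (x ∘ σ) i a = (Function.update x (σ i) a) ∘ σ := by
  funext j
  by_cases h : j = i
  · subst h
    simp
  · have h' : σ j ≠ σ i := fun h2 => h (σ.injective h2)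
    simp [Function.update_of_ne h, Function.update_of_ne h']

theorem HHa_U_Pij {Q N : ℕ} (σ : Equiv.Perm (Fin N)) (i j : Fin N) (f : Amp Q N) :
    HHa_U σ (Pij i j f) = Pij (σ i) (σ j) (HHa_U σ f) := by
  funext x
  unfold HHa_U Pij
  apply Finset.sum_congr rfl
  intro a _
  apply Finset.sum_congr rfl
  intro b _
  rw [HHa_update_comp, HHa_update_comp]
  rfl

theorem HHa_Pij_smul {Q N : ℕ} (i j : Fin N) (c : ℂ) (f : Amp Q N) :
    Pij i j (c • f) = c • Pij i j f := by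
  funext x
  simp only [Pij, Pi.smul_apply, smul_eq_mul]
  rw [Finset.mul_sum]
  apply Finset.sum_congr rfl
  intro a _
  rw [Finset.mul_sum]
  apply Finset.sum_congr rfl
  intro b _
  ring

theorem HHa_U_Pij_anti {Q N : ℕ} (σ : Equiv.Perm (Fin N)) (i j : Fin N) (f : Amp Q N)
    (hf : Anti f) :
    HHa_U σ (Pij i j f) = ((Equiv.Perm.sign σ : ℤ) : ℂ) • Pij (σ i) (σ j) f := by
  rw [HHa_U_Pij, (HHa_anti_iff f).1 hf σ, HHa_Pij_smul]

theorem HHa_Pij_anti {Q N : ℕ} (σ : Equiv.Perm (Fin N)) (i j : Fin N) (f : Amp Q N)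
    (hf : Anti f) :
    Pij (σ i) (σ j) f = ((Equiv.Perm.sign σ : ℤ) : ℂ) • HHa_U σ (Pij i j f) := by
  rw [HHa_U_Pij_anti σ i j f hf, smul_smul, HHa_sign_sq, one_smul]

theorem HHa_pk_symm (Q x y a b : ℕ) : pk Q x y a b = pk Q y x b a := by
  unfold pk
  rw [add_comm y x, add_comm b a]
  split_ifs
  · ring
  · rfl

theorem HHa_Pij_symm {Q N : ℕ} (i j : Fin N) (hij : i ≠ j) (f : Amp Q N) :
    Pij i j f = Pij j i f := by
  funext x
  unfold Pij
  rw [Finset.sum_comm]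
  apply Finset.sum_congr rfl
  intro a _
  apply Finset.sum_congr rfl
  intro b _
  rw [HHa_pk_symm, Function.update_comm hij]

theorem HHa_Ham_eq {Q N : ℕ} (f : Amp Q N) :
    Ham f = (1 / 2 : ℂ) • ∑ i : Fin N, ∑ j : Fin N, if i ≠ j then Pij i j f else 0 := by
  have h1 : Ham f = ∑ i : Fin N, ∑ j : Fin N, if i < j then Pij i j f else 0 := by
    funext x
    unfold Ham
    rw [Finset.sum_apply]
    apply Finset.sum_congr rfl
    intro i _
    rw [Finset.sum_apply]
    apply Finset.sum_congr rfl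
    intro j _
    split_ifs <;> rfl
  have h2 : Ham f = ∑ i : Fin N, ∑ j : Fin N, if j < i then Pij i j f else 0 := by
    rw [h1, Finset.sum_comm]
    apply Finset.sum_congr rfl
    intro i _
    apply Finset.sum_congr rfl
    intro j _
    split_ifs with h
    · exact HHa_Pij_symm j i (ne_of_lt h) f
    · rfl
  have h3 : Ham f + Ham f = ∑ i : Fin N, ∑ j : Fin N, if i ≠ j then Pij i j f else 0 := by
    calc Ham f + Ham f = (∑ i : Fin N, ∑ j : Fin N, if i < j then Pij i j f else 0)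
          + (∑ i : Fin N, ∑ j : Fin N, if j < i then Pij i j f else 0) := by
          rw [← h1, ← h2]
      _ = _ := by
          rw [← Finset.sum_add_distrib]
          apply Finset.sum_congr rfl
          intro i _
          rw [← Finset.sum_add_distrib]
          apply Finset.sum_congr rfl
          intro j _
          rcases lt_trichotomy i j with h | h | h
          · rw [if_pos h, if_neg (not_lt_of_gt h), if_pos (ne_of_lt h), add_zero]
          · subst h
            simp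
          · rw [if_neg (not_lt_of_gt h), if_pos h, if_pos (ne_of_gt h), zero_add]
  rw [← h3, ← two_smul ℂ (Ham f), smul_smul]
  norm_num

/-! ### The inner product -/

theorem HHa_ip_smul_right {Q N : ℕ} (w : Fin (Q + 1) → ℝ) (c : ℂ) (f g : Amp Q N) :
    ip w f (c • g) = c * ip w f g := by
  unfold ip
  rw [Finset.mul_sum]
  apply Finset.sum_congr rfl
  intro x _
  simp only [Pi.smul_apply, smul_eq_mul]
  ring

theorem HHa_ip_smul_left {Q N : ℕ} (w : Fin (Q + 1) → ℝ) (c : ℂ) (f g : Amp Q N) :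
    ip w (c • f) g = (starRingEnd ℂ) c * ip w f g := by
  unfold ip
  rw [Finset.mul_sum]
  apply Finset.sum_congr rfl
  intro x _
  simp only [Pi.smul_apply, smul_eq_mul, map_mul]
  ring

theorem HHa_ip_sum_right {Q N : ℕ} {ι : Type*} (s : Finset ι) (w : Fin (Q + 1) → ℝ)
    (f : Amp Q N) (g : ι → Amp Q N) :
    ip w f (∑ i ∈ s, g i) = ∑ i ∈ s, ip w f (g i) := by
  unfold ip
  rw [Finset.sum_comm]
  apply Finset.sum_congr rfl
  intro x _
  rw [Finset.sum_apply, Finset.mul_sum, Finset.mul_sum]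

theorem HHa_ip_sum_left {Q N : ℕ} {ι : Type*} (s : Finset ι) (w : Fin (Q + 1) → ℝ)
    (f : ι → Amp Q N) (g : Amp Q N) :
    ip w (∑ i ∈ s, f i) g = ∑ i ∈ s, ip w (f i) g := by
  unfold ip
  rw [Finset.sum_comm]
  apply Finset.sum_congr rfl
  intro x _
  rw [Finset.sum_apply, map_sum, Finset.sum_mul, Finset.mul_sum]

theorem HHa_ip_zero_right {Q N : ℕ} (w : Fin (Q + 1) → ℝ) (f : Amp Q N) :
    ip w f 0 = 0 := by
  unfold ip
  simp

theorem HHa_ip_zero_left {Q N : ℕ} (w : Fin (Q + 1) → ℝ) (f : Amp Q N) :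
    ip w 0 f = 0 := by
  unfold ip
  simp

theorem HHa_ip_U {Q N : ℕ} (w : Fin (Q + 1) → ℝ) (σ : Equiv.Perm (Fin N)) (f g : Amp Q N) :
    ip w (HHa_U σ f) (HHa_U σ g) = ip w f g := by
  unfold ip HHa_U
  refine Fintype.sum_equiv (Equiv.arrowCongr σ⁻¹ (Equiv.refl (Fin (Q + 1)))) _ _ ?_
  intro x
  have e : (Equiv.arrowCongr σ⁻¹ (Equiv.refl (Fin (Q + 1)))) x = x ∘ σ := by
    funext i
    simp [Equiv.arrowCongr, Equiv.Perm.inv_def]
  rw [e]
  have hp : ∏ i, w (x i) = ∏ i, w ((x ∘ σ) i) := by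
    exact (Equiv.prod_comp σ (fun i => w (x i))).symm
  rw [hp]

theorem HHa_conj_sign {N : ℕ} (σ : Equiv.Perm (Fin N)) :
    (starRingEnd ℂ) ((Equiv.Perm.sign σ : ℤ) : ℂ) = ((Equiv.Perm.sign σ : ℤ) : ℂ) := by
  exact map_intCast (starRingEnd ℂ) _

/-- transport of a pair of pair operators by a permutation -/
theorem HHa_ip_pair {Q N : ℕ} (w : Fin (Q + 1) → ℝ) (f : Amp Q N) (hf : Anti f)
    (σ : Equiv.Perm (Fin N)) (i j k l : Fin N) :
    ip w (Pij (σ i) (σ j) f) (Pij (σ k) (σ l) f) = ip w (Pij i j f) (Pij k l f) := by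
  rw [HHa_Pij_anti σ i j f hf, HHa_Pij_anti σ k l f hf, HHa_ip_smul_left, HHa_ip_smul_right,
    HHa_conj_sign, ← mul_assoc, HHa_sign_sq, one_mul, HHa_ip_U]

theorem HHa_ip_one {Q N : ℕ} (w : Fin (Q + 1) → ℝ) (f g : Amp Q N) (hf : Anti f) (hg : Anti g)
    (σ : Equiv.Perm (Fin N)) (i j : Fin N) :
    ip w g (Pij (σ i) (σ j) f) = ip w g (Pij i j f) := by
  rw [HHa_Pij_anti σ i j f hf, HHa_ip_smul_right]
  have hg' : g = ((Equiv.Perm.sign σ : ℤ) : ℂ) • HHa_U σ g := by
    rw [(HHa_anti_iff g).1 hg σ, smul_smul, HHa_sign_sq, one_smul]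
  conv_lhs => rw [hg']
  rw [HHa_ip_smul_left, HHa_conj_sign, ← mul_assoc, HHa_sign_sq, one_mul, HHa_ip_U]

theorem anti_Ham {Q N : ℕ} (f : Amp Q N) (hf : Anti f) : Anti (Ham f) := by
  rw [HHa_anti_iff]
  intro σ
  have h1 : HHa_U σ (Ham f) = (1 / 2 : ℂ) • ∑ i : Fin N, ∑ j : Fin N,
      if i ≠ j then HHa_U σ (Pij i j f) else 0 := by
    rw [HHa_Ham_eq]
    funext x
    simp only [HHa_U, Pi.smul_apply, Finset.sum_apply]
    congr 1
    apply Finset.sum_congr rfl
    intro i _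
    apply Finset.sum_congr rfl
    intro j _
    split_ifs <;> rfl
  rw [h1, HHa_Ham_eq, smul_comm]
  congr 1
  rw [Finset.smul_sum]
  have h2 : (∑ i : Fin N, ∑ j : Fin N, if i ≠ j then HHa_U σ (Pij i j f) else 0)
      = ∑ i : Fin N, ∑ j : Fin N, if σ i ≠ σ j then
        ((Equiv.Perm.sign σ : ℤ) : ℂ) • Pij (σ i) (σ j) f else 0 := by
    apply Finset.sum_congr rfl
    intro i _
    apply Finset.sum_congr rfl
    intro j _
    rw [HHa_U_Pij_anti σ i j f hf]
    by_cases h : i = j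
    · subst h
      simp
    · rw [if_pos h, if_pos (fun h2 => h (σ.injective h2))]
  rw [h2]
  rw [← Equiv.sum_comp σ (fun i => ((Equiv.Perm.sign σ : ℤ) : ℂ) •
    ∑ j : Fin N, if i ≠ j then Pij i j f else 0)]
  apply Finset.sum_congr rfl
  intro i _
  rw [Finset.smul_sum]
  rw [← Equiv.sum_comp σ (fun j => ((Equiv.Perm.sign σ : ℤ) : ℂ) •
    if σ i ≠ j then Pij (σ i) j f else 0)]
  apply Finset.sum_congr rfl
  intro j _
  split_ifs <;> simp

/-- a permutation sending `0, 1` to `i, j` -/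
theorem HHa_exists_perm2 {n : ℕ} (i j : Fin (n + 4)) (h : i ≠ j) :
    ∃ σ : Equiv.Perm (Fin (n + 4)), σ 0 = i ∧ σ 1 = j := by
  let τ : Equiv.Perm (Fin (n + 4)) := Equiv.swap 0 i
  refine ⟨Equiv.swap (τ 1) j * τ, ?_, ?_⟩
  · have h0 : τ 0 = i := Equiv.swap_apply_left 0 i
    rw [Equiv.Perm.mul_apply, h0]
    apply Equiv.swap_apply_of_ne_of_ne
    · intro h2
      have : τ 0 = τ 1 := by rw [h0, h2]
      exact absurd (τ.injective this) (by simp)
    · exact h
  · rw [Equiv.Perm.mul_apply, Equiv.swap_apply_left]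

theorem HHa_sum_ne (n : ℕ) (c : ℂ) :
    (∑ i : Fin n, ∑ j : Fin n, if i ≠ j then c else 0) = (n : ℂ) * ((n : ℂ) - 1) * c := by
  have h1 : ∀ i : Fin n, (∑ j : Fin n, if i ≠ j then c else 0) = ((n : ℂ) - 1) * c := by
    intro i
    have h2 : (∑ j : Fin n, if i ≠ j then c else 0)
        = (∑ j : Fin n, c) - ∑ j : Fin n, if i = j then c else 0 := by
      rw [← Finset.sum_sub_distrib]
      apply Finset.sum_congr rfl
      intro j _
      by_cases h : i = j
      · simp [h]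
      · simp [h]
    rw [h2]
    simp
    ring
  rw [Finset.sum_congr rfl (fun i _ => h1 i)]
  simp
  ring

theorem ip_Ham_left {Q n : ℕ} (f g : Amp Q (n + 4)) (hf : Anti f) (hg : Anti g) :
    ip (wQ Q) g (Ham f) = (((n : ℂ) + 4) * ((n : ℂ) + 3) / 2) * ip (wQ Q) g (Pij 0 1 f) := by
  rw [HHa_Ham_eq, HHa_ip_smul_right, HHa_ip_sum_right]
  have h1 : ∀ i : Fin (n + 4), ip (wQ Q) g (∑ j : Fin (n + 4), if i ≠ j then Pij i j f else 0)
      = ∑ j : Fin (n + 4), if i ≠ j then ip (wQ Q) g (Pij 0 1 f) else 0 := by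
    intro i
    rw [HHa_ip_sum_right]
    apply Finset.sum_congr rfl
    intro j _
    by_cases h : i ≠ j
    · rw [if_pos h, if_pos h]
      obtain ⟨σ, h0, h1⟩ := HHa_exists_perm2 i j h
      rw [← h0, ← h1]
      exact HHa_ip_one _ f g hf hg σ 0 1
    · rw [if_neg h, if_neg h]
      exact HHa_ip_zero_right _ _
  rw [Finset.sum_congr rfl (fun i _ => h1 i), HHa_sum_ne]
  push_cast
  ring

theorem HHa_class_A {Q n : ℕ} (w : Fin (Q + 1) → ℝ) (f : Amp Q (n + 4)) (i j : Fin (n + 4))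
    (hij : i ≠ j) (hi : (i : ℕ) < 2) (hj : (j : ℕ) < 2) :
    ip w (Pij i j f) (Pij 0 1 f) = ip w (Pij 0 1 f) (Pij 0 1 f) := by
  have h0 : ((0 : Fin (n + 4)) : ℕ) = 0 := rfl
  have h1 : ((1 : Fin (n + 4)) : ℕ) = 1 := rfl
  have hne : (i : ℕ) ≠ (j : ℕ) := fun h => hij (Fin.ext h)
  rcases Nat.lt_or_ge (i : ℕ) 1 with h | h
  · have ei : i = 0 := Fin.ext (by omega)
    have ej : j = 1 := Fin.ext (by omega)
    rw [ei, ej]
  · have ei : i = 1 := Fin.ext (by omega)
    have ej : j = 0 := Fin.ext (by omega)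
    rw [ei, ej, HHa_Pij_symm 1 0 (by intro h2; exact absurd (congrArg Fin.val h2) (by omega))]

theorem HHa_class_B {Q n : ℕ} (w : Fin (Q + 1) → ℝ) (f : Amp Q (n + 4)) (hf : Anti f)
    (i j : Fin (n + 4)) (hi : (i : ℕ) < 2) (hj : 2 ≤ (j : ℕ)) :
    ip w (Pij i j f) (Pij 0 1 f) = ip w (Pij 0 2 f) (Pij 0 1 f) := by
  have h0 : ((0 : Fin (n + 4)) : ℕ) = 0 := rfl
  have h1 : ((1 : Fin (n + 4)) : ℕ) = 1 := rfl
  have h2 : ((2 : Fin (n + 4)) : ℕ) = 2 := rfl
  have ne02 : (0 : Fin (n + 4)) ≠ 2 := fun h => absurd (congrArg Fin.val h) (by omega)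
  have ne12 : (1 : Fin (n + 4)) ≠ 2 := fun h => absurd (congrArg Fin.val h) (by omega)
  have ne01 : (0 : Fin (n + 4)) ≠ 1 := fun h => absurd (congrArg Fin.val h) (by omega)
  have ne0j : (0 : Fin (n + 4)) ≠ j := fun h => absurd (congrArg Fin.val h) (by omega)
  have ne1j : (1 : Fin (n + 4)) ≠ j := fun h => absurd (congrArg Fin.val h) (by omega)
  rcases Nat.lt_or_ge (i : ℕ) 1 with h | h
  · have ei : i = 0 := Fin.ext (by omega)
    have e0 : Equiv.swap (2 : Fin (n + 4)) j 0 = 0 := Equiv.swap_apply_of_ne_of_ne ne02 ne0j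
    have e1 : Equiv.swap (2 : Fin (n + 4)) j 1 = 1 := Equiv.swap_apply_of_ne_of_ne ne12 ne1j
    have e2 : Equiv.swap (2 : Fin (n + 4)) j 2 = j := Equiv.swap_apply_left 2 j
    have := HHa_ip_pair w f hf (Equiv.swap (2 : Fin (n + 4)) j) 0 2 0 1
    rw [e0, e1, e2] at this
    rw [ei, this]
  · have ei : i = 1 := Fin.ext (by omega)
    let ρ : Equiv.Perm (Fin (n + 4)) := Equiv.swap 0 1
    let τ : Equiv.Perm (Fin (n + 4)) := Equiv.swap 2 j
    have s0 : (τ * ρ) 0 = 1 := by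
      have : ρ 0 = 1 := Equiv.swap_apply_left _ _
      rw [Equiv.Perm.mul_apply, this]
      exact Equiv.swap_apply_of_ne_of_ne ne12 ne1j
    have s1 : (τ * ρ) 1 = 0 := by
      have : ρ 1 = 0 := Equiv.swap_apply_right _ _
      rw [Equiv.Perm.mul_apply, this]
      exact Equiv.swap_apply_of_ne_of_ne ne02 ne0j
    have s2 : (τ * ρ) 2 = j := by
      have : ρ 2 = 2 := Equiv.swap_apply_of_ne_of_ne ne02.symm ne12.symm
      rw [Equiv.Perm.mul_apply, this]
      exact Equiv.swap_apply_left _ _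
    have := HHa_ip_pair w f hf (τ * ρ) 0 2 0 1
    rw [s0, s1, s2, HHa_Pij_symm 1 0 ne01.symm] at this
    rw [ei, this]

theorem HHa_class_C {Q n : ℕ} (w : Fin (Q + 1) → ℝ) (f : Amp Q (n + 4)) (hf : Anti f)
    (i j : Fin (n + 4)) (hij : i ≠ j) (hi : 2 ≤ (i : ℕ)) (hj : 2 ≤ (j : ℕ)) :
    ip w (Pij i j f) (Pij 0 1 f) = ip w (Pij 2 3 f) (Pij 0 1 f) := by
  have h0 : ((0 : Fin (n + 4)) : ℕ) = 0 := rfl
  have h1 : ((1 : Fin (n + 4)) : ℕ) = 1 := rfl
  have h2 : ((2 : Fin (n + 4)) : ℕ) = 2 := rfl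
  have h3 : ((3 : Fin (n + 4)) : ℕ) = 3 := rfl
  have ne02 : (0 : Fin (n + 4)) ≠ 2 := fun h => absurd (congrArg Fin.val h) (by omega)
  have ne12 : (1 : Fin (n + 4)) ≠ 2 := fun h => absurd (congrArg Fin.val h) (by omega)
  have ne03 : (0 : Fin (n + 4)) ≠ 3 := fun h => absurd (congrArg Fin.val h) (by omega)
  have ne13 : (1 : Fin (n + 4)) ≠ 3 := fun h => absurd (congrArg Fin.val h) (by omega)
  have ne23 : (2 : Fin (n + 4)) ≠ 3 := fun h => absurd (congrArg Fin.val h) (by omega)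
  have ne0i : (0 : Fin (n + 4)) ≠ i := fun h => absurd (congrArg Fin.val h) (by omega)
  have ne1i : (1 : Fin (n + 4)) ≠ i := fun h => absurd (congrArg Fin.val h) (by omega)
  have ne0j : (0 : Fin (n + 4)) ≠ j := fun h => absurd (congrArg Fin.val h) (by omega)
  have ne1j : (1 : Fin (n + 4)) ≠ j := fun h => absurd (congrArg Fin.val h) (by omega)
  let τ : Equiv.Perm (Fin (n + 4)) := Equiv.swap 2 i
  have t0 : τ 0 = 0 := Equiv.swap_apply_of_ne_of_ne ne02 ne0i
  have t1 : τ 1 = 1 := Equiv.swap_apply_of_ne_of_ne ne12 ne1i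
  have t2 : τ 2 = i := Equiv.swap_apply_left 2 i
  have t03 : (0 : Fin (n + 4)) ≠ τ 3 := by
    intro h
    rw [← t0] at h
    exact ne03 (τ.injective h)
  have t13 : (1 : Fin (n + 4)) ≠ τ 3 := by
    intro h
    rw [← t1] at h
    exact ne13 (τ.injective h)
  have ti3 : i ≠ τ 3 := by
    intro h
    rw [← t2] at h
    exact ne23 (τ.injective h)
  have s0 : (Equiv.swap (τ 3) j * τ) 0 = 0 := by
    rw [Equiv.Perm.mul_apply, t0]
    exact Equiv.swap_apply_of_ne_of_ne t03 ne0j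
  have s1 : (Equiv.swap (τ 3) j * τ) 1 = 1 := by
    rw [Equiv.Perm.mul_apply, t1]
    exact Equiv.swap_apply_of_ne_of_ne t13 ne1j
  have s2 : (Equiv.swap (τ 3) j * τ) 2 = i := by
    rw [Equiv.Perm.mul_apply, t2]
    exact Equiv.swap_apply_of_ne_of_ne ti3 hij
  have s3 : (Equiv.swap (τ 3) j * τ) 3 = j := by
    rw [Equiv.Perm.mul_apply]
    exact Equiv.swap_apply_left _ _
  have := HHa_ip_pair w f hf (Equiv.swap (τ 3) j * τ) 2 3 0 1
  rw [s0, s1, s2, s3] at this
  exact this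

theorem HHa_sum_class (m : ℕ) (A B C : ℂ) :
    ∑ i ∈ range (2 + m), ∑ j ∈ range (2 + m),
      (if i = j then 0 else if i < 2 ∧ j < 2 then A else if i < 2 ∨ j < 2 then B else C)
      = 2 * A + 4 * (m : ℂ) * B + (m : ℂ) * ((m : ℂ) - 1) * C := by
  have e1 : ∀ i, ∑ j ∈ range (2 + m),
      (if i = j then 0 else if i < 2 ∧ j < 2 then A else if i < 2 ∨ j < 2 then B else C)
      = (if i = 0 then 0 else if i < 2 then A else B)
        + (if i = 1 then 0 else if i < 2 then A else B)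
        + ∑ y ∈ range m, (if i = 2 + y then 0 else if i < 2 then B else C) := by
    intro i
    rw [Finset.sum_range_add, Finset.sum_range_succ, Finset.sum_range_succ,
      Finset.sum_range_zero, zero_add]
    congr 1
    · congr 1
      · by_cases h0 : i = 0
        · simp [h0]
        · by_cases h2 : i < 2
          · simp [h0, h2]
          · simp [h0, h2]
      · by_cases h0 : i = 1
        · simp [h0]
        · by_cases h2 : i < 2
          · simp [h0, h2]
          · simp [h0, h2]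
    · apply Finset.sum_congr rfl
      intro y _
      have hy : ¬ (2 + y < 2) := by omega
      by_cases h0 : i = 2 + y
      · simp [h0]
      · by_cases h2 : i < 2
        · simp [h0, h2, hy]
        · simp [h0, h2, hy]
  rw [Finset.sum_congr rfl (fun i _ => e1 i), Finset.sum_range_add, Finset.sum_range_succ,
      Finset.sum_range_succ, Finset.sum_range_zero, zero_add]
  have e2 : ∀ x ∈ range m, ((if 2 + x = 0 then 0 else if 2 + x < 2 then A else B)
        + (if 2 + x = 1 then 0 else if 2 + x < 2 then A else B)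
        + ∑ y ∈ range m, (if 2 + x = 2 + y then 0 else if 2 + x < 2 then B else C))
      = 2 * B + ((m : ℂ) - 1) * C := by
    intro x hx
    have hy : ¬ (2 + x < 2) := by omega
    have h0 : ¬ (2 + x = 0) := by omega
    have h1 : ¬ (2 + x = 1) := by omega
    rw [if_neg h0, if_neg h1, if_neg hy]
    have e3 : ∑ y ∈ range m, (if 2 + x = 2 + y then 0 else if 2 + x < 2 then B else C)
        = (∑ y ∈ range m, C) - ∑ y ∈ range m, (if x = y then C else 0) := by
      rw [← Finset.sum_sub_distrib]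
      apply Finset.sum_congr rfl
      intro y _
      rw [if_neg hy]
      by_cases h : x = y
      · simp [h]
      · rw [if_neg (by omega), if_neg h, sub_zero]
    rw [e3, Finset.sum_ite_eq, if_pos hx, Finset.sum_const, Finset.card_range, nsmul_eq_mul]
    ring
  rw [Finset.sum_congr rfl e2, Finset.sum_const, Finset.card_range, nsmul_eq_mul]
  have e4 : ∑ y ∈ range m, (if 0 = 2 + y then 0 else if 0 < 2 then B else C) = (m : ℂ) * B := by
    rw [Finset.sum_congr rfl (g := fun _ => B), Finset.sum_const, Finset.card_range, nsmul_eq_mul]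
    intro y _
    rw [if_neg (by omega), if_pos (by norm_num)]
  have e5 : ∑ y ∈ range m, (if 1 = 2 + y then 0 else if 1 < 2 then B else C) = (m : ℂ) * B := by
    rw [Finset.sum_congr rfl (g := fun _ => B), Finset.sum_const, Finset.card_range, nsmul_eq_mul]
    intro y _
    rw [if_neg (by omega), if_pos (by norm_num)]
  rw [e4, e5]
  simp
  ring

theorem ip_Ham_Ham_pairs {Q n : ℕ} (hQ : 2 ≤ Q) (f : Amp Q (n + 4)) (hf : Anti f) :
    ip (wQ Q) (Ham f) (Ham f)
      = (((n : ℂ) + 4) * ((n : ℂ) + 3) / 2) * ip (wQ Q) (Pij 0 1 f) (Pij 0 1 f)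
      + (((n : ℂ) + 4) * ((n : ℂ) + 3) * ((n : ℂ) + 2)) * ip (wQ Q) (Pij 0 2 f) (Pij 0 1 f)
      + (((n : ℂ) + 4) * ((n : ℂ) + 3) * ((n : ℂ) + 2) * ((n : ℂ) + 1) / 4)
          * ip (wQ Q) (Pij 2 3 f) (Pij 0 1 f) := by
  rw [ip_Ham_left f (Ham f) hf (anti_Ham f hf)]
  have h1 : ip (wQ Q) (Ham f) (Pij 0 1 f) = (1 / 2 : ℂ) * ∑ i : Fin (n + 4), ∑ j : Fin (n + 4),
      (if (i : ℕ) = (j : ℕ) then 0 else if (i : ℕ) < 2 ∧ (j : ℕ) < 2 then
          ip (wQ Q) (Pij 0 1 f) (Pij 0 1 f)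
        else if (i : ℕ) < 2 ∨ (j : ℕ) < 2 then ip (wQ Q) (Pij 0 2 f) (Pij 0 1 f)
        else ip (wQ Q) (Pij 2 3 f) (Pij 0 1 f)) := by
    rw [HHa_Ham_eq, HHa_ip_smul_left, HHa_ip_sum_left]
    congr 1
    · rw [map_div₀, map_one, map_ofNat]
    · apply Finset.sum_congr rfl
      intro i _
      rw [HHa_ip_sum_left]
      apply Finset.sum_congr rfl
      intro j _
      by_cases hij : i = j
      · rw [if_neg (not_not.mpr hij), if_pos (congrArg Fin.val hij)]
        exact HHa_ip_zero_left _ _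
      · rw [if_pos hij, if_neg (fun h => hij (Fin.ext h))]
        by_cases hi : (i : ℕ) < 2
        · by_cases hj : (j : ℕ) < 2
          · rw [if_pos ⟨hi, hj⟩]
            exact HHa_class_A _ f i j hij hi hj
          · rw [if_neg (fun h => hj h.2), if_pos (Or.inl hi)]
            exact HHa_class_B _ f hf i j hi (not_lt.mp hj)
        · by_cases hj : (j : ℕ) < 2
          · rw [if_neg (fun h => hi h.1), if_pos (Or.inr hj), HHa_Pij_symm i j hij]
            exact HHa_class_B _ f hf j i hj (not_lt.mp hi)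
          · rw [if_neg (fun h => hi h.1), if_neg (fun h => h.elim hi hj)]
            exact HHa_class_C _ f hf i j hij (not_lt.mp hi) (not_lt.mp hj)
  rw [h1]
  have h2 : ∀ A B C : ℂ, (∑ i : Fin (n + 4), ∑ j : Fin (n + 4),
      (if (i : ℕ) = (j : ℕ) then 0 else if (i : ℕ) < 2 ∧ (j : ℕ) < 2 then A
        else if (i : ℕ) < 2 ∨ (j : ℕ) < 2 then B else C))
      = 2 * A + 4 * ((n + 2 : ℕ) : ℂ) * B + ((n + 2 : ℕ) : ℂ) * (((n + 2 : ℕ) : ℂ) - 1) * C := by
    intro A B C
    rw [← HHa_sum_class (n + 2) A B C]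
    have e : 2 + (n + 2) = n + 4 := by omega
    rw [e, ← Fin.sum_univ_eq_sum_range (fun i => ∑ j ∈ range (n + 4),
      (if i = j then 0 else if i < 2 ∧ j < 2 then A else if i < 2 ∨ j < 2 then B else C)) (n + 4)]
    apply Finset.sum_congr rfl
    intro i _
    rw [← Fin.sum_univ_eq_sum_range (fun j =>
      (if (i : ℕ) = j then 0 else if (i : ℕ) < 2 ∧ j < 2 then A
        else if (i : ℕ) < 2 ∨ j < 2 then B else C)) (n + 4)]
  rw [h2]
  push_cast
  ring

end Vale.Agent.P359
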