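import Vale.Agent.P359.Bridge
import Vale.Agent.P359.HHa

namespace Vale.Agent.P359

open Finset LaughlinGap
open scoped ComplexOrder

theorem spec_projEntry_inner (Q : ℕ) (xy ab : Fin (Q + 1) × Fin (Q + 1)) :
    projEntry Q xy ab = inner ℂ (EuclideanSpace.single xy (1 : ℂ))
      ((spinComponent Q).starProjection (EuclideanSpace.single ab (1 : ℂ))) := by
  unfold projEntry
  rw [EuclideanSpace.inner_single_left]
  simp

theorem spec_projEntry_conj (Q : ℕ) (xy ab : Fin (Q + 1) × Fin (Q + 1)) :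
    star (projEntry Q xy ab) = projEntry Q ab xy := by
  rw [spec_projEntry_inner, spec_projEntry_inner]
  have h := Submodule.inner_starProjection_left_eq_right (spinComponent Q)
    (EuclideanSpace.single ab (1 : ℂ)) (EuclideanSpace.single xy (1 : ℂ))
  rw [← h]
  exact inner_conj_symm _ _

theorem spec_projEntry_idem (Q : ℕ) (xy cd : Fin (Q + 1) × Fin (Q + 1)) :
    ∑ ab : Fin (Q + 1) × Fin (Q + 1), projEntry Q xy ab * projEntry Q ab cd =
      projEntry Q xy cd := by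
  have h1 : (spinComponent Q).starProjection
      ((spinComponent Q).starProjection (EuclideanSpace.single cd (1 : ℂ))) =
      (spinComponent Q).starProjection (EuclideanSpace.single cd (1 : ℂ)) :=
    Submodule.starProjection_eq_self_iff.mpr (Submodule.starProjection_apply_mem _ _)
  set v := (spinComponent Q).starProjection (EuclideanSpace.single cd (1 : ℂ)) with hv
  have h2 : v = ∑ ab : Fin (Q + 1) × Fin (Q + 1), v ab • EuclideanSpace.single ab (1 : ℂ) := by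
    ext z
    simp [Finset.sum_apply, Pi.single_apply]
  have h3 : (spinComponent Q).starProjection v xy =
      ∑ ab : Fin (Q + 1) × Fin (Q + 1), projEntry Q xy ab * v ab := by
    conv_lhs => rw [h2]
    rw [map_sum]
    simp only [map_smul, WithLp.ofLp_sum, Finset.sum_apply, WithLp.ofLp_smul, Pi.smul_apply,
      smul_eq_mul, projEntry]
    refine Finset.sum_congr rfl fun ab _ => ?_
    ring
  have h4 : projEntry Q xy cd = v xy := rfl
  rw [h4, ← h1, h3]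
  rfl

theorem spec_pairProj_herm (Q N : ℕ) (i j : Fin N) : (pairProj Q N i j).IsHermitian := by
  ext x y
  rw [Matrix.conjTranspose_apply]
  unfold pairProj
  by_cases h : ∀ k, k ≠ i → k ≠ j → x k = y k
  · have h' : ∀ k, k ≠ i → k ≠ j → y k = x k := fun k h1 h2 => (h k h1 h2).symm
    rw [if_pos h, if_pos h', spec_projEntry_conj]
  · have h' : ¬ ∀ k, k ≠ i → k ≠ j → y k = x k :=
      fun hh => h (fun k h1 h2 => (hh k h1 h2).symm)
    rw [if_neg h, if_neg h', star_zero]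

theorem spec_pairProj_idem (Q N : ℕ) {i j : Fin N} (hij : i ≠ j) :
    pairProj Q N i j * pairProj Q N i j = pairProj Q N i j := by
  ext x z
  rw [Matrix.mul_apply]
  have h1 := bridge_sum hij x (fun a b => projEntry Q (x i, x j) (a, b))
    (fun y => pairProj Q N i j y z)
  have h2 : ∑ y, pairProj Q N i j x y * pairProj Q N i j y z =
      ∑ y : Fin N → Fin (Q + 1), (if (∀ k, k ≠ i → k ≠ j → x k = y k) then
        projEntry Q (x i, x j) (y i, y j) else 0) * pairProj Q N i j y z := rfl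
  rw [h2, h1]
  have hi : ∀ a b : Fin (Q + 1), Function.update (Function.update x i a) j b i = a := by
    intro a b
    rw [Function.update_of_ne hij, Function.update_self]
  have hj : ∀ a b : Fin (Q + 1), Function.update (Function.update x i a) j b j = b := by
    intro a b
    rw [Function.update_self]
  have hk : ∀ (a b : Fin (Q + 1)) (k : Fin N), k ≠ i → k ≠ j →
      Function.update (Function.update x i a) j b k = x k := by
    intro a b k h1 h2
    rw [Function.update_of_ne h2, Function.update_of_ne h1]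
  have h3 : ∀ a b : Fin (Q + 1),
      pairProj Q N i j (Function.update (Function.update x i a) j b) z =
      if (∀ k, k ≠ i → k ≠ j → x k = z k) then projEntry Q (a, b) (z i, z j) else 0 := by
    intro a b
    unfold pairProj
    rw [hi, hj]
    by_cases h : ∀ k, k ≠ i → k ≠ j → x k = z k
    · rw [if_pos h, if_pos]
      intro k h4 h5
      rw [hk a b k h4 h5]
      exact h k h4 h5
    · rw [if_neg h, if_neg]
      intro hh
      apply h
      intro k h4 h5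
      rw [← hk a b k h4 h5]
      exact hh k h4 h5
  simp only [h3]
  unfold pairProj
  by_cases h : ∀ k, k ≠ i → k ≠ j → x k = z k
  · simp only [if_pos h]
    rw [← spec_projEntry_idem Q (x i, x j) (z i, z j), Fintype.sum_prod_type]
  · simp only [if_neg h, mul_zero, Finset.sum_const_zero]

theorem spec_pairProj_psd (Q N : ℕ) {i j : Fin N} (hij : i ≠ j) :
    (pairProj Q N i j).PosSemidef := by
  have h1 : pairProj Q N i j = (pairProj Q N i j).conjTranspose * pairProj Q N i j := by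
    rw [(spec_pairProj_herm Q N i j).eq, spec_pairProj_idem Q N hij]
  rw [h1]
  exact Matrix.posSemidef_conjTranspose_mul_self _

theorem spec_sum_psd (Q N : ℕ) :
    (∑ i : Fin N, ∑ j ∈ Finset.Ioi i, pairProj Q N i j).PosSemidef := by
  refine Matrix.posSemidef_sum _ fun i _ => Matrix.posSemidef_sum _ fun j hj => ?_
  exact spec_pairProj_psd Q N (ne_of_lt (Finset.mem_Ioi.mp hj))

theorem hamiltonian_symmetric (Q N : ℕ) : (hamiltonian Q N).IsSymmetric := by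
  unfold hamiltonian
  exact Matrix.isHermitian_iff_isSymmetric.mp (spec_sum_psd Q N).isHermitian

theorem hamiltonian_nonneg (Q N : ℕ) (ψ : EuclideanSpace ℂ (Fin N → Fin (Q + 1))) :
    0 ≤ (inner ℂ ψ (hamiltonian Q N ψ)).re := by
  have h := (spec_sum_psd Q N).re_dotProduct_nonneg ψ.ofLp
  unfold hamiltonian
  rw [EuclideanSpace.inner_eq_star_dotProduct]
  rw [Matrix.toLpLin_apply]
  rw [dotProduct_comm]
  exact h

theorem hamiltonian_fermionic (Q N : ℕ) (ψ : EuclideanSpace ℂ (Fin N → Fin (Q + 1)))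
    (h : IsFermionic ψ) : IsFermionic (hamiltonian Q N ψ) := by
  rcases Nat.eq_zero_or_pos Q with hQ | hQ
  · subst hQ
    intro σ x
    have hsub : ∀ z : Fin N → Fin (0 + 1), z = x := fun z => by
      funext k
      exact Fin.ext (by omega)
    rw [hsub (x ∘ σ)]
    have h1 := h σ x
    rw [hsub (x ∘ σ)] at h1
    unfold hamiltonian
    rw [Matrix.toLpLin_apply]
    change (Matrix.mulVec _ ψ.ofLp) x = _ * (Matrix.mulVec _ ψ.ofLp) x
    unfold Matrix.mulVec dotProduct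
    rw [Finset.mul_sum]
    refine Finset.sum_congr rfl fun z _ => ?_
    rw [hsub z]
    have h2 : ψ.ofLp x = ((Equiv.Perm.sign σ : ℤ) : ℂ) * ψ.ofLp x := h1
    conv_lhs => rw [h2]
    ring
  · rw [← hat_anti, hat_ham hQ]
    exact anti_Ham _ ((hat_anti ψ).mpr h)

/-- abstract form: a symmetric operator all of whose eigenvalues are at least `δ`. -/
theorem spec_lower {E : Type*} [NormedAddCommGroup E] [InnerProductSpace ℂ E]
    [FiniteDimensional ℂ E] (T : E →ₗ[ℂ] E) (hT : T.IsSymmetric) {δ : ℝ}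
    (h : ∀ (lam : ℝ) (v : E), v ≠ 0 → T v = (lam : ℂ) • v → δ ≤ lam) (w : E) :
    δ * ‖w‖ ^ 2 ≤ (inner ℂ w (T w)).re := by
  set b := hT.eigenvectorBasis rfl with hb
  have hev : ∀ i, T (b i) = ((hT.eigenvalues rfl i : ℝ) : ℂ) • b i := fun i =>
    hT.apply_eigenvectorBasis rfl i
  have hge : ∀ i, δ ≤ hT.eigenvalues rfl i := by
    intro i
    refine h _ (b i) ?_ (hev i)
    intro h0
    have h1 := b.orthonormal.1 i
    rw [h0, norm_zero] at h1
    exact zero_ne_one h1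
  have h1 : inner ℂ w (T w) = ∑ i, ((hT.eigenvalues rfl i * ‖inner ℂ (b i) w‖ ^ 2 : ℝ) : ℂ) := by
    rw [← b.sum_inner_mul_inner w (T w)]
    refine Finset.sum_congr rfl fun i _ => ?_
    rw [← hT (b i) w, hev i, inner_smul_left, Complex.conj_ofReal]
    have h2 : inner ℂ w (b i) = (starRingEnd ℂ) (inner ℂ (b i) w) := (inner_conj_symm _ _).symm
    rw [h2]
    push_cast
    rw [mul_left_comm, mul_comm ((starRingEnd ℂ) (inner ℂ (b i) w)), Complex.mul_conj,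
      Complex.normSq_eq_norm_sq]
    push_cast
    rfl
  rw [h1, Complex.re_sum]
  simp only [Complex.ofReal_re]
  rw [← b.sum_sq_norm_inner_right w, Finset.mul_sum]
  exact Finset.sum_le_sum fun i _ => mul_le_mul_of_nonneg_right (hge i) (by positivity)

/-- the fermionic subspace. -/
def specF (Q N : ℕ) : Submodule ℂ (EuclideanSpace ℂ (Fin N → Fin (Q + 1))) where
  carrier := {ψ | IsFermionic ψ}
  add_mem' := by
    intro a b ha hb σ x
    have h1 := ha σ x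
    have h2 := hb σ x
    simp only [PiLp.add_apply, h1, h2]
    ring
  zero_mem' := by
    intro σ x
    simp
  smul_mem' := by
    intro c a ha σ x
    have h1 := ha σ x
    simp only [PiLp.smul_apply, h1, smul_eq_mul]
    ring

theorem spec_inner_self {E : Type*} [NormedAddCommGroup E] [InnerProductSpace ℂ E] (x : E) :
    inner ℂ x x = ((‖x‖ : ℝ) : ℂ) ^ 2 := inner_self_eq_norm_sq_to_K x

theorem spec_proj_norm {E : Type*} [NormedAddCommGroup E] [InnerProductSpace ℂ E] (Ψ ψ : E)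
    (c : ℂ) (hc : c = inner ℂ Ψ ψ / ((‖Ψ‖ : ℝ) : ℂ) ^ 2)
    (h0 : inner ℂ Ψ (ψ - c • Ψ) = 0) :
    ‖ψ - c • Ψ‖ ^ 2 = ‖ψ‖ ^ 2 - ‖inner ℂ Ψ ψ‖ ^ 2 / ‖Ψ‖ ^ 2 := by
  have e0 := spec_inner_self (ψ - c • Ψ)
  have e1 : inner ℂ (ψ - c • Ψ) (ψ - c • Ψ) = inner ℂ ψ (ψ - c • Ψ) := by
    rw [inner_sub_left, inner_smul_left, h0, mul_zero, sub_zero]
  have e3 : inner ℂ ψ (ψ - c • Ψ) = ((‖ψ‖ : ℝ) : ℂ) ^ 2 - c * inner ℂ ψ Ψ := by
    rw [inner_sub_right, inner_smul_right, spec_inner_self]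
  have e4 : c * inner ℂ ψ Ψ = ((‖inner ℂ Ψ ψ‖ ^ 2 / ‖Ψ‖ ^ 2 : ℝ) : ℂ) := by
    have e5 : inner ℂ ψ Ψ = (starRingEnd ℂ) (inner ℂ Ψ ψ) := (inner_conj_symm _ _).symm
    rw [hc, e5, div_mul_eq_mul_div, Complex.mul_conj, Complex.normSq_eq_norm_sq]
    push_cast
    rfl
  rw [e1, e3, e4] at e0
  have e6 : ((‖ψ‖ ^ 2 - ‖inner ℂ Ψ ψ‖ ^ 2 / ‖Ψ‖ ^ 2 : ℝ) : ℂ) =
      ((‖ψ - c • Ψ‖ ^ 2 : ℝ) : ℂ) := by
    push_cast at e0 ⊢
    exact e0
  exact (Complex.ofReal_injective e6).symm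

theorem spec_gap_abs {E : Type*} [NormedAddCommGroup E] [InnerProductSpace ℂ E]
    [FiniteDimensional ℂ E] (T : E →ₗ[ℂ] E) (hsym : T.IsSymmetric)
    (hnn : ∀ v, 0 ≤ (inner ℂ v (T v)).re) (F : Submodule ℂ E) (hF : ∀ v ∈ F, T v ∈ F) {δ : ℝ}
    (hgap : ∀ (lam : ℝ) (v : E), v ∈ F → v ≠ 0 → T v = (lam : ℂ) • v → lam ≤ 0 ∨ δ ≤ lam)
    (Ψ : E) (hΨ : Ψ ≠ 0) (hΨf : Ψ ∈ F) (hker : ∀ v, v ∈ F → T v = 0 → ∃ c : ℂ, v = c • Ψ)
    (hΨ0 : T Ψ = 0) (ψ : E) (hψ : ψ ∈ F) :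
    δ * (‖ψ‖ ^ 2 - ‖inner ℂ Ψ ψ‖ ^ 2 / ‖Ψ‖ ^ 2) ≤ (inner ℂ ψ (T ψ)).re := by
  have hn : (‖Ψ‖ : ℝ) ^ 2 ≠ 0 := by
    have := norm_pos_iff.mpr hΨ
    positivity
  have hnC : ((‖Ψ‖ : ℝ) : ℂ) ^ 2 ≠ 0 := by exact_mod_cast hn
  have hinn : inner ℂ Ψ Ψ = ((‖Ψ‖ : ℝ) : ℂ) ^ 2 := spec_inner_self Ψ
  obtain ⟨W, hWmem⟩ : ∃ W : Submodule ℂ E, ∀ w, w ∈ W ↔ w ∈ F ∧ inner ℂ Ψ w = 0 := by
    refine ⟨F ⊓ (ℂ ∙ Ψ)ᗮ, fun w => ?_⟩
    rw [Submodule.mem_inf, Submodule.mem_orthogonal_singleton_iff_inner_right]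
  have hTW : ∀ w ∈ W, T w ∈ W := by
    intro w hw
    rw [hWmem] at hw ⊢
    refine ⟨hF w hw.1, ?_⟩
    rw [← hsym Ψ w, hΨ0, inner_zero_left]
  have hsym' := hsym.restrict_invariant hTW
  have hlow : ∀ w : W, δ * ‖w‖ ^ 2 ≤ (inner ℂ w (T.restrict hTW w)).re := by
    intro w
    refine spec_lower (T.restrict hTW) hsym' ?_ w
    intro lam v hv hlam
    have h1 : T v.1 = (lam : ℂ) • v.1 := by
      have := congrArg Subtype.val hlam
      exact this
    have hvf := (hWmem v.1).mp v.2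
    have hv0 : v.1 ≠ 0 := fun h0 => hv (Subtype.ext h0)
    rcases hgap lam v.1 hvf.1 hv0 h1 with h2 | h2
    · exfalso
      have h3 := hnn v.1
      rw [h1, inner_smul_right, inner_self_eq_norm_sq_to_K] at h3
      have h4 : ((lam : ℂ) * ((‖v.1‖ : ℝ) : ℂ) ^ 2).re = lam * ‖v.1‖ ^ 2 := by
        have : (lam : ℂ) * ((‖v.1‖ : ℝ) : ℂ) ^ 2 = ((lam * ‖v.1‖ ^ 2 : ℝ) : ℂ) := by
          push_cast; ring
        rw [this, Complex.ofReal_re]
      have h5 : 0 < ‖v.1‖ ^ 2 := by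
        have := norm_pos_iff.mpr hv0
        positivity
      have h6 : lam * ‖v.1‖ ^ 2 ≥ 0 := by
        rw [← h4]; exact h3
      have h7 : lam = 0 := by
        rcases lt_or_eq_of_le h2 with h8 | h8
        · have := mul_neg_of_neg_of_pos h8 h5
          linarith
        · exact h8
      have h8 : T v.1 = 0 := by rw [h1, h7]; simp
      obtain ⟨c, hc⟩ := hker v.1 hvf.1 h8
      have h9 := hvf.2
      rw [hc, inner_smul_right, hinn] at h9
      rcases mul_eq_zero.mp h9 with h10 | h10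
      · rw [h10, zero_smul] at hc
        exact hv0 hc
      · exact hnC h10
    · exact h2
  obtain ⟨c, hc⟩ : ∃ c : ℂ, c = inner ℂ Ψ ψ / ((‖Ψ‖ : ℝ) : ℂ) ^ 2 := ⟨_, rfl⟩
  have hwW : ψ - c • Ψ ∈ W := by
    rw [hWmem]
    refine ⟨F.sub_mem hψ (F.smul_mem c hΨf), ?_⟩
    rw [inner_sub_right, inner_smul_right, hinn, hc, div_mul_cancel₀ _ hnC, sub_self]
  have h1 := hlow ⟨ψ - c • Ψ, hwW⟩
  have hTw : T (ψ - c • Ψ) = T ψ := by
    rw [map_sub, map_smul, hΨ0, smul_zero, sub_zero]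
  have h2 : (inner ℂ (⟨ψ - c • Ψ, hwW⟩ : W) (T.restrict hTW ⟨ψ - c • Ψ, hwW⟩)) =
      inner ℂ ψ (T ψ) := by
    have e1 : (inner ℂ (⟨ψ - c • Ψ, hwW⟩ : W) (T.restrict hTW ⟨ψ - c • Ψ, hwW⟩)) =
        inner ℂ (ψ - c • Ψ) (T (ψ - c • Ψ)) := rfl
    rw [e1, hTw, inner_sub_left, inner_smul_left, ← hsym Ψ ψ, hΨ0, inner_zero_left, mul_zero,
      sub_zero]
  rw [h2] at h1
  have h3 : ‖(⟨ψ - c • Ψ, hwW⟩ : W)‖ = ‖ψ - c • Ψ‖ := rfl
  rw [h3] at h1
  have h4 := spec_proj_norm Ψ ψ c hc ((hWmem _).mp hwW).2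
  rw [h4] at h1
  exact h1

theorem gap_of_eigen {Q N : ℕ} {δ : ℝ} (hδ : 0 < δ)
    (hgap : ∀ (lam : ℝ) (ψ : EuclideanSpace ℂ (Fin N → Fin (Q + 1))), IsFermionic ψ → ψ ≠ 0 →
      hamiltonian Q N ψ = (lam : ℂ) • ψ → lam ≤ 0 ∨ δ ≤ lam)
    (Ψ : EuclideanSpace ℂ (Fin N → Fin (Q + 1))) (hΨ : Ψ ≠ 0) (hΨf : IsFermionic Ψ)
    (hker : ∀ ψ, IsFermionic ψ → hamiltonian Q N ψ = 0 → ∃ c : ℂ, ψ = c • Ψ)
    (hΨ0 : hamiltonian Q N Ψ = 0)
    (ψ : EuclideanSpace ℂ (Fin N → Fin (Q + 1))) (hψ : IsFermionic ψ) :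
    δ * (‖ψ‖ ^ 2 - ‖inner ℂ Ψ ψ‖ ^ 2 / ‖Ψ‖ ^ 2) ≤ (inner ℂ ψ (hamiltonian Q N ψ)).re :=
  spec_gap_abs (hamiltonian Q N) (hamiltonian_symmetric Q N) (hamiltonian_nonneg Q N)
    (specF Q N) (fun v hv => hamiltonian_fermionic Q N v hv) hgap Ψ hΨ hΨf hker hΨ0 ψ hψ

end Vale.Agent.P359
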