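import Vale.Agent.P359.Core
import Vale.Agent.P359.Spec
import Vale.Agent.P359.LaughB

namespace Vale.Agent.P359

open Finset LaughlinGap

theorem Final_zpoly_smul {Q N : ℕ} (c : ℂ) (f : Amp Q N) :
    zpoly (c • f) = MvPolynomial.C c * zpoly f := by
  unfold zpoly
  rw [Finset.mul_sum]
  apply Finset.sum_congr rfl
  intro x _
  simp only [Pi.smul_apply, smul_eq_mul, map_mul]
  ring

theorem Final_hat_zero {Q N : ℕ} :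
    hat (0 : EuclideanSpace ℂ (Fin N → Fin (Q + 1))) = 0 := by
  funext x
  simp [hat]

theorem Final_eigen {Q N : ℕ} (hQ : 1 ≤ Q) (lam : ℂ)
    (ψ : EuclideanSpace ℂ (Fin N → Fin (Q + 1))) (h : hamiltonian Q N ψ = lam • ψ) :
    Ham (hat ψ) = lam • hat ψ := by
  rw [← hat_ham hQ, h, hat_smul]

theorem Final_aux (k Q : ℕ) (hQ : Q = 3 * (k + 2 + 1))
    (hcore : ∀ (lam : ℝ) (f : Amp Q (k + 4)), Anti f → f ≠ 0 → Ham f = (lam : ℂ) • f →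
      lam ≤ 0 ∨ 1 / 100 ≤ lam) :
    ∃ Ψ : EuclideanSpace ℂ (Fin (k + 4) → Fin (Q + 1)),
      IsFermionic Ψ ∧ IsLaughlin Ψ ∧ Ψ ≠ 0 ∧ hamiltonian Q (k + 4) Ψ = 0 ∧
      (∀ φ : EuclideanSpace ℂ (Fin (k + 4) → Fin (Q + 1)), IsFermionic φ →
        hamiltonian Q (k + 4) φ = 0 → ∃ c : ℂ, φ = c • Ψ) ∧
      (∀ (lam : ℝ) (φ : EuclideanSpace ℂ (Fin (k + 4) → Fin (Q + 1))), IsFermionic φ → φ ≠ 0 →
        hamiltonian Q (k + 4) φ = (lam : ℂ) • φ → lam ≤ 0 ∨ 1 / 100 ≤ lam) ∧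
      ∀ ψ : EuclideanSpace ℂ (Fin (k + 4) → Fin (Q + 1)), IsFermionic ψ →
        (1 / 100) * (‖ψ‖ ^ 2 - ‖inner ℂ Ψ ψ‖ ^ 2 / ‖Ψ‖ ^ 2)
          ≤ (inner ℂ ψ (hamiltonian Q (k + 4) ψ)).re := by
  subst hQ
  obtain ⟨f, hf1, hf2, hf3, hf4⟩ := exists_vdm3_amp (k + 2)
  obtain ⟨Ψ, hΨ⟩ := hat_surjective f
  have hferm : IsFermionic Ψ := (hat_anti Ψ).1 (by rw [hΨ]; exact hf2)
  have hlau : IsLaughlin Ψ := toPoly_of_zpoly (k + 2) Ψ (by rw [hΨ]; exact hf1)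
  have hne : Ψ ≠ 0 := by
    intro h
    apply hf3
    rw [← hΨ, h, Final_hat_zero]
  have hzero : hamiltonian (3 * (k + 2 + 1)) (k + 4) Ψ = 0 := by
    apply hat_injective
    rw [hat_ham (by omega), Final_hat_zero]
    have := Ham_zero_of_bop (n := k + 2) f hf2 hf4
    rw [← hΨ] at this
    exact this
  have hgap : ∀ (lam : ℝ) (φ : EuclideanSpace ℂ (Fin (k + 4) → Fin (3 * (k + 2 + 1) + 1))),
      IsFermionic φ → φ ≠ 0 →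
        hamiltonian (3 * (k + 2 + 1)) (k + 4) φ = (lam : ℂ) • φ → lam ≤ 0 ∨ 1 / 100 ≤ lam := by
    intro lam φ hφ hφ0 hφe
    refine hcore lam (hat φ) ((hat_anti φ).2 hφ) ?_ (Final_eigen (by omega) _ φ hφe)
    intro h
    apply hφ0
    apply hat_injective
    rw [h, Final_hat_zero]
  have hker : ∀ φ : EuclideanSpace ℂ (Fin (k + 4) → Fin (3 * (k + 2 + 1) + 1)), IsFermionic φ →
        hamiltonian (3 * (k + 2 + 1)) (k + 4) φ = 0 → ∃ c : ℂ, φ = c • Ψ := by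
    intro φ hφ hφ0
    have h1 : Ham (hat φ) = 0 := by
      rw [← hat_ham (by omega), hφ0, Final_hat_zero]
    have h2 : ∀ m, bop m (hat φ) = 0 := fun m =>
      bop_zero_of_Ham (n := k) (by omega) (hat φ) ((hat_anti φ).2 hφ) h1 m
    obtain ⟨c, hc⟩ := ker_unique (n := k + 2) (hat φ) ((hat_anti φ).2 hφ) h2
    refine ⟨c, ?_⟩
    apply hat_injective
    rw [hat_smul]
    apply zpoly_injective
    rw [Final_zpoly_smul, hΨ, hf1]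
    exact hc
  exact ⟨Ψ, hferm, hlau, hne, hzero, hker, hgap, fun ψ hψ =>
    gap_of_eigen (by norm_num) hgap Ψ hne hferm hker hzero ψ hψ⟩

theorem final_all : ∃ N₀ : ℕ, 4 ≤ N₀ ∧ ∀ N : ℕ, N₀ ≤ N →
    ∃ Ψ : EuclideanSpace ℂ (Fin N → Fin (3 * (N - 1) + 1)),
      IsFermionic Ψ ∧ IsLaughlin Ψ ∧ Ψ ≠ 0 ∧ hamiltonian (3 * (N - 1)) N Ψ = 0 ∧
      (∀ φ : EuclideanSpace ℂ (Fin N → Fin (3 * (N - 1) + 1)), IsFermionic φ →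
        hamiltonian (3 * (N - 1)) N φ = 0 → ∃ c : ℂ, φ = c • Ψ) ∧
      (∀ (lam : ℝ) (φ : EuclideanSpace ℂ (Fin N → Fin (3 * (N - 1) + 1))), IsFermionic φ → φ ≠ 0 →
        hamiltonian (3 * (N - 1)) N φ = (lam : ℂ) • φ → lam ≤ 0 ∨ 1 / 100 ≤ lam) ∧
      ∀ ψ : EuclideanSpace ℂ (Fin N → Fin (3 * (N - 1) + 1)), IsFermionic ψ →
        (1 / 100) * (‖ψ‖ ^ 2 - ‖inner ℂ Ψ ψ‖ ^ 2 / ‖Ψ‖ ^ 2)
          ≤ (inner ℂ ψ (hamiltonian (3 * (N - 1)) N ψ)).re := by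
  obtain ⟨Q₀, hQ₀⟩ := core
  refine ⟨max 4 (Q₀ + 1), le_max_left _ _, ?_⟩
  intro N hN
  have h4 : 4 ≤ N := le_trans (le_max_left _ _) hN
  have hq : Q₀ + 1 ≤ N := le_trans (le_max_right _ _) hN
  obtain ⟨k, rfl⟩ : ∃ k, N = k + 4 := ⟨N - 4, by omega⟩
  exact Final_aux k (3 * (k + 4 - 1)) (by omega)
    (fun lam f => hQ₀ (3 * (k + 4 - 1)) (by omega) k lam f)

theorem final : ∃ δ : ℝ, 0 < δ ∧ ∃ N₀ : ℕ, ∀ N : ℕ, N₀ ≤ N →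
    ∃ Ψ : EuclideanSpace ℂ (Fin N → Fin (3 * (N - 1) + 1)),
      IsFermionic Ψ ∧ IsLaughlin Ψ ∧ Ψ ≠ 0 ∧ hamiltonian (3 * (N - 1)) N Ψ = 0 ∧
      ∀ ψ : EuclideanSpace ℂ (Fin N → Fin (3 * (N - 1) + 1)), IsFermionic ψ →
        δ * (‖ψ‖ ^ 2 - ‖inner ℂ Ψ ψ‖ ^ 2 / ‖Ψ‖ ^ 2)
          ≤ (inner ℂ ψ (hamiltonian (3 * (N - 1)) N ψ)).re := by
  obtain ⟨N₀, _, h⟩ := final_all
  refine ⟨1 / 100, by norm_num, N₀, fun N hN => ?_⟩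
  obtain ⟨Ψ, h1, h2, h3, h4, _, _, h5⟩ := h N hN
  exact ⟨Ψ, h1, h2, h3, h4, h5⟩

/-- Uniform gap above the zero-energy space for every large flux and every particle number. -/
theorem final_flux : ∃ Q₀ : ℕ, ∀ Q : ℕ, Q₀ ≤ Q → ∀ N : ℕ, 4 ≤ N → ∀ (lam : ℝ)
    (φ : EuclideanSpace ℂ (Fin N → Fin (Q + 1))), IsFermionic φ → φ ≠ 0 →
      hamiltonian Q N φ = (lam : ℂ) • φ → lam ≤ 0 ∨ 1 / 100 ≤ lam := by
  obtain ⟨Q₀, hQ₀⟩ := core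
  refine ⟨max Q₀ 1, ?_⟩
  intro Q hQ N hN lam φ hφ hφ0 hφe
  have hq0 : Q₀ ≤ Q := le_trans (le_max_left _ _) hQ
  have hq1 : 1 ≤ Q := le_trans (le_max_right _ _) hQ
  obtain ⟨k, rfl⟩ : ∃ k, N = k + 4 := ⟨N - 4, by omega⟩
  refine hQ₀ Q hq0 k lam (hat φ) ((hat_anti φ).2 hφ) ?_ (Final_eigen hq1 _ φ hφe)
  intro h
  apply hφ0
  apply hat_injective
  rw [h, Final_hat_zero]

end Vale.Agent.P359
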