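import Vale.Agent.P359.Scale

namespace Vale.Agent.P359

open Finset

/-- Second-quantized form of an amplitude. -/
noncomputable def PsiOf {Q N : ℕ} (f : Amp Q N) (S : Finset (Fin (Q + 1))) : ℂ :=
  if h : S.card = N then f (fun i => S.orderEmbOfFin h i) else 0

/-- Annihilation operator on functions of finite sets. -/
noncomputable def copG {Q : ℕ} (a : Fin (Q + 1)) (Ψ : Finset (Fin (Q + 1)) → ℂ) :
    Finset (Fin (Q + 1)) → ℂ :=
  fun T => if a ∈ T then 0 else (-1 : ℂ) ^ (T.filter (fun t => t < a)).card * Ψ (insert a T)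

theorem FockA_lt_iff {Q N : ℕ} (T : Finset (Fin (Q + 1))) (h : T.card = N) (a : Fin (Q + 1))
    (j : Fin N) :
    T.orderEmbOfFin h j < a ↔ (j : ℕ) < (T.filter (fun t => t < a)).card := by
  have hL : (T.filter (fun t => t < a)).card
      = (Finset.univ.filter (fun i : Fin N => T.orderEmbOfFin h i < a)).card := by
    rw [← Finset.card_image_of_injective _ (T.orderEmbOfFin h).injective]
    congr 1
    ext t
    simp only [Finset.mem_filter, Finset.mem_image, Finset.mem_univ, true_and]
    constructor
    · rintro ⟨ht, hta⟩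
      have : t ∈ Set.range (T.orderEmbOfFin h) := by
        rw [Finset.range_orderEmbOfFin]; exact ht
      obtain ⟨i, rfl⟩ := this
      exact ⟨i, hta, rfl⟩
    · rintro ⟨i, hi, rfl⟩
      exact ⟨Finset.orderEmbOfFin_mem T h i, hi⟩
  rw [hL]
  constructor
  · intro hj
    have hsub : Finset.univ.filter (fun i : Fin N => i ≤ j)
        ⊆ Finset.univ.filter (fun i : Fin N => T.orderEmbOfFin h i < a) := by
      intro i hi
      simp only [Finset.mem_filter, Finset.mem_univ, true_and] at hi ⊢
      exact lt_of_le_of_lt ((T.orderEmbOfFin h).monotone hi) hj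
    have hc := Finset.card_le_card hsub
    have hc2 : (Finset.univ.filter (fun i : Fin N => i ≤ j)).card = (j : ℕ) + 1 := by
      rw [show Finset.univ.filter (fun i : Fin N => i ≤ j) = Finset.Iic j by
        ext i; simp]
      exact Fin.card_Iic j
    omega
  · intro hj
    by_contra hcon
    have hsub : Finset.univ.filter (fun i : Fin N => T.orderEmbOfFin h i < a)
        ⊆ Finset.univ.filter (fun i : Fin N => i < j) := by
      intro i hi
      simp only [Finset.mem_filter, Finset.mem_univ, true_and] at hi ⊢
      by_contra hij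
      push Not at hij
      exact hcon (lt_of_le_of_lt ((T.orderEmbOfFin h).monotone hij) hi)
    have hc := Finset.card_le_card hsub
    have hc2 : (Finset.univ.filter (fun i : Fin N => i < j)).card = (j : ℕ) := by
      rw [show Finset.univ.filter (fun i : Fin N => i < j) = Finset.Iio j by
        ext i; simp]
      exact Fin.card_Iio j
    omega

theorem FockA_insert {Q N : ℕ} (T : Finset (Fin (Q + 1))) (h : T.card = N) (a : Fin (Q + 1))
    (ha : a ∉ T) (h' : (insert a T).card = N + 1) (p : Fin (N + 1))
    (hp : (p : ℕ) = (T.filter (fun t => t < a)).card) :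
    (fun i => (insert a T).orderEmbOfFin h' i)
      = (Fin.insertNth p a (fun i => T.orderEmbOfFin h i) : Fin (N + 1) → Fin (Q + 1)) := by
  symm
  apply Finset.orderEmbOfFin_unique h'
  · intro i
    rcases Fin.eq_self_or_eq_succAbove p i with rfl | ⟨y, rfl⟩
    · rw [Fin.insertNth_apply_same]
      exact Finset.mem_insert_self _ _
    · rw [Fin.insertNth_apply_succAbove]
      exact Finset.mem_insert_of_mem (Finset.orderEmbOfFin_mem T h y)
  · intro i j hij
    rcases Fin.eq_self_or_eq_succAbove p i with hi | ⟨y, hi⟩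
    · rcases Fin.eq_self_or_eq_succAbove p j with hj | ⟨z, hj⟩
      · rw [hi, hj] at hij
        exact absurd hij (lt_irrefl _)
      · rw [hi, hj] at hij
        rw [Fin.lt_succAbove_iff_le_castSucc] at hij
        rw [hi, hj, Fin.insertNth_apply_same, Fin.insertNth_apply_succAbove]
        have h1 : ¬ (T.orderEmbOfFin h z < a) := by
          rw [FockA_lt_iff, ← hp]
          have : (p : ℕ) ≤ (z : ℕ) := hij
          omega
        have h2 : T.orderEmbOfFin h z ≠ a := by
          intro h3
          apply ha
          rw [← h3]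
          exact Finset.orderEmbOfFin_mem T h z
        exact lt_of_le_of_ne (not_lt.mp h1) (Ne.symm h2)
    · rcases Fin.eq_self_or_eq_succAbove p j with hj | ⟨z, hj⟩
      · rw [hi, hj] at hij
        rw [Fin.succAbove_lt_iff_castSucc_lt] at hij
        rw [hi, hj, Fin.insertNth_apply_same, Fin.insertNth_apply_succAbove]
        rw [FockA_lt_iff, ← hp]
        exact hij
      · rw [hi, hj] at hij
        rw [Fin.succAbove_lt_succAbove_iff] at hij
        rw [hi, hj, Fin.insertNth_apply_succAbove, Fin.insertNth_apply_succAbove]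
        exact (T.orderEmbOfFin h).strictMono hij

theorem FockA_cons {Q N : ℕ} (f : Amp Q (N + 1)) (hf : Anti f) (a : Fin (Q + 1))
    (x : Cfg Q N) (p : Fin (N + 1)) :
    f (Fin.cons a x) = (-1 : ℂ) ^ (p : ℕ) * f (Fin.insertNth p a x) := by
  have h1 : (Fin.cons a x : Cfg Q (N + 1))
      = (Fin.insertNth p a x : Cfg Q (N + 1)) ∘ (p.cycleRange.symm : Equiv.Perm (Fin (N + 1))) := by
    funext i
    refine Fin.cases ?_ (fun j => ?_) i
    · simp only [Function.comp_apply, Fin.cons_zero]
      rw [Fin.cycleRange_symm_zero, Fin.insertNth_apply_same]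
    · simp only [Function.comp_apply, Fin.cons_succ]
      rw [Fin.cycleRange_symm_succ, Fin.insertNth_apply_succAbove]
  rw [h1, hf, Equiv.Perm.sign_symm, Fin.sign_cycleRange]
  congr 1
  push_cast
  rfl

theorem FockA_anti_ev {Q N : ℕ} (f : Amp Q (N + 1)) (hf : Anti f) (a : Fin (Q + 1)) :
    Anti (ev a f) := by
  intro σ x
  obtain ⟨σ', h1, h2⟩ := scale_cons_perm (Q := Q) σ
  simp only [ev]
  rw [h2, hf, h1]

theorem PsiOf_ev {Q N : ℕ} (f : Amp Q (N + 1)) (hf : Anti f) (a : Fin (Q + 1)) :
    PsiOf (ev a f) = copG a (PsiOf f) := by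
  funext T
  unfold PsiOf copG
  by_cases ha : a ∈ T
  · rw [if_pos ha]
    split_ifs with h
    · simp only [ev]
      have : a ∈ Set.range (T.orderEmbOfFin h) := by
        rw [Finset.range_orderEmbOfFin]; exact ha
      obtain ⟨i, hi⟩ := this
      apply scale_anti_zero f hf _ 0 i.succ (Fin.succ_ne_zero i).symm
      simp only [Fin.cons_zero, Fin.cons_succ]
      exact hi.symm
    · rfl
  · rw [if_neg ha]
    beta_reduce
    have hcard : (insert a T).card = T.card + 1 := Finset.card_insert_of_notMem ha
    by_cases h : T.card = N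
    · have h' : (insert a T).card = N + 1 := by omega
      rw [dif_pos h, dif_pos h']
      have hp : (T.filter (fun t => t < a)).card < N + 1 := by
        have := Finset.card_filter_le T (fun t => t < a)
        omega
      have hins := FockA_insert T h a ha h' ⟨_, hp⟩ rfl
      rw [hins]
      simp only [ev]
      rw [FockA_cons f hf a _ ⟨_, hp⟩]
    · rw [dif_neg h, dif_neg (by omega), mul_zero]

theorem PsiOf_bop {Q N : ℕ} (f : Amp Q (N + 2)) (hf : Anti f) (m : ℕ)
    (T : Finset (Fin (Q + 1))) :
    PsiOf (bop m f) T = ∑ a : Fin (Q + 1), ∑ b : Fin (Q + 1),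
      if (a : ℕ) + (b : ℕ) = m + 1 then
        (((a : ℕ) : ℂ) - ((b : ℕ) : ℂ)) * copG b (copG a (PsiOf f)) T else 0 := by
  have h1 : ∀ a b : Fin (Q + 1), copG b (copG a (PsiOf f)) T = PsiOf (ev b (ev a f)) T := by
    intro a b
    rw [PsiOf_ev (ev a f) (FockA_anti_ev f hf a) b, PsiOf_ev f hf a]
  simp only [h1]
  unfold PsiOf
  by_cases h : T.card = N
  · simp only [dif_pos h]
    rfl
  · simp only [dif_neg h]
    simp

/-- Sum over configurations of a symmetric function vanishing on non-injective configurations. -/
theorem FockA_sum {Q N : ℕ} (F : Cfg Q N → ℂ)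
    (hsym : ∀ (σ : Equiv.Perm (Fin N)) (x : Cfg Q N), F (x ∘ σ) = F x)
    (hinj : ∀ x : Cfg Q N, ¬ Function.Injective x → F x = 0) :
    ∑ x : Cfg Q N, F x = (N.factorial : ℂ) * ∑ S : Finset (Fin (Q + 1)),
      (if h : S.card = N then F (fun i => S.orderEmbOfFin h i) else 0) := by
  rw [← Finset.sum_fiberwise (s := Finset.univ) (g := fun x : Cfg Q N => Finset.univ.image x)
    (f := F), Finset.mul_sum]
  apply Finset.sum_congr rfl
  intro S _
  by_cases h : S.card = N
  · rw [dif_pos h]
    have hbij : ∑ x ∈ Finset.univ.filter (fun x : Cfg Q N => Finset.univ.image x = S), F x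
        = ∑ σ : Equiv.Perm (Fin N), F ((fun i => S.orderEmbOfFin h i) ∘ σ) := by
      symm
      apply Finset.sum_bij (fun (σ : Equiv.Perm (Fin N)) _ =>
        ((fun i => S.orderEmbOfFin h i) ∘ σ : Cfg Q N))
      · intro σ _
        simp only [Finset.mem_filter, Finset.mem_univ, true_and]
        rw [← Finset.image_image]
        rw [show Finset.univ.image (σ : Fin N → Fin N) = Finset.univ from
          Finset.image_univ_equiv σ]
        exact Finset.image_orderEmbOfFin_univ S h
      · intro σ _ τ _ heq
        ext i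
        have := congrFun heq i
        simp only [Function.comp_apply] at this
        have h2 := (S.orderEmbOfFin h).injective this
        rw [h2]
      · intro x hx
        simp only [Finset.mem_filter, Finset.mem_univ, true_and] at hx
        have hxinj : Function.Injective x := by
          have : (Finset.univ.image x).card = (Finset.univ : Finset (Fin N)).card := by
            rw [hx, h, Finset.card_univ, Fintype.card_fin]
          have h3 := Finset.card_image_iff.mp this
          intro i j hij
          exact h3 (Finset.mem_coe.mpr (Finset.mem_univ i)) (Finset.mem_coe.mpr (Finset.mem_univ j)) hij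
        have hex : ∀ i, ∃ j, S.orderEmbOfFin h j = x i := by
          intro i
          have : x i ∈ Set.range (S.orderEmbOfFin h) := by
            rw [Finset.range_orderEmbOfFin, ← hx]
            simp
          exact this
        choose g hg using hex
        have hginj : Function.Injective g := by
          intro i j hij
          apply hxinj
          rw [← hg i, ← hg j, hij]
        refine ⟨Equiv.ofBijective g ((Fintype.bijective_iff_injective_and_card g).mpr
          ⟨hginj, rfl⟩), Finset.mem_univ _, ?_⟩
        funext i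
        simp only [Function.comp_apply, Equiv.ofBijective_apply]
        exact hg i
      · intro σ _
        rfl
    rw [hbij]
    rw [Finset.sum_congr rfl fun σ _ => hsym σ (fun i => S.orderEmbOfFin h i)]
    rw [Finset.sum_const, Finset.card_univ, Fintype.card_perm, Fintype.card_fin, nsmul_eq_mul]
  · rw [dif_neg h, mul_zero]
    apply Finset.sum_eq_zero
    intro x hx
    simp only [Finset.mem_filter, Finset.mem_univ, true_and] at hx
    apply hinj
    intro hxi
    apply h
    rw [← hx, Finset.card_image_of_injective _ hxi, Finset.card_univ, Fintype.card_fin]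

theorem ip_PsiOf {Q N : ℕ} (w : Fin (Q + 1) → ℝ) (f g : Amp Q N) (hf : Anti f) (hg : Anti g) :
    ip w f g = (N.factorial : ℂ) * ∑ S : Finset (Fin (Q + 1)),
      ((∏ s ∈ S, w s : ℝ) : ℂ) * ((starRingEnd ℂ) (PsiOf f S) * PsiOf g S) := by
  unfold ip
  rw [FockA_sum (fun x : Cfg Q N =>
    ((∏ i, w (x i) : ℝ) : ℂ) * ((starRingEnd ℂ) (f x) * g x))]
  · congr 1
    apply Finset.sum_congr rfl
    intro S _
    unfold PsiOf
    by_cases h : S.card = N
    · simp only [dif_pos h]
      congr 2
      conv_rhs => rw [← Finset.image_orderEmbOfFin_univ S h]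
      rw [Finset.prod_image]
      intro i _ j _ hij
      exact (S.orderEmbOfFin h).injective hij
    · simp only [dif_neg h]
      simp
  · intro σ x
    rw [hf σ x, hg σ x]
    have h1 : ∏ i, w ((x ∘ σ) i) = ∏ i, w (x i) := Equiv.prod_comp σ (fun i => w (x i))
    rw [h1]
    have h2 : (starRingEnd ℂ) (((Equiv.Perm.sign σ : ℤ) : ℂ) * f x)
        * (((Equiv.Perm.sign σ : ℤ) : ℂ) * g x)
        = (((Equiv.Perm.sign σ : ℤ) : ℂ) * ((Equiv.Perm.sign σ : ℤ) : ℂ))
          * ((starRingEnd ℂ) (f x) * g x) := by
      rw [map_mul]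
      have : (starRingEnd ℂ) ((Equiv.Perm.sign σ : ℤ) : ℂ) = ((Equiv.Perm.sign σ : ℤ) : ℂ) := by
        rw [map_intCast]
      rw [this]
      ring
    rw [h2]
    have h3 : (((Equiv.Perm.sign σ : ℤ) : ℂ) * ((Equiv.Perm.sign σ : ℤ) : ℂ)) = 1 := by
      rcases Int.units_eq_one_or (Equiv.Perm.sign σ) with h | h <;> rw [h] <;> simp
    rw [h3, one_mul]
  · intro x hx
    have : ∃ i j, i ≠ j ∧ x i = x j := by
      unfold Function.Injective at hx
      push Not at hx
      obtain ⟨i, j, h1, h2⟩ := hx
      exact ⟨i, j, h2, h1⟩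
    obtain ⟨i, j, hij, hxx⟩ := this
    rw [scale_anti_zero f hf x i j hij hxx]
    simp

end Vale.Agent.P359
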