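import Vale.Agent.P359.Stmt2
import Vale.Agent.P359.Final

namespace Vale.Agent.P359

open LaughlinGap

noncomputable def Gap2_W (Q N : ℕ) : Submodule ℂ (EuclideanSpace ℂ (Fin N → Fin (Q + 1))) where
  carrier := {ψ | IsFermionic ψ}
  add_mem' := by
    intro ψ φ hψ hφ σ x
    rw [PiLp.add_apply, PiLp.add_apply, hψ σ x, hφ σ x, mul_add]
  zero_mem' := by
    intro σ x
    simp
  smul_mem' := by
    intro c ψ hψ σ x
    rw [PiLp.smul_apply, PiLp.smul_apply, hψ σ x, smul_eq_mul, smul_eq_mul, mul_left_comm]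

theorem Gap2_mem_W {Q N : ℕ} (ψ : EuclideanSpace ℂ (Fin N → Fin (Q + 1))) :
    ψ ∈ Gap2_W Q N ↔ IsFermionic ψ := Iff.rfl

/-- Slater determinant of the configuration `s`. -/
noncomputable def Gap2_slater {Q N : ℕ} (s : Fin N → Fin (Q + 1)) :
    EuclideanSpace ℂ (Fin N → Fin (Q + 1)) :=
  WithLp.toLp 2 (fun x => ∑ σ : Equiv.Perm (Fin N),
    ((Equiv.Perm.sign σ : ℤ) : ℂ) * (if x = s ∘ σ then 1 else 0))

theorem Gap2_slater_apply {Q N : ℕ} (s : Fin N → Fin (Q + 1)) (x : Fin N → Fin (Q + 1)) :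
    Gap2_slater s x = ∑ σ : Equiv.Perm (Fin N),
      ((Equiv.Perm.sign σ : ℤ) : ℂ) * (if x = s ∘ σ then 1 else 0) := rfl

theorem Gap2_slater_fermionic {Q N : ℕ} (s : Fin N → Fin (Q + 1)) :
    IsFermionic (Gap2_slater s) := by
  intro τ x
  rw [Gap2_slater_apply, Gap2_slater_apply, Finset.mul_sum]
  refine Fintype.sum_equiv (Equiv.mulRight τ⁻¹) _ _ ?_
  intro σ
  have hsq : ((Equiv.Perm.sign τ : ℤ) : ℂ) * ((Equiv.Perm.sign τ : ℤ) : ℂ) = 1 := by
    have : ((Equiv.Perm.sign τ : ℤˣ) : ℤ) * ((Equiv.Perm.sign τ : ℤˣ) : ℤ) = 1 := by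
      rw [← Units.val_mul, Int.units_mul_self]
      rfl
    exact_mod_cast this
  have hcond : (x ∘ τ = s ∘ σ) ↔ (x = s ∘ (Equiv.mulRight τ⁻¹ σ : Equiv.Perm (Fin N))) := by
    constructor
    · intro h
      funext i
      have := congrFun h (τ⁻¹ i)
      simpa [Function.comp] using this
    · intro h
      funext i
      rw [h]
      simp [Function.comp]
  have hsign : ((Equiv.Perm.sign (Equiv.mulRight τ⁻¹ σ : Equiv.Perm (Fin N)) : ℤ) : ℂ)
      = ((Equiv.Perm.sign σ : ℤ) : ℂ) * ((Equiv.Perm.sign τ : ℤ) : ℂ) := by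
    simp
  rw [hsign]
  simp only [hcond]
  rw [← mul_assoc, mul_left_comm ((Equiv.Perm.sign τ : ℤ) : ℂ), hsq, mul_one]

theorem Gap2_slater_self {Q N : ℕ} (s : Fin N → Fin (Q + 1)) (hs : Function.Injective s) :
    Gap2_slater s s = 1 := by
  rw [Gap2_slater_apply, Finset.sum_eq_single 1]
  · simp
  · intro σ _ hσ
    rw [if_neg, mul_zero]
    intro h
    apply hσ
    ext i
    have := congrFun h i
    simp only [Function.comp] at this
    have h2 := hs this
    rw [Equiv.Perm.one_apply, ← h2]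
  · intro h
    exact absurd (Finset.mem_univ _) h

theorem Gap2_slater_other {Q N : ℕ} (s t : Fin N → Fin (Q + 1)) (i : Fin N)
    (h : ∀ j, t i ≠ s j) : Gap2_slater s t = 0 := by
  rw [Gap2_slater_apply]
  apply Finset.sum_eq_zero
  intro σ _
  rw [if_neg, mul_zero]
  intro h2
  exact h (σ i) (congrFun h2 i)

theorem Gap2_two_le (Q N : ℕ) (hN : 1 ≤ N) (hQ : N ≤ Q) :
    2 ≤ Module.finrank ℂ (Gap2_W Q N) := by
  let s : Fin N → Fin (Q + 1) := fun i => ⟨(i : ℕ), by omega⟩
  let t : Fin N → Fin (Q + 1) := fun i => ⟨(i : ℕ) + 1, by omega⟩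
  have hs : Function.Injective s := by
    intro i j hij
    have := congrArg Fin.val hij
    exact Fin.ext this
  have ht : Function.Injective t := by
    intro i j hij
    have := congrArg Fin.val hij
    simp only [t] at this
    exact Fin.ext (by omega)
  have hst : Gap2_slater s t = 0 := by
    apply Gap2_slater_other s t ⟨N - 1, by omega⟩
    intro j hj
    have := congrArg Fin.val hj
    simp only [s, t] at this
    have := j.2
    omega
  have hts : Gap2_slater t s = 0 := by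
    apply Gap2_slater_other t s ⟨0, by omega⟩
    intro j hj
    have := congrArg Fin.val hj
    simp only [s, t] at this
    omega
  let u : Gap2_W Q N := ⟨Gap2_slater s, Gap2_slater_fermionic s⟩
  let v : Gap2_W Q N := ⟨Gap2_slater t, Gap2_slater_fermionic t⟩
  have hli : LinearIndependent ℂ ![u, v] := by
    rw [LinearIndependent.pair_iff]
    intro a b hab
    have h1 : a • Gap2_slater s + b • Gap2_slater t = 0 := congrArg Subtype.val hab
    have h2 : a * Gap2_slater s s + b * Gap2_slater t s = 0 := by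
      have := congrArg (fun f : EuclideanSpace ℂ (Fin N → Fin (Q + 1)) => f s) h1
      simpa using this
    have h3 : a * Gap2_slater s t + b * Gap2_slater t t = 0 := by
      have := congrArg (fun f : EuclideanSpace ℂ (Fin N → Fin (Q + 1)) => f t) h1
      simpa using this
    rw [Gap2_slater_self s hs, hts] at h2
    rw [Gap2_slater_self t ht, hst] at h3
    constructor
    · simpa using h2
    · simpa using h3
  have := hli.fintype_card_le_finrank
  simpa using this

theorem Gap2_W_le (Q N : ℕ) : ∃ E : ℝ, Gap2_W Q N ≤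
    (⨆ μ : Set.Iic E, fermionicEigenspace Q N (μ : ℝ)) := by
  have hinv : ∀ ψ ∈ Gap2_W Q N, hamiltonian Q N ψ ∈ Gap2_W Q N :=
    fun ψ hψ => hamiltonian_fermionic Q N ψ hψ
  have hT := (hamiltonian_symmetric Q N).restrict_invariant hinv
  refine ⟨∑ i, |hT.eigenvalues rfl i|, ?_⟩
  intro ψ hψ
  have hexp := (hT.eigenvectorBasis rfl).sum_repr ⟨ψ, hψ⟩
  have hexp2 : ∑ i, ((hT.eigenvectorBasis rfl).repr ⟨ψ, hψ⟩ i) •
      ((hT.eigenvectorBasis rfl i : Gap2_W Q N) : EuclideanSpace ℂ (Fin N → Fin (Q + 1))) = ψ := by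
    have h9 := congrArg Subtype.val hexp
    rw [Submodule.coe_sum] at h9
    exact h9
  rw [← hexp2]
  apply Submodule.sum_mem
  intro i _
  apply Submodule.smul_mem
  have hle : hT.eigenvalues rfl i ≤ ∑ i, |hT.eigenvalues rfl i| :=
    le_trans (le_abs_self _) (Finset.single_le_sum (f := fun i => |hT.eigenvalues rfl i|)
      (fun j _ => abs_nonneg _) (Finset.mem_univ i))
  have hmem : ((hT.eigenvectorBasis rfl i : Gap2_W Q N) :
      EuclideanSpace ℂ (Fin N → Fin (Q + 1))) ∈ fermionicEigenspace Q N (hT.eigenvalues rfl i) := by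
    refine ⟨(hT.eigenvectorBasis rfl i).2, ?_⟩
    have := congrArg Subtype.val (hT.apply_eigenvectorBasis rfl i)
    simpa using this
  exact (le_iSup (fun μ : Set.Iic (∑ i, |hT.eigenvalues rfl i|) =>
    fermionicEigenspace Q N (μ : ℝ)) ⟨hT.eigenvalues rfl i, hle⟩) hmem

theorem Gap2_aux (Q N : ℕ) (hN : 1 ≤ N) (hQ : N ≤ Q)
    (Ψ : EuclideanSpace ℂ (Fin N → Fin (Q + 1))) (hf : IsFermionic Ψ) (hne : Ψ ≠ 0)
    (h0 : hamiltonian Q N Ψ = 0)
    (hker : ∀ φ : EuclideanSpace ℂ (Fin N → Fin (Q + 1)), IsFermionic φ →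
        hamiltonian Q N φ = 0 → ∃ c : ℂ, φ = c • Ψ)
    (hgap : ∀ (lam : ℝ) (φ : EuclideanSpace ℂ (Fin N → Fin (Q + 1))), IsFermionic φ → φ ≠ 0 →
        hamiltonian Q N φ = (lam : ℂ) • φ → lam ≤ 0 ∨ 1 / 100 ≤ lam) :
    energy Q N 0 = 0 ∧ 1 / 100 ≤ energy Q N 1 := by
  have hneg : ∀ μ : ℝ, μ < 0 → fermionicEigenspace Q N μ = ⊥ := by
    intro μ hμ
    rw [eq_bot_iff]
    intro ψ hψ
    rw [Submodule.mem_bot]
    by_contra hψ0
    have h1 := hamiltonian_nonneg Q N ψ
    rw [hψ.2, inner_smul_right] at h1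
    rw [inner_self_eq_norm_sq_to_K] at h1
    have h2 : ((μ : ℂ) * ((‖ψ‖ : ℂ)) ^ 2).re = μ * ‖ψ‖ ^ 2 := by
      rw [← Complex.ofReal_pow, ← Complex.ofReal_mul, Complex.ofReal_re]
    have h3 : 0 < ‖ψ‖ := norm_pos_iff.mpr hψ0
    have h4 : 0 ≤ μ * ‖ψ‖ ^ 2 := by
      rw [← h2]
      exact h1
    have h5 : 0 < ‖ψ‖ ^ 2 := by positivity
    nlinarith
  have hspan : ∀ E : ℝ, E < 1 / 100 →
      (⨆ μ : Set.Iic E, fermionicEigenspace Q N (μ : ℝ)) ≤ Submodule.span ℂ {Ψ} := by
    intro E hE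
    apply iSup_le
    rintro ⟨μ, hμ⟩
    intro ψ hψ
    by_cases hψ0 : ψ = 0
    · rw [hψ0]
      exact Submodule.zero_mem _
    · have hμE : μ ≤ E := hμ
      rcases hgap μ ψ hψ.1 hψ0 hψ.2 with h | h
      · rcases lt_or_eq_of_le h with h' | h'
        · have hbot := hneg μ h'
          simp only at hψ
          rw [hbot, Submodule.mem_bot] at hψ
          exact absurd hψ hψ0
        · have hz : hamiltonian Q N ψ = 0 := by
            have := hψ.2
            simp only [h'] at this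
            simpa using this
          obtain ⟨c, hc⟩ := hker ψ hψ.1 hz
          rw [hc]
          exact Submodule.smul_mem _ _ (Submodule.mem_span_singleton_self Ψ)
      · linarith
  have hbot : ∀ E : ℝ, E < 0 →
      (⨆ μ : Set.Iic E, fermionicEigenspace Q N (μ : ℝ)) = ⊥ := by
    intro E hE
    rw [eq_bot_iff]
    apply iSup_le
    rintro ⟨μ, hμ⟩
    have hμE : μ ≤ E := hμ
    exact le_of_eq (hneg μ (lt_of_le_of_lt hμE hE))
  constructor
  · unfold energy
    apply le_antisymm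
    · apply csInf_le
      · refine ⟨0, ?_⟩
        intro E hE
        by_contra hlt
        push Not at hlt
        rw [Set.mem_ofPred_eq, hbot E hlt, finrank_bot] at hE
        omega
      · rw [Set.mem_ofPred_eq]
        have hle : Submodule.span ℂ {Ψ} ≤
            (⨆ μ : Set.Iic (0 : ℝ), fermionicEigenspace Q N (μ : ℝ)) := by
          rw [Submodule.span_singleton_le_iff_mem]
          refine (le_iSup (fun μ : Set.Iic (0 : ℝ) => fermionicEigenspace Q N (μ : ℝ))
            ⟨0, Set.mem_Iic.mpr le_rfl⟩) ⟨hf, ?_⟩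
          rw [h0]
          simp
        have h1 := Submodule.finrank_mono hle
        rw [finrank_span_singleton hne] at h1
        omega
    · apply le_csInf
      · refine ⟨0, ?_⟩
        rw [Set.mem_ofPred_eq]
        have hle : Submodule.span ℂ {Ψ} ≤
            (⨆ μ : Set.Iic (0 : ℝ), fermionicEigenspace Q N (μ : ℝ)) := by
          rw [Submodule.span_singleton_le_iff_mem]
          refine (le_iSup (fun μ : Set.Iic (0 : ℝ) => fermionicEigenspace Q N (μ : ℝ))
            ⟨0, Set.mem_Iic.mpr le_rfl⟩) ⟨hf, ?_⟩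
          rw [h0]
          simp
        have h1 := Submodule.finrank_mono hle
        rw [finrank_span_singleton hne] at h1
        omega
      · intro E hE
        by_contra hlt
        push Not at hlt
        rw [Set.mem_ofPred_eq, hbot E hlt, finrank_bot] at hE
        omega
  · unfold energy
    apply le_csInf
    · obtain ⟨E, hE⟩ := Gap2_W_le Q N
      refine ⟨E, ?_⟩
      rw [Set.mem_ofPred_eq]
      exact le_trans (Gap2_two_le Q N hN hQ) (Submodule.finrank_mono hE)
    · intro E hE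
      by_contra hlt
      push Not at hlt
      rw [Set.mem_ofPred_eq] at hE
      have h1 := Submodule.finrank_mono (hspan E hlt)
      rw [finrank_span_singleton hne] at h1
      omega

theorem gap_pos : ∃ N₀ : ℕ, ∀ N : ℕ, N₀ ≤ N →
    energy (3 * (N - 1)) N 0 = 0 ∧ 1 / 100 ≤ spectralGap N := by
  obtain ⟨N₀, hN₀, h⟩ := final_all
  refine ⟨N₀, fun N hN => ?_⟩
  obtain ⟨Ψ, h1, _, h3, h4, h5, h6, _⟩ := h N hN
  obtain ⟨e0, e1⟩ := Gap2_aux (3 * (N - 1)) N (by omega) (by omega) Ψ h1 h3 h4 h5 h6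
  refine ⟨e0, ?_⟩
  unfold spectralGap
  rw [e0, sub_zero]
  exact e1

end Vale.Agent.P359
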