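import Vale.Agent.P359.Defs

namespace Vale.Agent.P359

open Finset MvPolynomial

noncomputable def zpoly {Q N : ℕ} (f : Amp Q N) : MvPolynomial (Fin N) ℂ :=
  ∑ x : Cfg Q N, C (f x) * ∏ i : Fin N, X i ^ (x i : ℕ)

noncomputable def vdm3 (N : ℕ) : MvPolynomial (Fin N) ℂ :=
  ∏ i : Fin N, ∏ j ∈ Finset.Ioi i, (X j - X i) ^ 3

/-- the monomial with exponent function `d` -/
theorem laughA_prod_X {N : ℕ} (d : Fin N → ℕ) (c : ℂ) :
    C c * ∏ i : Fin N, (X i : MvPolynomial (Fin N) ℂ) ^ d i =
      monomial (Finsupp.equivFunOnFinite.symm d) c := by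
  rw [MvPolynomial.monomial_eq, Finsupp.prod_fintype _ _ (fun i => pow_zero _)]
  simp

theorem laughA_zpoly {Q N : ℕ} (f : Amp Q N) :
    zpoly f = ∑ x : Cfg Q N,
      monomial (Finsupp.equivFunOnFinite.symm (fun i => (x i : ℕ))) (f x) := by
  unfold zpoly
  exact Finset.sum_congr rfl fun x _ => laughA_prod_X _ _

theorem laughA_coeff {Q N : ℕ} (f : Amp Q N) (x : Cfg Q N) :
    coeff (Finsupp.equivFunOnFinite.symm (fun i => (x i : ℕ))) (zpoly f) = f x := by
  rw [laughA_zpoly, coeff_sum, Finset.sum_eq_single x]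
  · rw [coeff_monomial, if_pos rfl]
  · intro y _ hy
    rw [coeff_monomial, if_neg]
    intro h
    apply hy
    have h1 := Finsupp.equivFunOnFinite.symm.injective h
    funext i
    exact Fin.ext (congrFun h1 i)
  · intro h
    exact absurd (Finset.mem_univ x) h

theorem zpoly_injective {Q N : ℕ} : Function.Injective (zpoly : Amp Q N → _) := by
  intro f g h
  funext x
  rw [← laughA_coeff f x, h, laughA_coeff]

/-- substitution `X 0 ↦ X 1` -/
noncomputable def laughD (n : ℕ) :
    MvPolynomial (Fin (n + 2)) ℂ →ₐ[ℂ] MvPolynomial (Fin (n + 2)) ℂ :=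
  aeval (fun k => if k = 0 then X 1 else X k)

theorem laughD_X0 (n : ℕ) : laughD n (X 0) = X 1 := by
  simp [laughD]

theorem laughD_X1 (n : ℕ) : laughD n (X 1) = X 1 := by
  simp [laughD]

theorem laughD_Xk (n : ℕ) (k : Fin n) : laughD n (X k.succ.succ) = X k.succ.succ := by
  simp [laughD]

theorem laughD_sub_dvd (n : ℕ) (p : MvPolynomial (Fin (n + 2)) ℂ) :
    (X 1 - X 0 : MvPolynomial (Fin (n + 2)) ℂ) ∣ p - laughD n p := by
  induction p using MvPolynomial.induction_on with
  | C a =>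
    rw [show laughD n (C a) = C a from by simp [laughD, ← MvPolynomial.algebraMap_eq]]
    simp
  | add p q hp hq =>
    rw [map_add]
    have : p + q - (laughD n p + laughD n q) = (p - laughD n p) + (q - laughD n q) := by ring
    rw [this]
    exact dvd_add hp hq
  | mul_X p k hp =>
    rw [map_mul]
    have e : p * X k - laughD n p * laughD n (X k) =
        (p - laughD n p) * X k + laughD n p * (X k - laughD n (X k)) := by ring
    rw [e]
    refine dvd_add (dvd_mul_of_dvd_left hp _) (dvd_mul_of_dvd_right ?_ _)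
    by_cases hk : k = 0
    · rw [hk, laughD_X0]
      exact ⟨-1, by ring⟩
    · rw [show laughD n (X k) = X k from by simp [laughD, hk]]
      simp

theorem laughD_dvd {n : ℕ} {p : MvPolynomial (Fin (n + 2)) ℂ} (h : laughD n p = 0) :
    (X 1 - X 0 : MvPolynomial (Fin (n + 2)) ℂ) ∣ p := by
  have := laughD_sub_dvd n p
  rwa [h, sub_zero] at this

theorem laughD_swap {n : ℕ} (p : MvPolynomial (Fin (n + 2)) ℂ) :
    laughD n (rename (Equiv.swap 0 1) p) = laughD n p := by
  have h : (laughD n).comp (rename (Equiv.swap (0 : Fin (n + 2)) 1)) = laughD n := by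
    apply MvPolynomial.algHom_ext
    intro k
    rw [AlgHom.comp_apply, rename_X]
    by_cases h0 : k = 0
    · rw [h0, Equiv.swap_apply_left, laughD_X0, laughD_X1]
    · by_cases h1 : k = 1
      · rw [h1, Equiv.swap_apply_right, laughD_X0, laughD_X1]
      · rw [Equiv.swap_apply_of_ne_of_ne h0 h1]
  exact AlgHom.congr_fun h p

/-- the twisted derivation `p ↦ ((∂₀ - ∂₁) p) |_{X₀ = X₁}` -/
noncomputable def laughE (n : ℕ) (p : MvPolynomial (Fin (n + 2)) ℂ) :
    MvPolynomial (Fin (n + 2)) ℂ :=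
  laughD n (pderiv 0 p - pderiv 1 p)

theorem laughE_mul {n : ℕ} (p q : MvPolynomial (Fin (n + 2)) ℂ) :
    laughE n (p * q) = laughE n p * laughD n q + laughD n p * laughE n q := by
  unfold laughE
  rw [Derivation.leibniz, Derivation.leibniz]
  simp only [smul_eq_mul, map_sub, map_add, map_mul]
  ring

theorem laughE_add {n : ℕ} (p q : MvPolynomial (Fin (n + 2)) ℂ) :
    laughE n (p + q) = laughE n p + laughE n q := by
  unfold laughE
  simp only [map_sub, map_add]
  ring

theorem laughE_C {n : ℕ} (a : ℂ) : laughE n (C a) = 0 := by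
  simp [laughE]

theorem laughE_C_mul {n : ℕ} (a : ℂ) (p : MvPolynomial (Fin (n + 2)) ℂ) :
    laughE n (C a * p) = C a * laughE n p := by
  rw [laughE_mul, laughE_C]
  rw [show laughD n (C a) = C a from by simp [laughD, ← MvPolynomial.algebraMap_eq]]
  ring

theorem laughE_sum {n : ℕ} {ι : Type*} (s : Finset ι) (p : ι → MvPolynomial (Fin (n + 2)) ℂ) :
    laughE n (∑ i ∈ s, p i) = ∑ i ∈ s, laughE n (p i) := by
  unfold laughE
  simp only [map_sum, map_sub, ← Finset.sum_sub_distrib]

theorem laughE_X0 (n : ℕ) : laughE n (X 0) = 1 := by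
  unfold laughE
  rw [pderiv_X_self, pderiv_X_of_ne (by simp : (0 : Fin (n + 2)) ≠ 1)]
  simp

theorem laughE_X1 (n : ℕ) : laughE n (X 1) = -1 := by
  unfold laughE
  rw [pderiv_X_self, pderiv_X_of_ne (by simp : (1 : Fin (n + 2)) ≠ 0)]
  simp

theorem laughE_Xk (n : ℕ) (k : Fin n) : laughE n (X k.succ.succ) = 0 := by
  unfold laughE
  have h0 : k.succ.succ ≠ (0 : Fin (n + 2)) := Fin.succ_ne_zero _
  have h1 : k.succ.succ ≠ (1 : Fin (n + 2)) := by
    intro h
    have := congrArg Fin.val h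
    simp at this
  rw [pderiv_X_of_ne h0, pderiv_X_of_ne h1]
  simp

theorem laughE_X0_pow (n a : ℕ) :
    laughE n (X 0 ^ a) = C (a : ℂ) * X 1 ^ (a - 1) := by
  induction a with
  | zero => simp [laughE]
  | succ a ih =>
    rw [pow_succ, laughE_mul, ih, laughE_X0, laughD_X0, map_pow, laughD_X0]
    rcases Nat.eq_zero_or_pos a with h | h
    · subst h
      simp
    · obtain ⟨b, rfl⟩ : ∃ b, a = b + 1 := ⟨a - 1, by omega⟩
      simp only [Nat.add_sub_cancel]
      push_cast
      rw [map_add, map_add, map_add, map_one]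
      ring

theorem laughE_X1_pow (n a : ℕ) :
    laughE n (X 1 ^ a) = -(C (a : ℂ) * X 1 ^ (a - 1)) := by
  induction a with
  | zero => simp [laughE]
  | succ a ih =>
    rw [pow_succ, laughE_mul, ih, laughE_X1, laughD_X1, map_pow, laughD_X1]
    rcases Nat.eq_zero_or_pos a with h | h
    · subst h
      simp
    · obtain ⟨b, rfl⟩ : ∃ b, a = b + 1 := ⟨a - 1, by omega⟩
      simp only [Nat.add_sub_cancel]
      push_cast
      rw [map_add, map_add, map_add, map_one]
      ring

/-- the product of the far variables -/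
noncomputable def laughR {n : ℕ} (y : Fin n → ℕ) : MvPolynomial (Fin (n + 2)) ℂ :=
  ∏ i : Fin n, X i.succ.succ ^ y i

theorem laughD_R {n : ℕ} (y : Fin n → ℕ) : laughD n (laughR y) = laughR y := by
  unfold laughR
  rw [map_prod]
  refine Finset.prod_congr rfl fun i _ => ?_
  rw [map_pow, laughD_Xk]

theorem laughE_R {n : ℕ} (y : Fin n → ℕ) : laughE n (laughR y) = 0 := by
  unfold laughR
  refine Finset.prod_induction _ (fun p => laughE n p = 0) ?_ ?_ ?_
  · intro p q hp hq
    rw [laughE_mul, hp, hq]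
    ring
  · simp [laughE]
  · intro i _
    induction y i with
    | zero => simp [laughE]
    | succ k ih =>
      rw [pow_succ, laughE_mul, ih, laughE_Xk]
      ring

theorem laughE_mono {n : ℕ} (a b : ℕ) (y : Fin n → ℕ) :
    laughE n (X 0 ^ a * (X 1 ^ b * laughR y)) =
      C ((a : ℂ) - (b : ℂ)) * (X 1 ^ (a + b - 1) * laughR y) := by
  rw [laughE_mul, laughE_mul, laughE_R, laughE_X0_pow, laughE_X1_pow, map_mul, map_pow, map_pow,
    laughD_R, laughD_X0, laughD_X1, map_sub]
  have e1 : C (a : ℂ) * X 1 ^ (a - 1) * X 1 ^ b =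
      C (a : ℂ) * (X 1 : MvPolynomial (Fin (n + 2)) ℂ) ^ (a + b - 1) := by
    rcases Nat.eq_zero_or_pos a with h | h
    · subst h
      simp
    · rw [mul_assoc, ← pow_add]
      congr 2
      omega
  have e2 : C (b : ℂ) * X 1 ^ (b - 1) * X 1 ^ a =
      C (b : ℂ) * (X 1 : MvPolynomial (Fin (n + 2)) ℂ) ^ (a + b - 1) := by
    rcases Nat.eq_zero_or_pos b with h | h
    · subst h
      simp
    · rw [mul_assoc, ← pow_add]
      congr 2
      omega
  linear_combination (laughR y) * e1 - (laughR y) * e2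

theorem laughA_sum_cons {Q n : ℕ} {M : Type*} [AddCommMonoid M] (F : Cfg Q (n + 2) → M) :
    ∑ x : Cfg Q (n + 2), F x = ∑ y : Cfg Q n, ∑ a : Fin (Q + 1), ∑ b : Fin (Q + 1),
      F (Fin.cons a (Fin.cons b y)) := by
  have h1 : ∀ (N : ℕ) (G : Cfg Q (N + 1) → M), ∑ x : Cfg Q (N + 1), G x =
      ∑ a : Fin (Q + 1), ∑ y : Cfg Q N, G (Fin.cons a y) := by
    intro N G
    rw [← (Fin.consEquiv (fun _ : Fin (N + 1) => Fin (Q + 1))).sum_comp G,
      Fintype.sum_prod_type]
    rfl
  rw [h1]
  calc ∑ a : Fin (Q + 1), ∑ x : Cfg Q (n + 1), F (Fin.cons a x)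
      = ∑ a : Fin (Q + 1), ∑ b : Fin (Q + 1), ∑ y : Cfg Q n, F (Fin.cons a (Fin.cons b y)) :=
        Finset.sum_congr rfl fun a _ => h1 n (fun x => F (Fin.cons a x))
    _ = ∑ a : Fin (Q + 1), ∑ y : Cfg Q n, ∑ b : Fin (Q + 1), F (Fin.cons a (Fin.cons b y)) :=
        Finset.sum_congr rfl fun a _ => Finset.sum_comm
    _ = _ := Finset.sum_comm

theorem laughE_zpoly {Q n : ℕ} (f : Amp Q (n + 2)) :
    laughE n (zpoly f) = ∑ y : Cfg Q n, ∑ m ∈ range (2 * Q),
      C (bop m f y) * (X 1 ^ m * laughR (fun i => (y i : ℕ))) := by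
  unfold zpoly
  rw [laughE_sum, laughA_sum_cons]
  refine Finset.sum_congr rfl fun y _ => ?_
  have h1 : ∀ a b : Fin (Q + 1),
      laughE n (C (f (Fin.cons a (Fin.cons b y))) *
        ∏ i : Fin (n + 2), X i ^ ((Fin.cons a (Fin.cons b y) : Cfg Q (n + 2)) i : ℕ)) =
      C ((((a : ℕ) : ℂ) - ((b : ℕ) : ℂ)) * f (Fin.cons a (Fin.cons b y))) *
        (X 1 ^ ((a : ℕ) + (b : ℕ) - 1) * laughR (fun i => (y i : ℕ))) := by
    intro a b
    rw [laughE_C_mul, Fin.prod_univ_succ, Fin.prod_univ_succ]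
    simp only [Fin.cons_zero, Fin.cons_succ]
    have e := laughE_mono (n := n) (a : ℕ) (b : ℕ) (fun i => (y i : ℕ))
    unfold laughR at e ⊢
    rw [show (Fin.succ 0 : Fin (n + 2)) = 1 from rfl, e, map_mul]
    ring
  simp_rw [h1]
  -- right hand side
  have h2 : ∀ m : ℕ, C (bop m f y) * (X 1 ^ m * laughR (fun i => (y i : ℕ))) =
      ∑ a : Fin (Q + 1), ∑ b : Fin (Q + 1), if (a : ℕ) + (b : ℕ) = m + 1 then
        C ((((a : ℕ) : ℂ) - ((b : ℕ) : ℂ)) * f (Fin.cons a (Fin.cons b y))) *
        ((X 1 : MvPolynomial (Fin (n + 2)) ℂ) ^ ((a : ℕ) + (b : ℕ) - 1) *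
          laughR (fun i => (y i : ℕ))) else 0 := by
    intro m
    unfold bop
    rw [map_sum, Finset.sum_mul]
    refine Finset.sum_congr rfl fun a _ => ?_
    rw [map_sum, Finset.sum_mul]
    refine Finset.sum_congr rfl fun b _ => ?_
    split_ifs with h
    · rw [show (a : ℕ) + (b : ℕ) - 1 = m by omega]
    · simp
  simp_rw [h2]
  rw [Finset.sum_comm (s := range (2 * Q))]
  refine Finset.sum_congr rfl fun a _ => ?_
  rw [Finset.sum_comm (s := range (2 * Q))]
  refine Finset.sum_congr rfl fun b _ => ?_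
  by_cases hab : (a : ℕ) + (b : ℕ) = 0
  · have ha : (a : ℕ) = 0 := by omega
    have hb : (b : ℕ) = 0 := by omega
    rw [Finset.sum_eq_zero]
    · rw [ha, hb]
      simp
    · intro m _
      rw [if_neg (by omega)]
  · rw [Finset.sum_eq_single ((a : ℕ) + (b : ℕ) - 1)]
    · rw [if_pos (by omega)]
    · intro m _ hm
      rw [if_neg (by omega)]
    · intro h
      exfalso
      apply h
      rw [Finset.mem_range]
      have := a.2
      have := b.2
      omega

/-- permuting variables of an antisymmetric amplitude -/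
theorem laughA_rename {Q N : ℕ} (f : Amp Q N) (hf : Anti f) (σ : Equiv.Perm (Fin N)) :
    rename σ (zpoly f) = C (((Equiv.Perm.sign σ : ℤ) : ℂ)) * zpoly f := by
  unfold zpoly
  rw [map_sum, Finset.mul_sum]
  refine Fintype.sum_equiv (Equiv.arrowCongr σ (Equiv.refl _)) _ _ ?_
  intro x
  have e : (Equiv.arrowCongr σ (Equiv.refl (Fin (Q + 1)))) x = x ∘ σ.symm := by
    funext k
    simp [Equiv.arrowCongr]
  rw [e, map_mul, rename_C, map_prod]
  have h1 : f x = ((Equiv.Perm.sign σ : ℤ) : ℂ) * f (x ∘ σ.symm) := by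
    rw [← hf σ (x ∘ σ.symm)]
    congr 1
    funext k
    simp
  have h2 : ∏ i : Fin N, (X i : MvPolynomial (Fin N) ℂ) ^ (((x ∘ σ.symm) i : Fin (Q + 1)) : ℕ) =
      ∏ i : Fin N, rename σ (X i ^ (x i : ℕ)) := by
    rw [← Equiv.prod_comp σ]
    refine Finset.prod_congr rfl fun i _ => ?_
    rw [map_pow, rename_X]
    simp
  rw [h2, h1, map_mul]
  ring

theorem laughA_X_ne {N : ℕ} {i j : Fin N} (h : i ≠ j) :
    (X j - X i : MvPolynomial (Fin N) ℂ) ≠ 0 := by
  rw [sub_ne_zero]
  intro h'
  exact h (MvPolynomial.X_injective h').symm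

theorem pair_cube_dvd {Q n : ℕ} (f : Amp Q (n + 2)) (hf : Anti f) (hb : ∀ m, bop m f = 0) :
    (X 1 - X 0 : MvPolynomial (Fin (n + 2)) ℂ) ^ 3 ∣ zpoly f := by
  have h01 : (0 : Fin (n + 2)) ≠ 1 := by simp
  have hne : (X 1 - X 0 : MvPolynomial (Fin (n + 2)) ℂ) ≠ 0 := laughA_X_ne h01
  set P := zpoly f with hP
  have hs : rename (Equiv.swap 0 1) P = -P := by
    rw [hP, laughA_rename f hf, Equiv.Perm.sign_swap h01]
    simp
  have hDX : laughD n (X 1 - X 0) = 0 := by
    rw [map_sub, laughD_X0, laughD_X1, sub_self]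
  -- first factor
  have hD : laughD n P = 0 := by
    have h1 := laughD_swap P
    rw [hs, map_neg] at h1
    have h2 : (2 : MvPolynomial (Fin (n + 2)) ℂ) * laughD n P = 0 := by linear_combination -h1
    have h3 : (2 : MvPolynomial (Fin (n + 2)) ℂ) ≠ 0 := two_ne_zero
    exact (mul_eq_zero.1 h2).resolve_left h3
  obtain ⟨q, hq⟩ := laughD_dvd hD
  have hsX : rename (Equiv.swap 0 1) (X 1 - X 0 : MvPolynomial (Fin (n + 2)) ℂ) =
      -(X 1 - X 0) := by
    rw [map_sub, rename_X, rename_X, Equiv.swap_apply_left, Equiv.swap_apply_right]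
    ring
  have hsq : rename (Equiv.swap 0 1) q = q := by
    have h1 := hs
    rw [hq, map_mul, hsX] at h1
    have h2 : (X 1 - X 0 : MvPolynomial (Fin (n + 2)) ℂ) * rename (Equiv.swap 0 1) q =
        (X 1 - X 0) * q := by linear_combination -h1
    exact mul_left_cancel₀ hne h2
  -- second factor
  have hE : laughE n P = 0 := by
    rw [hP, laughE_zpoly]
    refine Finset.sum_eq_zero fun y _ => Finset.sum_eq_zero fun m _ => ?_
    rw [hb m]
    simp
  have hDq : laughD n q = 0 := by
    rw [hq, laughE_mul, hDX, zero_mul, add_zero] at hE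
    have h1 : laughE n (X 1 - X 0 : MvPolynomial (Fin (n + 2)) ℂ) = -2 := by
      have h2 : (X 1 - X 0 : MvPolynomial (Fin (n + 2)) ℂ) = X 1 + C (-1) * X 0 := by
        rw [map_neg, map_one]
        ring
      rw [h2, laughE_add, laughE_C_mul, laughE_X0, laughE_X1, map_neg, map_one]
      ring
    rw [h1] at hE
    have h3 : (-2 : MvPolynomial (Fin (n + 2)) ℂ) ≠ 0 := neg_ne_zero.2 two_ne_zero
    exact (mul_eq_zero.1 hE).resolve_left h3
  obtain ⟨r, hr⟩ := laughD_dvd hDq
  -- third factor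
  have hsr : rename (Equiv.swap 0 1) r = -r := by
    have h1 := hsq
    rw [hr, map_mul, hsX] at h1
    have h2 : (X 1 - X 0 : MvPolynomial (Fin (n + 2)) ℂ) * rename (Equiv.swap 0 1) r =
        (X 1 - X 0) * -r := by linear_combination -h1
    exact mul_left_cancel₀ hne h2
  have hDr : laughD n r = 0 := by
    have h1 := laughD_swap r
    rw [hsr, map_neg] at h1
    have h2 : (2 : MvPolynomial (Fin (n + 2)) ℂ) * laughD n r = 0 := by linear_combination -h1
    have h3 : (2 : MvPolynomial (Fin (n + 2)) ℂ) ≠ 0 := two_ne_zero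
    exact (mul_eq_zero.1 h2).resolve_left h3
  obtain ⟨t, ht⟩ := laughD_dvd hDr
  exact ⟨t, by rw [hq, hr, ht]; ring⟩

theorem laughA_mono {n : ℕ} (m : ℕ) (y : Fin n → ℕ) (c : ℂ) :
    C c * (X 1 ^ m * laughR y) =
      monomial (Finsupp.equivFunOnFinite.symm (Fin.cons 0 (Fin.cons m y) : Fin (n + 2) → ℕ)) c := by
  rw [← laughA_prod_X, Fin.prod_univ_succ, Fin.prod_univ_succ]
  simp only [Fin.cons_zero, Fin.cons_succ, pow_zero, one_mul]
  rfl

theorem bop_zero_of_pair_cube {Q n : ℕ} (f : Amp Q (n + 2))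
    (h : (X 1 - X 0 : MvPolynomial (Fin (n + 2)) ℂ) ^ 2 ∣ zpoly f) (m : ℕ) : bop m f = 0 := by
  have hDX : laughD n (X 1 - X 0) = 0 := by
    rw [map_sub, laughD_X0, laughD_X1, sub_self]
  obtain ⟨q, hq⟩ := h
  have hE : laughE n (zpoly f) = 0 := by
    rw [hq, laughE_mul, pow_two, laughE_mul, map_mul, hDX]
    ring
  funext y
  by_cases hm : m < 2 * Q
  · rw [laughE_zpoly] at hE
    simp_rw [laughA_mono] at hE
    have h1 := congrArg (coeff (Finsupp.equivFunOnFinite.symm
      (Fin.cons 0 (Fin.cons m (fun i => (y i : ℕ))) : Fin (n + 2) → ℕ))) hE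
    rw [coeff_zero, coeff_sum, Finset.sum_eq_single y] at h1
    · rw [coeff_sum, Finset.sum_eq_single m] at h1
      · rw [coeff_monomial, if_pos rfl] at h1
        exact h1
      · intro m' _ hm'
        rw [coeff_monomial, if_neg]
        intro h2
        have h3 := congrFun (Finsupp.equivFunOnFinite.symm.injective h2) 1
        exact hm' h3
      · intro h2
        exact absurd (Finset.mem_range.2 hm) h2
    · intro y' _ hy'
      rw [coeff_sum]
      refine Finset.sum_eq_zero fun m' _ => ?_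
      rw [coeff_monomial, if_neg]
      intro h2
      apply hy'
      funext i
      have h3 := congrFun (Finsupp.equivFunOnFinite.symm.injective h2) i.succ.succ
      simp only [Fin.cons_succ] at h3
      exact Fin.ext h3
    · intro h2
      exact absurd (Finset.mem_univ y) h2
  · unfold bop
    simp only [Pi.zero_apply]
    refine Finset.sum_eq_zero fun a _ => Finset.sum_eq_zero fun b _ => ?_
    rw [if_neg]
    have := a.2
    have := b.2
    omega

/-- `X j - X i` is prime -/
theorem laughA_prime {N : ℕ} {i j : Fin N} (h : i ≠ j) :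
    Prime (X j - X i : MvPolynomial (Fin N) ℂ) := by
  -- the automorphism `X j ↦ X j + X i`
  let φ : MvPolynomial (Fin N) ℂ →ₐ[ℂ] MvPolynomial (Fin N) ℂ :=
    aeval (fun k => if k = j then X j - X i else X k)
  let ψ : MvPolynomial (Fin N) ℂ →ₐ[ℂ] MvPolynomial (Fin N) ℂ :=
    aeval (fun k => if k = j then X j + X i else X k)
  have h1 : φ.comp ψ = AlgHom.id ℂ _ := by
    apply MvPolynomial.algHom_ext
    intro k
    by_cases hk : k = j
    · simp [φ, ψ, hk, h]
    · simp [φ, ψ, hk]
  have h2 : ψ.comp φ = AlgHom.id ℂ _ := by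
    apply MvPolynomial.algHom_ext
    intro k
    by_cases hk : k = j
    · simp [φ, ψ, hk, h]
    · simp [φ, ψ, hk]
  let e : MvPolynomial (Fin N) ℂ ≃ₐ[ℂ] MvPolynomial (Fin N) ℂ := AlgEquiv.ofAlgHom φ ψ h1 h2
  have h3 : e (X j) = X j - X i := by
    simp [e, φ]
  rw [← h3]
  exact (MulEquiv.prime_iff e.toMulEquiv).2 MvPolynomial.X_prime

theorem laughA_relprime {N : ℕ} {i j k l : Fin N} (hij : i < j) (hkl : k < l)
    (hne : ¬ (i = k ∧ j = l)) :
    IsRelPrime ((X j - X i : MvPolynomial (Fin N) ℂ) ^ 3) ((X l - X k) ^ 3) := by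
  apply IsRelPrime.pow
  have hp := laughA_prime (N := N) hij.ne
  rw [hp.irreducible.isRelPrime_iff_not_dvd]
  intro hd
  obtain ⟨q, hq⟩ := hd
  -- substitute `X j := X i`
  let φ : MvPolynomial (Fin N) ℂ →ₐ[ℂ] MvPolynomial (Fin N) ℂ :=
    aeval (fun a => if a = j then X i else X a)
  have h1 := congrArg φ hq
  have h2 : φ (X j - X i) = 0 := by
    simp [φ, hij.ne]
  rw [map_mul, h2, zero_mul] at h1
  have h3 : φ (X l - X k) = (if l = j then X i else X l) - (if k = j then X i else X k) := by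
    simp [φ]
  rw [h3, sub_eq_zero] at h1
  split_ifs at h1 with g1 g2 g2
  · exact absurd (g2.trans g1.symm) hkl.ne
  · have := MvPolynomial.X_injective h1
    exact hne ⟨this, g1.symm⟩
  · have := MvPolynomial.X_injective h1
    subst this
    subst g2
    exact absurd hij (not_lt.2 hkl.le)
  · exact absurd (MvPolynomial.X_injective h1).symm hkl.ne

theorem laughA_pair_dvd {Q n : ℕ} (f : Amp Q (n + 2)) (hf : Anti f) (hb : ∀ m, bop m f = 0)
    (i j : Fin (n + 2)) (hij : i ≠ j) :
    (X j - X i : MvPolynomial (Fin (n + 2)) ℂ) ^ 3 ∣ zpoly f := by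
  set s := Equiv.swap (0 : Fin (n + 2)) i with hs
  set σ := Equiv.swap (s 1) j * s with hσ
  have h01 : (1 : Fin (n + 2)) ≠ 0 := by simp
  have hs0 : s 0 = i := Equiv.swap_apply_left 0 i
  have hs1 : s 1 ≠ i := by
    rw [← hs0]
    exact fun h => h01 (s.injective h)
  have hσ0 : σ 0 = i := by
    rw [hσ, Equiv.Perm.mul_apply, hs0, Equiv.swap_apply_of_ne_of_ne hs1.symm hij]
  have hσ1 : σ 1 = j := by
    rw [hσ, Equiv.Perm.mul_apply, Equiv.swap_apply_left]
  have h1 := map_dvd (rename σ) (pair_cube_dvd f hf hb)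
  rw [map_pow, map_sub, rename_X, rename_X, hσ0, hσ1, laughA_rename f hf] at h1
  rcases Int.units_eq_one_or (Equiv.Perm.sign σ) with h | h
  · rw [h] at h1
    simpa using h1
  · rw [h] at h1
    simpa using h1

theorem laughA_deg {N : ℕ} {i j : Fin N} (h : i ≠ j) (k : Fin N) (hk : k = i ∨ k = j) :
    1 ≤ degreeOf k (X j - X i : MvPolynomial (Fin N) ℂ) := by
  have hc : coeff (Finsupp.single k 1) (X j - X i : MvPolynomial (Fin N) ℂ) ≠ 0 := by
    rw [coeff_sub, coeff_X, coeff_X]
    rcases hk with hk | hk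
    · subst hk
      have : ¬ (Finsupp.single j 1 = (Finsupp.single k 1 : Fin N →₀ ℕ)) := by
        intro h'
        exact h ((Finsupp.single_left_injective one_ne_zero) h').symm
      simp [this]
    · subst hk
      have : ¬ (Finsupp.single i 1 = (Finsupp.single k 1 : Fin N →₀ ℕ)) := by
        intro h'
        exact h ((Finsupp.single_left_injective one_ne_zero) h')
      simp [this]
  have h1 := MvPolynomial.le_degreeOf_of_mem_support k (mem_support_iff.2 hc)
  simpa using h1

theorem laughA_count (N : ℕ) (k : Fin N) :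
    N - 1 ≤ ∑ i : Fin N, ∑ j ∈ Finset.Ioi i, if k = i ∨ k = j then 1 else 0 := by
  have h1 : (∑ i ∈ Finset.Iio k, 1) + (Finset.Ioi k).card ≤
      ∑ i : Fin N, ∑ j ∈ Finset.Ioi i, if k = i ∨ k = j then 1 else 0 := by
    have h2 : (insert k (Finset.Iio k)) ⊆ (Finset.univ : Finset (Fin N)) := Finset.subset_univ _
    refine le_trans ?_ (Finset.sum_le_sum_of_subset h2)
    rw [Finset.sum_insert (by simp), add_comm]
    apply add_le_add
    · rw [Finset.card_eq_sum_ones]
      apply Finset.sum_le_sum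
      intro j _
      simp
    · apply Finset.sum_le_sum
      intro i hi
      have hi' : i < k := Finset.mem_Iio.1 hi
      calc 1 = (if k = i ∨ k = k then 1 else 0) := by simp
        _ ≤ ∑ j ∈ Finset.Ioi i, if k = i ∨ k = j then 1 else 0 :=
          Finset.single_le_sum (f := fun j => if k = i ∨ k = j then 1 else 0)
            (fun _ _ => Nat.zero_le _) (Finset.mem_Ioi.2 hi')
  refine le_trans ?_ h1
  rw [← Finset.card_eq_sum_ones, Fin.card_Iio, Fin.card_Ioi]
  have := k.2
  omega

theorem ker_unique {n : ℕ} (f : Amp (3 * (n + 1)) (n + 2)) (hf : Anti f)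
    (hb : ∀ m, bop m f = 0) : ∃ c : ℂ, zpoly f = C c * vdm3 (n + 2) := by
  by_cases hP0 : zpoly f = 0
  · exact ⟨0, by rw [hP0]; simp⟩
  have hdvd : vdm3 (n + 2) ∣ zpoly f := by
    unfold vdm3
    rw [Finset.prod_sigma']
    apply Finset.prod_dvd_of_isRelPrime
    · intro p hp q hq hpq
      simp only [Finset.coe_sigma, Set.mem_sigma_iff, Finset.coe_univ, Set.mem_univ, true_and,
        Finset.coe_Ioi, Set.mem_Ioi] at hp hq
      apply laughA_relprime hp hq
      rintro ⟨h1, h2⟩
      apply hpq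
      exact Sigma.ext h1 (heq_of_eq h2)
    · intro p hp
      simp only [Finset.mem_sigma, Finset.mem_univ, true_and, Finset.mem_Ioi] at hp
      exact laughA_pair_dvd f hf hb p.1 p.2 hp.ne
  obtain ⟨R, hR⟩ := hdvd
  have hR0 : R ≠ 0 := by
    rintro rfl
    exact hP0 (by rw [hR, mul_zero])
  have hV0 : vdm3 (n + 2) ≠ 0 := by
    intro h
    exact hP0 (by rw [hR, h, zero_mul])
  have hdeg : ∀ k : Fin (n + 2), degreeOf k R = 0 := by
    intro k
    have h1 : degreeOf k (zpoly f) = degreeOf k (vdm3 (n + 2)) + degreeOf k R := by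
      rw [hR, degreeOf_mul_eq hV0 hR0]
    have h2 : degreeOf k (zpoly f) ≤ 3 * (n + 1) := by
      rw [laughA_zpoly]
      refine le_trans (degreeOf_sum_le _ _ _) (Finset.sup_le fun x _ => ?_)
      by_cases hx : f x = 0
      · rw [hx, monomial_zero, degreeOf_zero]
        exact Nat.zero_le _
      · rw [degreeOf_monomial_eq _ _ hx]
        simp only [Finsupp.equivFunOnFinite_symm_apply_apply]
        have := (x k).2
        omega
    have h3 : 3 * (n + 1) ≤ degreeOf k (vdm3 (n + 2)) := by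
      have hne : ∀ i : Fin (n + 2), ∀ j ∈ Finset.Ioi i,
          ((X j - X i : MvPolynomial (Fin (n + 2)) ℂ) ^ 3) ≠ 0 := by
        intro i j hj
        exact pow_ne_zero _ (laughA_X_ne (Finset.mem_Ioi.1 hj).ne)
      unfold vdm3
      rw [degreeOf_prod_eq]
      · calc 3 * (n + 1) ≤ 3 * ∑ i : Fin (n + 2), ∑ j ∈ Finset.Ioi i,
              (if k = i ∨ k = j then 1 else 0) := by
              have := laughA_count (n + 2) k
              omega
          _ ≤ ∑ i : Fin (n + 2), degreeOf k (∏ j ∈ Finset.Ioi i,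
              (X j - X i : MvPolynomial (Fin (n + 2)) ℂ) ^ 3) := by
            rw [Finset.mul_sum]
            apply Finset.sum_le_sum
            intro i _
            rw [degreeOf_prod_eq _ _ (hne i), Finset.mul_sum]
            apply Finset.sum_le_sum
            intro j hj
            have hij := (Finset.mem_Ioi.1 hj).ne
            rw [degreeOf_pow_eq _ _ _ (laughA_X_ne hij)]
            split_ifs with hk
            · have := laughA_deg hij k hk
              omega
            · omega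
      · intro i _
        exact Finset.prod_ne_zero_iff.2 (hne i)
    omega
  refine ⟨coeff 0 R, ?_⟩
  have hRC : R = C (coeff 0 R) := by
    rw [← totalDegree_eq_zero_iff_eq_C, totalDegree_eq_zero_iff]
    intro m hm x
    have h1 := MvPolynomial.le_degreeOf_of_mem_support x hm
    rw [hdeg x] at h1
    omega
  rw [hR]
  conv_lhs => rw [hRC]
  ring

end Vale.Agent.P359
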