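import Vale.Agent.P359.Defs

namespace Vale.Agent.P359

open Finset Filter Topology

/-! ### General limits -/

theorem LimA_sub {P : ℕ → ℕ} {c : ℝ}
    (h : Tendsto (fun Q : ℕ => (P Q : ℝ) / (Q : ℝ)) atTop (𝓝 c)) (l : ℕ) :
    Tendsto (fun Q : ℕ => ((P Q - l : ℕ) : ℝ) / (Q : ℝ)) atTop (𝓝 c) := by
  have h1 : Tendsto (fun Q : ℕ => (P Q : ℝ) / (Q : ℝ) - (l : ℝ) / (Q : ℝ)) atTop (𝓝 c) := by
    have := h.sub (tendsto_const_div_atTop_nhds_zero_nat (l : ℝ))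
    simpa using this
  refine tendsto_of_tendsto_of_tendsto_of_le_of_le h1 h ?_ ?_
  · intro Q
    simp only
    rw [← sub_div]
    apply div_le_div_of_nonneg_right _ (Nat.cast_nonneg Q)
    have : P Q ≤ (P Q - l) + l := by omega
    have h2 : ((P Q : ℕ) : ℝ) ≤ (((P Q - l) + l : ℕ) : ℝ) := by exact_mod_cast this
    push_cast at h2
    linarith
  · intro Q
    simp only
    apply div_le_div_of_nonneg_right _ (Nat.cast_nonneg Q)
    exact_mod_cast Nat.sub_le _ _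

theorem LimA_desc {P : ℕ → ℕ} {c : ℝ}
    (h : Tendsto (fun Q : ℕ => (P Q : ℝ) / (Q : ℝ)) atTop (𝓝 c)) (l : ℕ) :
    Tendsto (fun Q : ℕ => ((P Q).descFactorial l : ℝ) / (Q : ℝ) ^ l) atTop (𝓝 (c ^ l)) := by
  induction l with
  | zero => simp
  | succ l ih =>
    have h1 := (LimA_sub h l).mul ih
    have e : (fun Q : ℕ => ((P Q).descFactorial (l + 1) : ℝ) / (Q : ℝ) ^ (l + 1))
        = fun Q : ℕ => ((P Q - l : ℕ) : ℝ) / (Q : ℝ) * (((P Q).descFactorial l : ℝ) / (Q : ℝ) ^ l) := by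
      funext Q
      rw [Nat.descFactorial_succ, Nat.cast_mul, pow_succ', mul_div_mul_comm]
    rw [e, pow_succ']
    exact h1

theorem LimA_choose {P : ℕ → ℕ} {c : ℝ}
    (h : Tendsto (fun Q : ℕ => (P Q : ℝ) / (Q : ℝ)) atTop (𝓝 c)) (l : ℕ) :
    Tendsto (fun Q : ℕ => ((P Q).choose l : ℝ) / (Q : ℝ) ^ l) atTop
      (𝓝 (c ^ l / (l.factorial : ℝ))) := by
  have h1 := (LimA_desc h l).div_const (l.factorial : ℝ)
  have e : (fun Q : ℕ => ((P Q).choose l : ℝ) / (Q : ℝ) ^ l)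
      = fun Q : ℕ => ((P Q).descFactorial l : ℝ) / (Q : ℝ) ^ l / (l.factorial : ℝ) := by
    funext Q
    have hl : (l.factorial : ℝ) ≠ 0 := by exact_mod_cast Nat.factorial_ne_zero l
    rw [Nat.descFactorial_eq_factorial_mul_choose, Nat.cast_mul]
    field_simp
  rw [e]
  exact h1

noncomputable def LimA_B (c c' : ℝ) (k i m : ℕ) : ℝ :=
  ∑ l ∈ range (i + 1), if l ≤ m ∧ m - l ≤ k then
    (-1 : ℝ) ^ (m - l) * (k.choose (m - l) : ℝ) * (i.choose l : ℝ) * c ^ l * c' ^ (i - l)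
  else 0

theorem LimA_beta {P P' : ℕ → ℕ} {c c' : ℝ}
    (h : Tendsto (fun Q : ℕ => (P Q : ℝ) / (Q : ℝ)) atTop (𝓝 c))
    (h' : Tendsto (fun Q : ℕ => (P' Q : ℝ) / (Q : ℝ)) atTop (𝓝 c')) (k i m : ℕ) :
    Tendsto (fun Q : ℕ => beta (P Q) (P' Q) k i m / (Q : ℝ) ^ i) atTop
      (𝓝 (LimA_B c c' k i m)) := by
  unfold beta LimA_B
  have e : (fun Q : ℕ => (∑ l ∈ range (i + 1), if l ≤ m ∧ m - l ≤ k then
      (-1 : ℝ) ^ (m - l) * (k.choose (m - l) : ℝ) * (i.choose l : ℝ)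
        * ((P Q - k).descFactorial l : ℝ) * ((P' Q - k).descFactorial (i - l) : ℝ)
      else 0) / (Q : ℝ) ^ i)
      = fun Q : ℕ => ∑ l ∈ range (i + 1), if l ≤ m ∧ m - l ≤ k then
      (-1 : ℝ) ^ (m - l) * (k.choose (m - l) : ℝ) * (i.choose l : ℝ)
        * (((P Q - k).descFactorial l : ℝ) / (Q : ℝ) ^ l)
        * (((P' Q - k).descFactorial (i - l) : ℝ) / (Q : ℝ) ^ (i - l))
      else 0 := by
    funext Q
    rw [Finset.sum_div]
    apply Finset.sum_congr rfl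
    intro l hl
    rw [Finset.mem_range] at hl
    split_ifs
    · have : (Q : ℝ) ^ i = (Q : ℝ) ^ l * (Q : ℝ) ^ (i - l) := by
        rw [← pow_add]
        congr 1
        omega
      rw [this, mul_assoc _ ((P Q - k).descFactorial l : ℝ), mul_div_assoc, mul_div_mul_comm,
        ← mul_assoc]
    · simp
  rw [e]
  apply tendsto_finsetSum
  intro l _
  split_ifs
  · exact ((tendsto_const_nhds.mul (LimA_desc (LimA_sub h k) l))).mul
      (LimA_desc (LimA_sub h' k) (i - l))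
  · exact tendsto_const_nhds

theorem LimA_chin {P P' : ℕ → ℕ} {c c' : ℝ} (hc : 0 < c) (hc' : 0 < c')
    (h : Tendsto (fun Q : ℕ => (P Q : ℝ) / (Q : ℝ)) atTop (𝓝 c))
    (h' : Tendsto (fun Q : ℕ => (P' Q : ℝ) / (Q : ℝ)) atTop (𝓝 c')) (k : ℕ) :
    Tendsto (fun Q : ℕ => chin (P Q) (P' Q) k * (Q : ℝ) ^ k) atTop
      (𝓝 ((k.factorial : ℝ) * (1 / c + 1 / c') ^ k)) := by
  have e : (k.factorial : ℝ) * (1 / c + 1 / c') ^ k
      = ∑ l ∈ range (k + 1), (k.choose l : ℝ) ^ 2 /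
        ((c ^ l / (l.factorial : ℝ)) * (c' ^ (k - l) / ((k - l).factorial : ℝ))) := by
    rw [add_pow, Finset.mul_sum]
    apply Finset.sum_congr rfl
    intro l hl
    rw [Finset.mem_range] at hl
    have h1 : (k.choose l : ℝ) * (l.factorial : ℝ) * ((k - l).factorial : ℝ)
        = (k.factorial : ℝ) := by
      exact_mod_cast Nat.choose_mul_factorial_mul_factorial (by omega : l ≤ k)
    rw [← h1]
    have h2 : (l.factorial : ℝ) ≠ 0 := by exact_mod_cast Nat.factorial_ne_zero l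
    have h3 : ((k - l).factorial : ℝ) ≠ 0 := by exact_mod_cast Nat.factorial_ne_zero (k - l)
    have h4 : c ≠ 0 := ne_of_gt hc
    have h5 : c' ≠ 0 := ne_of_gt hc'
    rw [one_div, one_div, inv_pow, inv_pow]
    field_simp
  rw [e]
  have e2 : ∀ᶠ Q : ℕ in atTop, (∑ l ∈ range (k + 1), (k.choose l : ℝ) ^ 2 /
      ((((P Q).choose l : ℝ) / (Q : ℝ) ^ l) * (((P' Q).choose (k - l) : ℝ) / (Q : ℝ) ^ (k - l))))
      = chin (P Q) (P' Q) k * (Q : ℝ) ^ k := by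
    filter_upwards [Filter.eventually_gt_atTop 0] with Q hQ
    have hQ' : (Q : ℝ) ≠ 0 := by exact_mod_cast (ne_of_gt hQ)
    unfold chin
    rw [Finset.sum_mul]
    apply Finset.sum_congr rfl
    intro l hl
    rw [Finset.mem_range] at hl
    have : (Q : ℝ) ^ k = (Q : ℝ) ^ l * (Q : ℝ) ^ (k - l) := by
      rw [← pow_add]
      congr 1
      omega
    rw [this, ← mul_div_mul_comm, div_div_eq_mul_div, div_mul_eq_mul_div]
  refine Tendsto.congr' e2 ?_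
  apply tendsto_finsetSum
  intro l _
  apply Tendsto.div tendsto_const_nhds ((LimA_choose h l).mul (LimA_choose h' (k - l)))
  have h2 : (0 : ℝ) < (l.factorial : ℝ) := by exact_mod_cast Nat.factorial_pos l
  have h3 : (0 : ℝ) < ((k - l).factorial : ℝ) := by exact_mod_cast Nat.factorial_pos (k - l)
  positivity

noncomputable def LimA_N (c c' : ℝ) (k i : ℕ) : ℝ :=
  ((k.factorial : ℝ) * (1 / c + 1 / c') ^ k) * ((i.factorial : ℝ) * (c + c') ^ i)

theorem LimA_N_pos {c c' : ℝ} (hc : 0 < c) (hc' : 0 < c') (k i : ℕ) : 0 < LimA_N c c' k i := by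
  unfold LimA_N
  have h2 : (0 : ℝ) < (k.factorial : ℝ) := by exact_mod_cast Nat.factorial_pos k
  have h3 : (0 : ℝ) < (i.factorial : ℝ) := by exact_mod_cast Nat.factorial_pos i
  positivity

theorem LimA_prod {P P' : ℕ → ℕ} {c c' : ℝ}
    (h : Tendsto (fun Q : ℕ => (P Q : ℝ) / (Q : ℝ)) atTop (𝓝 c))
    (h' : Tendsto (fun Q : ℕ => (P' Q : ℝ) / (Q : ℝ)) atTop (𝓝 c')) (k i : ℕ) :
    Tendsto (fun Q : ℕ => (∏ l ∈ range i, (((l : ℝ) + 1)
      * ((P Q : ℝ) + (P' Q : ℝ) - 2 * k - l))) / (Q : ℝ) ^ i) atTop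
      (𝓝 ((i.factorial : ℝ) * (c + c') ^ i)) := by
  induction i with
  | zero => simp
  | succ i ih =>
    have h1 : Tendsto (fun Q : ℕ => ((P Q : ℝ) + (P' Q : ℝ) - 2 * k - i) / (Q : ℝ)) atTop
        (𝓝 (c + c')) := by
      have h2 := ((h.add h').sub (tendsto_const_div_atTop_nhds_zero_nat (2 * (k : ℝ)))).sub
        (tendsto_const_div_atTop_nhds_zero_nat (i : ℝ))
      have e : (fun Q : ℕ => ((P Q : ℝ) + (P' Q : ℝ) - 2 * k - i) / (Q : ℝ))
          = fun Q : ℕ => (P Q : ℝ) / (Q : ℝ) + (P' Q : ℝ) / (Q : ℝ) - 2 * (k : ℝ) / (Q : ℝ)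
            - (i : ℝ) / (Q : ℝ) := by
        funext Q
        ring
      rw [e]
      simpa using h2
    have h3 := ih.mul ((tendsto_const_nhds (x := ((i : ℝ) + 1))).mul h1)
    have e : (fun Q : ℕ => (∏ l ∈ range (i + 1), (((l : ℝ) + 1)
        * ((P Q : ℝ) + (P' Q : ℝ) - 2 * k - l))) / (Q : ℝ) ^ (i + 1))
        = fun Q : ℕ => (∏ l ∈ range i, (((l : ℝ) + 1)
          * ((P Q : ℝ) + (P' Q : ℝ) - 2 * k - l))) / (Q : ℝ) ^ i
          * (((i : ℝ) + 1) * (((P Q : ℝ) + (P' Q : ℝ) - 2 * k - i) / (Q : ℝ))) := by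
      funext Q
      rw [Finset.prod_range_succ, pow_succ, mul_div_mul_comm, mul_div_assoc]
    rw [e]
    have e2 : ((i + 1).factorial : ℝ) * (c + c') ^ (i + 1)
        = (i.factorial : ℝ) * (c + c') ^ i * (((i : ℝ) + 1) * (c + c')) := by
      rw [Nat.factorial_succ]
      push_cast
      ring
    rw [e2]
    exact h3

theorem LimA_Nk {P P' : ℕ → ℕ} {c c' : ℝ} (hc : 0 < c) (hc' : 0 < c')
    (h : Tendsto (fun Q : ℕ => (P Q : ℝ) / (Q : ℝ)) atTop (𝓝 c))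
    (h' : Tendsto (fun Q : ℕ => (P' Q : ℝ) / (Q : ℝ)) atTop (𝓝 c')) (k i : ℕ) :
    Tendsto (fun Q : ℕ => Nk (P Q) (P' Q) k i * (Q : ℝ) ^ k / (Q : ℝ) ^ i) atTop
      (𝓝 (LimA_N c c' k i)) := by
  have h1 := (LimA_chin hc hc' h h' k).mul (LimA_prod h h' k i)
  have e : (fun Q : ℕ => Nk (P Q) (P' Q) k i * (Q : ℝ) ^ k / (Q : ℝ) ^ i)
      = fun Q : ℕ => chin (P Q) (P' Q) k * (Q : ℝ) ^ k * ((∏ l ∈ range i, (((l : ℝ) + 1)
          * ((P Q : ℝ) + (P' Q : ℝ) - 2 * k - l))) / (Q : ℝ) ^ i) := by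
    funext Q
    unfold Nk
    ring
  rw [e]
  exact h1

theorem LimA_term {P P' : ℕ → ℕ} {c c' : ℝ} (hc : 0 < c) (hc' : 0 < c')
    (h : Tendsto (fun Q : ℕ => (P Q : ℝ) / (Q : ℝ)) atTop (𝓝 c))
    (h' : Tendsto (fun Q : ℕ => (P' Q : ℝ) / (Q : ℝ)) atTop (𝓝 c')) (y : ℝ) (k n m m' : ℕ)
    (hk : k ≤ n) :
    Tendsto (fun Q : ℕ => y * beta (P Q) (P' Q) k (n - k) m * beta (P Q) (P' Q) k (n - k) m'
        / ((Q : ℝ) ^ n * Nk (P Q) (P' Q) k (n - k))) atTop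
      (𝓝 (y * LimA_B c c' k (n - k) m * LimA_B c c' k (n - k) m' / LimA_N c c' k (n - k))) := by
  have h1 := (((tendsto_const_nhds (x := y)).mul (LimA_beta h h' k (n - k) m)).mul
    (LimA_beta h h' k (n - k) m')).div (LimA_Nk hc hc' h h' k (n - k))
    (ne_of_gt (LimA_N_pos hc hc' k (n - k)))
  refine Tendsto.congr' ?_ h1
  filter_upwards [Filter.eventually_gt_atTop 0] with Q hQ
  have hQ' : (Q : ℝ) ≠ 0 := by exact_mod_cast (ne_of_gt hQ)
  obtain ⟨i, rfl⟩ := Nat.exists_eq_add_of_le hk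
  have e : k + i - k = i := by omega
  simp only [Pi.div_apply]
  rw [e]
  have hk0 : (Q : ℝ) ^ k ≠ 0 := pow_ne_zero _ hQ'
  have hi0 : (Q : ℝ) ^ i ≠ 0 := pow_ne_zero _ hQ'
  rw [pow_add]
  by_cases hN : Nk (P Q) (P' Q) k i = 0
  · rw [hN]
    simp
  · field_simp

theorem LimA_p : Tendsto (fun Q : ℕ => ((2 * Q - 2 : ℕ) : ℝ) / (Q : ℝ)) atTop (𝓝 2) := by
  apply LimA_sub (P := fun Q => 2 * Q)
  apply tendsto_const_nhds.congr'
  filter_upwards [Filter.eventually_gt_atTop 0] with Q hQ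
  have hQ' : (Q : ℝ) ≠ 0 := by exact_mod_cast (ne_of_gt hQ)
  push_cast
  field_simp

theorem LimA_q : Tendsto (fun Q : ℕ => ((Q : ℕ) : ℝ) / (Q : ℝ)) atTop (𝓝 1) := by
  apply tendsto_const_nhds.congr'
  filter_upwards [Filter.eventually_gt_atTop 0] with Q hQ
  have hQ' : (Q : ℝ) ≠ 0 := by exact_mod_cast (ne_of_gt hQ)
  field_simp

theorem LimA_lin (a b : ℝ) :
    Tendsto (fun Q : ℕ => (a * (Q : ℝ) - b) / (2 * (Q : ℝ) - 1)) atTop (𝓝 (a / 2)) := by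
  have h1 : Tendsto (fun Q : ℕ => a - b / (Q : ℝ)) atTop (𝓝 (a - 0)) :=
    tendsto_const_nhds.sub (tendsto_const_div_atTop_nhds_zero_nat b)
  have h2 : Tendsto (fun Q : ℕ => (2 : ℝ) - 1 / (Q : ℝ)) atTop (𝓝 (2 - 0)) :=
    tendsto_const_nhds.sub (tendsto_const_div_atTop_nhds_zero_nat 1)
  have h3 := h1.div h2 (by norm_num)
  rw [sub_zero, sub_zero] at h3
  refine h3.congr' ?_
  filter_upwards [Filter.eventually_gt_atTop 0] with Q hQ
  have hQ1 : (1 : ℝ) ≤ (Q : ℝ) := by exact_mod_cast hQ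
  have hQ' : (Q : ℝ) ≠ 0 := by exact_mod_cast (ne_of_gt hQ)
  have h4 : 2 * (Q : ℝ) - 1 ≠ 0 := by
    have : (0 : ℝ) < 2 * (Q : ℝ) - 1 := by linarith
    exact ne_of_gt this
  have h5 : (2 : ℝ) - 1 / (Q : ℝ) ≠ 0 := by
    have : (1 : ℝ) / (Q : ℝ) ≤ 1 := by
      rw [div_le_one (by linarith)]
      exact hQ1
    have : (0 : ℝ) < 2 - 1 / (Q : ℝ) := by linarith
    exact ne_of_gt this
  simp only [Pi.div_apply]
  rw [div_eq_div_iff h5 h4]
  field_simp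

/-! ### Computable limit values -/

def LimA_ch (n k : ℕ) : ℕ := n.descFactorial k / k.factorial

theorem LimA_ch_eq (n k : ℕ) : LimA_ch n k = n.choose k := by
  unfold LimA_ch
  rw [Nat.choose_eq_descFactorial_div_factorial]

def LimA_b (e e' k i m : ℕ) : ℤ :=
  ∑ l ∈ range (i + 1), if l ≤ m ∧ m - l ≤ k then
    (if (m - l) % 2 = 0 then 1 else -1) * (LimA_ch k (m - l) : ℤ) * (LimA_ch i l : ℤ)
      * (e : ℤ) ^ l * (e' : ℤ) ^ (i - l)
  else 0

theorem LimA_b_eq (e e' k i m : ℕ) :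
    (LimA_b e e' k i m : ℝ) = LimA_B (e : ℝ) (e' : ℝ) k i m := by
  unfold LimA_b LimA_B
  rw [Int.cast_sum]
  apply Finset.sum_congr rfl
  intro l _
  rw [LimA_ch_eq, LimA_ch_eq]
  split_ifs with h1 h2
  · rw [Even.neg_one_pow (Nat.even_iff.mpr h2)]
    push_cast
    ring
  · rw [Odd.neg_one_pow (Nat.odd_iff.mpr (by omega))]
    push_cast
    ring
  · simp

def LimA_SY (k n : ℕ) : ℤ :=
  ∑ m ∈ range 8, ∑ m' ∈ range 8,
    if m ≤ n ∧ m' ≤ n ∧ n < m + 9 ∧ n < m' + 9 then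
      (((yT.getD n []).getD m []).getD m' 0 : ℤ) * LimA_b 2 1 k (n - k) m * LimA_b 2 1 k (n - k) m'
    else 0

def LimA_SZ (j n : ℕ) : ℤ :=
  ∑ m ∈ range 8, ∑ m' ∈ range 8,
    if m ≤ n ∧ m' ≤ n ∧ n < m + 8 ∧ n < m' + 8 then
      (((zT.getD n []).getD m []).getD m' 0 : ℤ) * LimA_b 2 2 j (n - j) m * LimA_b 2 2 j (n - j) m'
    else 0

def LimA_NY (k i : ℕ) : ℚ := ((k.factorial : ℚ) * (3 / 2) ^ k) * ((i.factorial : ℚ) * 3 ^ i)

def LimA_NZ (k i : ℕ) : ℚ := (k.factorial : ℚ) * ((i.factorial : ℚ) * 4 ^ i)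

def LimA_Y (k : ℕ) : ℚ := ∑ n ∈ Icc k 15, 2 * (LimA_SY k n : ℚ) / (1000 * LimA_NY k (n - k))

def LimA_Z (j : ℕ) : ℚ := ∑ n ∈ Icc j 14, 4 * (LimA_SZ j n : ℚ) / (1000 * LimA_NZ j (n - j))

def LimA_pak (a k : ℕ) : ℚ := if k ≤ a then (a.factorial : ℚ) / LimA_NY k (a - k) else 0

theorem LimA_NY_eq (k i : ℕ) : (LimA_NY k i : ℝ) = LimA_N 2 1 k i := by
  unfold LimA_NY LimA_N
  push_cast
  norm_num

theorem LimA_NZ_eq (k i : ℕ) : (LimA_NZ k i : ℝ) = LimA_N 2 2 k i := by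
  unfold LimA_NZ LimA_N
  push_cast
  norm_num

theorem LimA_Yk_tendsto (k : ℕ) : Tendsto (fun Q => Yk Q k) atTop (𝓝 (LimA_Y k : ℝ)) := by
  have e : (LimA_Y k : ℝ) = ∑ n ∈ Icc k 15, ∑ m ∈ range 8, ∑ m' ∈ range 8,
      if m ≤ n ∧ m' ≤ n ∧ n < m + 9 ∧ n < m' + 9 then
        2 * (yC n m m' : ℝ) * LimA_B 2 1 k (n - k) m * LimA_B 2 1 k (n - k) m'
          / LimA_N 2 1 k (n - k)
      else 0 := by
    unfold LimA_Y
    rw [Rat.cast_sum]
    apply Finset.sum_congr rfl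
    intro n _
    unfold LimA_SY
    push_cast
    rw [LimA_NY_eq]
    rw [mul_comm (2 : ℝ), Finset.sum_mul, Finset.sum_div]
    apply Finset.sum_congr rfl
    intro m _
    rw [Finset.sum_mul, Finset.sum_div]
    apply Finset.sum_congr rfl
    intro m' _
    split_ifs
    · have e1 := LimA_b_eq 2 1 k (n - k) m
      have e2 := LimA_b_eq 2 1 k (n - k) m'
      push_cast at e1 e2
      push_cast
      rw [e1, e2]
      unfold yC
      push_cast
      have hN := ne_of_gt (LimA_N_pos (c := 2) (c' := 1) (by norm_num) (by norm_num) k (n - k))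
      field_simp
    · simp
  rw [e]
  unfold Yk
  apply tendsto_finsetSum
  intro n hn
  rw [Finset.mem_Icc] at hn
  apply tendsto_finsetSum
  intro m _
  apply tendsto_finsetSum
  intro m' _
  split_ifs
  · exact LimA_term (P := fun Q => 2 * Q - 2) (P' := fun Q => Q) (by norm_num) (by norm_num)
      LimA_p LimA_q _ k n m m' hn.1
  · exact tendsto_const_nhds

theorem LimA_Zj_tendsto (j : ℕ) : Tendsto (fun Q => Zj Q j) atTop (𝓝 (LimA_Z j : ℝ)) := by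
  have e : (LimA_Z j : ℝ) = ∑ n ∈ Icc j 14, ∑ m ∈ range 8, ∑ m' ∈ range 8,
      if m ≤ n ∧ m' ≤ n ∧ n < m + 8 ∧ n < m' + 8 then
        4 * (zC n m m' : ℝ) * LimA_B 2 2 j (n - j) m * LimA_B 2 2 j (n - j) m'
          / LimA_N 2 2 j (n - j)
      else 0 := by
    unfold LimA_Z
    rw [Rat.cast_sum]
    apply Finset.sum_congr rfl
    intro n _
    unfold LimA_SZ
    push_cast
    rw [LimA_NZ_eq]
    rw [mul_comm (4 : ℝ), Finset.sum_mul, Finset.sum_div]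
    apply Finset.sum_congr rfl
    intro m _
    rw [Finset.sum_mul, Finset.sum_div]
    apply Finset.sum_congr rfl
    intro m' _
    split_ifs
    · have e1 := LimA_b_eq 2 2 j (n - j) m
      have e2 := LimA_b_eq 2 2 j (n - j) m'
      push_cast at e1 e2
      push_cast
      rw [e1, e2]
      unfold zC
      push_cast
      have hN := ne_of_gt (LimA_N_pos (c := 2) (c' := 2) (by norm_num) (by norm_num) j (n - j))
      field_simp
    · simp
  rw [e]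
  unfold Zj
  apply tendsto_finsetSum
  intro n hn
  rw [Finset.mem_Icc] at hn
  apply tendsto_finsetSum
  intro m _
  apply tendsto_finsetSum
  intro m' _
  split_ifs
  · exact LimA_term (P := fun Q => 2 * Q - 2) (P' := fun Q => 2 * Q - 2) (by norm_num)
      (by norm_num) LimA_p LimA_p _ j n m m' hn.1
  · exact tendsto_const_nhds

theorem LimA_B_zero (k i : ℕ) : LimA_B 2 1 k i 0 = 1 := by
  unfold LimA_B
  rw [Finset.sum_eq_single 0]
  · simp
  · intro l _ hl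
    rw [if_neg]
    intro h
    exact hl (Nat.le_zero.mp h.1)
  · intro h
    exact absurd (Finset.mem_range.mpr (Nat.succ_pos i)) h

theorem LimA_pak_tendsto (a k : ℕ) :
    Tendsto (fun Q => pak Q a k) atTop (𝓝 (LimA_pak a k : ℝ)) := by
  unfold pak LimA_pak
  split_ifs with hka
  · have hN := LimA_N_pos (c := 2) (c' := 1) (by norm_num) (by norm_num) k (a - k)
    have hfac : (0 : ℝ) < (a.factorial : ℝ) := by exact_mod_cast Nat.factorial_pos a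
    have h1 := ((LimA_beta (P := fun Q => 2 * Q - 2) (P' := fun Q => Q) LimA_p LimA_q k
      (a - k) 0).pow 2).div ((LimA_choose (P := fun Q => Q) LimA_q a).mul
        (LimA_Nk (P := fun Q => 2 * Q - 2) (P' := fun Q => Q) (by norm_num) (by norm_num)
          LimA_p LimA_q k (a - k))) (by positivity)
    have e : ((LimA_B 2 1 k (a - k) 0) ^ 2 / (1 ^ a / (a.factorial : ℝ) * LimA_N 2 1 k (a - k)))
        = (((a.factorial : ℚ) / LimA_NY k (a - k) : ℚ) : ℝ) := by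
      rw [LimA_B_zero]
      push_cast
      rw [LimA_NY_eq]
      field_simp
      simp
    rw [← e]
    refine Tendsto.congr' ?_ h1
    filter_upwards [Filter.eventually_gt_atTop 0] with Q hQ
    have hQ' : (Q : ℝ) ≠ 0 := by exact_mod_cast (ne_of_gt hQ)
    obtain ⟨i, rfl⟩ := Nat.exists_eq_add_of_le hka
    have e : k + i - k = i := by omega
    simp only [Pi.div_apply, Pi.mul_apply, Pi.pow_apply]
    rw [e]
    have hk0 : (Q : ℝ) ^ k ≠ 0 := pow_ne_zero _ hQ'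
    have hi0 : (Q : ℝ) ^ i ≠ 0 := pow_ne_zero _ hQ'
    rw [pow_add]
    by_cases hN : Nk (2 * Q - 2) Q k i = 0
    · rw [hN]
      simp
    · by_cases hC : (Q.choose (k + i) : ℝ) = 0
      · rw [hC]
        simp
      · field_simp
  · simp

theorem LimA_wk_tendsto (k : ℕ) :
    Tendsto (fun Q : ℕ => wk Q k * (3 * (Q : ℝ) - 1 - 2 * k) / (2 * (Q : ℝ) - 1)) atTop
      (𝓝 (((if k % 2 = 0 then 1 else -1) * (3 * (k : ℚ) - 1) / 2 ^ k * (3 / 2) : ℚ) : ℝ)) := by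
  have hfac : (0 : ℝ) < (k.factorial : ℝ) := by exact_mod_cast Nat.factorial_pos k
  have h1 : Tendsto (fun Q : ℕ => ((Q.choose k : ℝ) / (Q : ℝ) ^ k)
      / (((2 * Q - 2).choose k : ℝ) / (Q : ℝ) ^ k)) atTop
      (𝓝 ((1 ^ k / (k.factorial : ℝ)) / (2 ^ k / (k.factorial : ℝ)))) := by
    apply (LimA_choose (P := fun Q => Q) LimA_q k).div
      (LimA_choose (P := fun Q => 2 * Q - 2) LimA_p k)
    positivity
  have h2 : Tendsto (fun Q : ℕ => (-1 : ℝ) ^ k * (3 * (k : ℝ) - 1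
      - (k : ℝ) * ((k : ℝ) + 1) / (Q : ℝ))) atTop (𝓝 ((-1 : ℝ) ^ k * (3 * (k : ℝ) - 1 - 0))) :=
    tendsto_const_nhds.mul (tendsto_const_nhds.sub
      (tendsto_const_div_atTop_nhds_zero_nat _))
  have h3 := (h2.mul h1).mul (LimA_lin 3 (1 + 2 * (k : ℝ)))
  have e : (((if k % 2 = 0 then 1 else -1) * (3 * (k : ℚ) - 1) / 2 ^ k * (3 / 2) : ℚ) : ℝ)
      = (-1 : ℝ) ^ k * (3 * (k : ℝ) - 1 - 0)
        * ((1 ^ k / (k.factorial : ℝ)) / (2 ^ k / (k.factorial : ℝ))) * (3 / 2) := by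
    split_ifs with hk
    · rw [Even.neg_one_pow (Nat.even_iff.mpr hk)]
      push_cast
      field_simp
      simp
    · rw [Odd.neg_one_pow (Nat.odd_iff.mpr (by omega))]
      push_cast
      field_simp
      simp
  rw [e]
  refine Tendsto.congr' ?_ h3
  filter_upwards [Filter.eventually_gt_atTop 0] with Q hQ
  have hQ' : (Q : ℝ) ≠ 0 := by exact_mod_cast (ne_of_gt hQ)
  have hk0 : (Q : ℝ) ^ k ≠ 0 := pow_ne_zero _ hQ'
  unfold wk
  have e3 : ((Q.choose k : ℝ) / (Q : ℝ) ^ k) / (((2 * Q - 2).choose k : ℝ) / (Q : ℝ) ^ k)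
      = (Q.choose k : ℝ) / ((2 * Q - 2).choose k : ℝ) := by
    rw [div_div_div_cancel_right₀ hk0]
  rw [e3]
  ring

theorem LimA_check_Y : ∀ k < 55, LimA_Y k - ∑ a ∈ range 55, tC a * LimA_pak a k
    < (if k % 2 = 0 then 1 else -1) * (3 * (k : ℚ) - 1) / 2 ^ k * (3 / 2) := by
  decide +kernel

theorem LimA_check_Z : ∀ j < 15, LimA_Z j < 2 := by
  decide +kernel

/-! ### Main statements -/

theorem GQ_lim : ∀ᶠ Q : ℕ in atTop, GQ Q ≤ 976 / 1000 := by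
  have h1 : Tendsto (fun Q : ℕ => ∑ m ∈ range 8, (gC m : ℝ) * 2
      * (((2 * Q - 2).choose m : ℝ) / (Q : ℝ) ^ m)) atTop
      (𝓝 (∑ m ∈ range 8, (gC m : ℝ) * 2 * (2 ^ m / (m.factorial : ℝ)))) := by
    apply tendsto_finsetSum
    intro m _
    exact tendsto_const_nhds.mul (LimA_choose (P := fun Q => 2 * Q - 2) LimA_p m)
  have e : (fun Q : ℕ => ∑ m ∈ range 8, (gC m : ℝ) * 2
      * (((2 * Q - 2).choose m : ℝ) / (Q : ℝ) ^ m)) = GQ := by
    funext Q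
    unfold GQ
    apply Finset.sum_congr rfl
    intro m _
    ring
  rw [e] at h1
  have h2 : (∑ m ∈ range 8, (gC m : ℝ) * 2 * (2 ^ m / (m.factorial : ℝ))) < 976 / 1000 := by
    have h3 : (∑ m ∈ range 8, gC m * 2 * (2 ^ m / (m.factorial : ℚ))) < 976 / 1000 := by
      decide +kernel
    have h4 : ((∑ m ∈ range 8, gC m * 2 * (2 ^ m / (m.factorial : ℚ)) : ℚ) : ℝ)
        < ((976 / 1000 : ℚ) : ℝ) := by exact_mod_cast h3
    push_cast at h4
    exact h4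
  exact (h1.eventually_lt tendsto_const_nhds h2).mono fun _ h => le_of_lt h

theorem Zj_lim (j : ℕ) (hj : j ≤ 14) :
    ∀ᶠ Q : ℕ in atTop, Zj Q j ≤ (4 * (Q : ℝ) - 3 - 2 * j) / (2 * (Q : ℝ) - 1) := by
  have h1 := LimA_lin 4 (3 + 2 * (j : ℝ))
  have e : (fun Q : ℕ => (4 * (Q : ℝ) - (3 + 2 * (j : ℝ))) / (2 * (Q : ℝ) - 1))
      = fun Q : ℕ => (4 * (Q : ℝ) - 3 - 2 * j) / (2 * (Q : ℝ) - 1) := by
    funext Q
    ring
  rw [e] at h1
  have h2 : (LimA_Z j : ℝ) < 4 / 2 := by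
    have h3 := LimA_check_Z j (by omega)
    have h4 : ((LimA_Z j : ℚ) : ℝ) < ((2 : ℚ) : ℝ) := by exact_mod_cast h3
    push_cast at h4
    linarith
  exact ((LimA_Zj_tendsto j).eventually_lt h1 h2).mono fun _ h => le_of_lt h

theorem Yk_lim (k : ℕ) (hk : k ≤ 54) :
    ∀ᶠ Q : ℕ in atTop, Yk Q k - ∑ a ∈ range 55, (tC a : ℝ) * pak Q a k
      ≤ wk Q k * (3 * (Q : ℝ) - 1 - 2 * k) / (2 * (Q : ℝ) - 1) := by
  have h1 : Tendsto (fun Q => Yk Q k - ∑ a ∈ range 55, (tC a : ℝ) * pak Q a k) atTop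
      (𝓝 ((LimA_Y k : ℝ) - ∑ a ∈ range 55, (tC a : ℝ) * (LimA_pak a k : ℝ))) := by
    apply (LimA_Yk_tendsto k).sub
    apply tendsto_finsetSum
    intro a _
    exact tendsto_const_nhds.mul (LimA_pak_tendsto a k)
  have h2 := LimA_check_Y k (by omega)
  have h3 : ((LimA_Y k - ∑ a ∈ range 55, tC a * LimA_pak a k : ℚ) : ℝ)
      < (((if k % 2 = 0 then 1 else -1) * (3 * (k : ℚ) - 1) / 2 ^ k * (3 / 2) : ℚ) : ℝ) := by
    exact_mod_cast h2
  have h4 : ((LimA_Y k - ∑ a ∈ range 55, tC a * LimA_pak a k : ℚ) : ℝ)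
      = (LimA_Y k : ℝ) - ∑ a ∈ range 55, (tC a : ℝ) * (LimA_pak a k : ℝ) := by
    push_cast
    rfl
  rw [h4] at h3
  exact (h1.eventually_lt (LimA_wk_tendsto k) h3).mono fun _ h => le_of_lt h

end Vale.Agent.P359
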