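import Mathlib

/-!
# The spherical Laughlin Hamiltonian in coordinates

`U_Q` is the spin `Q/2` representation of `SU(2)`, with orthonormal basis
`e_a = sqrt (binom Q a) u^(Q-a) v^a`, `a = 0, ..., Q`.  In this basis the raising operator is
`S⁺ e_(a+1) = sqrt ((a+1) (Q-a)) e_a`, the lowering operator is its adjoint and
`S^z e_a = (Q/2 - a) e_a`.  A vector of the `N`-fold tensor power of `U_Q` is the family of its
coordinates `ψ x` in the orthonormal basis `e_(x 1) ⊗ ... ⊗ e_(x N)`.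
-/

namespace LaughlinModel

open Finset

/-- The Hermitian inner product of coordinate vectors. -/
noncomputable def innerProd {ι : Type} [Fintype ι] (φ ψ : ι → ℂ) : ℂ :=
  ∑ x, (starRingEnd ℂ) (φ x) * ψ x

/-- One-particle raising operator `S⁺ = u ∂_v` on `U_Q`. -/
noncomputable def spinPlus (Q : ℕ) : Matrix (Fin (Q + 1)) (Fin (Q + 1)) ℂ :=
  fun a b => if (b : ℕ) = (a : ℕ) + 1 then
    ((Real.sqrt (((a : ℕ) + 1 : ℝ) * ((Q : ℝ) - (a : ℕ))) : ℝ) : ℂ) else 0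

/-- One-particle lowering operator `S⁻ = v ∂_u` on `U_Q`, the adjoint of `S⁺`. -/
noncomputable def spinMinus (Q : ℕ) : Matrix (Fin (Q + 1)) (Fin (Q + 1)) ℂ :=
  (spinPlus Q).conjTranspose

/-- One-particle `S^z` on `U_Q`. -/
noncomputable def spinZ (Q : ℕ) : Matrix (Fin (Q + 1)) (Fin (Q + 1)) ℂ :=
  Matrix.diagonal (fun a => (Q : ℂ) / 2 - ((a : ℕ) : ℂ))

/-- The operator `M ⊗ 1 + 1 ⊗ M` on `U_Q ⊗ U_Q`. -/
noncomputable def pairOp {Q : ℕ} (M : Matrix (Fin (Q + 1)) (Fin (Q + 1)) ℂ) :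
    Matrix (Fin (Q + 1) × Fin (Q + 1)) (Fin (Q + 1) × Fin (Q + 1)) ℂ :=
  fun x y => (if x.2 = y.2 then M x.1 y.1 else 0) + (if x.1 = y.1 then M x.2 y.2 else 0)

/-- The square of the total spin on `U_Q ⊗ U_Q`: `S⁻ S⁺ + S^z (S^z + 1)`. -/
noncomputable def casimir (Q : ℕ) :
    Matrix (Fin (Q + 1) × Fin (Q + 1)) (Fin (Q + 1) × Fin (Q + 1)) ℂ :=
  pairOp (spinMinus Q) * pairOp (spinPlus Q) + pairOp (spinZ Q) * (pairOp (spinZ Q) + 1)

/-- `P` is the orthogonal projection of `U_Q ⊗ U_Q` onto the component of total spin `Q - 1`, the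
eigenspace of the squared total spin with eigenvalue `(Q - 1) Q`: it is Hermitian, idempotent, and
the vectors fixed by it are those of that eigenspace. -/
structure IsSpinProjection (Q : ℕ)
    (P : Matrix (Fin (Q + 1) × Fin (Q + 1)) (Fin (Q + 1) × Fin (Q + 1)) ℂ) : Prop where
  hermitian : P.conjTranspose = P
  idempotent : P * P = P
  fixed : ∀ v : Fin (Q + 1) × Fin (Q + 1) → ℂ,
    P.mulVec v = v ↔ (casimir Q).mulVec v = (((Q : ℂ) - 1) * (Q : ℂ)) • v

/-- The operator `P` acting on the tensor factors `i, j` of the `N`-fold tensor power of `U_Q` and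
as the identity on the other factors. -/
noncomputable def onPair {Q N : ℕ}
    (P : Matrix (Fin (Q + 1) × Fin (Q + 1)) (Fin (Q + 1) × Fin (Q + 1)) ℂ) (i j : Fin N) :
    Matrix (Fin N → Fin (Q + 1)) (Fin N → Fin (Q + 1)) ℂ :=
  fun x y => if (∀ k, k ≠ i → k ≠ j → x k = y k) then P (x i, x j) (y i, y j) else 0

/-- The Hamiltonian `∑_{i<j} P_{ij}` applied to a vector of the `N`-fold tensor power of `U_Q`. -/
noncomputable def hamiltonian {Q N : ℕ}
    (P : Matrix (Fin (Q + 1) × Fin (Q + 1)) (Fin (Q + 1) × Fin (Q + 1)) ℂ)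
    (ψ : (Fin N → Fin (Q + 1)) → ℂ) : (Fin N → Fin (Q + 1)) → ℂ :=
  fun x => ∑ i : Fin N, ∑ j : Fin N, if i < j then (onPair P i j).mulVec ψ x else 0

/-- Membership in the `N`-fold exterior power of `U_Q`: antisymmetry under permutations of the
tensor factors. -/
def IsFermionic {Q N : ℕ} (ψ : (Fin N → Fin (Q + 1)) → ℂ) : Prop :=
  ∀ (σ : Equiv.Perm (Fin N)) (x : Fin N → Fin (Q + 1)),
    ψ (fun i => x (σ i)) = ((Equiv.Perm.sign σ : ℤ) : ℂ) * ψ x

/-- The polynomial in the spinor variables `u_i = X (inl i)`, `v_i = X (inr i)` represented by a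
vector: the basis vector `e_a` is the polynomial `sqrt (binom Q a) u^(Q-a) v^a`. -/
noncomputable def toPoly {Q N : ℕ} (ψ : (Fin N → Fin (Q + 1)) → ℂ) :
    MvPolynomial (Fin N ⊕ Fin N) ℂ :=
  ∑ x : Fin N → Fin (Q + 1), MvPolynomial.C (ψ x) *
    ∏ i : Fin N, (MvPolynomial.C ((Real.sqrt (Q.choose (x i : ℕ)) : ℝ) : ℂ)
      * MvPolynomial.X (Sum.inl i) ^ (Q - (x i : ℕ)) * MvPolynomial.X (Sum.inr i) ^ (x i : ℕ))

/-- The Laughlin polynomial `∏_{i<j} (u_i v_j - u_j v_i)^3`. -/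
noncomputable def laughlinPoly (N : ℕ) : MvPolynomial (Fin N ⊕ Fin N) ℂ :=
  ∏ i : Fin N, ∏ j ∈ Finset.Ioi i,
    (MvPolynomial.X (Sum.inl i) * MvPolynomial.X (Sum.inr j)
      - MvPolynomial.X (Sum.inl j) * MvPolynomial.X (Sum.inr i)) ^ 3

/-- `Ψ` is the Laughlin vector. -/
def IsLaughlin {Q N : ℕ} (Ψ : (Fin N → Fin (Q + 1)) → ℂ) : Prop :=
  toPoly Ψ = laughlinPoly N

/-- Orthogonal projection of `ψ` onto the line spanned by a nonzero vector `Ψ`. -/
noncomputable def lineProj {ι : Type} [Fintype ι] (Ψ ψ : ι → ℂ) : ι → ℂ :=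
  fun x => innerProd Ψ ψ / innerProd Ψ Ψ * Ψ x

/-- `(I - P_Ψ) ψ`, the component of `ψ` orthogonal to `Ψ`. -/
noncomputable def perpPart {ι : Type} [Fintype ι] (Ψ ψ : ι → ℂ) : ι → ℂ :=
  fun x => ψ x - lineProj Ψ ψ x

/-- The `k`-th lowest eigenvalue (`k = 0, 1, 2, ...`), counted with multiplicity, of the
Hamiltonian on the fermionic space: the least `E` such that there are `k + 1` linearly independent
fermionic eigenvectors with eigenvalues at most `E`. -/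
noncomputable def energy {Q : ℕ} (N : ℕ)
    (P : Matrix (Fin (Q + 1) × Fin (Q + 1)) (Fin (Q + 1) × Fin (Q + 1)) ℂ) (k : ℕ) : ℝ :=
  sInf {E : ℝ | ∃ v : Fin (k + 1) → (Fin N → Fin (Q + 1)) → ℂ,
    (∀ c : Fin (k + 1) → ℂ, (∀ x, ∑ l, c l * v l x = 0) → ∀ l, c l = 0) ∧
    ∀ l, IsFermionic (v l) ∧ ∃ μ : ℝ, μ ≤ E ∧ ∀ x, hamiltonian P (v l) x = (μ : ℂ) * v l x}

end LaughlinModel
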