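import Vale.Agent.P359.Final
import Vale.Agent.P359.Gap2
import Vale.Agent.P359.StmtA

namespace Vale.Agent.P359

open Finset

/-- Coordinates as a vector of the Hilbert space. -/
noncomputable def toE {Q N : ℕ} (ψ : (Fin N → Fin (Q + 1)) → ℂ) :
    EuclideanSpace ℂ (Fin N → Fin (Q + 1)) := WithLp.toLp 2 ψ

theorem Plain_toE_apply {Q N : ℕ} (ψ : (Fin N → Fin (Q + 1)) → ℂ) (x : Fin N → Fin (Q + 1)) :
    toE ψ x = ψ x := rfl

noncomputable def plainP (Q : ℕ) :
    Matrix (Fin (Q + 1) × Fin (Q + 1)) (Fin (Q + 1) × Fin (Q + 1)) ℂ :=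
  fun xy ab => LaughlinGap.projEntry Q xy ab

theorem Plain_pairOp {Q : ℕ} (M : Matrix (Fin (Q + 1)) (Fin (Q + 1)) ℂ) :
    LaughlinModel.pairOp M = LaughlinGap.pairOp M := by
  ext x y
  unfold LaughlinModel.pairOp LaughlinGap.pairOp
  rw [Matrix.add_apply, Matrix.kroneckerMap_apply, Matrix.kroneckerMap_apply,
    Matrix.one_apply, Matrix.one_apply]
  split_ifs <;> simp

theorem Plain_casimir (Q : ℕ) : LaughlinModel.casimir Q = LaughlinGap.casimir Q := by
  unfold LaughlinModel.casimir LaughlinGap.casimir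
  rw [Plain_pairOp, Plain_pairOp, Plain_pairOp]
  rfl

theorem Plain_mulVec (Q : ℕ) (v : Fin (Q + 1) × Fin (Q + 1) → ℂ) :
    (plainP Q).mulVec v
      = ((LaughlinGap.spinComponent Q).starProjection
          (WithLp.toLp 2 v : EuclideanSpace ℂ (Fin (Q + 1) × Fin (Q + 1)))).ofLp := by
  have h2 : (WithLp.toLp 2 v : EuclideanSpace ℂ (Fin (Q + 1) × Fin (Q + 1)))
      = ∑ ab : Fin (Q + 1) × Fin (Q + 1), v ab • EuclideanSpace.single ab (1 : ℂ) := by
    ext z
    simp [Finset.sum_apply, Pi.single_apply]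
  funext xy
  conv_rhs => rw [h2]
  rw [map_sum]
  simp only [map_smul, WithLp.ofLp_sum, Finset.sum_apply, WithLp.ofLp_smul, Pi.smul_apply,
    smul_eq_mul]
  unfold Matrix.mulVec dotProduct plainP LaughlinGap.projEntry
  refine Finset.sum_congr rfl fun ab _ => ?_
  ring

theorem Plain_isProj (Q : ℕ) : LaughlinModel.IsSpinProjection Q (plainP Q) := by
  refine ⟨?_, ?_, ?_⟩
  · ext x y
    rw [Matrix.conjTranspose_apply]
    exact spec_projEntry_conj Q y x
  · ext x y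
    rw [Matrix.mul_apply]
    exact spec_projEntry_idem Q x y
  · intro v
    rw [Plain_mulVec, Plain_casimir]
    have h1 : ((LaughlinGap.spinComponent Q).starProjection
          (WithLp.toLp 2 v : EuclideanSpace ℂ (Fin (Q + 1) × Fin (Q + 1)))).ofLp = v
        ↔ (WithLp.toLp 2 v : EuclideanSpace ℂ (Fin (Q + 1) × Fin (Q + 1)))
          ∈ LaughlinGap.spinComponent Q := by
      rw [← Submodule.starProjection_eq_self_iff]
      constructor
      · intro h
        apply (WithLp.equiv 2 _).injective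
        exact h
      · intro h
        rw [h]
    rw [h1, ProjId_mem]
    constructor
    · intro h
      funext p
      have := h p
      rw [Pi.smul_apply, smul_eq_mul]
      linear_combination this
    · intro h p
      have := congrFun h p
      rw [Pi.smul_apply, smul_eq_mul] at this
      linear_combination this

theorem Plain_unique (Q : ℕ)
    (P : Matrix (Fin (Q + 1) × Fin (Q + 1)) (Fin (Q + 1) × Fin (Q + 1)) ℂ)
    (h : LaughlinModel.IsSpinProjection Q P) : P = plainP Q := by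
  have key : ∀ A B : Matrix (Fin (Q + 1) × Fin (Q + 1)) (Fin (Q + 1) × Fin (Q + 1)) ℂ,
      LaughlinModel.IsSpinProjection Q A → LaughlinModel.IsSpinProjection Q B → A * B = B := by
    intro A B hA hB
    ext x y
    have h1 : B.mulVec (fun z => B z y) = fun z => B z y := by
      funext z
      have := congrFun (congrFun hB.idempotent z) y
      rw [Matrix.mul_apply] at this
      exact this
    have h2 := (hA.fixed (fun z => B z y)).mpr ((hB.fixed (fun z => B z y)).mp h1)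
    have h3 := congrFun h2 x
    rw [Matrix.mul_apply]
    exact h3
  have h1 := key P (plainP Q) h (Plain_isProj Q)
  have h2 := key (plainP Q) P (Plain_isProj Q) h
  have h3 := congrArg Matrix.conjTranspose h1
  rw [Matrix.conjTranspose_mul, (Plain_isProj Q).hermitian, h.hermitian] at h3
  rw [← h2, h3]

theorem Plain_ham {Q N : ℕ} (ψ : (Fin N → Fin (Q + 1)) → ℂ) :
    LaughlinModel.hamiltonian (plainP Q) ψ = (LaughlinGap.hamiltonian Q N (toE ψ)).ofLp := by
  funext x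
  unfold LaughlinModel.hamiltonian LaughlinGap.hamiltonian
  rw [Matrix.toLpLin_apply]
  show _ = (Matrix.mulVec _ ψ) x
  rw [Matrix.sum_mulVec, Finset.sum_apply]
  apply Finset.sum_congr rfl
  intro i _
  rw [Matrix.sum_mulVec, Finset.sum_apply, ← Finset.sum_filter]
  apply Finset.sum_congr
  · ext j
    simp
  · intro j _
    rfl

theorem Plain_inner {Q N : ℕ} (φ ψ : (Fin N → Fin (Q + 1)) → ℂ) :
    LaughlinModel.innerProd φ ψ = inner ℂ (toE φ) (toE ψ) := by
  unfold LaughlinModel.innerProd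
  rw [PiLp.inner_apply]
  apply Finset.sum_congr rfl
  intro x _
  rw [RCLike.inner_apply]
  rw [Plain_toE_apply, Plain_toE_apply]
  ring

theorem Plain_ferm {Q N : ℕ} (ψ : (Fin N → Fin (Q + 1)) → ℂ) :
    LaughlinModel.IsFermionic ψ ↔ LaughlinGap.IsFermionic (toE ψ) := Iff.rfl

theorem Plain_laugh {Q N : ℕ} (ψ : (Fin N → Fin (Q + 1)) → ℂ) :
    LaughlinModel.IsLaughlin ψ ↔ LaughlinGap.IsLaughlin (toE ψ) := Iff.rfl

theorem Plain_toE_ofLp {Q N : ℕ} (v : EuclideanSpace ℂ (Fin N → Fin (Q + 1))) :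
    toE (v.ofLp : (Fin N → Fin (Q + 1)) → ℂ) = v := rfl

theorem Plain_lineProj {Q N : ℕ} (Ψ ψ : (Fin N → Fin (Q + 1)) → ℂ) :
    (LaughlinModel.innerProd ψ (LaughlinModel.perpPart Ψ ψ)).re
      = ‖toE ψ‖ ^ 2 - ‖inner ℂ (toE Ψ) (toE ψ)‖ ^ 2 / ‖toE Ψ‖ ^ 2 := by
  rw [Plain_inner]
  have e0 : toE (LaughlinModel.perpPart Ψ ψ)
      = toE ψ - (inner ℂ (toE Ψ) (toE ψ) / inner ℂ (toE Ψ) (toE Ψ)) • toE Ψ := by
    apply (WithLp.equiv 2 _).injective
    funext x
    simp only [WithLp.equiv_apply, toE, LaughlinModel.perpPart, LaughlinModel.lineProj,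
      WithLp.ofLp_sub,
      WithLp.ofLp_smul, Pi.sub_apply, Pi.smul_apply, smul_eq_mul]
    rw [Plain_inner, Plain_inner]
    rfl
  rw [e0, inner_sub_right, Complex.sub_re, inner_smul_right]
  have e1 : (inner ℂ (toE ψ) (toE ψ)).re = ‖toE ψ‖ ^ 2 := by
    rw [inner_self_eq_norm_sq_to_K]
    norm_cast
  have e2 : (inner ℂ (toE Ψ) (toE ψ) / inner ℂ (toE Ψ) (toE Ψ) * inner ℂ (toE ψ) (toE Ψ))
      = ((‖inner ℂ (toE Ψ) (toE ψ)‖ ^ 2 / ‖toE Ψ‖ ^ 2 : ℝ) : ℂ) := by
    rw [div_mul_eq_mul_div, ← inner_conj_symm (toE ψ) (toE Ψ), Complex.mul_conj,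
      Complex.normSq_eq_norm_sq, inner_self_eq_norm_sq_to_K]
    push_cast
    rfl
  rw [e1]
  congr 1
  have e3 := congrArg Complex.re e2
  rw [Complex.ofReal_re] at e3
  exact e3

/-- Main theorem in coordinates. -/
theorem plain_final : ∃ N₀ : ℕ, 4 ≤ N₀ ∧ ∀ N Q : ℕ, N₀ ≤ N → Q = 3 * (N - 1) →
    (∃ P, LaughlinModel.IsSpinProjection Q P) ∧
    ∀ P, LaughlinModel.IsSpinProjection Q P →
      ∃ Ψ : (Fin N → Fin (Q + 1)) → ℂ,
        LaughlinModel.IsFermionic Ψ ∧ LaughlinModel.IsLaughlin Ψ ∧ (∃ x, Ψ x ≠ 0) ∧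
        (∀ x, LaughlinModel.hamiltonian P Ψ x = 0) ∧
        (∀ φ : (Fin N → Fin (Q + 1)) → ℂ, LaughlinModel.IsFermionic φ →
          LaughlinModel.hamiltonian P φ = 0 → ∃ c : ℂ, φ = c • Ψ) ∧
        (∀ (lam : ℝ) (φ : (Fin N → Fin (Q + 1)) → ℂ), LaughlinModel.IsFermionic φ → φ ≠ 0 →
          LaughlinModel.hamiltonian P φ = (lam : ℂ) • φ → lam = 0 ∨ 1 / 100 ≤ lam) ∧
        ∀ ψ : (Fin N → Fin (Q + 1)) → ℂ, LaughlinModel.IsFermionic ψ →
          (1 / 100) * (LaughlinModel.innerProd ψ (LaughlinModel.perpPart Ψ ψ)).re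
            ≤ (LaughlinModel.innerProd ψ (LaughlinModel.hamiltonian P ψ)).re := by
  obtain ⟨N₀, hN₀, h⟩ := final_all
  refine ⟨N₀, hN₀, ?_⟩
  intro N Q hN hQ
  subst hQ
  refine ⟨⟨plainP _, Plain_isProj _⟩, ?_⟩
  intro P hP
  rw [Plain_unique _ P hP]
  obtain ⟨Ψ, h1, h2, h3, h4, h5, h6, h7⟩ := h N hN
  refine ⟨Ψ.ofLp, h1, h2, ?_, ?_, ?_, ?_, ?_⟩
  · by_contra hcon
    push Not at hcon
    apply h3
    apply (WithLp.equiv 2 _).injective
    funext x
    exact hcon x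
  · intro x
    rw [Plain_ham, Plain_toE_ofLp, h4]
    rfl
  · intro φ hφ hφ0
    rw [Plain_ham] at hφ0
    have hz : LaughlinGap.hamiltonian (3 * (N - 1)) N (toE φ) = 0 := by
      apply (WithLp.equiv 2 _).injective
      exact hφ0
    obtain ⟨c, hc⟩ := h5 (toE φ) hφ hz
    exact ⟨c, congrArg (fun v : EuclideanSpace ℂ (Fin N → Fin (3 * (N - 1) + 1)) => v.ofLp) hc⟩
  · intro lam φ hφ hφ0 hφe
    rw [Plain_ham] at hφe
    have hz : LaughlinGap.hamiltonian (3 * (N - 1)) N (toE φ) = (lam : ℂ) • toE φ := by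
      apply (WithLp.equiv 2 _).injective
      exact hφe
    have hne : toE φ ≠ 0 := by
      intro h0
      apply hφ0
      exact congrArg (fun v : EuclideanSpace ℂ (Fin N → Fin (3 * (N - 1) + 1)) => v.ofLp) h0
    rcases h6 lam (toE φ) hφ hne hz with h | h
    · left
      have h1 := hamiltonian_nonneg (3 * (N - 1)) N (toE φ)
      rw [hz, inner_smul_right, inner_self_eq_norm_sq_to_K] at h1
      have h2 : ((lam : ℂ) * (((‖toE φ‖ : ℝ) : ℂ) ^ 2)).re = lam * ‖toE φ‖ ^ 2 := by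
        norm_cast
      have h3 : 0 ≤ lam * ‖toE φ‖ ^ 2 := by
        rw [← h2]; exact h1
      have h4 : 0 < ‖toE φ‖ ^ 2 := by
        have := norm_pos_iff.mpr hne
        positivity
      nlinarith
    · right
      exact h
  · intro ψ hψ
    rw [Plain_lineProj, Plain_inner, Plain_ham, Plain_toE_ofLp, Plain_toE_ofLp]
    exact h7 (toE ψ) hψ

/-- Gap above the zero-energy space for all large fluxes, in coordinates. -/
theorem plain_flux : ∃ Q₀ : ℕ, ∀ Q N : ℕ, Q₀ ≤ Q → 4 ≤ N →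
    ∀ P, LaughlinModel.IsSpinProjection Q P →
      ∀ (lam : ℝ) (φ : (Fin N → Fin (Q + 1)) → ℂ), LaughlinModel.IsFermionic φ →
        (∃ x, φ x ≠ 0) → (∀ x, LaughlinModel.hamiltonian P φ x = (lam : ℂ) * φ x) →
          lam = 0 ∨ 1 / 100 ≤ lam := by
  obtain ⟨Q₀, hQ₀⟩ := final_flux
  refine ⟨Q₀, fun Q N hQ hN P hP lam φ hφ hφ0 hφe => ?_⟩
  rw [Plain_unique _ P hP] at hφe
  have hz : LaughlinGap.hamiltonian Q N (toE φ) = (lam : ℂ) • toE φ := by
    apply (WithLp.equiv 2 _).injective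
    funext x
    have := hφe x
    rw [Plain_ham] at this
    exact this
  have hne : toE φ ≠ 0 := by
    intro h0
    obtain ⟨x, hx⟩ := hφ0
    apply hx
    exact congrFun (congrArg (fun v : EuclideanSpace ℂ (Fin N → Fin (Q + 1)) => v.ofLp) h0) x
  rcases hQ₀ Q hQ N hN lam (toE φ) hφ hne hz with h | h
  · left
    have h1 := hamiltonian_nonneg Q N (toE φ)
    rw [hz, inner_smul_right, inner_self_eq_norm_sq_to_K] at h1
    have h2 : ((lam : ℂ) * (((‖toE φ‖ : ℝ) : ℂ) ^ 2)).re = lam * ‖toE φ‖ ^ 2 := by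
      norm_cast
    have h3 : 0 ≤ lam * ‖toE φ‖ ^ 2 := by
      rw [← h2]; exact h1
    have h4 : 0 < ‖toE φ‖ ^ 2 := by
      have := norm_pos_iff.mpr hne
      positivity
    nlinarith
  · right
    exact h

end Vale.Agent.P359
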