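import Vale.Agent.P359.Plain

namespace Vale.Agent.P359

open Finset

theorem Plain2_second (Q N : ℕ) (hN : 1 ≤ N) (hQ : N ≤ Q)
    (Ψ : EuclideanSpace ℂ (Fin N → Fin (Q + 1))) :
    ∃ (μ : ℝ) (φ : EuclideanSpace ℂ (Fin N → Fin (Q + 1))),
      LaughlinGap.IsFermionic φ ∧ LaughlinGap.hamiltonian Q N φ = (μ : ℂ) • φ ∧
      φ ∉ Submodule.span ℂ {Ψ} := by
  by_contra hcon
  push Not at hcon
  obtain ⟨E, hE⟩ := Gap2_W_le Q N
  have h1 : Gap2_W Q N ≤ Submodule.span ℂ {Ψ} := by
    refine le_trans hE (iSup_le ?_)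
    rintro ⟨μ, hμ⟩ φ hφ
    exact hcon μ φ hφ.1 hφ.2
  have h2 := Submodule.finrank_mono h1
  have h3 := Gap2_two_le Q N hN hQ
  have h4 : Module.finrank ℂ (Submodule.span ℂ {Ψ}) ≤ 1 := by
    have := finrank_span_le_card (R := ℂ) ({Ψ} : Set (EuclideanSpace ℂ (Fin N → Fin (Q + 1))))
    simpa using this
  omega

/-- Values of the two lowest energies. -/
theorem Plain2_energy (Q N : ℕ) (hN : 1 ≤ N) (hQ : N ≤ Q)
    (P : Matrix (Fin (Q + 1) × Fin (Q + 1)) (Fin (Q + 1) × Fin (Q + 1)) ℂ)
    (hP : LaughlinModel.IsSpinProjection Q P)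
    (Ψ : (Fin N → Fin (Q + 1)) → ℂ) (hf : LaughlinModel.IsFermionic Ψ)
    (hne : ∃ x, Ψ x ≠ 0) (h0 : ∀ x, LaughlinModel.hamiltonian P Ψ x = 0)
    (hker : ∀ φ : (Fin N → Fin (Q + 1)) → ℂ, LaughlinModel.IsFermionic φ →
      LaughlinModel.hamiltonian P φ = 0 → ∃ c : ℂ, φ = c • Ψ)
    (hgap : ∀ (lam : ℝ) (φ : (Fin N → Fin (Q + 1)) → ℂ), LaughlinModel.IsFermionic φ → φ ≠ 0 →
      LaughlinModel.hamiltonian P φ = (lam : ℂ) • φ → lam = 0 ∨ 1 / 100 ≤ lam) :
    LaughlinModel.energy N P 0 = 0 ∧ 1 / 100 ≤ LaughlinModel.energy N P 1 := by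
  have hpos : ∀ (μ : ℝ) (φ : (Fin N → Fin (Q + 1)) → ℂ), LaughlinModel.IsFermionic φ → φ ≠ 0 →
      (∀ x, LaughlinModel.hamiltonian P φ x = (μ : ℂ) * φ x) → μ = 0 ∨ 1 / 100 ≤ μ :=
    fun μ φ h1 h2 h3 => hgap μ φ h1 h2 (funext h3)
  constructor
  · have hset : {E : ℝ | ∃ v : Fin (0 + 1) → (Fin N → Fin (Q + 1)) → ℂ,
        (∀ c : Fin (0 + 1) → ℂ, (∀ x, ∑ l, c l * v l x = 0) → ∀ l, c l = 0) ∧
        ∀ l, LaughlinModel.IsFermionic (v l) ∧ ∃ μ : ℝ, μ ≤ E ∧
          ∀ x, LaughlinModel.hamiltonian P (v l) x = (μ : ℂ) * v l x} = Set.Ici 0 := by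
      ext E
      simp only [Set.mem_ofPred_eq, Set.mem_Ici]
      constructor
      · rintro ⟨v, hv, hl⟩
        obtain ⟨hvf, μ, hμ, hvμ⟩ := hl 0
        have hv0 : v 0 ≠ 0 := by
          intro hz
          have := hv (fun _ => 1) (by
            intro x
            simp [hz]) 0
          exact one_ne_zero this
        rcases hpos μ (v 0) hvf hv0 hvμ with h | h <;> linarith
      · intro hE
        refine ⟨fun _ => Ψ, ?_, ?_⟩
        · intro c hc l
          obtain ⟨x, hx⟩ := hne
          have h1 : c 0 * Ψ x = 0 := by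
            have := hc x
            rw [Fin.sum_univ_succ] at this
            simpa using this
          have h2 : c 0 = 0 := by
            rcases mul_eq_zero.mp h1 with h | h
            · exact h
            · exact absurd h hx
          have hl0 : l = 0 := by
            apply Fin.ext
            have := l.isLt
            simp at this ⊢
          rw [hl0]
          exact h2
        · intro l
          refine ⟨hf, 0, hE, ?_⟩
          intro x
          rw [h0 x]
          simp
    unfold LaughlinModel.energy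
    rw [hset]
    exact csInf_Ici
  · unfold LaughlinModel.energy
    apply le_csInf
    · obtain ⟨μ, φ, hφf, hφe, hφs⟩ := Plain2_second Q N hN hQ (toE Ψ)
      refine ⟨max 0 μ, ![Ψ, φ.ofLp], ?_, ?_⟩
      · intro c hc
        have hsum : ∀ x, c 0 * Ψ x + c 1 * φ.ofLp x = 0 := by
          intro x
          have := hc x
          rw [Fin.sum_univ_two] at this
          exact this
        have h1 : c 1 = 0 := by
          by_contra hc1
          apply hφs
          rw [Submodule.mem_span_singleton]
          refine ⟨-(c 0 / c 1), ?_⟩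
          apply (WithLp.equiv 2 _).injective
          funext x
          have := hsum x
          show -(c 0 / c 1) * Ψ x = φ.ofLp x
          field_simp
          linear_combination -this
        have h0' : c 0 = 0 := by
          obtain ⟨x, hx⟩ := hne
          have := hsum x
          rw [h1, zero_mul, add_zero] at this
          rcases mul_eq_zero.mp this with h | h
          · exact h
          · exact absurd h hx
        intro l
        fin_cases l
        · exact h0'
        · exact h1
      · intro l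
        fin_cases l
        · refine ⟨hf, 0, le_max_left _ _, ?_⟩
          intro x
          show LaughlinModel.hamiltonian P Ψ x = _
          rw [h0 x]
          simp
        · refine ⟨hφf, μ, le_max_right _ _, ?_⟩
          intro x
          show LaughlinModel.hamiltonian P φ.ofLp x = (μ : ℂ) * φ.ofLp x
          rw [Plain_unique _ P hP, Plain_ham, Plain_toE_ofLp, hφe]
          rfl
    · rintro E ⟨v, hv, hl⟩
      by_contra hlt
      push Not at hlt
      have hnz : ∀ l, v l ≠ 0 := by
        intro l hz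
        have := hv (fun i => if i = l then 1 else 0) (by
          intro x
          rw [Finset.sum_eq_single l]
          · simp [hz]
          · intro b _ hb
            simp [hb]
          · intro h
            exact absurd (Finset.mem_univ l) h) l
        simp at this
      have hmul : ∀ l, ∃ c : ℂ, v l = c • Ψ := by
        intro l
        obtain ⟨hvf, μ, hμ, hvμ⟩ := hl l
        rcases hpos μ (v l) hvf (hnz l) hvμ with h | h
        · apply hker (v l) hvf
          funext x
          rw [hvμ x, h]
          simp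
        · linarith
      obtain ⟨c0, hc0⟩ := hmul 0
      obtain ⟨c1, hc1⟩ := hmul 1
      have := hv (fun i => if i = 0 then c1 else -c0) (by
        intro x
        rw [Fin.sum_univ_two, hc0, hc1]
        simp
        ring) 1
      simp only [Fin.isValue, one_ne_zero, if_false, neg_eq_zero] at this
      apply hnz 0
      rw [hc0, this, zero_smul]

theorem plain_gap : ∃ N₀ : ℕ, ∀ N Q : ℕ, N₀ ≤ N → Q = 3 * (N - 1) →
    ∀ P, LaughlinModel.IsSpinProjection Q P →
      LaughlinModel.energy N P 0 = 0 ∧ 1 / 100 ≤ LaughlinModel.energy N P 1 := by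
  obtain ⟨N₀, hN₀, h⟩ := plain_final
  refine ⟨N₀, fun N Q hN hQ P hP => ?_⟩
  obtain ⟨_, h1⟩ := h N Q hN hQ
  obtain ⟨Ψ, a, _, b, c, d, e, _⟩ := h1 P hP
  exact Plain2_energy Q N (by omega) (by omega) P hP Ψ a b c d e

end Vale.Agent.P359
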