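import Vale.Agent.P359.Stmt
import Vale.Agent.P359.Defs

namespace Vale.Agent.P359

open Finset LaughlinGap

/-- square root weight -/
noncomputable def ProjId_s (Q a : ℕ) : ℂ := ((Real.sqrt (Q.choose a) : ℝ) : ℂ)

theorem ProjId_sqrt_up (Q a : ℕ) (ha : a ≤ Q) :
    Real.sqrt (((a : ℝ) + 1) * ((Q : ℝ) - a)) * Real.sqrt (Q.choose (a + 1))
      = Real.sqrt (Q.choose a) * ((Q : ℝ) - a) := by
  have h1 : (0 : ℝ) ≤ (Q : ℝ) - a := by
    have : (a : ℝ) ≤ Q := by exact_mod_cast ha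
    linarith
  have h2 : ((Q.choose (a + 1) : ℕ) : ℝ) * ((a : ℝ) + 1) = (Q.choose a : ℕ) * ((Q : ℝ) - a) := by
    have := Nat.choose_succ_right_eq Q a
    have h3 : ((Q.choose (a + 1) * (a + 1) : ℕ) : ℝ) = ((Q.choose a * (Q - a) : ℕ) : ℝ) := by
      rw [this]
    push_cast [Nat.cast_sub ha] at h3
    exact h3
  rw [← Real.sqrt_mul (by positivity)]
  have h4 : ((a : ℝ) + 1) * ((Q : ℝ) - a) * (Q.choose (a + 1) : ℕ)
      = (Q.choose a : ℕ) * ((Q : ℝ) - a) ^ 2 := by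
    calc ((a : ℝ) + 1) * ((Q : ℝ) - a) * (Q.choose (a + 1) : ℕ)
        = ((Q.choose (a + 1) : ℕ) * ((a : ℝ) + 1)) * ((Q : ℝ) - a) := by ring
      _ = _ := by rw [h2]; ring
  rw [h4, Real.sqrt_mul (by positivity), Real.sqrt_sq h1]

theorem ProjId_sqrt_down (Q a : ℕ) (ha : a < Q) :
    Real.sqrt (((a : ℝ) + 1) * ((Q : ℝ) - a)) * Real.sqrt (Q.choose a)
      = Real.sqrt (Q.choose (a + 1)) * ((a : ℝ) + 1) := by
  have h1 : (0 : ℝ) ≤ (Q : ℝ) - a := by
    have : (a : ℝ) ≤ Q := by exact_mod_cast ha.le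
    linarith
  have h2 : ((Q.choose (a + 1) : ℕ) : ℝ) * ((a : ℝ) + 1) = (Q.choose a : ℕ) * ((Q : ℝ) - a) := by
    have := Nat.choose_succ_right_eq Q a
    have h3 : ((Q.choose (a + 1) * (a + 1) : ℕ) : ℝ) = ((Q.choose a * (Q - a) : ℕ) : ℝ) := by
      rw [this]
    push_cast [Nat.cast_sub ha.le] at h3
    exact h3
  rw [← Real.sqrt_mul (by positivity)]
  have h4 : ((a : ℝ) + 1) * ((Q : ℝ) - a) * (Q.choose a : ℕ)
      = (Q.choose (a + 1) : ℕ) * ((a : ℝ) + 1) ^ 2 := by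
    calc ((a : ℝ) + 1) * ((Q : ℝ) - a) * (Q.choose a : ℕ)
        = ((Q.choose a : ℕ) * ((Q : ℝ) - a)) * ((a : ℝ) + 1) := by ring
      _ = _ := by rw [← h2]; ring
  rw [h4, Real.sqrt_mul (by positivity), Real.sqrt_sq (by positivity)]

theorem ProjId_s_zero (Q a : ℕ) (ha : Q < a) : ProjId_s Q a = 0 := by
  simp [ProjId_s, Nat.choose_eq_zero_of_lt ha]

/-- action of `S⁺` -/
theorem ProjId_plus (Q : ℕ) (x : Fin (Q + 1)) (f : ℕ → ℂ) :
    ∑ a : Fin (Q + 1), spinPlus Q x a * (ProjId_s Q a * f a)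
      = ProjId_s Q x * (((Q : ℂ) - (x : ℕ)) * f ((x : ℕ) + 1)) := by
  have hx : (x : ℕ) ≤ Q := by omega
  have key : (((Real.sqrt (((x : ℕ) + 1 : ℝ) * ((Q : ℝ) - (x : ℕ))) : ℝ) : ℂ))
      * ProjId_s Q ((x : ℕ) + 1) = ProjId_s Q x * ((Q : ℂ) - (x : ℕ)) := by
    have := ProjId_sqrt_up Q x hx
    unfold ProjId_s
    exact_mod_cast this
  by_cases hxQ : (x : ℕ) + 1 < Q + 1
  · rw [Finset.sum_eq_single (⟨(x : ℕ) + 1, hxQ⟩ : Fin (Q + 1))]
    · simp only [spinPlus, if_true]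
      rw [← mul_assoc, key]; ring
    · intro b _ hb
      have : ¬ ((b : ℕ) = (x : ℕ) + 1) := by
        intro h; exact hb (Fin.ext h)
      simp [spinPlus, this]
    · intro h; exact absurd (Finset.mem_univ _) h
  · have hxe : (x : ℕ) = Q := by omega
    rw [Finset.sum_eq_zero]
    · rw [hxe]; simp
    · intro b _
      have : ¬ ((b : ℕ) = (x : ℕ) + 1) := by omega
      simp [spinPlus, this]

/-- action of `S⁻` -/
theorem ProjId_minus (Q : ℕ) (x : Fin (Q + 1)) (f : ℕ → ℂ) :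
    ∑ a : Fin (Q + 1), spinMinus Q x a * (ProjId_s Q a * f a)
      = ProjId_s Q x * (((x : ℕ) : ℂ) * f ((x : ℕ) - 1)) := by
  rcases Nat.eq_zero_or_pos (x : ℕ) with h0 | hpos
  · rw [Finset.sum_eq_zero]
    · rw [h0]; simp
    · intro b _
      have : ¬ ((x : ℕ) = (b : ℕ) + 1) := by omega
      simp [spinMinus, spinPlus, this]
  · obtain ⟨a, ha⟩ : ∃ a, (x : ℕ) = a + 1 := ⟨(x : ℕ) - 1, by omega⟩
    have haQ : a < Q := by omega
    have key : (((Real.sqrt ((a + 1 : ℝ) * ((Q : ℝ) - a)) : ℝ) : ℂ))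
        * ProjId_s Q a = ProjId_s Q (a + 1) * ((a : ℂ) + 1) := by
      have := ProjId_sqrt_down Q a haQ
      unfold ProjId_s
      exact_mod_cast this
    rw [Finset.sum_eq_single (⟨a, by omega⟩ : Fin (Q + 1))]
    · have h1 : spinMinus Q x (⟨a, by omega⟩ : Fin (Q + 1))
          = (((Real.sqrt ((a + 1 : ℝ) * ((Q : ℝ) - a)) : ℝ) : ℂ)) := by
        simp only [spinMinus, spinPlus, Matrix.conjTranspose_apply, ha, if_true]
        simp
      rw [h1, ← mul_assoc, key, ha]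
      simp
      ring
    · intro b _ hb
      have : ¬ ((x : ℕ) = (b : ℕ) + 1) := by
        intro h; apply hb; apply Fin.ext; simp; omega
      simp [spinMinus, spinPlus, this]
    · intro h; exact absurd (Finset.mem_univ _) h

theorem ProjId_z (Q : ℕ) (x : Fin (Q + 1)) (f : ℕ → ℂ) :
    ∑ a : Fin (Q + 1), spinZ Q x a * (ProjId_s Q a * f a)
      = ProjId_s Q x * (((Q : ℂ) / 2 - ((x : ℕ) : ℂ)) * f x) := by
  rw [Finset.sum_eq_single x]
  · simp [spinZ]; ring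
  · intro b _ hb
    simp [spinZ, Matrix.diagonal_apply_ne _ hb.symm]
  · intro h; exact absurd (Finset.mem_univ _) h

/-- the vector with hat coefficients `f` -/
noncomputable def ProjId_vec (Q : ℕ) (f : ℕ → ℕ → ℂ) : Fin (Q + 1) × Fin (Q + 1) → ℂ :=
  fun p => ProjId_s Q p.1 * (ProjId_s Q p.2 * f p.1 p.2)

theorem ProjId_pair {Q : ℕ} (M : Matrix (Fin (Q + 1)) (Fin (Q + 1)) ℂ) (g : Fin (Q + 1) × Fin (Q + 1) → ℂ)
    (x y : Fin (Q + 1)) :
    (pairOp M).mulVec g (x, y) = (∑ a, M x a * g (a, y)) + ∑ b, M y b * g (x, b) := by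
  rw [pairOp, Matrix.add_mulVec, Pi.add_apply]
  have h1 : (Matrix.kroneckerMap (fun x y => x * y) M
      (1 : Matrix (Fin (Q + 1)) (Fin (Q + 1)) ℂ)).mulVec g (x, y) = ∑ a, M x a * g (a, y) := by
    simp only [Matrix.mulVec, dotProduct, Fintype.sum_prod_type, Matrix.kroneckerMap_apply]
    refine Finset.sum_congr rfl fun a _ => ?_
    rw [Finset.sum_eq_single y]
    · simp
    · intro b _ hb; simp [Matrix.one_apply_ne hb.symm]
    · intro h; exact absurd (Finset.mem_univ _) h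
  have h2 : (Matrix.kroneckerMap (fun x y => x * y)
      (1 : Matrix (Fin (Q + 1)) (Fin (Q + 1)) ℂ) M).mulVec g (x, y) = ∑ b, M y b * g (x, b) := by
    simp only [Matrix.mulVec, dotProduct, Fintype.sum_prod_type, Matrix.kroneckerMap_apply]
    rw [Finset.sum_eq_single x]
    · simp
    · intro b _ hb; simp [Matrix.one_apply_ne hb.symm]
    · intro h; exact absurd (Finset.mem_univ _) h
  rw [h1, h2]

theorem ProjId_pairPlus (Q : ℕ) (f : ℕ → ℕ → ℂ) :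
    (pairOp (spinPlus Q)).mulVec (ProjId_vec Q f)
      = ProjId_vec Q (fun x y => ((Q : ℂ) - x) * f (x + 1) y + ((Q : ℂ) - y) * f x (y + 1)) := by
  funext p
  obtain ⟨x, y⟩ := p
  rw [ProjId_pair]
  have h1 : ∑ a, spinPlus Q x a * ProjId_vec Q f (a, y)
      = ProjId_s Q x * (((Q : ℂ) - (x : ℕ)) * (ProjId_s Q y * f ((x : ℕ) + 1) y)) := by
    rw [← ProjId_plus Q x (fun a => ProjId_s Q y * f a y)]
    rfl
  have h2 : ∑ b, spinPlus Q y b * ProjId_vec Q f (x, b)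
      = ProjId_s Q y * (((Q : ℂ) - (y : ℕ)) * (ProjId_s Q x * f x ((y : ℕ) + 1))) := by
    rw [← ProjId_plus Q y (fun b => ProjId_s Q x * f x b)]
    refine Finset.sum_congr rfl fun b _ => ?_
    simp only [ProjId_vec]; ring
  rw [h1, h2]
  simp only [ProjId_vec]
  ring

theorem ProjId_pairMinus (Q : ℕ) (f : ℕ → ℕ → ℂ) :
    (pairOp (spinMinus Q)).mulVec (ProjId_vec Q f)
      = ProjId_vec Q (fun x y => (x : ℂ) * f (x - 1) y + (y : ℂ) * f x (y - 1)) := by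
  funext p
  obtain ⟨x, y⟩ := p
  rw [ProjId_pair]
  have h1 : ∑ a, spinMinus Q x a * ProjId_vec Q f (a, y)
      = ProjId_s Q x * (((x : ℕ) : ℂ) * (ProjId_s Q y * f ((x : ℕ) - 1) y)) := by
    rw [← ProjId_minus Q x (fun a => ProjId_s Q y * f a y)]
    rfl
  have h2 : ∑ b, spinMinus Q y b * ProjId_vec Q f (x, b)
      = ProjId_s Q y * (((y : ℕ) : ℂ) * (ProjId_s Q x * f x ((y : ℕ) - 1))) := by
    rw [← ProjId_minus Q y (fun b => ProjId_s Q x * f x b)]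
    refine Finset.sum_congr rfl fun b _ => ?_
    simp only [ProjId_vec]; ring
  rw [h1, h2]
  simp only [ProjId_vec]
  ring

theorem ProjId_pairZ (Q : ℕ) (f : ℕ → ℕ → ℂ) :
    (pairOp (spinZ Q)).mulVec (ProjId_vec Q f)
      = ProjId_vec Q (fun x y => ((Q : ℂ) - x - y) * f x y) := by
  funext p
  obtain ⟨x, y⟩ := p
  rw [ProjId_pair]
  have h1 : ∑ a, spinZ Q x a * ProjId_vec Q f (a, y)
      = ProjId_s Q x * (((Q : ℂ) / 2 - ((x : ℕ) : ℂ)) * (ProjId_s Q y * f x y)) := by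
    rw [← ProjId_z Q x (fun a => ProjId_s Q y * f a y)]
    rfl
  have h2 : ∑ b, spinZ Q y b * ProjId_vec Q f (x, b)
      = ProjId_s Q y * (((Q : ℂ) / 2 - ((y : ℕ) : ℂ)) * (ProjId_s Q x * f x y)) := by
    rw [← ProjId_z Q y (fun b => ProjId_s Q x * f x b)]
    refine Finset.sum_congr rfl fun b _ => ?_
    simp only [ProjId_vec]; ring
  rw [h1, h2]
  simp only [ProjId_vec]
  ring

theorem ProjId_vec_add (Q : ℕ) (f g : ℕ → ℕ → ℂ) :
    ProjId_vec Q f + ProjId_vec Q g = ProjId_vec Q (fun x y => f x y + g x y) := by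
  funext p
  simp only [ProjId_vec, Pi.add_apply]; ring

theorem ProjId_casimir (Q : ℕ) (f : ℕ → ℕ → ℂ) :
    (casimir Q).mulVec (ProjId_vec Q f)
      = ProjId_vec Q (fun x y =>
          (x : ℂ) * (((Q : ℂ) - ((x - 1 : ℕ) : ℂ)) * f (x - 1 + 1) y
            + ((Q : ℂ) - y) * f (x - 1) (y + 1))
          + (y : ℂ) * (((Q : ℂ) - x) * f (x + 1) (y - 1)
            + ((Q : ℂ) - ((y - 1 : ℕ) : ℂ)) * f x (y - 1 + 1))
          + ((Q : ℂ) - x - y) * (((Q : ℂ) - x - y) * f x y + f x y)) := by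
  unfold casimir
  rw [Matrix.add_mulVec, ← Matrix.mulVec_mulVec, ← Matrix.mulVec_mulVec, ProjId_pairPlus,
    ProjId_pairMinus, Matrix.add_mulVec, Matrix.one_mulVec, ProjId_pairZ, ProjId_vec_add,
    ProjId_pairZ, ProjId_vec_add]

/-- pointwise form of the eigenvalue equation -/
theorem ProjId_casimir_sub (Q : ℕ) (f : ℕ → ℕ → ℂ) (x y : Fin (Q + 1)) :
    (casimir Q).mulVec (ProjId_vec Q f) (x, y) - (((Q : ℂ) - 1) * (Q : ℂ)) * ProjId_vec Q f (x, y)
      = ProjId_s Q x * (ProjId_s Q y *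
          (((x : ℕ) : ℂ) * ((Q : ℂ) - (y : ℕ)) * (f ((x : ℕ) - 1) ((y : ℕ) + 1) - f x y)
            + ((y : ℕ) : ℂ) * ((Q : ℂ) - (x : ℕ)) * (f ((x : ℕ) + 1) ((y : ℕ) - 1) - f x y)
            + 2 * (Q : ℂ) * f x y)) := by
  rw [ProjId_casimir]
  simp only [ProjId_vec]
  have e1 : ((x : ℕ) : ℂ) * (((Q : ℂ) - (((x : ℕ) - 1 : ℕ) : ℂ)) * f ((x : ℕ) - 1 + 1) y)
      = ((x : ℕ) : ℂ) * (((Q : ℂ) - (x : ℕ) + 1) * f x y) := by
    rcases Nat.eq_zero_or_pos (x : ℕ) with h | h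
    · rw [h]; simp
    · have : (x : ℕ) - 1 + 1 = (x : ℕ) := by omega
      rw [this, Nat.cast_sub h]; push_cast; ring
  have e2 : ((y : ℕ) : ℂ) * (((Q : ℂ) - (((y : ℕ) - 1 : ℕ) : ℂ)) * f x ((y : ℕ) - 1 + 1))
      = ((y : ℕ) : ℂ) * (((Q : ℂ) - (y : ℕ) + 1) * f x y) := by
    rcases Nat.eq_zero_or_pos (y : ℕ) with h | h
    · rw [h]; simp
    · have : (y : ℕ) - 1 + 1 = (y : ℕ) := by omega
      rw [this, Nat.cast_sub h]; push_cast; ring
  rw [mul_add ((x : ℕ) : ℂ), mul_add ((y : ℕ) : ℂ), e1, e2]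
  ring

theorem ProjId_s_ne (Q a : ℕ) (ha : a ≤ Q) : ProjId_s Q a ≠ 0 := by
  unfold ProjId_s
  have : (0 : ℝ) < (Q.choose a : ℕ) := by exact_mod_cast Nat.choose_pos ha
  exact_mod_cast (Real.sqrt_pos.mpr this).ne'

/-- three-term recursion: a solution vanishing at the start vanishes -/
theorem ProjId_uniq (Q : ℕ) (h : ℕ → ℕ → ℂ) (x0 y0 : ℕ) (hx0 : x0 = 0 ∨ y0 = Q) (hy : y0 ≤ Q)
    (E : ∀ x y : ℕ, x ≤ Q → y ≤ Q →
      (x : ℂ) * ((Q : ℂ) - y) * (h (x - 1) (y + 1) - h x y)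
        + (y : ℂ) * ((Q : ℂ) - x) * (h (x + 1) (y - 1) - h x y) + 2 * (Q : ℂ) * h x y = 0)
    (h0 : h x0 y0 = 0) : ∀ t, t ≤ y0 → x0 + t ≤ Q → h (x0 + t) (y0 - t) = 0 := by
  intro t
  induction t using Nat.strong_induction_on with
  | _ t ih =>
    intro ht1 ht2
    rcases Nat.eq_zero_or_pos t with h1 | h1
    · subst h1; simpa using h0
    · obtain ⟨s, rfl⟩ : ∃ s, t = s + 1 := ⟨t - 1, by omega⟩
      have hs := ih s (by omega) (by omega) (by omega)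
      have hE := E (x0 + s) (y0 - s) (by omega) (by omega)
      rw [hs] at hE
      have hfirst : (((x0 + s : ℕ) : ℂ)) * ((Q : ℂ) - ((y0 - s : ℕ) : ℂ))
          * (h (x0 + s - 1) (y0 - s + 1) - 0) = 0 := by
        rcases Nat.eq_zero_or_pos s with h2 | h2
        · subst h2
          rcases hx0 with h3 | h3
          · simp [h3]
          · simp [h3]
        · obtain ⟨r, rfl⟩ : ∃ r, s = r + 1 := ⟨s - 1, by omega⟩
          have hr := ih r (by omega) (by omega) (by omega)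
          have e1 : x0 + (r + 1) - 1 = x0 + r := by omega
          have e2 : y0 - (r + 1) + 1 = y0 - r := by omega
          rw [e1, e2, hr]; simp
      rw [hfirst] at hE
      have e3 : x0 + s + 1 = x0 + (s + 1) := by omega
      have e4 : y0 - s - 1 = y0 - (s + 1) := by omega
      rw [e3, e4] at hE
      have hne1 : (((y0 - s : ℕ) : ℂ)) ≠ 0 := by
        have : y0 - s ≠ 0 := by omega
        exact_mod_cast this
      have hne2 : ((Q : ℂ) - ((x0 + s : ℕ) : ℂ)) ≠ 0 := by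
        have h5 : x0 + s < Q := by omega
        intro hc
        have : (Q : ℂ) = ((x0 + s : ℕ) : ℂ) := by linear_combination hc
        have : Q = x0 + s := by exact_mod_cast this
        omega
      simp only [sub_zero, mul_zero, add_zero, zero_add] at hE
      rcases mul_eq_zero.mp hE with h6 | h6
      · rcases mul_eq_zero.mp h6 with h7 | h7
        · exact absurd h7 hne1
        · exact absurd h7 hne2
      · exact h6

/-- `x - y` solves the recursion -/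
theorem ProjId_sol (Q : ℕ) (c : ℂ) (x y : ℕ) :
      (x : ℂ) * ((Q : ℂ) - y) * (c * (((x - 1 : ℕ) : ℂ) - ((y + 1 : ℕ) : ℂ)) - c * ((x : ℂ) - y))
        + (y : ℂ) * ((Q : ℂ) - x) * (c * (((x + 1 : ℕ) : ℂ) - ((y - 1 : ℕ) : ℂ)) - c * ((x : ℂ) - y))
        + 2 * (Q : ℂ) * (c * ((x : ℂ) - y)) = 0 := by
  have e1 : (x : ℂ) * (((x - 1 : ℕ) : ℂ)) = (x : ℂ) * ((x : ℂ) - 1) := by
    rcases Nat.eq_zero_or_pos x with h | h
    · rw [h]; simp
    · rw [Nat.cast_sub h]; push_cast; ring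
  have e2 : (y : ℂ) * (((y - 1 : ℕ) : ℂ)) = (y : ℂ) * ((y : ℂ) - 1) := by
    rcases Nat.eq_zero_or_pos y with h | h
    · rw [h]; simp
    · rw [Nat.cast_sub h]; push_cast; ring
  push_cast
  linear_combination (((Q : ℂ) - y) * c) * e1 - (((Q : ℂ) - x) * c) * e2

/-- shape of the solutions on each graded piece -/
theorem ProjId_shape (Q : ℕ) (hQ : 1 ≤ Q) (f : ℕ → ℕ → ℂ)
    (E : ∀ x y : ℕ, x ≤ Q → y ≤ Q →
      (x : ℂ) * ((Q : ℂ) - y) * (f (x - 1) (y + 1) - f x y)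
        + (y : ℂ) * ((Q : ℂ) - x) * (f (x + 1) (y - 1) - f x y) + 2 * (Q : ℂ) * f x y = 0)
    (n : ℕ) : ∃ c : ℂ, ∀ x y : ℕ, x ≤ Q → y ≤ Q → x + y = n → f x y = c * ((x : ℂ) - y) := by
  by_cases hn : 2 * Q < n
  · exact ⟨0, fun x y hx hy hxy => by omega⟩
  have hQ0 : (Q : ℂ) ≠ 0 := by
    have : Q ≠ 0 := by omega
    exact_mod_cast this
  set x0 := n - Q with hx0
  set y0 := n - x0 with hy0
  have hy0Q : y0 ≤ Q := by omega
  have hx0y0 : x0 + y0 = n := by omega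
  have hcase : x0 = 0 ∨ y0 = Q := by omega
  -- the constant
  obtain ⟨c, hc⟩ : ∃ c : ℂ, f x0 y0 = c * ((x0 : ℂ) - y0) := by
    by_cases he : x0 = y0
    · refine ⟨0, ?_⟩
      have hE := E x0 y0 (by omega) hy0Q
      have h1 : x0 = 0 ∨ x0 = Q := by omega
      rw [zero_mul]
      rcases h1 with h1 | h1
      · have h2 : y0 = 0 := by omega
        rw [h1, h2] at hE ⊢
        simp [hQ0] at hE
        exact hE
      · have h2 : y0 = Q := by omega
        rw [h1, h2] at hE ⊢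
        simp [hQ0] at hE
        exact hE
    · refine ⟨f x0 y0 / ((x0 : ℂ) - y0), ?_⟩
      have : ((x0 : ℂ) - y0) ≠ 0 := by
        intro h
        apply he
        have : (x0 : ℂ) = y0 := by linear_combination h
        exact_mod_cast this
      field_simp
  refine ⟨c, ?_⟩
  have hu := ProjId_uniq Q (fun x y => f x y - c * ((x : ℂ) - y)) x0 y0 hcase hy0Q
    (fun x y hx hy => by
      have h1 := E x y hx hy
      have h2 := ProjId_sol Q c x y
      linear_combination h1 - h2)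
    (by rw [hc]; ring)
  intro x y hx hy hxy
  have := hu (x - x0) (by omega) (by omega)
  have e1 : x0 + (x - x0) = x := by omega
  have e2 : y0 - (x - x0) = y := by omega
  rw [e1, e2] at this
  linear_combination this


theorem ProjId_mem (Q : ℕ) (v : EuclideanSpace ℂ (Fin (Q + 1) × Fin (Q + 1))) :
    v ∈ spinComponent Q ↔
      ∀ p, (casimir Q).mulVec v.ofLp p - (((Q : ℂ) - 1) * (Q : ℂ)) * v.ofLp p = 0 := by
  unfold spinComponent
  rw [Module.End.mem_eigenspace_iff]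
  constructor
  · intro h p
    have h1 := congrArg (fun w : EuclideanSpace ℂ (Fin (Q + 1) × Fin (Q + 1)) => w.ofLp p) h
    simp only [Matrix.toLpLin_apply, PiLp.smul_apply, smul_eq_mul] at h1
    rw [h1]; ring
  · intro h
    apply (WithLp.equiv 2 _).injective
    funext p
    have h1 := h p
    simp only [WithLp.equiv_apply, Matrix.toLpLin_apply, PiLp.smul_apply, smul_eq_mul]
    linear_combination h1

/-- hat coefficients of a vector -/
noncomputable def ProjId_hat (Q : ℕ) (v : Fin (Q + 1) × Fin (Q + 1) → ℂ) (x y : ℕ) : ℂ :=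
  if h : x < Q + 1 ∧ y < Q + 1 then v (⟨x, h.1⟩, ⟨y, h.2⟩) / (ProjId_s Q x * ProjId_s Q y) else 0

theorem ProjId_vec_hat (Q : ℕ) (v : Fin (Q + 1) × Fin (Q + 1) → ℂ) :
    ProjId_vec Q (ProjId_hat Q v) = v := by
  funext p
  obtain ⟨x, y⟩ := p
  have h1 := ProjId_s_ne Q x (by omega)
  have h2 := ProjId_s_ne Q y (by omega)
  simp only [ProjId_vec, ProjId_hat]
  rw [dif_pos ⟨x.2, y.2⟩]
  simp only [Fin.eta]
  field_simp

/-- `x ↦ x` vectors of the eigenspace have the explicit shape on each graded piece -/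
theorem ProjId_mem_shape (Q : ℕ) (hQ : 1 ≤ Q) (v : EuclideanSpace ℂ (Fin (Q + 1) × Fin (Q + 1)))
    (hv : v ∈ spinComponent Q) (n : ℕ) :
    ∃ c : ℂ, ∀ x y : Fin (Q + 1), (x : ℕ) + (y : ℕ) = n →
      v.ofLp (x, y) = ProjId_s Q x * ProjId_s Q y * (c * (((x : ℕ) : ℂ) - (y : ℕ))) := by
  rw [ProjId_mem] at hv
  obtain ⟨c, hc⟩ := ProjId_shape Q hQ (ProjId_hat Q v.ofLp) (by
    intro x y hx hy
    have h := hv (⟨x, by omega⟩, ⟨y, by omega⟩)
    rw [← ProjId_vec_hat Q v.ofLp, ProjId_casimir_sub] at h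
    have h1 := ProjId_s_ne Q x hx
    have h2 := ProjId_s_ne Q y hy
    rcases mul_eq_zero.mp h with h3 | h3
    · exact absurd h3 h1
    rcases mul_eq_zero.mp h3 with h4 | h4
    · exact absurd h4 h2
    exact h4) n
  refine ⟨c, fun x y hxy => ?_⟩
  have := hc x y (by omega) (by omega) hxy
  rw [← this]
  conv_lhs => rw [← ProjId_vec_hat Q v.ofLp]
  simp only [ProjId_vec]
  ring

theorem ProjId_norm_aux (Q n : ℕ) (hQ : 1 ≤ Q) :
    ∑ p ∈ antidiagonal (n + 1), ((p.1 : ℝ) - (p.2 : ℝ)) ^ 2 * ((Q.choose p.1 : ℕ) : ℝ)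
      * ((Q.choose p.2 : ℕ) : ℝ) = 2 * (Q : ℝ) * (((2 * Q - 2).choose n : ℕ) : ℝ) := by
  obtain ⟨R, rfl⟩ : ∃ R, Q = R + 1 := ⟨Q - 1, by omega⟩
  -- a * C(R+1, a) = (R+1) * C(R, a-1), with the convention c a = C(R, a-1), c 0 = 0
  set c : ℕ → ℝ := fun a => if a = 0 then 0 else ((R.choose (a - 1) : ℕ) : ℝ) with hc
  have hA : ∀ a : ℕ, (a : ℝ) * (((R + 1).choose a : ℕ) : ℝ) = ((R : ℝ) + 1) * c a := by
    intro a
    rcases a with _ | a
    · simp [hc]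
    · have := Nat.add_one_mul_choose_eq R a
      have h2 : (((R + 1) * R.choose a : ℕ) : ℝ) = (((R + 1).choose (a + 1) * (a + 1) : ℕ) : ℝ) := by
        rw [this]
      push_cast at h2
      simp only [hc, Nat.add_eq_zero_iff, one_ne_zero, and_false, if_false, Nat.add_sub_cancel]
      push_cast
      linarith
  have hB : ∀ a : ℕ, (((R + 1).choose a : ℕ) : ℝ) = c a + ((R.choose a : ℕ) : ℝ) := by
    intro a
    rcases a with _ | a
    · simp [hc]
    · rw [Nat.choose_succ_succ]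
      simp [hc]
  have h1 : ∀ p ∈ antidiagonal (n + 1), ((p.1 : ℝ) - (p.2 : ℝ)) ^ 2 * (((R + 1).choose p.1 : ℕ) : ℝ)
      * (((R + 1).choose p.2 : ℕ) : ℝ)
      = ((R : ℝ) + 1) * (((p.1 : ℝ) - (p.2 : ℝ)) * (c p.1 * ((R.choose p.2 : ℕ) : ℝ)))
        + ((R : ℝ) + 1) * ((((p.swap).1 : ℝ) - ((p.swap).2 : ℝ))
            * (c (p.swap).1 * ((R.choose (p.swap).2 : ℕ) : ℝ))) := by
    intro p _
    have a1 := hA p.1
    have a2 := hA p.2
    have b1 := hB p.1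
    have b2 := hB p.2
    simp only [Prod.fst_swap, Prod.snd_swap]
    calc ((p.1 : ℝ) - (p.2 : ℝ)) ^ 2 * (((R + 1).choose p.1 : ℕ) : ℝ)
      * (((R + 1).choose p.2 : ℕ) : ℝ)
        = ((p.1 : ℝ) - (p.2 : ℝ)) * (((p.1 : ℝ) * (((R + 1).choose p.1 : ℕ) : ℝ))
            * (((R + 1).choose p.2 : ℕ) : ℝ) - ((p.2 : ℝ) * (((R + 1).choose p.2 : ℕ) : ℝ))
            * (((R + 1).choose p.1 : ℕ) : ℝ)) := by ring
      _ = _ := by rw [a1, a2, b1, b2]; ring
  rw [Finset.sum_congr rfl h1, Finset.sum_add_distrib]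
  have hs := Finset.Nat.sum_antidiagonal_swap (n := n + 1)
    (f := fun p : ℕ × ℕ => ((R : ℝ) + 1) * (((p.1 : ℝ) - (p.2 : ℝ)) * (c p.1 * ((R.choose p.2 : ℕ) : ℝ))))
  rw [hs, Finset.Nat.sum_antidiagonal_succ]
  have h2 : ∀ p ∈ antidiagonal n,
      ((R : ℝ) + 1) * ((((p.1 + 1 : ℕ) : ℝ) - (p.2 : ℝ)) * (c (p.1 + 1) * ((R.choose p.2 : ℕ) : ℝ)))
      = ((R : ℝ) + 1) * (((R.choose p.1 * R.choose p.2 : ℕ) : ℝ))
        + ((R : ℝ) + 1) * ((((p.1 : ℕ) : ℝ) - (p.2 : ℝ))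
            * (((R.choose p.1 : ℕ) : ℝ) * ((R.choose p.2 : ℕ) : ℝ))) := by
    intro p _
    simp only [hc, Nat.add_eq_zero_iff, one_ne_zero, and_false, if_false, Nat.add_sub_cancel]
    push_cast
    ring
  have h3 : ∑ p ∈ antidiagonal n, ((R : ℝ) + 1) * ((((p.1 : ℕ) : ℝ) - (p.2 : ℝ))
            * (((R.choose p.1 : ℕ) : ℝ) * ((R.choose p.2 : ℕ) : ℝ))) = 0 := by
    have hs2 := Finset.Nat.sum_antidiagonal_swap (n := n)
      (f := fun p : ℕ × ℕ => ((R : ℝ) + 1) * ((((p.1 : ℕ) : ℝ) - (p.2 : ℝ))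
            * (((R.choose p.1 : ℕ) : ℝ) * ((R.choose p.2 : ℕ) : ℝ))))
    have hneg : ∑ p ∈ antidiagonal n, ((R : ℝ) + 1) * (((((p.swap).1 : ℕ) : ℝ) - ((p.swap).2 : ℝ))
            * (((R.choose (p.swap).1 : ℕ) : ℝ) * ((R.choose (p.swap).2 : ℕ) : ℝ)))
        = - ∑ p ∈ antidiagonal n, ((R : ℝ) + 1) * ((((p.1 : ℕ) : ℝ) - (p.2 : ℝ))
            * (((R.choose p.1 : ℕ) : ℝ) * ((R.choose p.2 : ℕ) : ℝ))) := by
      rw [← Finset.sum_neg_distrib]
      refine Finset.sum_congr rfl fun p _ => ?_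
      simp only [Prod.fst_swap, Prod.snd_swap]; ring
    rw [hneg] at hs2
    linarith
  have h4 : ∑ p ∈ antidiagonal n, ((R : ℝ) + 1) * (((R.choose p.1 * R.choose p.2 : ℕ) : ℝ))
      = ((R : ℝ) + 1) * (((2 * R).choose n : ℕ) : ℝ) := by
    rw [← Finset.mul_sum, ← Nat.cast_sum, ← Nat.add_choose_eq, two_mul]
  simp only [Nat.cast_zero] at *
  rw [Finset.sum_congr rfl h2, Finset.sum_add_distrib, h3, h4]
  have h5 : 2 * (R + 1) - 2 = 2 * R := by omega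
  rw [h5]
  simp only [hc, if_true]
  push_cast
  ring

/-- the norm identity as a double sum over `Fin (Q+1)` -/
theorem ProjId_norm (Q n : ℕ) (hQ : 1 ≤ Q) :
    ∑ x : Fin (Q + 1), ∑ y : Fin (Q + 1), (if (x : ℕ) + (y : ℕ) = n + 1 then
      (((x : ℕ) : ℝ) - ((y : ℕ) : ℝ)) ^ 2 * ((Q.choose x : ℕ) : ℝ) * ((Q.choose y : ℕ) : ℝ) else 0)
      = 2 * (Q : ℝ) * (((2 * Q - 2).choose n : ℕ) : ℝ) := by
  rw [← ProjId_norm_aux Q n hQ]
  have h1 : ∀ x : ℕ, ∑ y : Fin (Q + 1), (if x + (y : ℕ) = n + 1 then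
      ((x : ℝ) - ((y : ℕ) : ℝ)) ^ 2 * ((Q.choose x : ℕ) : ℝ) * ((Q.choose y : ℕ) : ℝ) else 0)
      = ∑ y ∈ range (Q + 1), (if x + y = n + 1 then
      ((x : ℝ) - (y : ℝ)) ^ 2 * ((Q.choose x : ℕ) : ℝ) * ((Q.choose y : ℕ) : ℝ) else 0) := by
    intro x
    exact Fin.sum_univ_eq_sum_range (fun y => (if x + y = n + 1 then
      ((x : ℝ) - (y : ℝ)) ^ 2 * ((Q.choose x : ℕ) : ℝ) * ((Q.choose y : ℕ) : ℝ) else 0)) (Q + 1)
  simp only [h1]
  rw [Fin.sum_univ_eq_sum_range (fun x => ∑ y ∈ range (Q + 1), (if x + y = n + 1 then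
      ((x : ℝ) - (y : ℝ)) ^ 2 * ((Q.choose x : ℕ) : ℝ) * ((Q.choose y : ℕ) : ℝ) else 0)) (Q + 1)]
  rw [← Finset.sum_product', ← Finset.sum_filter]
  apply Finset.sum_subset
  · intro p hp
    rw [Finset.mem_filter] at hp
    rw [HasAntidiagonal.mem_antidiagonal]
    exact hp.2
  · intro p hp hp2
    rw [HasAntidiagonal.mem_antidiagonal] at hp
    rw [Finset.mem_filter, not_and] at hp2
    have h2 : ¬ (p.1 ≤ Q ∧ p.2 ≤ Q) := by
      intro h3
      apply hp2 _ hp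
      rw [Finset.mem_product, Finset.mem_range, Finset.mem_range]
      omega
    by_cases h4 : p.1 ≤ Q
    · have h5 : Q < p.2 := by
        by_contra h6
        exact h2 ⟨h4, by omega⟩
      rw [Nat.choose_eq_zero_of_lt h5]; simp
    · rw [Nat.choose_eq_zero_of_lt (show Q < p.1 by omega)]; simp

theorem ProjId_s_sq (Q a : ℕ) : ProjId_s Q a * ProjId_s Q a = ((Q.choose a : ℕ) : ℂ) := by
  unfold ProjId_s
  rw [← Complex.ofReal_mul, Real.mul_self_sqrt (by positivity)]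
  simp

theorem ProjId_s_conj (Q a : ℕ) : (starRingEnd ℂ) (ProjId_s Q a) = ProjId_s Q a := by
  unfold ProjId_s
  exact Complex.conj_ofReal _

theorem projEntry_eq (Q : ℕ) (hQ : 1 ≤ Q) (x y a b : Fin (Q + 1)) :
    projEntry Q (x, y) (a, b) =
      if (x : ℕ) + (y : ℕ) = (a : ℕ) + (b : ℕ) then
        (((x : ℕ) : ℂ) - ((y : ℕ) : ℂ)) * (((a : ℕ) : ℂ) - ((b : ℕ) : ℂ)) *
          ((Real.sqrt (Q.choose x) * Real.sqrt (Q.choose y) * Real.sqrt (Q.choose a)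
            * Real.sqrt (Q.choose b) : ℝ) : ℂ)
          / (2 * (Q : ℂ) * ((2 * Q - 2).choose ((a : ℕ) + (b : ℕ) - 1) : ℂ))
      else 0 := by
  set n := (a : ℕ) + (b : ℕ) with hn
  set D : ℂ := 2 * (Q : ℂ) * ((2 * Q - 2).choose (n - 1) : ℂ) with hD
  set K : ℂ := (((a : ℕ) : ℂ) - ((b : ℕ) : ℂ)) * (ProjId_s Q a * ProjId_s Q b) / D with hK
  set w : EuclideanSpace ℂ (Fin (Q + 1) × Fin (Q + 1)) :=
    WithLp.toLp 2 (ProjId_vec Q (fun x y => if x + y = n then K * ((x : ℂ) - (y : ℂ)) else 0)) with hw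
  have hwmem : w ∈ spinComponent Q := by
    rw [ProjId_mem]
    intro p
    obtain ⟨x, y⟩ := p
    have h1 : w.ofLp = ProjId_vec Q (fun x y => if x + y = n then K * ((x : ℂ) - (y : ℂ)) else 0) := rfl
    rw [h1, ProjId_casimir_sub]
    have h2 := ProjId_sol Q K x y
    have h3 : (((x : ℕ) : ℂ) * ((Q : ℂ) - (y : ℕ)) *
        ((if (x : ℕ) - 1 + ((y : ℕ) + 1) = n then K * ((((x : ℕ) - 1 : ℕ) : ℂ) - (((y : ℕ) + 1 : ℕ) : ℂ)) else 0)
          - (if (x : ℕ) + (y : ℕ) = n then K * (((x : ℕ) : ℂ) - ((y : ℕ) : ℂ)) else 0))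
        + ((y : ℕ) : ℂ) * ((Q : ℂ) - (x : ℕ)) *
        ((if (x : ℕ) + 1 + ((y : ℕ) - 1) = n then K * ((((x : ℕ) + 1 : ℕ) : ℂ) - (((y : ℕ) - 1 : ℕ) : ℂ)) else 0)
          - (if (x : ℕ) + (y : ℕ) = n then K * (((x : ℕ) : ℂ) - ((y : ℕ) : ℂ)) else 0))
        + 2 * (Q : ℂ) * (if (x : ℕ) + (y : ℕ) = n then K * (((x : ℕ) : ℂ) - ((y : ℕ) : ℂ)) else 0)) = 0 := by
      by_cases hxy : (x : ℕ) + (y : ℕ) = n
      · have e1 : ((x : ℕ) : ℂ) * ((Q : ℂ) - (y : ℕ)) *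
            ((if (x : ℕ) - 1 + ((y : ℕ) + 1) = n then K * ((((x : ℕ) - 1 : ℕ) : ℂ) - (((y : ℕ) + 1 : ℕ) : ℂ)) else 0)
              - K * (((x : ℕ) : ℂ) - ((y : ℕ) : ℂ)))
            = ((x : ℕ) : ℂ) * ((Q : ℂ) - (y : ℕ)) *
            (K * ((((x : ℕ) - 1 : ℕ) : ℂ) - (((y : ℕ) + 1 : ℕ) : ℂ)) - K * (((x : ℕ) : ℂ) - ((y : ℕ) : ℂ))) := by
          rcases Nat.eq_zero_or_pos (x : ℕ) with h | h
          · rw [h]; simp
          · rw [if_pos (by omega)]
        have e2 : ((y : ℕ) : ℂ) * ((Q : ℂ) - (x : ℕ)) *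
            ((if (x : ℕ) + 1 + ((y : ℕ) - 1) = n then K * ((((x : ℕ) + 1 : ℕ) : ℂ) - (((y : ℕ) - 1 : ℕ) : ℂ)) else 0)
              - K * (((x : ℕ) : ℂ) - ((y : ℕ) : ℂ)))
            = ((y : ℕ) : ℂ) * ((Q : ℂ) - (x : ℕ)) *
            (K * ((((x : ℕ) + 1 : ℕ) : ℂ) - (((y : ℕ) - 1 : ℕ) : ℂ)) - K * (((x : ℕ) : ℂ) - ((y : ℕ) : ℂ))) := by
          rcases Nat.eq_zero_or_pos (y : ℕ) with h | h
          · rw [h]; simp
          · rw [if_pos (by omega)]
        simp only [if_pos hxy]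
        rw [e1, e2]
        exact h2
      · have e1 : ((x : ℕ) : ℂ) * ((Q : ℂ) - (y : ℕ)) *
            ((if (x : ℕ) - 1 + ((y : ℕ) + 1) = n then K * ((((x : ℕ) - 1 : ℕ) : ℂ) - (((y : ℕ) + 1 : ℕ) : ℂ)) else 0)
              - 0) = 0 := by
          rcases Nat.eq_zero_or_pos (x : ℕ) with h | h
          · rw [h]; simp
          · rw [if_neg (by omega)]; simp
        have e2 : ((y : ℕ) : ℂ) * ((Q : ℂ) - (x : ℕ)) *
            ((if (x : ℕ) + 1 + ((y : ℕ) - 1) = n then K * ((((x : ℕ) + 1 : ℕ) : ℂ) - (((y : ℕ) - 1 : ℕ) : ℂ)) else 0)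
              - 0) = 0 := by
          rcases Nat.eq_zero_or_pos (y : ℕ) with h | h
          · rw [h]; simp
          · rw [if_neg (by omega)]; simp
        simp only [if_neg hxy]
        rw [e1, e2]; simp
    simp only [h3, mul_zero]
  have hproj : (spinComponent Q).starProjection
      (EuclideanSpace.single ((a, b) : Fin (Q + 1) × Fin (Q + 1)) (1 : ℂ)) = w := by
    refine Submodule.eq_starProjection_of_mem_orthogonal hwmem ?_
    rw [Submodule.mem_orthogonal]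
    intro u hu
    obtain ⟨c, hc⟩ := ProjId_mem_shape Q hQ u hu n
    rw [inner_sub_right, EuclideanSpace.inner_single_right, one_mul, PiLp.inner_apply,
      Fintype.sum_prod_type]
    have hu1 : u.ofLp (a, b) = ProjId_s Q a * ProjId_s Q b * (c * (((a : ℕ) : ℂ) - (b : ℕ))) :=
      hc a b rfl
    have hterm : ∀ x y : Fin (Q + 1), inner ℂ (u.ofLp (x, y)) (w.ofLp (x, y))
        = ((starRingEnd ℂ) c * K) * (((if (x : ℕ) + (y : ℕ) = n then
      (((x : ℕ) : ℝ) - ((y : ℕ) : ℝ)) ^ 2 * ((Q.choose x : ℕ) : ℝ) * ((Q.choose y : ℕ) : ℝ)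
        else 0 : ℝ)) : ℂ) := by
      intro x y
      have h1 : w.ofLp (x, y) = ProjId_s Q x * (ProjId_s Q y *
          (if (x : ℕ) + (y : ℕ) = n then K * (((x : ℕ) : ℂ) - ((y : ℕ) : ℂ)) else 0)) := rfl
      rw [h1]
      by_cases hxy : (x : ℕ) + (y : ℕ) = n
      · rw [if_pos hxy, if_pos hxy, hc x y hxy]
        simp only [RCLike.inner_apply, map_mul, map_sub, ProjId_s_conj, Complex.conj_natCast]
        push_cast
        rw [← ProjId_s_sq Q x, ← ProjId_s_sq Q y]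
        ring
      · rw [if_neg hxy, if_neg hxy]
        simp
    simp only [hterm]
    simp only [← Finset.mul_sum]
    by_cases hab : (a : ℕ) = (b : ℕ)
    · have hK0 : K = 0 := by rw [hK, hab]; simp
      rw [hu1, hK0, hab]; simp
    · have hn1 : 1 ≤ n := by omega
      have hn2 : n - 1 ≤ 2 * Q - 2 := by omega
      have hDne : D ≠ 0 := by
        have h1 : (2 * Q - 2).choose (n - 1) ≠ 0 := (Nat.choose_pos hn2).ne'
        have h2 : Q ≠ 0 := by omega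
        rw [hD]
        have h3 : (Q : ℂ) ≠ 0 := by exact_mod_cast h2
        have h4 : (((2 * Q - 2).choose (n - 1) : ℕ) : ℂ) ≠ 0 := by exact_mod_cast h1
        exact mul_ne_zero (mul_ne_zero two_ne_zero h3) h4
      have hN := ProjId_norm Q (n - 1) hQ
      have hn3 : n - 1 + 1 = n := by omega
      rw [hn3] at hN
      have hN2 : (∑ x : Fin (Q + 1), ∑ y : Fin (Q + 1), (((if (x : ℕ) + (y : ℕ) = n then
      (((x : ℕ) : ℝ) - ((y : ℕ) : ℝ)) ^ 2 * ((Q.choose x : ℕ) : ℝ) * ((Q.choose y : ℕ) : ℝ)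
        else 0 : ℝ)) : ℂ)) = D := by
        rw [hD]
        have h5 := congrArg (fun r : ℝ => (r : ℂ)) hN
        simp only [Complex.ofReal_sum] at h5
        rw [h5]
        push_cast
        ring
      rw [hN2, hu1, hK]
      simp only [map_mul, map_sub, ProjId_s_conj, Complex.conj_natCast]
      field_simp
      ring
  unfold projEntry
  rw [hproj]
  have h1 : w.ofLp (x, y) = ProjId_s Q x * (ProjId_s Q y *
      (if (x : ℕ) + (y : ℕ) = n then K * (((x : ℕ) : ℂ) - ((y : ℕ) : ℂ)) else 0)) := rfl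
  rw [h1]
  by_cases hxy : (x : ℕ) + (y : ℕ) = n
  · rw [if_pos hxy, if_pos hxy, hK]
    simp only [ProjId_s]
    push_cast
    ring
  · rw [if_neg hxy, if_neg hxy]; simp

end Vale.Agent.P359
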