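import Vale.Agent.P359.Stmt

/-!
# Energy levels of the spherical Laughlin Hamiltonian, counted with multiplicity
-/

namespace LaughlinGap

/-- The fermionic eigenvectors of `H_{N,Q}` with real eigenvalue `μ`, together with `0`. -/
noncomputable def fermionicEigenspace (Q N : ℕ) (μ : ℝ) :
    Submodule ℂ (EuclideanSpace ℂ (Fin N → Fin (Q + 1))) where
  carrier := {ψ | IsFermionic ψ ∧ hamiltonian Q N ψ = (μ : ℂ) • ψ}
  add_mem' := by
    intro ψ φ hψ hφ
    refine ⟨fun σ x => ?_, ?_⟩
    · rw [PiLp.add_apply, PiLp.add_apply, hψ.1 σ x, hφ.1 σ x, mul_add]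
    · rw [map_add, hψ.2, hφ.2, smul_add]
  zero_mem' := by
    refine ⟨fun σ x => ?_, ?_⟩
    · simp
    · simp
  smul_mem' := by
    intro c ψ hψ
    refine ⟨fun σ x => ?_, ?_⟩
    · rw [PiLp.smul_apply, PiLp.smul_apply, hψ.1 σ x, smul_eq_mul, smul_eq_mul, mul_left_comm]
    · rw [map_smul, hψ.2, smul_comm]

/-- The `k`-th lowest eigenvalue (`k = 0, 1, 2, ...`), counted with multiplicity, of `H_{N,Q}` on the
fermionic space: the least `E` such that the fermionic eigenvectors with eigenvalue at most `E` span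
a space of dimension at least `k + 1`. -/
noncomputable def energy (Q N k : ℕ) : ℝ :=
  sInf {E : ℝ | k + 1 ≤ Module.finrank ℂ
    (⨆ μ : Set.Iic E, fermionicEigenspace Q N (μ : ℝ) :
      Submodule ℂ (EuclideanSpace ℂ (Fin N → Fin (Q + 1))))}

/-- The spectral gap `Δ_N = E_1(N) - E_0(N)` at the Laughlin flux `Q = 3 (N - 1)`. -/
noncomputable def spectralGap (N : ℕ) : ℝ :=
  energy (3 * (N - 1)) N 1 - energy (3 * (N - 1)) N 0

end LaughlinGap
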