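import Mathlib

/-!
# The spherical Laughlin Hamiltonian in coordinates

`U_Q` is the spin `Q/2` representation of `SU(2)`, with orthonormal basis
`e_a = sqrt (binom Q a) u^(Q-a) v^a`, `a = 0, ..., Q`.  In this basis the raising operator is
`S⁺ e_(a+1) = sqrt ((a+1) (Q-a)) e_a`, the lowering operator is its adjoint and
`S^z e_a = (Q/2 - a) e_a`.  A vector of the `N`-fold tensor power of `U_Q` is a function of
`x : Fin N → Fin (Q + 1)`, its coordinate at the basis vector `e_(x 0) ⊗ ... ⊗ e_(x (N-1))`.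
-/

namespace LaughlinSphere

/-- One-particle raising operator `S⁺ = u ∂_v` on `U_Q`. -/
noncomputable def spinPlus (Q : ℕ) : Matrix (Fin (Q + 1)) (Fin (Q + 1)) ℂ :=
  fun a b => if (b : ℕ) = (a : ℕ) + 1 then
    ((Real.sqrt (((a : ℕ) + 1 : ℝ) * ((Q : ℝ) - (a : ℕ))) : ℝ) : ℂ) else 0

/-- One-particle lowering operator `S⁻ = v ∂_u` on `U_Q`, the adjoint of `S⁺`. -/
noncomputable def spinMinus (Q : ℕ) : Matrix (Fin (Q + 1)) (Fin (Q + 1)) ℂ :=
  (spinPlus Q).conjTranspose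

/-- One-particle `S^z` on `U_Q`. -/
noncomputable def spinZ (Q : ℕ) : Matrix (Fin (Q + 1)) (Fin (Q + 1)) ℂ :=
  Matrix.diagonal (fun a => (Q : ℂ) / 2 - ((a : ℕ) : ℂ))

/-- The operator `M ⊗ 1 + 1 ⊗ M` on `U_Q ⊗ U_Q`. -/
noncomputable def pairOp {Q : ℕ} (M : Matrix (Fin (Q + 1)) (Fin (Q + 1)) ℂ) :
    Matrix (Fin (Q + 1) × Fin (Q + 1)) (Fin (Q + 1) × Fin (Q + 1)) ℂ :=
  Matrix.kroneckerMap (fun x y => x * y) M 1 + Matrix.kroneckerMap (fun x y => x * y) 1 M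

/-- The square of the total spin on `U_Q ⊗ U_Q`: `S⁻ S⁺ + S^z (S^z + 1)`. -/
noncomputable def casimir (Q : ℕ) :
    Matrix (Fin (Q + 1) × Fin (Q + 1)) (Fin (Q + 1) × Fin (Q + 1)) ℂ :=
  pairOp (spinMinus Q) * pairOp (spinPlus Q) + pairOp (spinZ Q) * (pairOp (spinZ Q) + 1)

/-- `P` is the orthogonal projection `P^(1)` of `U_Q ⊗ U_Q` onto the component of total spin
`Q - 1`: a Hermitian idempotent whose range (the set of its fixed vectors) is the eigenspace of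
the squared total spin with eigenvalue `(Q - 1) Q`. -/
def IsPairProjection (Q : ℕ)
    (P : Matrix (Fin (Q + 1) × Fin (Q + 1)) (Fin (Q + 1) × Fin (Q + 1)) ℂ) : Prop :=
  P.conjTranspose = P ∧ P * P = P ∧
    ∀ v : Fin (Q + 1) × Fin (Q + 1) → ℂ,
      P.mulVec v = v ↔ (casimir Q).mulVec v = fun ab => ((Q : ℂ) - 1) * (Q : ℂ) * v ab

/-- The matrix of `P` acting on the tensor factors `i, j` of the `N`-fold tensor power of `U_Q`
and as the identity on the other factors. -/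
noncomputable def pairMatrix {Q : ℕ}
    (P : Matrix (Fin (Q + 1) × Fin (Q + 1)) (Fin (Q + 1) × Fin (Q + 1)) ℂ) (N : ℕ) (i j : Fin N) :
    Matrix (Fin N → Fin (Q + 1)) (Fin N → Fin (Q + 1)) ℂ :=
  fun x y => if (∀ k, k ≠ i → k ≠ j → x k = y k) then P (x i, x j) (y i, y j) else 0

/-- `∑_{i<j} P_{ij}` on the `N`-fold tensor power of `U_Q`. -/
noncomputable def hamMatrix {Q : ℕ}
    (P : Matrix (Fin (Q + 1) × Fin (Q + 1)) (Fin (Q + 1) × Fin (Q + 1)) ℂ) (N : ℕ) :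
    Matrix (Fin N → Fin (Q + 1)) (Fin N → Fin (Q + 1)) ℂ :=
  ∑ i : Fin N, ∑ j ∈ Finset.Ioi i, pairMatrix P N i j

/-- Membership in the `N`-fold exterior power of `U_Q`: antisymmetry under permutations of the
tensor factors. -/
def Fermionic {Q N : ℕ} (ψ : (Fin N → Fin (Q + 1)) → ℂ) : Prop :=
  ∀ (σ : Equiv.Perm (Fin N)) (x : Fin N → Fin (Q + 1)),
    ψ (x ∘ σ) = ((Equiv.Perm.sign σ : ℤ) : ℂ) * ψ x

/-- The inner product `⟨φ, ψ⟩` of the `N`-fold tensor power of `U_Q`. -/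
noncomputable def overlap {Q N : ℕ} (φ ψ : (Fin N → Fin (Q + 1)) → ℂ) : ℂ :=
  ∑ x, star (φ x) * ψ x

/-- The polynomial in the spinor variables `u_i = X (inl i)`, `v_i = X (inr i)` represented by a
vector: the basis vector `e_a` is the polynomial `sqrt (binom Q a) u^(Q-a) v^a`. -/
noncomputable def polynomialOf {Q N : ℕ} (ψ : (Fin N → Fin (Q + 1)) → ℂ) :
    MvPolynomial (Fin N ⊕ Fin N) ℂ :=
  ∑ x : Fin N → Fin (Q + 1), MvPolynomial.C (ψ x) *
    ∏ i : Fin N, (MvPolynomial.C ((Real.sqrt (Q.choose (x i : ℕ)) : ℝ) : ℂ)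
      * MvPolynomial.X (Sum.inl i) ^ (Q - (x i : ℕ)) * MvPolynomial.X (Sum.inr i) ^ (x i : ℕ))

/-- The Laughlin polynomial `∏_{i<j} (u_i v_j - u_j v_i)^3`. -/
noncomputable def laughlinPolynomial (N : ℕ) : MvPolynomial (Fin N ⊕ Fin N) ℂ :=
  ∏ i : Fin N, ∏ j ∈ Finset.Ioi i,
    (MvPolynomial.X (Sum.inl i) * MvPolynomial.X (Sum.inr j)
      - MvPolynomial.X (Sum.inl j) * MvPolynomial.X (Sum.inr i)) ^ 3

end LaughlinSphere
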